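import Vale.Agent.P347.Base

/-! P347 part Gau: Gaussian and Bayes identities for the laws `NN`. -/

open MeasureTheory ProbabilityTheory
open scoped ENNReal RealInnerProductSpace

namespace Vale.Agent.P347

namespace GauAux
open Set Filter Topology Real

section
variable {E : Type} [NormedAddCommGroup E] [InnerProductSpace ℝ E] [FiniteDimensional ℝ E]
  [MeasurableSpace E] [BorelSpace E]

lemma exists_density (E : Type) [NormedAddCommGroup E] [InnerProductSpace ℝ E]
    [FiniteDimensional ℝ E] [MeasurableSpace E] [BorelSpace E] : ∃ K : ℝ, 0 < K ∧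
    stdGaussian E = volume.withDensity fun x => ENNReal.ofReal (K * Real.exp (-‖x‖ ^ 2 / 2)) := by
  set K0 : ℝ := (π / (1 / 2)) ^ (Module.finrank ℝ E / 2 : ℝ) with hK0
  have hK : 0 < K0 := by positivity
  have hb : 0 < ((1 / 2 : ℝ) : ℂ).re := by simp
  have hint : Integrable (fun x : E => K0⁻¹ * Real.exp (-‖x‖ ^ 2 / 2)) := by
    have := (GaussianFourier.integrable_cexp_neg_mul_sq_norm_add hb 0 (0 : E)).norm
    refine (this.congr (Eventually.of_forall fun x => ?_)).const_mul _
    simp only [Complex.norm_exp]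
    congr 1
    simp [← Complex.ofReal_pow]; ring
  refine ⟨K0⁻¹, by positivity, ?_⟩
  have : IsFiniteMeasure
      (volume.withDensity fun x : E => ENNReal.ofReal (K0⁻¹ * Real.exp (-‖x‖ ^ 2 / 2))) :=
    isFiniteMeasure_withDensity_ofReal hint.2
  apply Measure.ext_of_charFun
  ext t
  rw [charFun_stdGaussian, charFun_apply, integral_withDensity_eq_integral_toReal_smul
    (by fun_prop) (by simp)]
  have h1 := GaussianFourier.integral_cexp_neg_mul_sq_norm_add hb Complex.I t
  have h2 : ((π : ℂ) / ((1 / 2 : ℝ) : ℂ)) ^ (Module.finrank ℝ E / 2 : ℂ) = (K0 : ℂ) := by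
    rw [hK0, Complex.ofReal_cpow (by positivity)]; push_cast; rfl
  rw [h2] at h1
  have h3 : ∀ x : E, (ENNReal.ofReal (K0⁻¹ * Real.exp (-‖x‖ ^ 2 / 2))).toReal •
      Complex.exp (⟪x, t⟫ * Complex.I) = (K0⁻¹ : ℂ) *
        Complex.exp (-((1 / 2 : ℝ) : ℂ) * ‖x‖ ^ 2 + Complex.I * ⟪t, x⟫) := by
    intro x
    rw [ENNReal.toReal_ofReal (by positivity), Complex.exp_add, real_inner_comm t x]
    simp only [Complex.real_smul]
    push_cast
    rw [mul_assoc]
    congr 3 <;> ring
  simp_rw [h3]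
  rw [integral_const_mul, h1, ← mul_assoc, inv_mul_cancel₀ (by exact_mod_cast hK.ne'), one_mul]
  congr 1
  rw [Complex.I_sq]; push_cast; ring

lemma integrable_inner (v : E) : Integrable (fun x => ⟪v, x⟫) (stdGaussian E) :=
  (IsGaussian.integrable_id (μ := stdGaussian E)).const_inner v

lemma integral_inner_std (v : E) : ∫ x, ⟪v, x⟫ ∂stdGaussian E = 0 := by
  rw [integral_inner IsGaussian.integrable_fun_id, integral_id_stdGaussian, inner_zero_right]

lemma ofReal_integral_le {X : Type} [MeasurableSpace X] {μ : Measure X} {g : X → ℝ}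
    (hg : Integrable g μ) : ENNReal.ofReal (∫ x, g x ∂μ) ≤ ∫⁻ x, ENNReal.ofReal (g x) ∂μ := by
  have h1 : ∫ x, g x ∂μ ≤ ∫ x, max (g x) 0 ∂μ :=
    integral_mono hg hg.pos_part fun x => le_max_left _ _
  refine (ENNReal.ofReal_le_ofReal h1).trans ?_
  rw [ofReal_integral_eq_lintegral_ofReal hg.pos_part
    (Eventually.of_forall fun x => le_max_right _ _)]
  simp

/-- Cameron-Martin lower bound. -/
lemma shift_ge {A : Set E} (hA : MeasurableSet A) (w : E) :
    Real.exp (-‖w‖ ^ 2 / 2) * ((stdGaussian E).real A + ∫ x in A, ⟪w, x⟫ ∂stdGaussian E) ≤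
      (stdGaussian E).real {x | x + w ∈ A} := by
  obtain ⟨K, hK, hd⟩ := exists_density E
  have m1 : MeasurableSet {x | x + w ∈ A} := hA.preimage (measurable_add_const w)
  have h1 : stdGaussian E {x | x + w ∈ A} =
      ∫⁻ x in A, ENNReal.ofReal (Real.exp (⟪w, x⟫ - ‖w‖ ^ 2 / 2)) ∂stdGaussian E := by
    rw [hd, withDensity_apply _ m1, setLIntegral_withDensity_eq_setLIntegral_mul _ (by fun_prop)
      (by fun_prop) hA, ← lintegral_indicator m1, ← lintegral_indicator hA,
      ← lintegral_add_right_eq_self _ (-w)]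
    refine lintegral_congr fun x => ?_
    by_cases hx : x ∈ A
    · rw [indicator_of_mem hx, indicator_of_mem (by simpa using hx), Pi.mul_apply,
        ← ENNReal.ofReal_mul (by positivity), mul_assoc, ← Real.exp_add]
      congr 3
      rw [← sub_eq_add_neg, norm_sub_sq_real, real_inner_comm]; ring
    · rw [indicator_of_notMem hx, indicator_of_notMem (by simpa using hx)]
  have hi : Integrable (fun x => Real.exp (-‖w‖ ^ 2 / 2) * (1 + ⟪w, x⟫))
      ((stdGaussian E).restrict A) :=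
    ((integrable_const _).add (integrable_inner w).restrict).const_mul _
  have h2 := ofReal_integral_le hi
  rw [integral_const_mul, integral_add (integrable_const _) (integrable_inner w).restrict] at h2
  simp only [integral_const, smul_eq_mul, mul_one, measureReal_restrict_apply_univ] at h2
  refine (ENNReal.ofReal_le_iff_le_toReal (measure_ne_top _ _)).1 (h2.trans ?_)
  rw [h1]
  refine lintegral_mono fun x => ENNReal.ofReal_le_ofReal ?_
  rw [show ⟪w, x⟫ - ‖w‖ ^ 2 / 2 = -‖w‖ ^ 2 / 2 + ⟪w, x⟫ by ring, Real.exp_add]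
  exact mul_le_mul_of_nonneg_left (by linarith [Real.add_one_le_exp ⟪w, x⟫]) (Real.exp_pos _).le

lemma integral_inner_sq (v : E) : ∫ x, ⟪v, x⟫ ^ 2 ∂stdGaussian E = ‖v‖ ^ 2 := by
  have h := variance_dual_stdGaussian (innerSL ℝ v)
  rw [variance_of_integral_eq_zero (X := innerSL ℝ v) (by fun_prop) (integral_inner_std v),
    innerSL_apply_norm] at h
  exact h

lemma integrable_inner_sq (v : E) : Integrable (fun x => ⟪v, x⟫ ^ 2) (stdGaussian E) :=
  ((IsGaussian.memLp_id (stdGaussian E) 2 (by simp)).const_inner v).integrable_sq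

lemma integral_abs_inner (v : E) : ∫ x, |⟪v, x⟫| ∂stdGaussian E ≤ ‖v‖ := by
  rcases eq_or_ne v 0 with rfl | hv
  · simp
  have h0 : 0 < ‖v‖ := norm_pos_iff.2 hv
  have h1 : ∫ x, |⟪v, x⟫| ∂stdGaussian E ≤ ∫ x, (⟪v, x⟫ ^ 2 / ‖v‖ + ‖v‖) / 2 ∂stdGaussian E := by
    refine integral_mono (integrable_inner v).abs
      ((((integrable_inner_sq v).div_const _).add (integrable_const _)).div_const _) fun x => ?_
    simp only
    rw [div_add' _ _ _ h0.ne', div_div, le_div_iff₀ (by positivity), ← sq_abs]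
    nlinarith [sq_nonneg (|⟪v, x⟫| - ‖v‖)]
  rw [integral_div, integral_add ((integrable_inner_sq v).div_const _) (integrable_const _),
    integral_div, integral_inner_sq] at h1
  simp only [integral_const, probReal_univ, smul_eq_mul, one_mul] at h1
  rw [sq, mul_div_assoc, div_self h0.ne'] at h1
  linarith

lemma charFun_lin (μ ν : Measure E) [IsProbabilityMeasure μ] [IsProbabilityMeasure ν] (a b : ℝ)
    (t : E) : charFun ((μ.prod ν).map fun p => a • p.1 + b • p.2) t =
      charFun μ (a • t) * charFun ν (b • t) := by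
  rw [charFun_apply, integral_map (Measurable.aemeasurable (by fun_prop)) (by fun_prop),
    charFun_apply, charFun_apply, ← integral_prod_mul]
  refine integral_congr_ae (Eventually.of_forall fun p => ?_)
  simp only [inner_add_left, inner_smul_left, inner_smul_right, conj_trivial, ← Complex.exp_add]
  push_cast
  ring_nf

lemma charFun_comb {b b' b'' : ℝ} (h : b'' ^ 2 = b ^ 2 + b' ^ 2) (t : E) :
    charFun (stdGaussian E) (b • t) * charFun (stdGaussian E) (b' • t) =
      charFun (stdGaussian E) (b'' • t) := by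
  simp only [charFun_stdGaussian, ← Complex.exp_add, norm_smul, Real.norm_eq_abs,
    ← Complex.ofReal_pow, mul_pow, sq_abs, h]
  push_cast
  ring_nf

lemma map_comb {b b' b'' : ℝ} (h : b'' ^ 2 = b ^ 2 + b' ^ 2) :
    ((stdGaussian E).prod (stdGaussian E)).map (fun p => b • p.1 + b' • p.2) =
      (stdGaussian E).map fun x => b'' • x := by
  have : IsProbabilityMeasure (((stdGaussian E).prod (stdGaussian E)).map
      fun p => b • p.1 + b' • p.2) :=
    Measure.isProbabilityMeasure_map (Measurable.aemeasurable (by fun_prop))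
  apply Measure.ext_of_charFun
  ext t
  rw [charFun_lin, charFun_comb h, charFun_map_smul]

end

variable {d : ℕ}

lemma charFun_NN (V : Pt d) {t : ℝ} (ht : 1 / 2 < t) (θ : E d) (b : ℝ) (s : E d) :
    charFun (NN V t θ b) s = charFun (pm V t θ) (b • s) * charFun (gam d) s := by
  have := pm_prob V ht θ
  simpa [NN] using charFun_lin (pm V t θ) (gam d) b 1 s

lemma lint_NN (V : Pt d) {t : ℝ} (θ : E d) (b : ℝ) {f : E d → ℝ≥0∞} (hf : Measurable f) :
    ∫⁻ z, f z ∂(NN V t θ b) = ∫⁻ x, ∫⁻ ξ, f (b • x + ξ) ∂(gam d) ∂(pm V t θ) := by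
  rw [NN, lintegral_map hf (by fun_prop), lintegral_prod]
  exact (hf.comp (by fun_prop)).aemeasurable

lemma bayes (V : Pt d) {t : ℝ} (ht : 1 / 2 < t) (θ : E d) (b : ℝ) {K : ℝ} (hK : 0 < K)
    (hg : gam d = volume.withDensity fun x => ENNReal.ofReal (K * Real.exp (-‖x‖ ^ 2 / 2)))
    {G : E d × E d → ℝ≥0∞} (hG : Measurable G) :
    ∫⁻ x, ∫⁻ ξ, G (x, b • x + ξ) ∂(gam d) ∂(pm V t θ) =
      ∫⁻ z, ENNReal.ofReal (K * Real.exp (-‖z‖ ^ 2 / 2) * Zc V (t + b ^ 2) (θ + b • z) / Zc V t θ) *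
        ∫⁻ x, G (x, z) ∂(pm V (t + b ^ 2) (θ + b • z)) := by
  have ht' : 1 / 2 < t + b ^ 2 := by nlinarith [sq_nonneg b]
  have hp := dens_meas V t θ
  have hw := (wt_cont V t θ).measurable
  have h1 : ∀ x, ∫⁻ ξ, G (x, b • x + ξ) ∂(gam d) =
      ∫⁻ z, ENNReal.ofReal (K * Real.exp (-‖z - b • x‖ ^ 2 / 2)) * G (x, z) := fun x => by
    rw [hg, lintegral_withDensity_eq_lintegral_mul _ (by fun_prop) (by fun_prop),
      ← lintegral_add_left_eq_self (fun z => ENNReal.ofReal
        (K * Real.exp (-‖z - b • x‖ ^ 2 / 2)) * G (x, z)) (b • x)]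
    simp only [Pi.mul_apply, add_sub_cancel_left]
  simp only [h1]
  rw [pm, lintegral_withDensity_eq_lintegral_mul_non_measurable _ hp (by simp)]
  simp only [Pi.mul_apply]
  simp only [← lintegral_const_mul' _ _ ENNReal.ofReal_ne_top]
  rw [lintegral_lintegral_swap (Measurable.aemeasurable (by unfold Function.uncurry; fun_prop))]
  refine lintegral_congr fun z => ?_
  rw [lintegral_const_mul' _ _ ENNReal.ofReal_ne_top, pm,
    lintegral_withDensity_eq_lintegral_mul _ (dens_meas _ _ _) (by fun_prop),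
    ← lintegral_const_mul' _ _ ENNReal.ofReal_ne_top]
  refine lintegral_congr fun x => ?_
  have z1 := Zc_pos V ht θ
  have z2 := Zc_pos V ht' (θ + b • z)
  rw [Pi.mul_apply, ← mul_assoc, ← mul_assoc, ← ENNReal.ofReal_mul (div_pos (wt_pos _ _ _ _) z1).le,
    ← ENNReal.ofReal_mul (by positivity)]
  congr 2
  have e : wt V t θ x * Real.exp (-‖z - b • x‖ ^ 2 / 2) =
      Real.exp (-‖z‖ ^ 2 / 2) * wt V (t + b ^ 2) (θ + b • z) x := by
    simp only [wt, ← Real.exp_add]
    congr 1
    rw [norm_sub_sq_real, inner_add_left, inner_smul_left, inner_smul_right, norm_smul, mul_pow,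
      Real.norm_eq_abs, sq_abs, conj_trivial]
    ring
  generalize Real.exp (-‖z - b • x‖ ^ 2 / 2) = e1 at e
  generalize Real.exp (-‖z‖ ^ 2 / 2) = e2 at e
  field_simp
  linear_combination e

lemma Zc_cont (V : Pt d) {t : ℝ} (ht : 1 / 2 < t) : Continuous (Zc V t) := by
  refine continuous_iff_continuousAt.2 fun θ => ?_
  obtain ⟨L, h, -⟩ := (PG.const 1).hasFDerivAt_Zf V (p := (t, θ)) ht
  simp only [Zf_one] at h
  exact h.continuousAt.comp (f := fun θ : E d => (t, θ)) (by fun_prop)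

end GauAux

open GauAux

variable {d : ℕ}

theorem gam_density (d : ℕ) : ∃ K : ℝ, 0 < K ∧
    gam d = volume.withDensity fun x => ENNReal.ofReal (K * Real.exp (-‖x‖ ^ 2 / 2)) :=
  exists_density (E d)

theorem NN_prob (V : Pt d) {t : ℝ} (ht : 1 / 2 < t) (θ : E d) (b : ℝ) :
    IsProbabilityMeasure (NN V t θ b) := by
  have := pm_prob V ht θ
  exact Measure.isProbabilityMeasure_map (Measurable.aemeasurable (by fun_prop))

theorem NN_zero (V : Pt d) {t : ℝ} (ht : 1 / 2 < t) (θ : E d) : NN V t θ 0 = gam d := by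
  have := pm_prob V ht θ
  have := NN_prob V ht θ 0
  apply Measure.ext_of_charFun
  ext s
  simp [charFun_NN V ht]

theorem NN_density (V : Pt d) {t : ℝ} (ht : 1 / 2 < t) (θ : E d) (b : ℝ) {K : ℝ} (hK : 0 < K)
    (hg : gam d = volume.withDensity fun x => ENNReal.ofReal (K * Real.exp (-‖x‖ ^ 2 / 2))) :
    NN V t θ b = volume.withDensity fun z => ENNReal.ofReal
      (K * Real.exp (-‖z‖ ^ 2 / 2) * Zc V (t + b ^ 2) (θ + b • z) / Zc V t θ) := by
  have ht' : 1 / 2 < t + b ^ 2 := by nlinarith [sq_nonneg b]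
  ext A hA
  have hm : Measurable (A.indicator (1 : E d → ℝ≥0∞)) := measurable_one.indicator hA
  rw [← lintegral_indicator_one hA, lint_NN V θ b hm,
    bayes V ht θ b hK hg (G := fun p => A.indicator 1 p.2) (hm.comp measurable_snd),
    withDensity_apply _ hA, ← lintegral_indicator hA]
  refine lintegral_congr fun z => ?_
  have := pm_prob V ht' (θ + b • z)
  by_cases hz : z ∈ A <;> simp [hz]

theorem gam_neg : MeasurePreserving (fun x : E d => -x) (gam d) (gam d) :=
  ⟨measurable_neg, stdGaussian_map (LinearIsometryEquiv.neg ℝ)⟩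

theorem gam_rot {r r' : ℝ} (h : r ^ 2 + r' ^ 2 = 1) :
    MeasurePreserving (fun p : E d × E d => r • p.1 + r' • p.2) ((gam d).prod (gam d)) (gam d) :=
  ⟨by fun_prop, by rw [map_comb (b'' := 1) (by rw [h, one_pow])]; simp⟩

theorem NN_rot (V : Pt d) {t : ℝ} (ht : 1 / 2 < t) (θ : E d) (b : ℝ) {r r' : ℝ}
    (h : r ^ 2 + r' ^ 2 = 1) :
    MeasurePreserving (fun p : E d × E d => r • p.1 + r' • p.2) ((NN V t θ b).prod (gam d))
      (NN V t θ (r * b)) := by
  refine ⟨by fun_prop, ?_⟩
  have := NN_prob V ht θ b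
  have := NN_prob V ht θ (r * b)
  have : IsProbabilityMeasure (((NN V t θ b).prod (gam d)).map
      fun p : E d × E d => r • p.1 + r' • p.2) :=
    Measure.isProbabilityMeasure_map (Measurable.aemeasurable (by fun_prop))
  apply Measure.ext_of_charFun
  ext s
  rw [charFun_lin, charFun_NN V ht, charFun_NN V ht, mul_assoc,
    charFun_comb (b'' := 1) (by rw [h, one_pow]), one_smul, smul_smul, mul_comm b]

theorem NN_tower (V : Pt d) {t : ℝ} (ht : 1 / 2 < t) (θ : E d) {b b' b'' : ℝ}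
    (h : b'' ^ 2 = b ^ 2 + b' ^ 2) (f : E d → ℝ≥0∞) (hf : Measurable f) :
    ∫⁻ z, ∫⁻ z', f (θ + b • z + b' • z') ∂(NN V (t + b ^ 2) (θ + b • z) b') ∂(NN V t θ b) =
      ∫⁻ z, f (θ + b'' • z) ∂(NN V t θ b'') := by
  have ht' : 1 / 2 < t + b ^ 2 := by nlinarith [sq_nonneg b]
  obtain ⟨K, hK, hg⟩ := gam_density d
  have hZ := Zc_cont V ht'
  let G : E d × E d → ℝ≥0∞ := fun p => ∫⁻ ξ, f (θ + b • p.2 + b' • (b' • p.1 + ξ)) ∂(gam d)
  have hG : Measurable G := Measurable.lintegral_prod_right' (f := fun q : (E d × E d) × E d =>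
    f (θ + b • q.1.2 + b' • (b' • q.1.1 + q.2))) (by fun_prop)
  have h1 : ∀ z, ∫⁻ z', f (θ + b • z + b' • z') ∂(NN V (t + b ^ 2) (θ + b • z) b') =
      ∫⁻ x, G (x, z) ∂(pm V (t + b ^ 2) (θ + b • z)) := fun z => lint_NN V _ _ (by fun_prop)
  simp only [h1]
  rw [NN_density V ht θ b hK hg,
    lintegral_withDensity_eq_lintegral_mul_non_measurable _ (by fun_prop) (by simp)]
  simp only [Pi.mul_apply]
  rw [← bayes V ht θ b hK hg hG, lint_NN V θ b'' (by fun_prop)]
  refine lintegral_congr fun x => ?_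
  have h2 := lintegral_map (μ := (gam d).prod (gam d)) (g := fun p => b • p.1 + b' • p.2)
    (f := fun y => f (θ + b'' • b'' • x + y)) (by fun_prop) (by fun_prop)
  rw [map_comb h, lintegral_map (by fun_prop) (by fun_prop),
    lintegral_prod _ (Measurable.aemeasurable (by fun_prop))] at h2
  simp only [smul_add, ← add_assoc, h2, G]
  refine lintegral_congr fun ξ => lintegral_congr fun ξ' => ?_
  congr 1
  rw [smul_smul b'', ← sq, h]
  module

theorem gam_sq : ∫⁻ x, ENNReal.ofReal (‖x‖ ^ 2) ∂(gam d) = ENNReal.ofReal d := by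
  have e : ∀ x : E d, ‖x‖ ^ 2 = ∑ i, ⟪EuclideanSpace.single i (1 : ℝ), x⟫ ^ 2 := fun x => by
    simp [EuclideanSpace.real_norm_sq_eq, EuclideanSpace.inner_single_left]
  simp only [e]
  rw [← ofReal_integral_eq_lintegral_ofReal
    (integrable_finsetSum _ fun i _ => integrable_inner_sq _)
    (Filter.Eventually.of_forall fun x => by positivity),
    integral_finsetSum _ fun i _ => integrable_inner_sq _]
  simp [integral_inner_sq]

theorem gam_eLpNorm : eLpNorm (fun x : E d => x) 2 (gam d) = ENNReal.ofReal √d := by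
  rw [eLpNorm_eq_lintegral_rpow_enorm_toReal (by simp) (by simp)]
  have e : ∀ x : E d, ‖x‖ₑ ^ (2 : ℝ≥0∞).toReal = ENNReal.ofReal (‖x‖ ^ 2) := fun x => by
    rw [← ofReal_norm, ENNReal.ofReal_pow (norm_nonneg x)]
    simp
  simp only [e, gam_sq]
  rw [Real.sqrt_eq_rpow, ← ENNReal.ofReal_rpow_of_nonneg (by positivity) (by norm_num)]
  simp

theorem gam_shift {A : Set (E d)} (hA : MeasurableSet A) (w : E d) :
    (gam d).real A - 2 * ‖w‖ ≤ (gam d).real {x | x + w ∈ A} := by
  have h1 := shift_ge hA w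
  have h2 : (gam d).real A ≤ 1 := measureReal_le_one
  have h3 : 0 ≤ (gam d).real A := measureReal_nonneg
  have h4 : 0 ≤ (gam d).real {x | x + w ∈ A} := measureReal_nonneg
  have h0 := norm_nonneg w
  rcases le_total (1 / 2) ‖w‖ with h | h
  · linarith
  have h5 : |∫ x in A, ⟪w, x⟫ ∂gam d| ≤ ‖w‖ :=
    abs_integral_le_integral_abs.trans ((setIntegral_le_integral (integrable_inner w).abs
      (Filter.Eventually.of_forall fun x => abs_nonneg _)).trans (integral_abs_inner w))
  have h6 := Real.add_one_le_exp (-‖w‖ ^ 2 / 2)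
  have h7 : Real.exp (-‖w‖ ^ 2 / 2) ≤ 1 := Real.exp_le_one_iff.2 (by nlinarith)
  have h8 := (abs_le.1 h5).1
  have h9 := Real.exp_pos (-‖w‖ ^ 2 / 2)
  nlinarith [mul_le_mul_of_nonneg_left h8 h9.le, mul_le_mul_of_nonneg_right h6 h3]

end Vale.Agent.P347
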