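import Vale.Agent.P347.AccDefs
import Vale.Agent.P347.Gau

/-! P347: the algebra of oracle programs and of noisy access to ideal random vectors. -/

open MeasureTheory ProbabilityTheory Filter
open scoped ENNReal

noncomputable section
namespace Vale.Agent.P347
variable {d : ℕ}

namespace Comp
variable {β : Type} [MeasurableSpace β]

lemma meas : ∀ {q : ℕ} {α : Type} [MeasurableSpace α] {Φ : Pt d → α → β}, Comp q α Φ →
    ∀ V, Measurable (Φ V)
  | 0, _, _, Φ, ⟨f, hf, h⟩, V => by rw [show Φ V = f from funext (h V)]; exact hf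
  | q + 1, _, _, Φ, ⟨x, Ψ, hx, hΨ, h⟩, V => by
    rw [show Φ V = fun a => Ψ V (a, V.F (x a)) from funext (h V)]
    exact (meas hΨ V).comp (measurable_id.prodMk (V.contF.measurable.comp hx))

lemma pre : ∀ {q : ℕ} {α α' : Type} [MeasurableSpace α] [MeasurableSpace α']
    {Φ : Pt d → α → β} {f : α' → α}, Measurable f → Comp q α Φ →
    Comp q α' (fun V a => Φ V (f a))
  | 0, _, _, _, _, _, _, hf, ⟨g, hg, h⟩ => ⟨_, hg.comp hf, fun V a => h V _⟩
  | q + 1, _, α', _, _, _, f, hf, ⟨x, Ψ, hx, hΨ, h⟩ =>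
    ⟨_, fun V p => Ψ V (f p.1, p.2), hx.comp hf,
      pre (f := fun p : α' × E d => (f p.1, p.2)) (by fun_prop) hΨ, fun V a => h V _⟩

lemma of_meas {α : Type} [MeasurableSpace α] {f : α → β} (hf : Measurable f) :
    Comp 0 α (fun (_ : Pt d) a => f a) := ⟨f, hf, fun _ _ => rfl⟩

lemma comp {γ : Type} [MeasurableSpace γ] {q' : ℕ} : ∀ {q : ℕ} {α : Type} [MeasurableSpace α]
    {Φ : Pt d → α → β} {Ψ : Pt d → α × β → γ}, Comp q α Φ → Comp q' (α × β) Ψ →
    Comp (q' + q) α (fun V a => Ψ V (a, Φ V a))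
  | 0, _, _, Φ, Ψ, ⟨f, hf, h⟩, h' => by
    have := pre (f := fun a => (a, f a)) (by fun_prop) h'
    simpa only [h, add_zero] using this
  | q + 1, α, _, Φ, Ψ, ⟨x, Φ', hx, hΦ, h⟩, h' =>
    ⟨x, fun V p => Ψ V (p.1, Φ' V p), hx,
      comp (Ψ := fun V r => Ψ V (r.1.1, r.2)) hΦ
        (pre (f := fun r : (α × E d) × β => (r.1.1, r.2)) (by fun_prop) h'),
      fun V a => by simp only [h]⟩

lemma post {γ : Type} [MeasurableSpace γ] {q : ℕ} {α : Type} [MeasurableSpace α]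
    {Φ : Pt d → α → β} {g : α × β → γ} (h : Comp q α Φ) (hg : Measurable g) :
    Comp q α (fun V a => g (a, Φ V a)) := by
  simpa using comp h (of_meas hg)

lemma query {q : ℕ} {α : Type} [MeasurableSpace α] {Φ : Pt d → α → E d} (h : Comp q α Φ) :
    Comp (q + 1) α (fun V a => V.F (Φ V a)) := by
  have h1 : Comp 1 (α × E d) (fun (V : Pt d) p => V.F p.2) :=
    ⟨Prod.snd, fun _ p => p.2, measurable_snd, of_meas measurable_snd, fun _ _ => rfl⟩
  simpa [add_comm] using comp h h1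
end Comp

/-- An `L²` bound. -/
def L2 {Ω : Type} [MeasurableSpace Ω] (μ : Measure Ω) (f : Ω → E d) (e : ℝ) : Prop :=
  Measurable f ∧ 0 ≤ e ∧ eLpNorm f 2 μ ≤ ENNReal.ofReal e

namespace L2
variable {Ω Ω' : Type} [MeasurableSpace Ω] [MeasurableSpace Ω'] {μ : Measure Ω} {μ' : Measure Ω'}
  {f g : Ω → E d} {e e' : ℝ}

lemma mono (h : L2 μ f e) (he : e ≤ e') : L2 μ f e' :=
  ⟨h.1, h.2.1.trans he, h.2.2.trans (ENNReal.ofReal_le_ofReal he)⟩
lemma congr (h : L2 μ f e) (hg : ∀ x, f x = g x) : L2 μ g e := funext hg ▸ h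
lemma add (h : L2 μ f e) (h' : L2 μ g e') : L2 μ (fun x => f x + g x) (e + e') :=
  ⟨h.1.add h'.1, add_nonneg h.2.1 h'.2.1,
    (eLpNorm_add_le h.1.aestronglyMeasurable h'.1.aestronglyMeasurable (by norm_num)).trans
      (by rw [ENNReal.ofReal_add h.2.1 h'.2.1]; exact add_le_add h.2.2 h'.2.2)⟩
lemma smul (h : L2 μ f e) (c : ℝ) : L2 μ (fun x => c • f x) (|c| * e) :=
  ⟨h.1.const_smul c, mul_nonneg (abs_nonneg c) h.2.1, by
    rw [ENNReal.ofReal_mul (abs_nonneg c), ← Real.enorm_eq_ofReal_abs]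
    exact (eLpNorm_const_smul_le (c := c) (f := f)).trans (mul_le_mul_right h.2.2 _)⟩
lemma neg (h : L2 μ f e) : L2 μ (fun x => -f x) e := by simpa using h.smul (-1)
lemma sub (h : L2 μ f e) (h' : L2 μ g e') : L2 μ (fun x => f x - g x) (e + e') := by
  simpa [sub_eq_add_neg] using h.add h'.neg
lemma zero (μ : Measure Ω) : L2 μ (fun _ => (0 : E d)) 0 := ⟨measurable_const, le_rfl, by simp⟩
lemma comp {φ : Ω' → Ω} (h : L2 μ f e) (hφ : MeasurePreserving φ μ' μ) :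
    L2 μ' (fun x => f (φ x)) e :=
  ⟨h.1.comp hφ.measurable, h.2.1,
    (eLpNorm_comp_measurePreserving h.1.aestronglyMeasurable hφ).le.trans h.2.2⟩
lemma of_le (h : L2 μ f e) (hg : Measurable g) {c : ℝ} (hc : 0 ≤ c)
    (hle : ∀ x, ‖g x‖ ≤ c * ‖f x‖) : L2 μ g (c * e) := by
  have h1 := h.smul c
  rw [abs_of_nonneg hc] at h1
  refine ⟨hg, h1.2.1, (eLpNorm_mono fun x => ?_).trans h1.2.2⟩
  rw [norm_smul, Real.norm_of_nonneg hc]; exact hle x
lemma sum {ι : Type} (s : Finset ι) {F : ι → Ω → E d} (h : ∀ i ∈ s, L2 μ (F i) e) :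
    L2 μ (fun x => ∑ i ∈ s, F i x) (s.card * e) := by
  classical
  induction s using Finset.induction with
  | empty => simpa using zero μ
  | insert a s ha ih =>
    have := (h a (by simp)).add (ih fun i hi => h i (by simp [hi]))
    simp only [Finset.sum_insert ha, Finset.card_insert_of_notMem ha]
    refine this.mono (le_of_eq ?_)
    push_cast; ring

lemma sq_eq (μ : Measure Ω) (f : Ω → E d) :
    eLpNorm f 2 μ ^ 2 = ∫⁻ x, ENNReal.ofReal (‖f x‖ ^ 2) ∂μ := by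
  rw [eLpNorm_eq_lintegral_rpow_enorm_toReal (by norm_num) (by norm_num)]
  simp only [ENNReal.toReal_ofNat, one_div]
  rw [← ENNReal.rpow_natCast, ← ENNReal.rpow_mul]
  norm_num
lemma iff (hf : Measurable f) (he : 0 ≤ e) :
    L2 μ f e ↔ ∫⁻ x, ENNReal.ofReal (‖f x‖ ^ 2) ∂μ ≤ ENNReal.ofReal (e ^ 2) := by
  rw [← sq_eq, ENNReal.ofReal_pow he, ENNReal.pow_le_pow_left_iff (by norm_num)]
  exact ⟨fun h => h.2.2, fun h => ⟨hf, he, h⟩⟩
end L2

lemma L2.noise {Ω S : Type} [MeasurableSpace Ω] [MeasurableSpace S] {μ : Measure Ω}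
    {ν : Measure S} [IsProbabilityMeasure μ] [SFinite ν] {ζ : Ω × S → E d} (hζ : Measurable ζ)
    (h : ∀ ω, MeasurePreserving (fun σ => ζ (ω, σ)) ν (gam d)) : L2 (μ.prod ν) ζ √d := by
  have h1 : MeasurePreserving (fun p : Ω × S => (p.1, ζ p)) (μ.prod ν) (μ.prod (gam d)) :=
    (MeasurePreserving.id μ).skew_product (g := fun ω σ => ζ (ω, σ)) hζ
      (Eventually.of_forall fun ω => (h ω).map_eq)
  have h2 : L2 (gam d) (fun x : E d => x) √d := ⟨measurable_id, by positivity, gam_eLpNorm.le⟩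
  exact (h2.comp measurePreserving_snd).comp h1

/-- A context: ideal randomness `Ω` and the data `κ` known to the algorithm. -/
structure Ctx (d : ℕ) where
  Ω : Type
  [mΩ : MeasurableSpace Ω]
  K : Type
  [mK : MeasurableSpace K]
  P : Pt d → Measure Ω
  [prob : ∀ V, IsProbabilityMeasure (P V)]
  κ : Pt d → Ω → K
  hκ : ∀ V, Measurable (κ V)

attribute [instance] Ctx.mΩ Ctx.mK Ctx.prob

/-- Extension of a context by fresh seeds and the output of a program. -/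
abbrev Ctx.ext (c : Ctx d) (S : Seed) {β : Type} [MeasurableSpace β]
    (Ψ : Pt d → c.K × S.T → β) (hΨ : ∀ V, Measurable (Ψ V)) : Ctx d where
  Ω := c.Ω × S.T
  K := (c.K × S.T) × β
  P V := (c.P V).prod S.μ
  κ V p := ((c.κ V p.1, p.2), Ψ V (c.κ V p.1, p.2))
  hκ V := by
    have := c.hκ V
    have := hΨ V
    fun_prop

/-- `X + r ζ` with a fresh standard Gaussian `ζ` is computable with `Q` queries up to `L²`
error `e`. -/
def Acc (c : Ctx d) (X : Pt d → c.Ω → E d) (r e Q : ℝ) : Prop :=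
  (∀ V, Measurable (X V)) ∧ ∃ (S : Seed) (n : ℕ) (Ψ : Pt d → c.K × S.T → E d),
    (n : ℝ) ≤ Q ∧ Comp n _ Ψ ∧ ∀ V, ∃ ζ : c.Ω × S.T → E d, Measurable ζ ∧
      (∀ ω, MeasurePreserving (fun σ => ζ (ω, σ)) S.μ (gam d)) ∧
      L2 ((c.P V).prod S.μ) (fun p => Ψ V (c.κ V p.1, p.2) - X V p.1 - r • ζ p) e

namespace Acc
variable {c : Ctx d} {X X' : Pt d → c.Ω → E d} {r r' e e' Q Q' : ℝ}

lemma congr (h : Acc c X r e Q) (hX : ∀ V ω, X V ω = X' V ω) : Acc c X' r e Q :=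
  (funext fun V => funext (hX V) : X = X') ▸ h

lemma cost_nonneg (h : Acc c X r e Q) : 0 ≤ Q := by
  obtain ⟨_, _, n, _, h, _⟩ := h
  exact (Nat.cast_nonneg n).trans h

lemma mono' (h : Acc c X r e Q) (he : e ≤ e') (hQ : Q ≤ Q') : Acc c X r e' Q' := by
  obtain ⟨m, S, n, Ψ, h1, h2, h3⟩ := h
  refine ⟨m, S, n, Ψ, h1.trans hQ, h2, fun V => ?_⟩
  obtain ⟨ζ, a, b, c⟩ := h3 V
  exact ⟨ζ, a, b, c.mono he⟩

lemma known {f : c.K → E d} (hf : Measurable f) (r : ℝ) :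
    Acc c (fun V ω => f (c.κ V ω)) r 0 0 := by
  refine ⟨fun V => hf.comp (c.hκ V), Seed.gauss d, 0, fun _ p => f p.1 + r • (p.2 : E d), by simp,
    Comp.of_meas (f := fun p : c.K × E d => f p.1 + r • p.2) (by fun_prop), fun V =>
    ⟨Prod.snd, measurable_snd, fun _ => MeasurePreserving.id _, (L2.zero _).congr fun p => ?_⟩⟩
  simp

lemma perturb (h : Acc c X r e Q) (hm : ∀ V, Measurable (X' V))
    (h' : ∀ V, L2 (c.P V) (fun ω => X V ω - X' V ω) e') : Acc c X' r (e + e') Q := by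
  obtain ⟨_, S, n, Ψ, h1, h2, h3⟩ := h
  refine ⟨hm, S, n, Ψ, h1, h2, fun V => ?_⟩
  obtain ⟨ζ, a, b, c⟩ := h3 V
  exact ⟨ζ, a, b, (c.add ((h' V).comp measurePreserving_fst)).congr fun p => by abel⟩

lemma addKnown (h : Acc c X r e Q) {f : c.K → E d} (hf : Measurable f) :
    Acc c (fun V ω => f (c.κ V ω) + X V ω) r e Q := by
  obtain ⟨m, S, n, Ψ, h1, h2, h3⟩ := h
  refine ⟨fun V => (hf.comp (c.hκ V)).add (m V), S, n, fun V p => f p.1 + Ψ V p, h1,
    h2.post (g := fun p => f p.1.1 + p.2) (by fun_prop), fun V => ?_⟩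
  obtain ⟨ζ, a, b, c⟩ := h3 V
  exact ⟨ζ, a, b, c.congr fun p => by simp only; abel⟩

lemma smul (h : Acc c X r e Q) (l : ℝ) :
    Acc c (fun V ω => l • X V ω) (|l| * r) (|l| * e) Q := by
  obtain ⟨m, S, n, Ψ, h1, h2, h3⟩ := h
  refine ⟨fun V => (m V).const_smul l, S, n, fun V p => l • Ψ V p, h1,
    h2.post (g := fun p => l • p.2) (by fun_prop), fun V => ?_⟩
  obtain ⟨ζ, a, b, c⟩ := h3 V
  rcases le_total 0 l with hl | hl
  · exact ⟨ζ, a, b, (c.smul l).congr fun p => by rw [abs_of_nonneg hl]; module⟩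
  · exact ⟨fun p => -ζ p, a.neg, fun ω => gam_neg.comp (b ω),
      (c.smul l).congr fun p => by rw [abs_of_nonpos hl]; module⟩

lemma lift (h : Acc c X r e Q) (S : Seed) {β : Type} [MeasurableSpace β]
    (Ψ : Pt d → c.K × S.T → β) (hΨ : ∀ V, Measurable (Ψ V)) :
    Acc (c.ext S Ψ hΨ) (fun V p => X V p.1) r e Q := by
  obtain ⟨m, S', n, Ψ', h1, h2, h3⟩ := h
  refine ⟨fun V => (m V).comp measurable_fst, S', n, fun V p => Ψ' V (p.1.1.1, p.2), h1,
    h2.pre (f := fun p : ((c.K × S.T) × β) × S'.T => (p.1.1.1, p.2)) (by fun_prop), fun V => ?_⟩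
  obtain ⟨ζ, a, b, c⟩ := h3 V
  exact ⟨fun p => ζ (p.1.1, p.2), by fun_prop, fun ω => b ω.1,
    c.comp (measurePreserving_fst.prod (MeasurePreserving.id _))⟩

lemma bind {S : Seed} {β : Type} [MeasurableSpace β] {Ψ : Pt d → c.K × S.T → β} {n : ℕ}
    (hΨ : Comp n _ Ψ) {Y : Pt d → c.Ω × S.T → E d} {r₁ e₁ : ℝ}
    (h : Acc (c.ext S Ψ hΨ.meas) Y r' e' Q') (hm : ∀ V, Measurable (X V))
    (h₁ : ∀ V, ∃ ζ : c.Ω × S.T → E d, Measurable ζ ∧
      (∀ ω, MeasurePreserving (fun σ => ζ (ω, σ)) S.μ (gam d)) ∧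
      L2 ((c.P V).prod S.μ) (fun p => Y V p - X V p.1 - r₁ • ζ p) e₁)
    (hr : r ^ 2 = r₁ ^ 2 + r' ^ 2) : Acc c X r (e' + e₁) (Q' + n) := by
  obtain ⟨_, S', n', Ψ', h1, h2, h3⟩ := h
  obtain ⟨α, α', a1, a2, a3⟩ : ∃ α α' : ℝ, α ^ 2 + α' ^ 2 = 1 ∧ r * α = r₁ ∧ r * α' = r' := by
    by_cases h0 : r = 0
    · subst h0
      refine ⟨1, 0, by norm_num, ?_, ?_⟩ <;> nlinarith [sq_nonneg r₁, sq_nonneg r']
    · refine ⟨r₁ / r, r' / r, ?_, ?_, ?_⟩ <;> field_simp
      linarith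
  have hc : Comp (n' + n) (c.K × (S.prod S').T)
      (fun V p => Ψ' V (((p.1, p.2.1), Ψ V (p.1, p.2.1)), p.2.2)) :=
    Comp.comp (Ψ := fun V r => Ψ' V (((r.1.1, r.1.2.1), r.2), r.1.2.2))
      (hΨ.pre (f := fun p : c.K × (S.T × S'.T) => (p.1, p.2.1)) (by fun_prop))
      (h2.pre (f := fun r : (c.K × (S.T × S'.T)) × β => (((r.1.1, r.1.2.1), r.2), r.1.2.2))
        (by fun_prop))
  refine ⟨hm, S.prod S', n' + n, _, by push_cast; linarith, hc, fun V => ?_⟩
  obtain ⟨ζ, b1, b2, b3⟩ := h₁ V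
  obtain ⟨ζ', c1, c2, c3⟩ := h3 V
  refine ⟨fun p : c.Ω × (S.T × S'.T) => α • ζ (p.1, p.2.1) + α' • ζ' ((p.1, p.2.1), p.2.2),
    by fun_prop, fun ω => ?_, ?_⟩
  · exact (gam_rot a1).comp ((b2 ω).skew_product (g := fun σ σ' => ζ' ((ω, σ), σ'))
      (c1.comp (by fun_prop : Measurable fun p : S.T × S'.T => ((ω, p.1), p.2)))
      (Eventually.of_forall fun σ => (c2 (ω, σ)).map_eq))
  · have hp := (measurePreserving_prodAssoc (c.P V) S.μ S'.μ).symm
    refine ((c3.add (b3.comp measurePreserving_fst)).comp hp).congr fun p => ?_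
    rw [← a2, ← a3]
    simp only [MeasurableEquiv.prodAssoc, MeasurableEquiv.symm_mk, MeasurableEquiv.coe_mk,
      Equiv.prodAssoc_symm_apply]
    module

lemma mono (h : Acc c X r e Q) (h0 : 0 ≤ r) (hr : r ≤ r') (he : e ≤ e') (hQ : Q ≤ Q') :
    Acc c X r' e' Q' := by
  have hΨ : Comp 0 (c.K × (Seed.gauss d).T) (fun (_ : Pt d) _ => ()) :=
    Comp.of_meas measurable_const
  have h1 := (h.lift (Seed.gauss d) _ hΨ.meas).addKnown
    (f := fun k : (c.K × E d) × Unit => √(r' ^ 2 - r ^ 2) • k.1.2) (by fun_prop)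
  refine (bind (r := r') (r₁ := √(r' ^ 2 - r ^ 2)) (e₁ := 0) hΨ h1 h.1 (fun V =>
    ⟨Prod.snd, measurable_snd, fun _ => MeasurePreserving.id _,
      (L2.zero _).congr fun p => by simp⟩) ?_).mono' (by linarith) (by simpa using hQ)
  rw [Real.sq_sqrt (by nlinarith)]; ring

lemma add (h : Acc c X r e Q) (h' : Acc c X' r' e' Q') (h0 : 0 ≤ r) (h0' : 0 ≤ r') :
    Acc c (fun V ω => X V ω + X' V ω) (r + r') (e + e') (Q + Q') := by
  obtain ⟨m, S, n, Ψ, h1, h2, h3⟩ := h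
  have h4 := (h'.lift S Ψ h2.meas).addKnown (f := fun k : (c.K × S.T) × E d => k.2) (by fun_prop)
  refine (bind (X := fun V ω => X V ω + X' V ω) (r := √(r ^ 2 + r' ^ 2)) (r₁ := r) (e₁ := e) h2 h4
    (fun V => (m V).add (h'.1 V)) (fun V => ?_) (Real.sq_sqrt (by positivity))).mono
    (by positivity) ?_ (by linarith) (by linarith)
  · obtain ⟨ζ, a, b, c⟩ := h3 V
    exact ⟨ζ, a, b, c.congr fun p => by simp only; abel⟩
  · exact Real.sqrt_le_iff.2 ⟨by positivity, by nlinarith⟩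

lemma sum {ι : Type} (s : Finset ι) {F : ι → Pt d → c.Ω → E d} (h : ∀ i ∈ s, Acc c (F i) r e Q)
    (h0 : 0 ≤ r) : Acc c (fun V ω => ∑ i ∈ s, F i V ω) (s.card * r) (s.card * e) (s.card * Q) := by
  classical
  induction s using Finset.induction with
  | empty => simpa using known (c := c) (f := fun _ => 0) measurable_const 0
  | insert a s ha ih =>
    have := (h a (by simp)).add (ih fun i hi => h i (by simp [hi])) h0 (by positivity)
    simp only [Finset.sum_insert ha, Finset.card_insert_of_notMem ha]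
    convert this using 1 <;> (push_cast; ring)

lemma query (h : Acc c X r e Q) (l w r' : ℝ) (hm : ∀ V, Measurable (X' V))
    (h' : ∀ V, L2 (c.P V) (fun ω => w • V.F (l • X V ω) - X' V ω) e') :
    Acc c X' r' (|w| * (1 / 2 * (|l| * (e + |r| * √d))) + e') (Q + 1) := by
  obtain ⟨m, S, n, Ψ, h1, h2, h3⟩ := h
  have g1 : Comp n _ (fun V p => l • Ψ V p) :=
    h2.post (g := fun p : (c.K × S.T) × E d => l • p.2) (by fun_prop)
  have hΨ : Comp (n + 1) _ (fun V p => w • V.F (l • Ψ V p)) :=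
    g1.query.post (g := fun p : (c.K × S.T) × E d => w • p.2) (by fun_prop)
  have h4 : Acc (c.ext S _ hΨ.meas) (fun V p => w • V.F (l • Ψ V (c.κ V p.1, p.2))) r' 0 0 :=
    known (c := c.ext S _ hΨ.meas) (f := fun k : (c.K × S.T) × E d => k.2) measurable_snd r'
  refine (bind (r := r') (r₁ := 0) (e₁ := |w| * (1 / 2 * (|l| * (e + |r| * √d))) + e') hΨ h4 hm
    (fun V => ?_) (by ring)).mono' (by linarith) (by push_cast; linarith)
  obtain ⟨ζ, a, b, c'⟩ := h3 V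
  refine ⟨ζ, a, b, ?_⟩
  have k1 : L2 ((c.P V).prod S.μ) (fun p => l • Ψ V (c.κ V p.1, p.2) - l • X V p.1)
      (|l| * (e + |r| * √d)) :=
    ((c'.add ((L2.noise a b).smul r)).smul l).congr fun p => by module
  have hF := V.contF.measurable
  have m1 : Measurable fun p : c.Ω × S.T => Ψ V (c.κ V p.1, p.2) :=
    (h2.meas V).comp (((c.hκ V).comp measurable_fst).prodMk measurable_snd)
  have m2 : Measurable fun p : c.Ω × S.T => X V p.1 := (m V).comp measurable_fst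
  have m3 : Measurable fun p : c.Ω × S.T =>
      V.F (l • Ψ V (c.κ V p.1, p.2)) - V.F (l • X V p.1) :=
    (hF.comp (m1.const_smul l)).sub (hF.comp (m2.const_smul l))
  have k2 := (k1.of_le m3 (c := 1 / 2) (by norm_num) fun p => V.lipF _ _).smul w
  exact (k2.add ((h' V).comp measurePreserving_fst)).congr fun p => by module

/-- Descent from an extension by a spare seed. -/
lemma descend (h : Acc (c.ext (Seed.gauss d) (fun _ _ => ()) fun _ => measurable_const)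
    (fun V p => X V p.1) r e Q) (hm : ∀ V, Measurable (X V)) : Acc c X r e Q := by
  have hΨ : Comp 0 (c.K × (Seed.gauss d).T) (fun (_ : Pt d) _ => ()) :=
    Comp.of_meas measurable_const
  simpa using bind (r := r) (r₁ := 0) (e₁ := 0) hΨ h hm (fun V =>
    ⟨Prod.snd, measurable_snd, fun _ => MeasurePreserving.id _,
      (L2.zero _).congr fun p => by simp⟩) (by ring)
end Acc

/-- The conditional law of `y` given `θ` is `ρ θ`. -/
def CL {Ω H : Type} [MeasurableSpace Ω] [MeasurableSpace H] (P : Measure Ω) (θ : Ω → E d)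
    (y : Ω → H) (ρ : E d → Measure H) : Prop :=
  Measurable θ ∧ Measurable y ∧ ∀ f : E d × H → ℝ≥0∞, Measurable f →
    ∫⁻ ω, f (θ ω, y ω) ∂P = ∫⁻ ω, ∫⁻ w, f (θ ω, w) ∂(ρ (θ ω)) ∂P

namespace CL
variable {Ω H H' : Type} [MeasurableSpace Ω] [MeasurableSpace H] [MeasurableSpace H']
  {P : Measure Ω} {θ : Ω → E d} {y : Ω → H} {ρ : E d → Measure H} {ρ' : E d → Measure H'}

lemma of_strong {S : Type} [MeasurableSpace S] {μ : Measure S} [IsProbabilityMeasure μ]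
    [SFinite P] {y : Ω × S → H} (hθ : Measurable θ) (hy : Measurable y)
    (h : ∀ ω, MeasurePreserving (fun σ => y (ω, σ)) μ (ρ (θ ω))) :
    CL (P.prod μ) (fun p => θ p.1) y ρ := by
  refine ⟨hθ.comp measurable_fst, hy, fun f hf => ?_⟩
  rw [lintegral_prod _ (Measurable.aemeasurable (by fun_prop))]
  have e1 : ∀ ω, ∫⁻ σ, f (θ ω, y (ω, σ)) ∂μ = ∫⁻ w, f (θ ω, w) ∂(ρ (θ ω)) := fun ω =>
    (h ω).lintegral_comp (f := fun w => f (θ ω, w)) (by fun_prop)
  simp only [e1]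
  have hm : Measurable fun ω => ∫⁻ w, f (θ ω, w) ∂(ρ (θ ω)) := by
    simp only [← e1]
    exact Measurable.lintegral_prod_right' (f := fun p : Ω × S => f (θ p.1, y p)) (by fun_prop)
  exact (measurePreserving_fst.lintegral_comp hm).symm

lemma map (h : CL P θ y ρ) {Φ : E d × H → H'} (hΦ : Measurable Φ)
    (hl : ∀ θ, MeasurePreserving (fun w => Φ (θ, w)) (ρ θ) (ρ' θ)) :
    CL P θ (fun ω => Φ (θ ω, y ω)) ρ' := by
  have := h.1
  have := h.2.1
  refine ⟨h.1, by fun_prop, fun f hf => ?_⟩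
  rw [h.2.2 (fun p => f (p.1, Φ p)) (by fun_prop)]
  exact lintegral_congr fun ω => (hl (θ ω)).lintegral_comp (f := fun w => f (θ ω, w)) (by fun_prop)

lemma l2 [IsProbabilityMeasure P] (h : CL P θ y ρ) {g : E d × H → E d} (hg : Measurable g)
    {e : ℝ} (he : 0 ≤ e) (hb : ∀ θ, eLpNorm (fun w => g (θ, w)) 2 (ρ θ) ≤ ENNReal.ofReal e) :
    L2 P (fun ω => g (θ ω, y ω)) e := by
  have := h.1
  have := h.2.1
  rw [L2.iff (by fun_prop) he, h.2.2 (fun p => ENNReal.ofReal (‖g p‖ ^ 2)) (by fun_prop)]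
  calc _ ≤ ∫⁻ _, ENNReal.ofReal (e ^ 2) ∂P := lintegral_mono fun ω =>
        (L2.iff (f := fun w => g (θ ω, w)) (by fun_prop) he).1 ⟨by fun_prop, he, hb _⟩
    _ = _ := by simp
end CL

end Vale.Agent.P347
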