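import Vale.Agent.P347.Base

/-! P347: seed spaces and oracle programs. -/

open MeasureTheory ProbabilityTheory
open scoped ENNReal

noncomputable section
namespace Vale.Agent.P347

/-- A probability space generated by finitely many independent standard Gaussians. -/
structure Seed where
  T : Type
  [mT : MeasurableSpace T]
  μ : Measure T
  [prob : IsProbabilityMeasure μ]
  gen : ∃ (m : ℕ) (e : (Fin m → ℝ) → T),
    MeasurePreserving e (Measure.pi fun _ => gaussianReal 0 1) μ

attribute [instance] Seed.mT Seed.prob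

abbrev Seed.gauss (d : ℕ) : Seed where
  T := E d
  μ := gam d
  gen := ⟨d, WithLp.toLp 2, ⟨by fun_prop, map_pi_eq_stdGaussian⟩⟩

abbrev Seed.prod (S S' : Seed) : Seed where
  T := S.T × S'.T
  μ := S.μ.prod S'.μ
  gen := by
    obtain ⟨m, e, he⟩ := S.gen
    obtain ⟨n, e', he'⟩ := S'.gen
    have h1 := measurePreserving_piCongrLeft (fun _ : Fin m ⊕ Fin n => gaussianReal 0 1)
      finSumFinEquiv.symm
    have h2 := measurePreserving_sumPiEquivProdPi (fun _ : Fin m ⊕ Fin n => gaussianReal 0 1)
    exact ⟨m + n, _, (he.prod he').comp (h2.comp h1)⟩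

/-- Maps computed with `q` adaptive queries to the gradient oracle `F`. -/
def Comp {d : ℕ} {β : Type} [MeasurableSpace β] :
    ℕ → ∀ (α : Type) [MeasurableSpace α], (Pt d → α → β) → Prop
  | 0, α, _, Φ => ∃ f : α → β, Measurable f ∧ ∀ V a, Φ V a = f a
  | q + 1, α, _, Φ => ∃ (x : α → E d) (Ψ : Pt d → α × E d → β), Measurable x ∧
      Comp q (α × E d) Ψ ∧ ∀ V a, Φ V a = Ψ V (a, V.F (x a))

end Vale.Agent.P347
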