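import Vale.Agent.P347.Defs

/-! P347: recentred potentials, tilted measures, partition integrals. -/

open MeasureTheory ProbabilityTheory Set Filter Topology
open scoped RealInnerProductSpace ENNReal

noncomputable section
namespace Vale.Agent.P347

/-- A recentred potential `W = V - 3/4 |x|²` with gradient `F`. -/
structure Pt (d : ℕ) where
  W : E d → ℝ
  F : E d → E d
  hW : ∀ x, HasGradientAt W (F x) x
  hF : ContDiff ℝ 1 F
  lip : ∀ x, ‖fderiv ℝ F x‖ ≤ 1 / 2
  F0 : F 0 = 0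
  W0 : W 0 = 0

variable {d : ℕ}

abbrev gam (d : ℕ) : Measure (E d) := stdGaussian (E d)

def wt (V : Pt d) (t : ℝ) (θ x : E d) : ℝ := Real.exp (⟪θ, x⟫ - t / 2 * ‖x‖ ^ 2 - V.W x)
def Zf (V : Pt d) (h : E d → ℝ) (t : ℝ) (θ : E d) : ℝ := ∫ x, h x * wt V t θ x
def Zc (V : Pt d) (t : ℝ) (θ : E d) : ℝ := ∫ x, wt V t θ x
/-- The tilted law, proportional to `exp (⟪θ, x⟫ - t |x|² / 2 - W x)`. -/
def pm (V : Pt d) (t : ℝ) (θ : E d) : Measure (E d) :=
  volume.withDensity fun x => ENNReal.ofReal (wt V t θ x / Zc V t θ)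
/-- The mean of `F` under the tilted law. -/
def MM (V : Pt d) (t : ℝ) (θ : E d) : E d := ∫ x, V.F x ∂(pm V t θ)
/-- The law of `b x + ξ`. -/
def NN (V : Pt d) (t : ℝ) (θ : E d) (b : ℝ) : Measure (E d) :=
  ((pm V t θ).prod (gam d)).map fun p => b • p.1 + p.2

/-- Continuous functions of polynomial growth. -/
def PG (h : E d → ℝ) : Prop := Continuous h ∧ ∃ (C : ℝ) (n : ℕ), ∀ x, |h x| ≤ C * (1 + ‖x‖) ^ n

namespace Pt
variable (V : Pt d)

lemma contF : Continuous V.F := V.hF.continuous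
lemma diffF : Differentiable ℝ V.F := V.hF.differentiable (by simp)
lemma contW : Continuous V.W := continuous_iff_continuousAt.2 fun x => (V.hW x).continuousAt
lemma lipF (x y : E d) : ‖V.F x - V.F y‖ ≤ 1 / 2 * ‖x - y‖ :=
  Convex.norm_image_sub_le_of_norm_fderiv_le (fun z _ => V.diffF z) (fun z _ => V.lip z)
    convex_univ (mem_univ y) (mem_univ x)
lemma normF (x : E d) : ‖V.F x‖ ≤ 1 / 2 * ‖x‖ := by simpa [V.F0] using V.lipF x 0
lemma fderivW (x v : E d) : fderiv ℝ V.W x v = ⟪V.F x, v⟫ := by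
  rw [(V.hW x).hasFDerivAt.fderiv]; simp
lemma contDiffW : ContDiff ℝ 2 V.W := by
  have h : fderiv ℝ V.W = fun x => innerSL ℝ (V.F x) := by
    funext x; ext v; simp [V.fderivW]
  have : ContDiff ℝ (1 + 1) V.W := by
    rw [contDiff_succ_iff_fderiv]
    refine ⟨fun x => (V.hW x).differentiableAt, by simp, ?_⟩
    rw [h]
    exact (innerSL ℝ (E := E d)).contDiff.comp V.hF
  exact this

lemma taylor (x v : E d) : |V.W (x + v) - V.W x - ⟪V.F x, v⟫| ≤ ‖v‖ ^ 2 / 4 := by
  have hd : ∀ s : ℝ, HasDerivAt (fun s : ℝ => V.W (x + s • v) - s * ⟪V.F x, v⟫)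
      ⟪V.F (x + s • v) - V.F x, v⟫ s := by
    intro s
    have h1 : HasDerivAt (fun s : ℝ => x + s • v) v s := by
      simpa using ((hasDerivAt_id s).smul_const v).const_add x
    have h2 := (V.hW (x + s • v)).hasFDerivAt.comp_hasDerivAt s h1
    have h3 := h2.sub ((hasDerivAt_id s).mul_const ⟪V.F x, v⟫)
    refine h3.congr_deriv ?_
    simp [inner_sub_left]
  have hb : ∀ s ∈ Ico (0 : ℝ) 1, |⟪V.F (x + s • v) - V.F x, v⟫| ≤ s * ‖v‖ ^ 2 / 2 := by
    intro s hs
    refine (abs_real_inner_le_norm _ _).trans ?_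
    have := V.lipF (x + s • v) x
    rw [add_sub_cancel_left, norm_smul, Real.norm_of_nonneg hs.1] at this
    nlinarith [norm_nonneg v]
  have hB : ∀ s : ℝ, HasDerivAt (fun s : ℝ => s ^ 2 * ‖v‖ ^ 2 / 4) (s * ‖v‖ ^ 2 / 2) s := by
    intro s
    refine ((((hasDerivAt_id s).pow 2).mul_const (‖v‖ ^ 2)).div_const 4).congr_deriv ?_
    simp; ring
  have key := image_norm_le_of_norm_deriv_right_le_deriv_boundary
    (f := fun s : ℝ => V.W (x + s • v) - s * ⟪V.F x, v⟫ - V.W x) (a := 0) (b := 1)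
    (f' := fun s => ⟪V.F (x + s • v) - V.F x, v⟫)
    (fun s _ => ((hd s).sub_const _).continuousAt.continuousWithinAt)
    (fun s _ => ((hd s).sub_const _).hasDerivWithinAt) (B := fun s => s ^ 2 * ‖v‖ ^ 2 / 4)
    (by simp) hB hb (x := 1) (by simp)
  simp only [one_smul, one_mul, one_pow, Real.norm_eq_abs] at key
  convert key using 2; ring

lemma absW (x : E d) : |V.W x| ≤ ‖x‖ ^ 2 / 4 := by
  simpa [V.F0, V.W0] using V.taylor 0 x

lemma midW (x y : E d) :
    V.W ((1 / 2 : ℝ) • (x + y)) ≤ (V.W x + V.W y) / 2 + ‖x - y‖ ^ 2 / 16 := by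
  have h1 := abs_le.1 (V.taylor ((1 / 2 : ℝ) • (x + y)) ((1 / 2 : ℝ) • (x - y)))
  have h2 := abs_le.1 (V.taylor ((1 / 2 : ℝ) • (x + y)) (-((1 / 2 : ℝ) • (x - y))))
  rw [show (1 / 2 : ℝ) • (x + y) + (1 / 2 : ℝ) • (x - y) = x by module] at h1
  rw [show (1 / 2 : ℝ) • (x + y) + -((1 / 2 : ℝ) • (x - y)) = y by module, inner_neg_right,
    norm_neg] at h2
  rw [norm_smul] at h1 h2
  norm_num at h1 h2 ⊢
  nlinarith [h1.1, h2.1]
end Pt

namespace PG
lemma const (c : ℝ) : PG (fun _ : E d => c) := ⟨continuous_const, |c|, 0, fun _ => by simp⟩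
lemma pos {h : E d → ℝ} (H : PG h) :
    ∃ (C : ℝ) (n : ℕ), 0 ≤ C ∧ ∀ x, |h x| ≤ C * (1 + ‖x‖) ^ n := by
  obtain ⟨C, n, H⟩ := H.2
  exact ⟨|C|, n, abs_nonneg _, fun x => (H x).trans (by gcongr; exact le_abs_self C)⟩
lemma mul {f g : E d → ℝ} (hf : PG f) (hg : PG g) : PG (fun x => f x * g x) := by
  obtain ⟨C, n, h0, h⟩ := hf.pos
  obtain ⟨C', n', h0', h'⟩ := hg.pos
  refine ⟨hf.1.mul hg.1, C * C', n + n', fun x => ?_⟩
  rw [abs_mul, pow_add, mul_mul_mul_comm]
  exact mul_le_mul (h x) (h' x) (abs_nonneg _) (by positivity)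
lemma add {f g : E d → ℝ} (hf : PG f) (hg : PG g) : PG (fun x => f x + g x) := by
  obtain ⟨C, n, h0, h⟩ := hf.pos
  obtain ⟨C', n', h0', h'⟩ := hg.pos
  refine ⟨hf.1.add hg.1, C + C', n + n', fun x => ?_⟩
  have h1 : (1 : ℝ) ≤ 1 + ‖x‖ := by simp
  have h2 : (1 + ‖x‖) ^ n ≤ (1 + ‖x‖) ^ (n + n') := pow_le_pow_right₀ h1 (by omega)
  have h3 : (1 + ‖x‖) ^ n' ≤ (1 + ‖x‖) ^ (n + n') := pow_le_pow_right₀ h1 (by omega)
  refine (abs_add_le _ _).trans ?_
  nlinarith [h x, h' x, mul_le_mul_of_nonneg_left h2 h0, mul_le_mul_of_nonneg_left h3 h0']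
lemma const_mul {f : E d → ℝ} (hf : PG f) (c : ℝ) : PG (fun x => c * f x) := (const c).mul hf
lemma neg {f : E d → ℝ} (hf : PG f) : PG (fun x => -f x) := by simpa using hf.const_mul (-1)
lemma sub {f g : E d → ℝ} (hf : PG f) (hg : PG g) : PG (fun x => f x - g x) := by
  simpa [sub_eq_add_neg] using hf.add hg.neg
lemma sum {ι : Type*} (s : Finset ι) {f : ι → E d → ℝ} (hf : ∀ i ∈ s, PG (f i)) :
    PG (fun x => ∑ i ∈ s, f i x) := by
  classical
  induction s using Finset.induction with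
  | empty => simpa using const 0
  | insert a s ha ih =>
    simpa [Finset.sum_insert ha] using
      (hf a (by simp)).add (ih fun i hi => hf i (by simp [hi]))
lemma of_le {f : E d → ℝ} (hf : Continuous f) (C : ℝ) (h : ∀ x, |f x| ≤ C * (1 + ‖x‖)) : PG f :=
  ⟨hf, C, 1, by simpa using h⟩
lemma norm : PG (fun x : E d => ‖x‖) := of_le continuous_norm 1 fun x => by simp
lemma pow {f : E d → ℝ} (hf : PG f) (n : ℕ) : PG (fun x => f x ^ n) := by
  induction n with
  | zero => simpa using const 1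
  | succ n ih => simpa [pow_succ] using ih.mul hf
lemma inner (v : E d) : PG (fun x : E d => ⟪v, x⟫) :=
  of_le (by fun_prop) ‖v‖ fun x => (abs_real_inner_le_norm _ _).trans (by
    nlinarith [norm_nonneg v])
lemma coord (i : Fin d) : PG (fun x : E d => x i) :=
  of_le (by fun_prop) 1 fun x => by
    have := PiLp.norm_apply_le x i
    rw [Real.norm_eq_abs] at this; linarith
lemma innerF (V : Pt d) (v : E d) : PG (fun x : E d => ⟪v, V.F x⟫) :=
  of_le (by have := V.contF; fun_prop) ‖v‖ fun x => (abs_real_inner_le_norm _ _).trans (by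
    nlinarith [norm_nonneg v, V.normF x, norm_nonneg x, norm_nonneg (V.F x)])
lemma coordF (V : Pt d) (i : Fin d) : PG (fun x : E d => V.F x i) :=
  of_le (by have := V.contF; fun_prop) 1 fun x => by
    have := PiLp.norm_apply_le (V.F x) i
    rw [Real.norm_eq_abs] at this; linarith [V.normF x, norm_nonneg x]
end PG

lemma integrable_gauss {c : ℝ} (hc : 0 < c) (M : ℝ) (n : ℕ) :
    Integrable (fun x : E d => (1 + ‖x‖) ^ n * Real.exp (M * ‖x‖ - c * ‖x‖ ^ 2)) := by
  have h := (integrable_one_add_norm (E := E d) (μ := volume) (r := ((d + 1 : ℕ) : ℝ))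
    (by simp)).const_mul (Real.exp ((M + (n + (d + 1) : ℕ)) ^ 2 / (4 * c)))
  refine h.mono' (by fun_prop) (Eventually.of_forall fun x => ?_)
  have h0 := norm_nonneg x
  rw [Real.norm_of_nonneg (by positivity), Real.rpow_neg (by positivity), Real.rpow_natCast,
    ← div_eq_mul_inv, le_div_iff₀ (by positivity), mul_right_comm, ← pow_add]
  calc (1 + ‖x‖) ^ (n + (d + 1)) * Real.exp (M * ‖x‖ - c * ‖x‖ ^ 2)
      ≤ Real.exp ‖x‖ ^ (n + (d + 1)) * Real.exp (M * ‖x‖ - c * ‖x‖ ^ 2) := by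
        gcongr; linarith [Real.add_one_le_exp ‖x‖]
    _ ≤ _ := by
        rw [← Real.exp_nat_mul, ← Real.exp_add]
        apply Real.exp_le_exp.2
        rw [le_div_iff₀ (by positivity)]
        nlinarith [sq_nonneg (M + (n + (d + 1) : ℕ) - 2 * c * ‖x‖)]

lemma wt_pos (V : Pt d) (t : ℝ) (θ x : E d) : 0 < wt V t θ x := Real.exp_pos _
lemma wt_cont (V : Pt d) (t : ℝ) (θ : E d) : Continuous (wt V t θ) := by
  have := V.contW
  unfold wt; fun_prop
lemma wt_le (V : Pt d) {t t' M : ℝ} {θ : E d} (ht : t' ≤ t) (hM : ‖θ‖ ≤ M) (x : E d) :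
    wt V t θ x ≤ Real.exp (M * ‖x‖ - (t' / 2 - 1 / 4) * ‖x‖ ^ 2) := by
  apply Real.exp_le_exp.2
  have h1 := real_inner_le_norm θ x
  have h2 := (abs_le.1 (V.absW x)).1
  have h3 := mul_le_mul_of_nonneg_right hM (norm_nonneg x)
  nlinarith [sq_nonneg ‖x‖]

lemma PG.int {h : E d → ℝ} (H : PG h) (V : Pt d) {t : ℝ} (ht : 1 / 2 < t) (θ : E d) :
    Integrable (fun x => h x * wt V t θ x) := by
  obtain ⟨C, n, h0, hb⟩ := H.pos
  refine ((integrable_gauss (c := t / 2 - 1 / 4) (by linarith) ‖θ‖ n).const_mul C).mono'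
    (H.1.mul (wt_cont V t θ)).aestronglyMeasurable (Eventually.of_forall fun x => ?_)
  rw [Real.norm_eq_abs, abs_mul, abs_of_pos (wt_pos V t θ x), ← mul_assoc]
  exact mul_le_mul (hb x) (wt_le V le_rfl le_rfl x) (wt_pos V t θ x).le (by positivity)

lemma int_wt (V : Pt d) {t : ℝ} (ht : 1 / 2 < t) (θ : E d) : Integrable (wt V t θ) := by
  simpa using (PG.const 1).int V ht θ

lemma Zf_one (V : Pt d) (t : ℝ) (θ : E d) : Zf V (fun _ => 1) t θ = Zc V t θ := by simp [Zf, Zc]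

lemma Zc_pos (V : Pt d) {t : ℝ} (ht : 1 / 2 < t) (θ : E d) : 0 < Zc V t θ :=
  integral_pos_of_integrable_nonneg_nonzero (wt_cont V t θ) (int_wt V ht θ)
    (fun x => (wt_pos V t θ x).le) (wt_pos V t θ 0).ne'

lemma dens_meas (V : Pt d) (t : ℝ) (θ : E d) :
    Measurable fun x => ENNReal.ofReal (wt V t θ x / Zc V t θ) :=
  ((wt_cont V t θ).measurable.div_const _).ennreal_ofReal

lemma pm_prob (V : Pt d) {t : ℝ} (ht : 1 / 2 < t) (θ : E d) : IsProbabilityMeasure (pm V t θ) := by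
  constructor
  have hZ := Zc_pos V ht θ
  rw [pm, withDensity_apply _ MeasurableSet.univ, Measure.restrict_univ,
    ← ofReal_integral_eq_lintegral_ofReal ((int_wt V ht θ).div_const _)
      (Eventually.of_forall fun x => (div_pos (wt_pos V t θ x) hZ).le), integral_div]
  change ENNReal.ofReal (Zc V t θ / Zc V t θ) = 1
  rw [div_self hZ.ne', ENNReal.ofReal_one]

lemma integral_pm {G : Type*} [NormedAddCommGroup G] [NormedSpace ℝ G] (V : Pt d) {t : ℝ}
    (ht : 1 / 2 < t) (θ : E d) (h : E d → G) :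
    ∫ x, h x ∂(pm V t θ) = ∫ x, (wt V t θ x / Zc V t θ) • h x := by
  rw [pm, integral_withDensity_eq_integral_toReal_smul (dens_meas V t θ) (by simp)]
  refine integral_congr_ae (Eventually.of_forall fun x => ?_)
  simp only
  rw [ENNReal.toReal_ofReal (div_pos (wt_pos V t θ x) (Zc_pos V ht θ)).le]

lemma integral_pm_eq (V : Pt d) {t : ℝ} (ht : 1 / 2 < t) (θ : E d) (h : E d → ℝ) :
    ∫ x, h x ∂(pm V t θ) = Zf V h t θ / Zc V t θ := by
  rw [integral_pm V ht, Zf, ← integral_div]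
  refine integral_congr_ae (Eventually.of_forall fun x => ?_)
  simp only [smul_eq_mul]; ring

lemma PG.int_pm {h : E d → ℝ} (H : PG h) (V : Pt d) {t : ℝ} (ht : 1 / 2 < t) (θ : E d) :
    Integrable h (pm V t θ) := by
  rw [pm, integrable_withDensity_iff_integrable_smul' (dens_meas V t θ) (by simp)]
  refine ((H.int V ht θ).div_const (Zc V t θ)).congr (Eventually.of_forall fun x => ?_)
  simp only [smul_eq_mul]
  rw [ENNReal.toReal_ofReal (div_pos (wt_pos V t θ x) (Zc_pos V ht θ)).le]; ring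

/-- Differentiation of the partition integrals in `(t, θ)`. -/
lemma PG.hasFDerivAt_Zf {h : E d → ℝ} (H : PG h) (V : Pt d) {p : ℝ × E d} (hp : 1 / 2 < p.1) :
    ∃ L : ℝ × E d →L[ℝ] ℝ, HasFDerivAt (fun p : ℝ × E d => Zf V h p.1 p.2) L p ∧
      ∀ w : ℝ × E d, L w = ∑ i, Zf V (fun x => x i * h x) p.1 p.2 * w.2 i -
        Zf V (fun x => ‖x‖ ^ 2 / 2 * h x) p.1 p.2 * w.1 := by
  obtain ⟨C, n, h0, hb⟩ := H.pos
  let Lx : E d → (ℝ × E d →L[ℝ] ℝ) := fun x =>
    (innerSL ℝ x).comp (ContinuousLinearMap.snd ℝ ℝ (E d)) -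
      (‖x‖ ^ 2 / 2) • ContinuousLinearMap.fst ℝ ℝ (E d)
  have Lx_apply : ∀ x w, Lx x w = ⟪x, w.2⟫ - ‖x‖ ^ 2 / 2 * w.1 := fun x w => by simp [Lx]
  have Lx_cont : Continuous Lx := by
    refine Continuous.sub ?_ (by fun_prop)
    exact (innerSL ℝ (E := E d)).continuous.clm_comp continuous_const
  have Lx_norm : ∀ x, ‖Lx x‖ ≤ (1 + ‖x‖) ^ 2 := fun x => by
    refine ContinuousLinearMap.opNorm_le_bound _ (by positivity) fun w => ?_
    rw [Lx_apply, Real.norm_eq_abs]
    have h1 := abs_real_inner_le_norm x w.2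
    have h2 := norm_fst_le w
    have h3 := norm_snd_le w
    rw [Real.norm_eq_abs] at h2
    have h4 := norm_nonneg x
    refine (abs_sub _ _).trans ?_
    rw [abs_mul, abs_of_nonneg (by positivity : 0 ≤ ‖x‖ ^ 2 / 2)]
    nlinarith [mul_le_mul_of_nonneg_left h3 h4, mul_le_mul_of_nonneg_left h2 (sq_nonneg ‖x‖),
      norm_nonneg w, mul_nonneg h4 (norm_nonneg w), mul_nonneg (sq_nonneg ‖x‖) (norm_nonneg w)]
  set ε := (p.1 - 1 / 2) / 2 with hε
  have ε0 : 0 < ε := by linarith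
  have hint : Integrable (fun x => (h x * wt V p.1 p.2 x) • Lx x) := by
    refine ((integrable_gauss (c := p.1 / 2 - 1 / 4) (by linarith) ‖p.2‖ (n + 2)).const_mul C).mono'
      ((H.1.mul (wt_cont V _ _)).smul Lx_cont).aestronglyMeasurable
      (Eventually.of_forall fun x => ?_)
    rw [norm_smul, Real.norm_eq_abs, abs_mul, abs_of_pos (wt_pos V _ _ x), pow_add]
    calc _ ≤ C * (1 + ‖x‖) ^ n * Real.exp (‖p.2‖ * ‖x‖ - (p.1 / 2 - 1 / 4) * ‖x‖ ^ 2) *
          (1 + ‖x‖) ^ 2 := by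
          gcongr
          exacts [(wt_pos V _ _ x).le, hb x, wt_le V le_rfl le_rfl x, Lx_norm x]
      _ = _ := by ring
  refine ⟨∫ x, (h x * wt V p.1 p.2 x) • Lx x, ?_, fun w => ?_⟩
  · refine hasFDerivAt_integral_of_dominated_of_fderiv_le (s := Metric.ball p ε)
      (F := fun (p : ℝ × E d) x => h x * wt V p.1 p.2 x)
      (F' := fun (p : ℝ × E d) x => (h x * wt V p.1 p.2 x) • Lx x)
      (bound := fun x => C * ((1 + ‖x‖) ^ (n + 2) *
        Real.exp ((‖p.2‖ + ε) * ‖x‖ - ((p.1 - ε) / 2 - 1 / 4) * ‖x‖ ^ 2)))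
      (Metric.ball_mem_nhds p ε0)
      (Eventually.of_forall fun q => (H.1.mul (wt_cont V _ _)).aestronglyMeasurable)
      (H.int V hp _) hint.aestronglyMeasurable (Eventually.of_forall fun x q hq => ?_)
      ((integrable_gauss (by linarith) _ _).const_mul C)
      (Eventually.of_forall fun x q _ => ?_)
    · rw [mem_ball_iff_norm] at hq
      have h1 := (norm_fst_le (q - p)).trans hq.le
      have h2 := (norm_snd_le (q - p)).trans hq.le
      rw [Real.norm_eq_abs, Prod.fst_sub] at h1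
      rw [Prod.snd_sub] at h2
      have h3 : ‖q.2‖ ≤ ‖p.2‖ + ε := by linarith [norm_sub_norm_le q.2 p.2]
      rw [norm_smul, Real.norm_eq_abs, abs_mul, abs_of_pos (wt_pos V _ _ x), pow_add]
      calc _ ≤ C * (1 + ‖x‖) ^ n *
            Real.exp ((‖p.2‖ + ε) * ‖x‖ - ((p.1 - ε) / 2 - 1 / 4) * ‖x‖ ^ 2) * (1 + ‖x‖) ^ 2 := by
            gcongr
            exacts [(wt_pos V _ _ x).le, hb x, wt_le V (by linarith [(abs_le.1 h1).1]) h3 x,
              Lx_norm x]
        _ = _ := by ring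
    · have e1 : (fun q : ℝ × E d => h x * wt V q.1 q.2 x) =
          fun q => h x * Real.exp (Lx x q - V.W x) := by
        funext q; rw [wt, Lx_apply, real_inner_comm]; ring_nf
      have e2 : wt V q.1 q.2 x = Real.exp (Lx x q - V.W x) := by
        rw [wt, Lx_apply, real_inner_comm]; ring_nf
      rw [e1, e2, mul_smul]
      exact (((Lx x).hasFDerivAt.sub_const _).exp).const_mul (h x)
  · rw [ContinuousLinearMap.integral_apply hint]
    simp only [Zf, ← integral_mul_const]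
    rw [← integral_finsetSum _ fun i _ => (((PG.coord i).mul H).int V hp _).mul_const _,
      ← integral_sub (integrable_finsetSum _ fun i _ =>
        (((PG.coord i).mul H).int V hp _).mul_const _) ?_]
    · refine integral_congr_ae (Eventually.of_forall fun x => ?_)
      simp only [smul_apply, Lx_apply, smul_eq_mul, PiLp.inner_apply,
        RCLike.inner_apply, conj_trivial, mul_sub, Finset.mul_sum]
      congr 1
      · exact Finset.sum_congr rfl fun i _ => by ring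
      · ring
    · have : PG fun x : E d => ‖x‖ ^ 2 / 2 * h x := by
        simpa [div_eq_inv_mul] using ((PG.norm.pow 2).const_mul 2⁻¹).mul H
      exact (this.int V hp _).mul_const _

end Vale.Agent.P347
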