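import Vale.Agent.P347.Ker

/-! P347: the abstract structures for the flow calculus (`Cal`) and the cumulant bounds (`Cum`). -/

open MeasureTheory
open scoped ENNReal

noncomputable section
namespace Vale.Agent.P347

/-- Data of the flow calculus: time derivation `ds`, space derivations `dz l`, coordinates `z l`,
time `s`, velocity `v`, observable `g`, and slices `j` carrying probability measures. -/
structure Cal extends DR where
  ds : Derivation ℝ A A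
  dz : N → Derivation ℝ A A
  s : A
  z : N → A
  v : N → A
  g : N → A
  τ : N ≃ N
  J : Type
  H : Type
  [mH : MeasurableSpace H]
  pt : J → H → Pts
  ρ : J → Measure H

attribute [instance] Cal.mH

namespace Cal
variable (I : Cal)

/-- The score. -/
def h (l : I.N) : I.A := I.z l - I.s * I.v l
/-- The divergence operator. -/
def δ (w : I.N → I.A) : I.A := ∑ l, (I.h l * w l - I.dz l (w l))
def X0 (f : I.A) : I.A := I.ds f + ∑ l, I.v l * I.dz l f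
def Am (l m : I.N) : I.A := I.D l (I.g (I.τ m)) - I.D m (I.g (I.τ l))
def B (m : I.N) : I.A := I.δ fun l => I.Am l m
def X1 (f : I.A) : I.A := ∑ m, I.B m * I.dz m f
def X (α θ : ℝ) (f : I.A) : I.A := α • I.X0 f + θ • I.X1 f
def nrm (j : I.J) {ι : Type} [Fintype ι] (φ : ι → I.A) : ℝ≥0∞ :=
  ∫⁻ y, ENNReal.ofReal (∑ i, I.ev (I.pt j y) (φ i) ^ 2) ∂(I.ρ j)
def Dg : Matrix I.N I.N I.A := Matrix.of fun l m => I.D m (I.g l)
def Dv : Matrix I.N I.N I.A := Matrix.of fun l m => I.D m (I.v l)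

structure Ax (c0 : ℝ) : Prop where
  ds_dz : ∀ l f, I.ds (I.dz l f) = I.dz l (I.ds f)
  ds_D : ∀ l f, I.ds (I.D l f) = I.D l (I.ds f)
  dz_dz : ∀ l m f, I.dz l (I.dz m f) = I.dz m (I.dz l f)
  dz_D : ∀ l m f, I.dz l (I.D m f) = I.D m (I.dz l f)
  D_D : ∀ l m f, I.D l (I.D m f) = I.D m (I.D l f)
  ds_s : I.ds I.s = 1
  dz_s : ∀ l, I.dz l I.s = 0
  D_s : ∀ l, I.D l I.s = 0
  ds_z : ∀ l, I.ds (I.z l) = 0
  dz_z : ∀ l m, I.dz l (I.z m) = if l = m then 1 else 0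
  D_z : ∀ l m, I.D l (I.z m) = 0
  dz_v : ∀ l m, I.dz l (I.v m) = I.s * I.D l (I.v m)
  dz_g : ∀ l m, I.dz l (I.g m) = I.s * I.D l (I.g m)
  sym : ∀ l m, I.D l (I.v m) = I.D m (I.v l)
  X0_v : ∀ m, I.X0 (I.v m) = I.δ fun l => I.D l (I.v m)
  X0_g : ∀ m, I.X0 (I.g m) = I.δ fun l => I.D l (I.g m)
  prob : ∀ j, IsProbabilityMeasure (I.ρ j)
  meas : ∀ j f, Measurable fun y => I.ev (I.pt j y) f
  s_le : ∀ j y, |I.ev (I.pt j y) I.s| ≤ 1
  div : ∀ j (w : I.N → I.A), ∫⁻ y, ENNReal.ofReal (I.ev (I.pt j y) (I.δ w) ^ 2) ∂(I.ρ j) ≤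
    ENNReal.ofReal c0 * ∫⁻ y, ENNReal.ofReal (∑ l, I.ev (I.pt j y) (w l) ^ 2 +
      ∑ l, ∑ m, I.ev (I.pt j y) (I.dz m (w l)) ^ 2) ∂(I.ρ j)
end Cal

/-- Data for the cumulant bounds: a family `p y` of probability measures on `X`, the expectation
`Ex h` as a ring element, the statistics `u l` and the observable `f l` with Jacobians. -/
structure Cum extends DR where
  M : Type
  [fM : Fintype M]
  X : Type
  [mX : MeasurableSpace X]
  p : Pts → Measure X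
  PG : (X → ℝ) → Prop
  Ex : (X → ℝ) → A
  HG : (X → ℝ) → (M → X → ℝ) → Prop
  u : N → X → ℝ
  f : N → X → ℝ
  Ju : N → M → X → ℝ
  Jf : N → M → X → ℝ

attribute [instance] Cum.fM Cum.mX

namespace Cum
variable (I : Cum)

def Df : Matrix I.N I.N I.A := Matrix.of fun l m => I.D m (I.Ex (I.f l))

structure Ax (c : ℝ) : Prop where
  sep : ∀ a b : I.A, (∀ y, I.ev y a = I.ev y b) → a = b
  D_D : ∀ l m a, I.D l (I.D m a) = I.D m (I.D l a)
  prob : ∀ y, IsProbabilityMeasure (I.p y)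
  PG_const : ∀ r : ℝ, I.PG fun _ => r
  PG_add : ∀ a b, I.PG a → I.PG b → I.PG fun x => a x + b x
  PG_mul : ∀ a b, I.PG a → I.PG b → I.PG fun x => a x * b x
  PG_int : ∀ a y, I.PG a → Integrable a (I.p y)
  PG_u : ∀ l, I.PG (I.u l)
  PG_f : ∀ l, I.PG (I.f l)
  PG_Ju : ∀ l m, I.PG (I.Ju l m)
  PG_Jf : ∀ l m, I.PG (I.Jf l m)
  ev_Ex : ∀ a y, I.PG a → I.ev y (I.Ex a) = ∫ x, a x ∂(I.p y)
  D_Ex : ∀ a l, I.PG a → I.D l (I.Ex a) = I.Ex (fun x => I.u l x * a x) - I.Ex (I.u l) * I.Ex a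
  HG_const : ∀ r : ℝ, I.HG (fun _ => r) fun _ _ => 0
  HG_add : ∀ a b G G', I.HG a G → I.HG b G' →
    I.HG (fun x => a x + b x) fun m x => G m x + G' m x
  HG_mul : ∀ a b G G', I.HG a G → I.HG b G' →
    I.HG (fun x => a x * b x) fun m x => G m x * b x + a x * G' m x
  HG_u : ∀ l, I.HG (I.u l) (I.Ju l)
  HG_f : ∀ l, I.HG (I.f l) (I.Jf l)
  Ju_le : ∀ x (a : I.N → ℝ), ∑ m, (∑ l, a l * I.Ju l m x) ^ 2 ≤ ∑ l, a l ^ 2
  Jf_le : ∀ x (a : I.N → ℝ), ∑ m, (∑ l, a l * I.Jf l m x) ^ 2 ≤ ∑ l, a l ^ 2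
  poin : ∀ a G y, I.PG a → (∀ m, I.PG (G m)) → I.HG a G →
    ∫ x, a x ^ 2 ∂(I.p y) - (∫ x, a x ∂(I.p y)) ^ 2 ≤ c * ∫ x, ∑ m, G m x ^ 2 ∂(I.p y)
end Cum

end Vale.Agent.P347
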