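import Vale.Agent.P347.CalcB

/-! P347 part Calc: dimension-free L2 bounds for iterated derivatives along the flows. -/

open MeasureTheory
open scoped ENNReal

namespace Vale.Agent.P347

namespace CalcAux

open Matrix

variable {ι : Type} {I : ι → Cal} {c0 : ℝ}

/-- The families reached from the identity by kernels, gradients and divergences. -/
inductive F (I : ι → Cal) : ∀ (κ : ι → Type) [∀ i, Fintype (κ i)], (∀ i, κ i → (I i).A) → Prop
  | e : F I (fun i => (I i).N × (I i).N) fun _ p => if p.1 = p.2 then 1 else 0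
  | ker {L R : ι → Type} [∀ i, Fintype (L i)] [∀ i, Fintype (R i)]
      {T : ∀ i, Matrix (L i) (R i) (I i).A} {φ : ∀ i, R i → (I i).A} :
      K0 I L R T → F I R φ → F I L fun i => T i *ᵥ φ i
  | grad {κ : ι → Type} [∀ i, Fintype (κ i)] {φ : ∀ i, κ i → (I i).A} :
      F I κ φ → F I (fun i => κ i × (I i).N) (grad I φ)
  | dvg {κ : ι → Type} [∀ i, Fintype (κ i)] {w : ∀ i, κ i × (I i).N → (I i).A} :
      F I (fun i => κ i × (I i).N) w → F I κ (dvg I w)
  | add {κ : ι → Type} [∀ i, Fintype (κ i)] {φ ψ : ∀ i, κ i → (I i).A} :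
      F I κ φ → F I κ ψ → F I κ fun i a => φ i a + ψ i a
  | neg {κ : ι → Type} [∀ i, Fintype (κ i)] {φ : ∀ i, κ i → (I i).A} :
      F I κ φ → F I κ fun i a => -φ i a
  | smul {κ : ι → Type} [∀ i, Fintype (κ i)] {φ : ∀ i, κ i → (I i).A} :
      F I κ φ → F I κ fun i a => (I i).s * φ i a

section
variable {κ : ι → Type} [∀ i, Fintype (κ i)] {φ ψ : ∀ i, κ i → (I i).A}

theorem F.congr (h : F I κ φ) (e : ∀ i a, ψ i a = φ i a) : F I κ ψ := by
  rwa [show ψ = φ from funext fun i => funext (e i)]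

theorem F.sk (hI : ∀ i, (I i).Ax c0) (hg : ∀ k, ∃ c, ∀ i, (I i).toDR.CB c k (I i).Dg)
    (hv : ∀ k, ∃ c, ∀ i, (I i).toDR.CB c k (I i).Dv) (h : F I κ φ) : ∀ k, Sk I k κ φ := by
  induction h with
  | e => exact Sk.e hI
  | ker hT _ ih => exact fun k => Sk.ker hI hg hv k hT (ih k)
  | grad _ ih => exact fun k => (ih (k + 1)).2
  | dvg _ ih => exact fun k => Sk.dvg hI hg hv k (ih (k + 1))
  | add _ _ ih ih' => exact fun k => Sk.add hI k (ih k) (ih' k)
  | neg _ ih => exact fun k => Sk.neg hI k (ih k)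
  | smul _ ih => exact fun k => Sk.smul hI k (ih k)

theorem F.x0 (hI : ∀ i, (I i).Ax c0) (h : F I κ φ) : F I κ fun i a => (I i).X0 (φ i a) := by
  induction h with
  | e =>
    refine (F.e.add F.e.neg).congr fun i a => ?_
    by_cases h : a.1 = a.2 <;> simp [h, X0_one, X0_zero]
  | @ker L R _ _ T φ hT h ih =>
    obtain ⟨Q, h1, h2⟩ := hT.ef hI
    refine ((((F.ker hT.dl h).dvg.add (F.ker hT.dr h.grad)).add (F.ker h1 h).smul).add
      (F.ker hT ih)).congr fun i a => ?_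
    have e : ∀ b, (I i).X0 (T i a b) = _ := h2 i a
    simp only [mulVec, dotProduct, X0_sum, X0_mul, e, CalcAux.dvg, CalcAux.grad, DR.DL_apply,
      DR.DRt_apply, δ_sum, δ_mul, Fintype.sum_prod_type, Finset.mul_sum, ← Finset.sum_add_distrib]
    exact Finset.sum_congr rfl fun b _ => by ring
  | @grad κ _ φ h ih =>
    refine (ih.grad.add (F.ker (K0.sg κ) h.grad).smul.neg).congr fun i a => ?_
    rw [sg_mulVec, ← sub_eq_add_neg]
    exact X0_dz (hI i) _ _
  | @dvg κ _ w h ih =>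
    refine (ih.dvg.add (F.ker (K0.sg κ) h).dvg.smul.neg).congr fun i a => ?_
    simp only [CalcAux.dvg, sg_mulVec, ← sub_eq_add_neg]
    exact X0_δ (hI i) _
  | add _ _ ih ih' => exact (ih.add ih').congr fun i a => X0_add _ _
  | neg _ ih => exact ih.neg.congr fun i a => X0_neg _
  | smul h ih => exact (h.add ih.smul).congr fun i a => by rw [X0_mul, X0_s (hI i), one_mul]

theorem K0.am : K0 I (fun i => (I i).N) (fun i => (I i).N) fun i => Matrix.of (I i).Am := by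
  have h := K0.sub (I := I) (fun i => (I i).τ) (fun i => Equiv.refl _) K0.dg
  have h2 := h.tr.add h.neg
  rwa [show (fun i => Matrix.of (I i).Am) = _ from funext fun i => ?_]
  ext l m
  simp [Cal.Am, Cal.Dg, sub_eq_add_neg]

theorem F.x1 (hI : ∀ i, (I i).Ax c0) (h : F I κ φ) : F I κ fun i a => (I i).X1 (φ i a) := by
  classical
  refine (F.ker (K0.sub (fun i => Equiv.prodComm _ _) (fun i => Equiv.prodComm _ _)
    (K0.am.tens κ)) h.grad).dvg.congr fun i a => ?_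
  rw [X1_eq (hI i)]
  simp [CalcAux.dvg, CalcAux.grad, mulVec, dotProduct, Fintype.sum_prod_type_right]

theorem F.of_ker {T : ∀ i, Matrix (κ i) (I i).N (I i).A} (h : K0 I κ (fun i => (I i).N) T) :
    F I (fun i => κ i × (I i).N) fun i p => T i p.1 p.2 :=
  (F.ker (h.tens fun i => (I i).N) F.e).congr fun i p => by
    simp [mulVec, dotProduct, Fintype.sum_prod_type]

end

/-- The bound for the `k`-th iterate. -/
def P (I : ι → Cal) (k : ℕ) (κ : ι → Type) [∀ i, Fintype (κ i)] (φ : ∀ i, κ i → (I i).A) : Prop :=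
  ∃ C : ℝ, 0 ≤ C ∧ ∀ i j (α θ : ℝ), (I i).nrm j (fun a => ((I i).X α θ)^[k] (φ i a)) ≤
    ENNReal.ofReal (C * (|α| + |θ|) ^ (2 * k) * Fintype.card (I i).N)

theorem P.step (hI : ∀ i, (I i).Ax c0) {k : ℕ} {κ : ι → Type} [∀ i, Fintype (κ i)]
    {φ : ∀ i, κ i → (I i).A} (h0 : P I k κ fun i a => (I i).X0 (φ i a))
    (h1 : P I k κ fun i a => (I i).X1 (φ i a)) : P I (k + 1) κ φ := by
  obtain ⟨C, hC, h0⟩ := h0
  obtain ⟨C', hC', h1⟩ := h1
  refine ⟨C + C', by positivity, fun i j α θ => ?_⟩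
  refine (nrm_le (hI i) j (φ := fun a => ((I i).X α θ)^[k] ((I i).X0 (φ i a)))
    (ψ := fun a => ((I i).X α θ)^[k] ((I i).X1 (φ i a))) (sq_nonneg (|α| + |θ|))
    fun y => ?_).trans ?_
  · simp only [sq, ← Finset.sum_add_distrib, Finset.mul_sum, Function.iterate_succ_apply]
    refine Finset.sum_le_sum fun a _ => ?_
    rw [show (I i).X α θ (φ i a) = α • (I i).X0 (φ i a) + θ • (I i).X1 (φ i a) from rfl,
      X_iter_lin, map_add, map_smul, map_smul, smul_eq_mul, smul_eq_mul]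
    generalize (I i).ev _ _ = x
    generalize (I i).ev _ _ = y
    nlinarith [sq_nonneg (α * y - θ * x), sq_abs α, sq_abs θ, mul_nonneg (mul_nonneg
      (abs_nonneg α) (abs_nonneg θ)) (add_nonneg (sq_nonneg x) (sq_nonneg y))]
  · refine (mul_le_mul_right (add_le_add (h0 i j α θ) (h1 i j α θ)) _).trans (le_of_eq ?_)
    rw [← ENNReal.ofReal_add (by positivity) (by positivity), ← ENNReal.ofReal_mul (by positivity)]
    congr 1
    ring

theorem F.p (hI : ∀ i, (I i).Ax c0) (hg : ∀ k, ∃ c, ∀ i, (I i).toDR.CB c k (I i).Dg)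
    (hv : ∀ k, ∃ c, ∀ i, (I i).toDR.CB c k (I i).Dv) {κ : ι → Type} [∀ i, Fintype (κ i)] (k : ℕ) :
    ∀ {φ : ∀ i, κ i → (I i).A}, F I κ φ → P I k κ φ := by
  induction k with
  | zero =>
    intro φ h
    obtain ⟨c, hc⟩ := h.sk hI hg hv 0
    refine ⟨c, c.2, fun i j α θ => (hc i j).trans (le_of_eq ?_)⟩
    simp [ENNReal.ofReal_mul]
  | succ k ih => exact fun h => P.step hI (ih (h.x0 hI)) (ih (h.x1 hI))

end CalcAux

open CalcAux

theorem Cal.div_B {I : Cal} {c0 : ℝ} (hI : I.Ax c0) : I.δ I.B = 0 := CalcAux.div_B hI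

theorem Cal.X_g {I : Cal} {c0 : ℝ} (hI : I.Ax c0) (α θ : ℝ) (m : I.N) :
    I.X α θ (I.g m) = α • I.δ (fun l => I.D l (I.g m)) + θ • I.X1 (I.g m) := by
  rw [Cal.X, hI.X0_g]

theorem Cal.B_growth {ι : Type} (I : ι → Cal) (c0 : ℝ) (hI : ∀ i, (I i).Ax c0)
    (hg : ∀ k, ∃ c, ∀ i, (I i).toDR.CB c k (I i).Dg) :
    ∃ C : ℝ, ∀ i j y m, |(I i).ev ((I i).pt j y) ((I i).B m)| ≤
      C * (Fintype.card (I i).N + ∑ l, |(I i).ev ((I i).pt j y) ((I i).h l)|) := by
  obtain ⟨c, hc⟩ := hg 1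
  refine ⟨2 * |c|, fun i j y m => ?_⟩
  have h1 : ∀ a b, |(I i).ev ((I i).pt j y) ((I i).D b ((I i).g a))| ≤ |c| := fun a b =>
    ((hc i).1 ((I i).pt j y)).entry a b
  have h2 : ∀ a b l, |(I i).ev ((I i).pt j y) ((I i).dz l ((I i).D b ((I i).g a)))| ≤ |c| :=
    fun a b l => by
      rw [Kf.D (hI i) (fun l => (hI i).dz_g l a) b l, map_mul, abs_mul]
      exact (mul_le_of_le_one_left (abs_nonneg _) ((hI i).s_le j y)).trans
        (((hc i).2.1 ((I i).pt j y)).entry (a, l) b)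
  have h3 : (Fintype.card (I i).N : ℝ) = ∑ _l : (I i).N, 1 := by simp
  rw [h3, ← Finset.sum_add_distrib, Finset.mul_sum, Cal.B, Cal.δ, map_sum]
  refine (Finset.abs_sum_le_sum_abs _ _).trans (Finset.sum_le_sum fun l _ => ?_)
  rw [map_sub, map_mul, Cal.Am, map_sub, map_sub, map_sub]
  refine (abs_sub _ _).trans ?_
  rw [abs_mul]
  have h4 := (abs_sub _ _).trans (add_le_add (h1 ((I i).τ m) l) (h1 ((I i).τ l) m))
  have h5 := (abs_sub _ _).trans (add_le_add (h2 ((I i).τ m) l l) (h2 ((I i).τ l) m l))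
  nlinarith [mul_le_mul_of_nonneg_left h4 (abs_nonneg ((I i).ev ((I i).pt j y) ((I i).h l)))]

theorem Cal.bound {ι : Type} (I : ι → Cal) (c0 : ℝ) (hI : ∀ i, (I i).Ax c0)
    (hg : ∀ k, ∃ c, ∀ i, (I i).toDR.CB c k (I i).Dg)
    (hv : ∀ k, ∃ c, ∀ i, (I i).toDR.CB c k (I i).Dv) (k : ℕ) :
    ∃ C : ℝ, 0 ≤ C ∧ ∀ i j (α θ : ℝ),
      (I i).nrm j (fun m => ((I i).X α θ)^[k] ((I i).B m)) ≤
        ENNReal.ofReal (C * (|α| + |θ|) ^ (2 * k) * Fintype.card (I i).N) ∧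
      (I i).nrm j (fun m => ((I i).X α θ)^[k] ((I i).X1 ((I i).g m))) ≤
        ENNReal.ofReal (C * (|α| + |θ|) ^ (2 * k) * Fintype.card (I i).N) ∧
      (I i).nrm j (fun m => ((I i).X α θ)^[k + 1] ((I i).g m)) ≤
        ENNReal.ofReal (C * (|α| + |θ|) ^ (2 * (k + 1)) * Fintype.card (I i).N) := by
  have fB : F I (fun i => (I i).N) fun i => (I i).B := (F.of_ker K0.am.tr).dvg
  have f0 : F I (fun i => (I i).N) fun i m => (I i).X0 ((I i).g m) :=
    (F.of_ker K0.dg).dvg.congr fun i m => (hI i).X0_g m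
  have f1 : F I (fun i => (I i).N) fun i m => (I i).X1 ((I i).g m) :=
    (F.of_ker (K0.dg.mul K0.am.tr)).smul.dvg.congr fun i m => by
      rw [X1_eq (hI i)]
      simp [dvg, Matrix.mul_apply, Cal.Dg, (hI i).dz_g, Finset.mul_sum, mul_comm, mul_left_comm]
  obtain ⟨C1, a1, b1⟩ := fB.p hI hg hv k
  obtain ⟨C2, a2, b2⟩ := f1.p hI hg hv k
  obtain ⟨C3, a3, b3⟩ := P.step hI (f0.p hI hg hv k) (f1.p hI hg hv k)
  refine ⟨C1 + C2 + C3, by positivity, fun i j α θ => ⟨(b1 i j α θ).trans ?_,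
    (b2 i j α θ).trans ?_, (b3 i j α θ).trans ?_⟩⟩ <;>
  refine ENNReal.ofReal_le_ofReal ?_ <;> gcongr <;> linarith

end Vale.Agent.P347
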