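import Vale.Agent.P347.CalDefs

/-! P347 part Calc, algebraic identities. -/

open MeasureTheory Matrix
open scoped ENNReal

namespace Vale.Agent.P347.CalcAux

theorem sum_antisymm {A N : Type} [CommRing A] [Algebra ℝ A] [Fintype N] (t : N → N → A)
    (h : ∀ l m, t l m = -t m l) : ∑ l, ∑ m, t l m = 0 := by
  have h1 : ∑ l, ∑ m, t l m = -∑ l, ∑ m, t l m := by
    conv_lhs => rw [Finset.sum_comm]
    simp only [← Finset.sum_neg_distrib]
    exact Finset.sum_congr rfl fun l _ => Finset.sum_congr rfl fun m _ => h m l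
  have h2 : (2 : ℝ) • ∑ l, ∑ m, t l m = 0 := by
    rw [two_smul]; nth_rewrite 1 [h1]; exact neg_add_cancel _
  have h3 := congrArg (fun x => (2 : ℝ)⁻¹ • x) h2
  simpa [smul_smul] using h3

variable {I : Cal} {c0 : ℝ}

theorem der_mul (d : Derivation ℝ I.A I.A) (f g : I.A) : d (f * g) = d f * g + f * d g := by
  rw [Derivation.leibniz, smul_eq_mul, smul_eq_mul]; ring

theorem X0_add (f g : I.A) : I.X0 (f + g) = I.X0 f + I.X0 g := by
  simp only [Cal.X0, map_add, mul_add, Finset.sum_add_distrib]; ring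

theorem X0_zero : I.X0 0 = 0 := by simp [Cal.X0]

theorem X0_one : I.X0 1 = 0 := by simp [Cal.X0]

theorem X0_neg (f : I.A) : I.X0 (-f) = -I.X0 f := by
  simp only [Cal.X0, map_neg, mul_neg, Finset.sum_neg_distrib]; ring

theorem X0_sub (f g : I.A) : I.X0 (f - g) = I.X0 f - I.X0 g := by
  rw [sub_eq_add_neg, X0_add, X0_neg, sub_eq_add_neg]

theorem X0_sum {κ : Type} (S : Finset κ) (f : κ → I.A) :
    I.X0 (∑ a ∈ S, f a) = ∑ a ∈ S, I.X0 (f a) := by
  simp only [Cal.X0, map_sum, Finset.mul_sum, Finset.sum_add_distrib]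
  rw [Finset.sum_comm]

theorem X0_mul (f g : I.A) : I.X0 (f * g) = I.X0 f * g + f * I.X0 g := by
  simp only [Cal.X0, der_mul, mul_add, add_mul, Finset.sum_add_distrib, Finset.sum_mul,
    Finset.mul_sum, mul_assoc, mul_left_comm f]
  ring

theorem X_lin (α θ a b : ℝ) (f g : I.A) :
    I.X α θ (a • f + b • g) = a • I.X α θ f + b • I.X α θ g := by
  simp only [Cal.X, Cal.X0, Cal.X1, map_add, Derivation.map_smul, mul_add, mul_smul_comm,
    Finset.sum_add_distrib, ← Finset.smul_sum]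
  module

theorem X_iter_lin (α θ a b : ℝ) (k : ℕ) : ∀ f g : I.A,
    (I.X α θ)^[k] (a • f + b • g) = a • (I.X α θ)^[k] f + b • (I.X α θ)^[k] g := by
  induction k with
  | zero => intro f g; rfl
  | succ k ih => intro f g; simp only [Function.iterate_succ_apply, X_lin, ih]

theorem δ_add (w w' : I.N → I.A) : I.δ (fun l => w l + w' l) = I.δ w + I.δ w' := by
  simp only [Cal.δ, map_add, ← Finset.sum_add_distrib]
  exact Finset.sum_congr rfl fun l _ => by ring

theorem δ_zero : I.δ (fun _ => 0) = 0 := by simp [Cal.δ]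

theorem δ_neg (w : I.N → I.A) : I.δ (fun l => -w l) = -I.δ w := by
  simp only [Cal.δ, map_neg, ← Finset.sum_neg_distrib]
  exact Finset.sum_congr rfl fun l _ => by ring

theorem δ_sum {κ : Type} (S : Finset κ) (w : κ → I.N → I.A) :
    I.δ (fun l => ∑ a ∈ S, w a l) = ∑ a ∈ S, I.δ (w a) := by
  simp only [Cal.δ, map_sum, Finset.mul_sum, ← Finset.sum_sub_distrib]
  rw [Finset.sum_comm]

theorem δ_mul (w : I.N → I.A) (f : I.A) :
    I.δ (fun l => w l * f) = I.δ w * f - ∑ l, w l * I.dz l f := by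
  simp only [Cal.δ, der_mul, Finset.sum_mul, ← Finset.sum_sub_distrib]
  exact Finset.sum_congr rfl fun l _ => by ring

section
variable (hI : I.Ax c0)
include hI

theorem dz_h (m l : I.N) :
    I.dz m (I.h l) = (if m = l then 1 else 0) - I.s * (I.s * I.D m (I.v l)) := by
  simp only [Cal.h, map_sub, der_mul, hI.dz_z, hI.dz_s, hI.dz_v]; ring

theorem D_h (m l : I.N) : I.D m (I.h l) = -(I.s * I.D m (I.v l)) := by
  simp only [Cal.h, map_sub, der_mul, hI.D_z, hI.D_s]; ring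

theorem dz_δ (m : I.N) (w : I.N → I.A) : I.dz m (I.δ w) =
    I.δ (fun l => I.dz m (w l)) + w m - I.s * (I.s * ∑ l, I.D m (I.v l) * w l) := by
  have : w m = ∑ l, (if m = l then 1 else 0) * w l := by simp
  rw [this]
  simp only [Cal.δ, map_sum, map_sub, der_mul, dz_h hI, hI.dz_dz m, Finset.mul_sum,
    ← Finset.sum_sub_distrib, ← Finset.sum_add_distrib]
  exact Finset.sum_congr rfl fun l _ => by ring

theorem D_δ (m : I.N) (w : I.N → I.A) : I.D m (I.δ w) =
    I.δ (fun l => I.D m (w l)) - I.s * ∑ l, I.D m (I.v l) * w l := by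
  simp only [Cal.δ, map_sum, map_sub, der_mul, D_h hI, hI.dz_D, Finset.mul_sum,
    ← Finset.sum_sub_distrib]
  exact Finset.sum_congr rfl fun l _ => by ring

theorem X0_s : I.X0 I.s = 1 := by simp [Cal.X0, hI.ds_s, hI.dz_s]

theorem X0_h (l : I.N) : I.X0 (I.h l) = -(I.s * I.δ fun m => I.D m (I.v l)) := by
  have : I.X0 (I.z l) = I.v l := by simp [Cal.X0, hI.ds_z, hI.dz_z]
  rw [Cal.h, X0_sub, X0_mul, this, X0_s hI, hI.X0_v]; ring

theorem X0_dz (m : I.N) (f : I.A) : I.X0 (I.dz m f) =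
    I.dz m (I.X0 f) - I.s * ∑ l, I.D m (I.v l) * I.dz l f := by
  simp only [Cal.X0, map_add, map_sum, der_mul, hI.ds_dz, hI.dz_v, hI.dz_dz m, Finset.mul_sum,
    Finset.sum_add_distrib, mul_assoc]
  ring

theorem X0_D (m : I.N) (f : I.A) : I.X0 (I.D m f) =
    I.D m (I.X0 f) - ∑ l, I.D m (I.v l) * I.dz l f := by
  simp only [Cal.X0, map_add, map_sum, der_mul, hI.ds_D, hI.dz_D, Finset.sum_add_distrib]
  ring

theorem X0_δ (w : I.N → I.A) : I.X0 (I.δ w) =
    I.δ (fun l => I.X0 (w l)) - I.s * I.δ fun m => ∑ l, I.D m (I.v l) * w l := by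
  have h1 : ∑ l, ∑ m, I.D m (I.v l) * I.dz m (w l) = ∑ l, ∑ m, I.D l (I.v m) * I.dz m (w l) :=
    Finset.sum_congr rfl fun l _ => Finset.sum_congr rfl fun m _ => by rw [hI.sym]
  rw [δ_sum]
  simp only [δ_mul, Finset.sum_sub_distrib, h1]
  conv_lhs => rw [Cal.δ]
  conv_rhs => rw [Cal.δ]
  simp only [X0_sum, X0_sub, X0_mul, X0_h hI, X0_dz hI, mul_sub, Finset.mul_sum,
    ← Finset.sum_sub_distrib]
  exact Finset.sum_congr rfl fun l _ => by ring

omit hI in
theorem Am_anti (l m : I.N) : I.Am l m = -I.Am m l := by simp [Cal.Am]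

theorem X1_eq (f : I.A) : I.X1 f = I.δ fun l => ∑ m, I.Am l m * I.dz m f := by
  rw [δ_sum]
  simp only [δ_mul, Finset.sum_sub_distrib]
  rw [sum_antisymm (fun m l => I.Am l m * I.dz l (I.dz m f)) fun m l => by
    rw [Am_anti l m, hI.dz_dz l m]; ring, sub_zero]
  rfl

theorem div_B : I.δ I.B = 0 := by
  have h1 : I.δ I.B = ∑ m, ∑ l, (I.h m * (I.h l * I.Am l m - I.dz l (I.Am l m)) -
      (I.dz m (I.h l) * I.Am l m + I.h l * I.dz m (I.Am l m) - I.dz m (I.dz l (I.Am l m)))) := by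
    simp only [Cal.δ, Cal.B, map_sum, map_sub, der_mul, Finset.sum_sub_distrib,
      ← Finset.mul_sum]
  rw [h1]
  refine sum_antisymm _ fun m l => ?_
  rw [Am_anti l m, dz_h hI, dz_h hI, hI.sym m l, map_neg, map_neg, map_neg, hI.dz_dz m l]
  simp only [eq_comm (a := m) (b := l)]
  ring

end

/-- The space derivatives are `s` times the parameter derivatives. -/
def Kf (I : Cal) (f : I.A) : Prop := ∀ l, I.dz l f = I.s * I.D l f

/-- The flow derivative is a divergence up to the remainder `s * R`. -/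
def Ef (I : Cal) (f R : I.A) : Prop := I.X0 f = I.δ (fun m => I.D m f) + I.s * R

theorem Kf.D (hI : I.Ax c0) {f : I.A} (h : Kf I f) (m : I.N) : Kf I (I.D m f) := fun l => by
  rw [hI.dz_D, h l, der_mul, hI.D_s, hI.D_D]; ring

theorem Kf.zero : Kf I 0 := fun l => by simp

theorem Kf.add {f g : I.A} (h : Kf I f) (h' : Kf I g) : Kf I (f + g) := fun l => by
  rw [map_add, map_add, h l, h' l]; ring

theorem Kf.neg {f : I.A} (h : Kf I f) : Kf I (-f) := fun l => by
  rw [map_neg, map_neg, h l]; ring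

theorem Kf.mul {f g : I.A} (h : Kf I f) (h' : Kf I g) : Kf I (f * g) := fun l => by
  rw [der_mul, der_mul, h l, h' l]; ring

theorem Kf.sum {κ : Type} [Fintype κ] {f : κ → I.A} (h : ∀ a, Kf I (f a)) : Kf I (∑ a, f a) :=
  fun l => by simp only [map_sum, h _ l, Finset.mul_sum]

theorem Ef.D (hI : I.Ax c0) {f R : I.A} (h : Kf I f) (h' : Ef I f R) (m : I.N) :
    Ef I (I.D m f) (I.D m R + -(∑ l, I.D m (I.v l) * I.D l f + ∑ l, I.D m (I.v l) * I.D l f)) := by
  unfold Ef at h' ⊢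
  rw [X0_D hI, h', map_add, D_δ hI, der_mul, hI.D_s]
  simp only [h _, hI.D_D m, mul_left_comm _ I.s, ← Finset.mul_sum]
  ring

theorem Ef.zero : Ef I 0 0 := by simp [Ef, X0_zero, δ_zero]

theorem Ef.add {f g R R' : I.A} (h : Ef I f R) (h' : Ef I g R') : Ef I (f + g) (R + R') := by
  unfold Ef at h h' ⊢
  simp only [X0_add, h, h', map_add, δ_add]; ring

theorem Ef.neg {f R : I.A} (h : Ef I f R) : Ef I (-f) (-R) := by
  unfold Ef at h ⊢
  simp only [X0_neg, h, map_neg, δ_neg]; ring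

theorem Ef.mul {f g R R' : I.A} (k : Kf I f) (k' : Kf I g) (h : Ef I f R) (h' : Ef I g R') :
    Ef I (f * g) (R * g + f * R' + (∑ m, I.D m f * I.D m g + ∑ m, I.D m f * I.D m g)) := by
  unfold Ef at h h' ⊢
  have e : (fun m => I.D m (f * g)) = fun m => I.D m f * g + I.D m g * f :=
    funext fun m => by rw [der_mul]; ring
  have e1 : ∑ l, I.D l f * I.dz l g = I.s * ∑ m, I.D m f * I.D m g := by
    rw [Finset.mul_sum]; exact Finset.sum_congr rfl fun l _ => by rw [k' l]; ring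
  have e2 : ∑ l, I.D l g * I.dz l f = I.s * ∑ m, I.D m f * I.D m g := by
    rw [Finset.mul_sum]; exact Finset.sum_congr rfl fun l _ => by rw [k l]; ring
  rw [X0_mul, h, h', e, δ_add, δ_mul, δ_mul, e1, e2]
  ring

theorem Ef.sum {κ : Type} [Fintype κ] {f R : κ → I.A} (h : ∀ a, Ef I (f a) (R a)) :
    Ef I (∑ a, f a) (∑ a, R a) := by
  unfold Ef at h ⊢
  simp only [X0_sum, h, map_sum, δ_sum, Finset.sum_add_distrib, Finset.mul_sum]

end Vale.Agent.P347.CalcAux
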