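import Vale.Agent.P347.CalcA

/-! P347 part Calc, kernel families and Sobolev bounds. -/

open MeasureTheory Matrix
open scoped ENNReal NNReal

namespace Vale.Agent.P347.CalcAux

variable {ι : Type} {I : ι → Cal} {c0 : ℝ}

/-- The kernel families generated by the Jacobians of `g` and `v`. -/
inductive K0 (I : ι → Cal) : ∀ (L R : ι → Type) [∀ i, Fintype (L i)] [∀ i, Fintype (R i)],
    (∀ i, Matrix (L i) (R i) (I i).A) → Prop
  | dg : K0 I (fun i => (I i).N) (fun i => (I i).N) fun i => (I i).Dg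
  | dv : K0 I (fun i => (I i).N) (fun i => (I i).N) fun i => (I i).Dv
  | dl {L R : ι → Type} [∀ i, Fintype (L i)] [∀ i, Fintype (R i)]
      {T : ∀ i, Matrix (L i) (R i) (I i).A} : K0 I L R T →
      K0 I (fun i => L i × (I i).N) R fun i => (I i).toDR.DL (T i)
  | mul {L R S : ι → Type} [∀ i, Fintype (L i)] [∀ i, Fintype (R i)] [∀ i, Fintype (S i)]
      {T : ∀ i, Matrix (L i) (R i) (I i).A} {U : ∀ i, Matrix (R i) (S i) (I i).A} :
      K0 I L R T → K0 I R S U → K0 I L S fun i => T i * U i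
  | add {L R : ι → Type} [∀ i, Fintype (L i)] [∀ i, Fintype (R i)]
      {T U : ∀ i, Matrix (L i) (R i) (I i).A} : K0 I L R T → K0 I L R U →
      K0 I L R fun i => T i + U i
  | neg {L R : ι → Type} [∀ i, Fintype (L i)] [∀ i, Fintype (R i)]
      {T : ∀ i, Matrix (L i) (R i) (I i).A} : K0 I L R T → K0 I L R fun i => -T i
  | tens {L R : ι → Type} [∀ i, Fintype (L i)] [∀ i, Fintype (R i)] (M : ι → Type)
      [∀ i, Fintype (M i)] [∀ i, DecidableEq (M i)] {T : ∀ i, Matrix (L i) (R i) (I i).A} :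
      K0 I L R T → K0 I (fun i => L i × M i) (fun i => R i × M i) fun i => tens (M i) (T i)
  | sub {L R L' R' : ι → Type} [∀ i, Fintype (L i)] [∀ i, Fintype (R i)] [∀ i, Fintype (L' i)]
      [∀ i, Fintype (R' i)] (e : ∀ i, L' i ≃ L i) (e' : ∀ i, R' i ≃ R i)
      {T : ∀ i, Matrix (L i) (R i) (I i).A} : K0 I L R T →
      K0 I L' R' fun i => (T i).submatrix (e i) (e' i)
  | tr {L R : ι → Type} [∀ i, Fintype (L i)] [∀ i, Fintype (R i)]
      {T : ∀ i, Matrix (L i) (R i) (I i).A} : K0 I L R T → K0 I R L fun i => (T i)ᵀ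

section
variable {L R : ι → Type} [∀ i, Fintype (L i)] [∀ i, Fintype (R i)]
  {T : ∀ i, Matrix (L i) (R i) (I i).A}

theorem K0.dr (h : K0 I L R T) :
    K0 I L (fun i => R i × (I i).N) fun i => (I i).toDR.DRt (T i) := h.tr.dl.tr

open Classical in
/-- The kernel `1 ⊗ Dv`. -/
noncomputable def sg (I : ι → Cal) (L : ι → Type) (i : ι) :
    Matrix (L i × (I i).N) (L i × (I i).N) (I i).A :=
  (tens (L i) (I i).Dvᵀ).submatrix (Equiv.prodComm _ _) (Equiv.prodComm _ _)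

theorem K0.sg (L : ι → Type) [∀ i, Fintype (L i)] :
    K0 I (fun i => L i × (I i).N) (fun i => L i × (I i).N) (sg I L) := by
  classical
  exact K0.sub _ _ (K0.tens L K0.dv.tr)

theorem sg_mulVec (i : ι) (w : L i × (I i).N → (I i).A) (p : L i × (I i).N) :
    (sg I L i *ᵥ w) p = ∑ l, (I i).D p.2 ((I i).v l) * w (p.1, l) := by
  classical
  simp [sg, mulVec, dotProduct, Fintype.sum_prod_type_right, Cal.Dv]

theorem K0.cb (hg : ∀ k, ∃ c, ∀ i, (I i).toDR.CB c k (I i).Dg)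
    (hv : ∀ k, ∃ c, ∀ i, (I i).toDR.CB c k (I i).Dv) (h : K0 I L R T) :
    ∀ k, ∃ c, ∀ i, (I i).toDR.CB c k (T i) := by
  induction h with
  | dg => exact hg
  | dv => exact hv
  | dl _ ih => exact fun k => (ih (k + 1)).imp fun c hc i => (hc i).2.1
  | mul _ _ ih ih' =>
    intro k
    obtain ⟨c, hc⟩ := ih k
    obtain ⟨c', hc'⟩ := ih' k
    exact ⟨_, fun i => DR.CB.mul k (hc i) (hc' i)⟩
  | add _ _ ih ih' =>
    intro k
    obtain ⟨c, hc⟩ := ih k
    obtain ⟨c', hc'⟩ := ih' k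
    exact ⟨_, fun i => DR.CB.add k (hc i) (hc' i)⟩
  | neg _ ih => exact fun k => (ih k).imp fun c hc i => DR.CB.neg k (hc i)
  | tens M _ ih => exact fun k => (ih k).imp fun c hc i => DR.CB.tens _ k (hc i)
  | sub e e' _ ih => exact fun k => (ih k).imp fun c hc i => DR.CB.sub k _ _ (hc i)
  | tr _ ih => exact fun k => (ih k).imp fun c hc i => DR.CB.transpose k (hc i)

theorem K0.kf (hI : ∀ i, (I i).Ax c0) (h : K0 I L R T) : ∀ i a b, Kf (I i) (T i a b) := by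
  induction h with
  | dg => exact fun i a b => Kf.D (hI i) (fun l => (hI i).dz_g l a) b
  | dv => exact fun i a b => Kf.D (hI i) (fun l => (hI i).dz_v l a) b
  | dl _ ih => exact fun i a b => (ih i a.1 b).D (hI i) a.2
  | mul _ _ ih ih' => exact fun i a b => Kf.sum fun x => (ih i a x).mul (ih' i x b)
  | add _ _ ih ih' => exact fun i a b => (ih i a b).add (ih' i a b)
  | neg _ ih => exact fun i a b => (ih i a b).neg
  | tens M _ ih =>
    intro i a b
    simp only [tens_apply]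
    split_ifs
    exacts [ih i _ _, Kf.zero]
  | sub e e' _ ih => exact fun i a b => ih i _ _
  | tr _ ih => exact fun i a b => ih i _ _

theorem K0.ef (hI : ∀ i, (I i).Ax c0) (h : K0 I L R T) :
    ∃ Q, K0 I L R Q ∧ ∀ i a b, Ef (I i) (T i a b) (Q i a b) := by
  induction h with
  | dg =>
    refine ⟨_, ((K0.dg.mul K0.dv).add (K0.dg.mul K0.dv)).neg, fun i a b => ?_⟩
    have := Ef.D (hI i) (R := 0) (fun l => (hI i).dz_g l a) (by simp [Ef, (hI i).X0_g]) b
    simpa [Matrix.mul_apply, Cal.Dg, Cal.Dv, mul_comm] using this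
  | dv =>
    refine ⟨_, ((K0.dv.mul K0.dv).add (K0.dv.mul K0.dv)).neg, fun i a b => ?_⟩
    have := Ef.D (hI i) (R := 0) (fun l => (hI i).dz_v l a) (by simp [Ef, (hI i).X0_v]) b
    simpa [Matrix.mul_apply, Cal.Dv, mul_comm] using this
  | @dl L R _ _ T h ih =>
    obtain ⟨Q, h1, h2⟩ := ih
    refine ⟨_, h1.dl.add (((K0.sg L).mul h.dl).add ((K0.sg L).mul h.dl)).neg, fun i a b => ?_⟩
    have e : (CalcAux.sg I L i * (I i).toDR.DL (T i)) a b =
        ∑ l, (I i).D a.2 ((I i).v l) * (I i).D l (T i a.1 b) :=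
      sg_mulVec i (fun p => (I i).toDR.DL (T i) p b) a
    have := Ef.D (hI i) (h.kf hI i a.1 b) (h2 i a.1 b) a.2
    rw [← e] at this
    exact this
  | mul h h' ih ih' =>
    obtain ⟨Q, h1, h2⟩ := ih
    obtain ⟨Q', h1', h2'⟩ := ih'
    refine ⟨_, ((h1.mul h').add (h.mul h1')).add ((h.dr.mul h'.dl).add (h.dr.mul h'.dl)),
      fun i a b => ?_⟩
    have := Ef.sum fun x => Ef.mul (h.kf hI i a x) (h'.kf hI i x b) (h2 i a x) (h2' i x b)
    simpa [Matrix.mul_apply, Finset.sum_add_distrib, Fintype.sum_prod_type] using this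
  | add _ _ ih ih' =>
    obtain ⟨Q, h1, h2⟩ := ih
    obtain ⟨Q', h1', h2'⟩ := ih'
    exact ⟨_, h1.add h1', fun i a b => (h2 i a b).add (h2' i a b)⟩
  | neg _ ih =>
    obtain ⟨Q, h1, h2⟩ := ih
    exact ⟨_, h1.neg, fun i a b => (h2 i a b).neg⟩
  | tens M _ ih =>
    obtain ⟨Q, h1, h2⟩ := ih
    refine ⟨_, h1.tens M, fun i a b => ?_⟩
    simp only [tens_apply]
    split_ifs
    exacts [h2 i _ _, Ef.zero]
  | sub e e' _ ih =>
    obtain ⟨Q, h1, h2⟩ := ih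
    exact ⟨_, h1.sub e e', fun i a b => h2 i _ _⟩
  | tr _ ih =>
    obtain ⟨Q, h1, h2⟩ := ih
    exact ⟨_, h1.tr, fun i a b => h2 i _ _⟩

end

/-- Pointwise squared norm of a family. -/
noncomputable def sq (J : Cal) (j : J.J) (y : J.H) {κ : Type} [Fintype κ] (φ : κ → J.A) : ℝ :=
  ∑ a, J.ev (J.pt j y) (φ a) ^ 2

theorem sq_nn (J : Cal) (j : J.J) (y : J.H) {κ : Type} [Fintype κ] (φ : κ → J.A) :
    0 ≤ sq J j y φ := Finset.sum_nonneg fun _ _ => sq_nonneg _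

theorem sq_meas {J : Cal} (hJ : J.Ax c0) (j : J.J) {κ : Type} [Fintype κ] (φ : κ → J.A) :
    Measurable fun y => sq J j y φ :=
  Finset.measurable_sum _ fun a _ => (hJ.meas j (φ a)).pow_const 2

theorem lint_add {J : Cal} (hJ : J.Ax c0) (j : J.J) {κ κ' : Type} [Fintype κ] [Fintype κ']
    (φ : κ → J.A) (ψ : κ' → J.A) :
    ∫⁻ y, ENNReal.ofReal (sq J j y φ + sq J j y ψ) ∂(J.ρ j) = J.nrm j φ + J.nrm j ψ := by
  simp only [ENNReal.ofReal_add (sq_nn _ _ _ _) (sq_nn _ _ _ _)]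
  exact lintegral_add_left (sq_meas hJ j φ).ennreal_ofReal _

theorem nrm_le {J : Cal} (hJ : J.Ax c0) (j : J.J) {κ κ' κ'' : Type} [Fintype κ] [Fintype κ']
    [Fintype κ''] {φ : κ → J.A} {ψ : κ' → J.A} {χ : κ'' → J.A} {a : ℝ} (ha : 0 ≤ a)
    (h : ∀ y, sq J j y χ ≤ a * (sq J j y φ + sq J j y ψ)) :
    J.nrm j χ ≤ ENNReal.ofReal a * (J.nrm j φ + J.nrm j ψ) := by
  rw [← lint_add hJ, ← lintegral_const_mul' _ _ ENNReal.ofReal_ne_top]
  refine lintegral_mono fun y => ?_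
  simp only
  rw [← ENNReal.ofReal_mul ha]
  exact ENNReal.ofReal_le_ofReal (h y)

theorem nrm_dl {J : Cal} (hJ : J.Ax c0) (j : J.J) {κ : Type} [Fintype κ] (w : κ × J.N → J.A) :
    J.nrm j (fun a => J.δ fun l => w (a, l)) ≤ ENNReal.ofReal c0 *
      (J.nrm j w + J.nrm j fun p : (κ × J.N) × J.N => J.dz p.2 (w p.1)) := by
  have h1 : J.nrm j (fun a => J.δ fun l => w (a, l)) =
      ∑ a, ∫⁻ y, ENNReal.ofReal (J.ev (J.pt j y) (J.δ fun l => w (a, l)) ^ 2) ∂(J.ρ j) := by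
    rw [← lintegral_finsetSum _ fun a _ => ((hJ.meas j _).pow_const 2).ennreal_ofReal]
    exact lintegral_congr fun y => ENNReal.ofReal_sum_of_nonneg fun _ _ => sq_nonneg _
  rw [h1, ← lint_add hJ]
  refine (Finset.sum_le_sum fun a _ => hJ.div j _).trans (le_of_eq ?_)
  rw [← Finset.mul_sum, ← lintegral_finsetSum]
  · congr 1
    refine lintegral_congr fun y => ?_
    rw [← ENNReal.ofReal_sum_of_nonneg fun _ _ => by positivity]
    simp only [sq, Fintype.sum_prod_type, Finset.sum_add_distrib]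
  · intro a _
    exact ((Finset.measurable_sum _ fun l _ => (hJ.meas j _).pow_const 2).add
      (Finset.measurable_sum _ fun l _ => Finset.measurable_sum _ fun m _ =>
        (hJ.meas j _).pow_const 2)).ennreal_ofReal

/-- Uniform bound of the norms by a multiple of the dimension. -/
def B0 (I : ι → Cal) (κ : ι → Type) [∀ i, Fintype (κ i)] (φ : ∀ i, κ i → (I i).A) : Prop :=
  ∃ c : ℝ≥0, ∀ i j, (I i).nrm j (φ i) ≤ c * (Fintype.card (I i).N : ℝ≥0∞)

/-- Gradient of a family. -/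
def grad (I : ι → Cal) {κ : ι → Type} (φ : ∀ i, κ i → (I i).A) :
    ∀ i, κ i × (I i).N → (I i).A := fun i p => (I i).dz p.2 (φ i p.1)

/-- Divergence of a family. -/
noncomputable def dvg (I : ι → Cal) {κ : ι → Type} (w : ∀ i, κ i × (I i).N → (I i).A) :
    ∀ i, κ i → (I i).A := fun i a => (I i).δ fun l => w i (a, l)

/-- Sobolev bounds of order `k`. -/
def Sk (I : ι → Cal) : ℕ → ∀ (κ : ι → Type) [∀ i, Fintype (κ i)], (∀ i, κ i → (I i).A) → Prop
  | 0, κ, _, φ => B0 I κ φ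
  | k + 1, κ, _, φ => B0 I κ φ ∧ Sk I k (fun i => κ i × (I i).N) (grad I φ)

section
variable {κ κ' κ'' : ι → Type} [∀ i, Fintype (κ i)] [∀ i, Fintype (κ' i)] [∀ i, Fintype (κ'' i)]

theorem B0.of_le {φ : ∀ i, κ i → (I i).A} {ψ : ∀ i, κ' i → (I i).A} {χ : ∀ i, κ'' i → (I i).A}
    (h : B0 I κ φ) (h' : B0 I κ' ψ) (a : ℝ)
    (hle : ∀ i j, (I i).nrm j (χ i) ≤ ENNReal.ofReal a * ((I i).nrm j (φ i) + (I i).nrm j (ψ i))) :
    B0 I κ'' χ := by
  obtain ⟨c, hc⟩ := h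
  obtain ⟨c', hc'⟩ := h'
  refine ⟨a.toNNReal * (c + c'), fun i j => (hle i j).trans ?_⟩
  rw [ENNReal.coe_mul, ENNReal.coe_add, mul_assoc, add_mul]
  exact mul_le_mul_right (add_le_add (hc i j) (hc' i j)) _

theorem B0.of_sq (hI : ∀ i, (I i).Ax c0) {φ : ∀ i, κ i → (I i).A} {χ : ∀ i, κ' i → (I i).A}
    (h : B0 I κ φ) {a : ℝ} (ha : 0 ≤ a)
    (hle : ∀ i j y, sq (I i) j y (χ i) ≤ a * sq (I i) j y (φ i)) : B0 I κ' χ :=
  h.of_le h a fun i j => nrm_le (hI i) j ha fun y => (hle i j y).trans (by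
    nlinarith [mul_nonneg ha (sq_nn (I i) j y (φ i))])

theorem Sk.b0 {k : ℕ} {φ : ∀ i, κ i → (I i).A} (h : Sk I k κ φ) : B0 I κ φ := by
  cases k
  exacts [h, h.1]

end

theorem Sk.pred : ∀ (k : ℕ) {κ : ι → Type} [∀ i, Fintype (κ i)] {φ : ∀ i, κ i → (I i).A},
    Sk I (k + 1) κ φ → Sk I k κ φ
  | 0, _, _, _, h => h.1
  | k + 1, _, _, _, h => ⟨h.1, Sk.pred k h.2⟩

theorem Sk.congr {k : ℕ} {κ : ι → Type} [∀ i, Fintype (κ i)] {φ ψ : ∀ i, κ i → (I i).A}
    (h : Sk I k κ φ) (e : ∀ i a, ψ i a = φ i a) : Sk I k κ ψ := by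
  rwa [show ψ = φ from funext fun i => funext (e i)]

theorem Sk.zero : ∀ (k : ℕ) (κ : ι → Type) [∀ i, Fintype (κ i)], Sk I k κ fun _ _ => 0
  | 0, _, _ => ⟨0, fun i j => by simp [Cal.nrm]⟩
  | k + 1, κ, _ => ⟨⟨0, fun i j => by simp [Cal.nrm]⟩,
      (Sk.zero k _).congr fun i a => by simp [grad]⟩

theorem Sk.add (hI : ∀ i, (I i).Ax c0) : ∀ (k : ℕ) {κ : ι → Type} [∀ i, Fintype (κ i)]
    {φ ψ : ∀ i, κ i → (I i).A}, Sk I k κ φ → Sk I k κ ψ → Sk I k κ fun i a => φ i a + ψ i a := by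
  have h0 : ∀ {κ : ι → Type} [∀ i, Fintype (κ i)] {φ ψ : ∀ i, κ i → (I i).A},
      B0 I κ φ → B0 I κ ψ → B0 I κ fun i a => φ i a + ψ i a := fun {κ _ φ ψ} h h' =>
    h.of_le h' 2 fun i j => nrm_le (hI i) j (by norm_num) fun y => by
      simp only [sq, map_add, ← Finset.sum_add_distrib, Finset.mul_sum]
      exact Finset.sum_le_sum fun a _ => by
        nlinarith [sq_nonneg ((I i).ev ((I i).pt j y) (φ i a) - (I i).ev ((I i).pt j y) (ψ i a))]
  intro k
  induction k with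
  | zero => exact fun h h' => h0 h h'
  | succ k ih => exact fun h h' => ⟨h0 h.1 h'.1, (ih h.2 h'.2).congr fun i a => by simp [grad]⟩

theorem Sk.neg (hI : ∀ i, (I i).Ax c0) : ∀ (k : ℕ) {κ : ι → Type} [∀ i, Fintype (κ i)]
    {φ : ∀ i, κ i → (I i).A}, Sk I k κ φ → Sk I k κ fun i a => -φ i a := by
  have h0 : ∀ {κ : ι → Type} [∀ i, Fintype (κ i)] {φ : ∀ i, κ i → (I i).A},
      B0 I κ φ → B0 I κ fun i a => -φ i a := fun h =>
    h.of_sq hI zero_le_one fun i j y => by simp [sq]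
  intro k
  induction k with
  | zero => exact fun h => h0 h
  | succ k ih => exact fun h => ⟨h0 h.1, (ih h.2).congr fun i a => by simp [grad]⟩

theorem Sk.smul (hI : ∀ i, (I i).Ax c0) : ∀ (k : ℕ) {κ : ι → Type} [∀ i, Fintype (κ i)]
    {φ : ∀ i, κ i → (I i).A}, Sk I k κ φ → Sk I k κ fun i a => (I i).s * φ i a := by
  have h0 : ∀ {κ : ι → Type} [∀ i, Fintype (κ i)] {φ : ∀ i, κ i → (I i).A},
      B0 I κ φ → B0 I κ fun i a => (I i).s * φ i a := fun h =>
    h.of_sq hI zero_le_one fun i j y => by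
      simp only [sq, map_mul, one_mul, mul_pow]
      exact Finset.sum_le_sum fun a _ => mul_le_of_le_one_left (sq_nonneg _)
        ((sq_le_one_iff_abs_le_one _).2 ((hI i).s_le j y))
  intro k
  induction k with
  | zero => exact fun h => h0 h
  | succ k ih =>
    exact fun h => ⟨h0 h.1, (ih h.2).congr fun i a => by simp [grad, (hI i).dz_s]⟩

theorem Sk.reindex (hI : ∀ i, (I i).Ax c0) : ∀ (k : ℕ) {κ κ' : ι → Type} [∀ i, Fintype (κ i)]
    [∀ i, Fintype (κ' i)] (e : ∀ i, κ' i ≃ κ i) {φ : ∀ i, κ i → (I i).A},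
    Sk I k κ φ → Sk I k κ' fun i a => φ i (e i a) := by
  have h0 : ∀ {κ κ' : ι → Type} [∀ i, Fintype (κ i)] [∀ i, Fintype (κ' i)]
      (e : ∀ i, κ' i ≃ κ i) {φ : ∀ i, κ i → (I i).A},
      B0 I κ φ → B0 I κ' fun i a => φ i (e i a) := fun {κ κ' _ _} e {φ} h =>
    h.of_sq hI zero_le_one fun i j y => by
      rw [one_mul]
      exact le_of_eq ((e i).sum_comp fun a => (I i).ev ((I i).pt j y) (φ i a) ^ 2)
  intro k
  induction k with
  | zero => exact fun e _ h => h0 e h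
  | succ k ih =>
    exact fun e _ h => ⟨h0 e h.1, ih (fun i => (e i).prodCongr (Equiv.refl _)) h.2⟩

theorem Sk.ker (hI : ∀ i, (I i).Ax c0) (hg : ∀ k, ∃ c, ∀ i, (I i).toDR.CB c k (I i).Dg)
    (hv : ∀ k, ∃ c, ∀ i, (I i).toDR.CB c k (I i).Dv) : ∀ (k : ℕ) {L R : ι → Type}
    [∀ i, Fintype (L i)] [∀ i, Fintype (R i)] {T : ∀ i, Matrix (L i) (R i) (I i).A}
    {φ : ∀ i, R i → (I i).A}, K0 I L R T → Sk I k R φ → Sk I k L fun i => T i *ᵥ φ i := by
  have h0 : ∀ {L R : ι → Type} [∀ i, Fintype (L i)] [∀ i, Fintype (R i)]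
      {T : ∀ i, Matrix (L i) (R i) (I i).A} {φ : ∀ i, R i → (I i).A},
      K0 I L R T → B0 I R φ → B0 I L fun i => T i *ᵥ φ i := fun {L R _ _ T φ} hT h => by
    obtain ⟨c, hc⟩ := hT.cb hg hv 0
    refine h.of_sq hI (sq_nonneg c) fun i j y => ?_
    have := hc i ((I i).pt j y) fun r => (I i).ev ((I i).pt j y) (φ i r)
    simpa [sq, mulVec, dotProduct, map_sum] using this
  intro k
  induction k with
  | zero => exact fun hT h => h0 hT h
  | succ k ih =>
    intro L R _ _ T φ hT h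
    refine ⟨h0 hT h.1, (Sk.add hI k (Sk.smul hI k (ih hT.dl (Sk.pred k h)))
      (ih (hT.tens fun i => (I i).N) h.2)).congr fun i a => ?_⟩
    simp [grad, mulVec, dotProduct, map_sum, hT.kf hI i _ _ _, Finset.mul_sum,
      Fintype.sum_prod_type, Finset.sum_add_distrib, mul_comm, mul_left_comm, add_comm]

theorem Sk.dvg (hI : ∀ i, (I i).Ax c0) (hg : ∀ k, ∃ c, ∀ i, (I i).toDR.CB c k (I i).Dg)
    (hv : ∀ k, ∃ c, ∀ i, (I i).toDR.CB c k (I i).Dv) : ∀ (k : ℕ) {κ : ι → Type}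
    [∀ i, Fintype (κ i)] {w : ∀ i, κ i × (I i).N → (I i).A},
    Sk I (k + 1) (fun i => κ i × (I i).N) w → Sk I k κ (dvg I w) := by
  have h0 : ∀ (k : ℕ) {κ : ι → Type} [∀ i, Fintype (κ i)] {w : ∀ i, κ i × (I i).N → (I i).A},
      Sk I (k + 1) (fun i => κ i × (I i).N) w → B0 I κ (CalcAux.dvg I w) := fun k {κ _ w} h =>
    h.1.of_le h.2.b0 c0 fun i j => nrm_dl (hI i) j (w i)
  intro k
  induction k with
  | zero => exact fun h => h0 0 h
  | succ k ih =>
    intro κ _ w h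
    have h1 := Sk.pred k (Sk.pred _ h)
    refine ⟨h0 _ h, (Sk.add hI k (Sk.add hI k
      (ih (Sk.reindex hI _ (fun i => DR.sw (κ i) (I i).N (I i).N) h.2)) h1)
      (Sk.neg hI k (Sk.smul hI k (Sk.smul hI k (Sk.ker hI hg hv k (K0.sg κ) h1))))).congr
      fun i a => ?_⟩
    rw [sg_mulVec, ← sub_eq_add_neg]
    exact dz_δ (hI i) _ _

theorem Sk.e (hI : ∀ i, (I i).Ax c0) (k : ℕ) : Sk I k (fun i => (I i).N × (I i).N)
    fun _ p => if p.1 = p.2 then 1 else 0 := by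
  have h0 : B0 I (fun i => (I i).N × (I i).N) fun _ p => if p.1 = p.2 then 1 else 0 :=
    ⟨1, fun i j => by
      have := (hI i).prob j
      have e : ∀ y, ∑ p : (I i).N × (I i).N,
          (I i).ev ((I i).pt j y) (if p.1 = p.2 then 1 else 0) ^ 2 = Fintype.card (I i).N :=
        fun y => by
          rw [Fintype.sum_prod_type]
          simp [apply_ite]
      simp only [Cal.nrm, e]
      simp⟩
  cases k with
  | zero => exact h0
  | succ k => exact ⟨h0, (Sk.zero k _).congr fun i a => by simp only [grad]; split_ifs <;> simp⟩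

end Vale.Agent.P347.CalcAux
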