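import Vale.Agent.P347.AccDefs

/-! P347 part Conv: from oracle programs on recentred potentials to the official model. -/

open MeasureTheory ProbabilityTheory Filter Topology
open scoped ENNReal RealInnerProductSpace

namespace Vale.Agent.P347

namespace ConvAux
variable {d : ℕ}

lemma grad_cd {V : E d → ℝ} (hV : ContDiff ℝ 2 V) : ContDiff ℝ 1 (gradient V) :=
  (InnerProductSpace.toDual ℝ (E d)).symm.toContinuousLinearEquiv.contDiff.comp
    (hV.fderiv_right (m := 1) (by norm_num))

lemma inner_hess {V : E d → ℝ} (hV : ContDiff ℝ 2 V) (x v w : E d) :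
    ⟪fderiv ℝ (gradient V) x v, w⟫ = fderiv ℝ (fderiv ℝ V) x v w := by
  have h1 := ((hV.fderiv_right (m := 1) (by norm_num)).differentiable one_ne_zero x).hasFDerivAt
  have h2 := (InnerProductSpace.toDual ℝ (E d)).symm.toContinuousLinearEquiv.hasFDerivAt.comp x h1
  rw [show gradient V = (InnerProductSpace.toDual ℝ (E d)).symm.toContinuousLinearEquiv ∘
    fderiv ℝ V from rfl, h2.fderiv]
  simp

lemma sq_grad (c : ℝ) (x : E d) :
    HasFDerivAt (fun x : E d => c * ‖x‖ ^ 2) ((2 * c) • innerSL ℝ x) x := by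
  refine ((hasStrictFDerivAt_norm_sq x).hasFDerivAt.const_mul c).congr_fderiv ?_
  ext v; simp; ring

/-- Recentring of a potential. -/
noncomputable def toPt (V : E d → ℝ) (hV : InClass V) : Pt d where
  W x := V x - 3 / 4 * ‖x‖ ^ 2
  F x := gradient V x - (3 / 2 : ℝ) • x
  hW x := by
    rw [hasGradientAt_iff_hasFDerivAt]
    refine ((hV.1.differentiable two_ne_zero x).hasFDerivAt.sub (sq_grad (3 / 4) x)).congr_fderiv ?_
    ext v; simp; norm_num
  hF := (grad_cd hV.1).sub (contDiff_id.const_smul _)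
  lip x := by
    have h1 := (((grad_cd hV.1).differentiable one_ne_zero x).hasFDerivAt.sub
      ((hasFDerivAt_id x).const_smul (3 / 2 : ℝ))).fderiv
    rw [show fderiv ℝ (fun x => gradient V x - (3 / 2 : ℝ) • x) x = _ from h1]
    have hs := hV.1.contDiffAt.isSymmSndFDerivAt (x := x) (by simp)
    rw [ContinuousLinearMap.norm_eq_iSup_rayleighQuotient _ fun v w => ?_]
    · refine ciSup_le fun v => ?_
      have h2 := hV.2.2.2 x v
      rw [iteratedFDeriv_two_apply] at h2
      simp only [ContinuousLinearMap.rayleighQuotient, ContinuousLinearMap.reApplyInnerSelf,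
        sub_apply, inner_sub_left, inner_hess hV.1, RCLike.re_to_real,
        smul_apply, ContinuousLinearMap.id_apply, real_inner_smul_left,
        real_inner_self_eq_norm_sq, abs_div, abs_pow, abs_norm]
      refine div_le_of_le_mul₀ (by positivity) (by norm_num) (abs_le.mpr ?_)
      simp only [Matrix.cons_val_zero, Matrix.cons_val_one] at h2
      constructor <;> linarith [h2.1, h2.2]
    · have e := inner_hess hV.1 x w v
      rw [real_inner_comm] at e
      simp only [ContinuousLinearMap.coe_coe, sub_apply, inner_sub_left,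
        inner_sub_right, inner_hess hV.1, e, smul_apply,
        ContinuousLinearMap.id_apply, real_inner_smul_left, real_inner_smul_right, hs v w]
  F0 := by simp [hV.2.2.1]
  W0 := by simp [hV.2.1]

lemma gibbs_eq (V : E d → ℝ) (hV : InClass V) : gibbs V = pm (toPt V hV) (3 / 2) 0 := by
  have : wt (toPt V hV) (3 / 2) 0 = fun x => Real.exp (-V x) := by
    ext x; simp only [wt, toPt, inner_zero_left]; congr 1; ring
  simp only [gibbs, pm, Zc, this]

/-- The record of oracle answers. -/
noncomputable def hist {α : Type} (qu : ℕ → α × (ℕ → ℝ × E d) → E d) (V : E d → ℝ) (a : α) (k : ℕ) :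
    ℕ → ℝ × E d :=
  Nat.rec (fun _ => (0, 0))
    (fun j H => Function.update H j (V (qu j (a, H)), gradient V (qu j (a, H)))) k

lemma comp_meas {β : Type} [MeasurableSpace β] (V : Pt d) (q : ℕ) : ∀ (α : Type) [MeasurableSpace α]
    (Φ : Pt d → α → β), Comp q α Φ → Measurable (Φ V) := by
  induction q with
  | zero =>
    rintro α _ Φ ⟨f, hf, h⟩
    rwa [show Φ V = f from funext (h V)]
  | succ q ih =>
    rintro α _ Φ ⟨x, Ψ, hx, hΨ, h⟩
    rw [show Φ V = _ from funext (h V)]
    exact (ih _ Ψ hΨ).comp (measurable_id.prodMk (V.contF.measurable.comp hx))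

lemma comp_alg {β : Type} [MeasurableSpace β] (q : ℕ) : ∀ (α : Type) [MeasurableSpace α]
    (Φ : Pt d → α → β), Comp q α Φ → ∃ (qu : ℕ → α × (ℕ → ℝ × E d) → E d)
      (out : α × (ℕ → ℝ × E d) → β), (∀ k, Measurable (qu k)) ∧ Measurable out ∧
      ∀ V hV a, out (a, hist qu V a q) = Φ (toPt V hV) a := by
  induction q with
  | zero =>
    rintro α _ Φ ⟨f, hf, h⟩
    exact ⟨fun _ _ => 0, fun p => f p.1, fun _ => measurable_const, hf.comp measurable_fst,
      fun V hV a => (h _ a).symm⟩
  | succ q ih =>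
    rintro α _ Φ ⟨x, Ψ, hx, hΨ, h⟩
    obtain ⟨qu, out, h1, h2, h3⟩ := ih _ Ψ hΨ
    let l : α × (ℕ → ℝ × E d) → (α × E d) × (ℕ → ℝ × E d) := fun p =>
      ((p.1, (p.2 0).2 - (3 / 2 : ℝ) • x p.1), fun j => p.2 (j + 1))
    have hl : Measurable l := by fun_prop
    let qu' : ℕ → α × (ℕ → ℝ × E d) → E d := fun k =>
      Nat.casesOn k (fun p => x p.1) fun k p => qu k (l p)
    refine ⟨qu', out ∘ l, fun k => ?_, h2.comp hl, fun V hV a => ?_⟩
    · cases k with
      | zero => exact hx.comp measurable_fst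
      | succ k => exact (h1 k).comp hl
    · have key : ∀ k, l (a, hist qu' V a (k + 1)) =
          ((a, (toPt V hV).F (x a)), hist qu V (a, (toPt V hV).F (x a)) k) := by
        intro k
        induction k with
        | zero =>
          refine Prod.ext rfl (funext fun j => ?_)
          simp [l, hist]
        | succ k ihk =>
          have e1 : qu' (k + 1) (a, hist qu' V a (k + 1)) = qu k ((a, (toPt V hV).F (x a)),
            hist qu V (a, (toPt V hV).F (x a)) k) := by rw [← ihk]
          have e2 : hist qu' V a (k + 1 + 1) = Function.update (hist qu' V a (k + 1)) (k + 1)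
            (V (qu' (k + 1) (a, hist qu' V a (k + 1))),
              gradient V (qu' (k + 1) (a, hist qu' V a (k + 1)))) := rfl
          rw [e2, e1]
          obtain ⟨i1, i2⟩ := Prod.ext_iff.mp ihk
          refine Prod.ext (Eq.trans ?_ i1) (funext fun j => ?_)
          · simp [l]
          · show Function.update (hist qu' V a (k + 1)) (k + 1) _ (j + 1) =
              Function.update (hist qu V (a, (toPt V hV).F (x a)) k) k _ j
            rcases eq_or_ne j k with rfl | hj
            · rw [Function.update_self, Function.update_self]; rfl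
            · rw [Function.update_of_ne (by omega), Function.update_of_ne hj]
              exact congrFun i2 j
      rw [Function.comp, key, h3, h]

lemma inClass_sq {c : ℝ} (h1 : 1 / 2 ≤ c) (h2 : c ≤ 1) : InClass fun x : E d => c * ‖x‖ ^ 2 := by
  have e : fderiv ℝ (fun x : E d => c * ‖x‖ ^ 2) = fun x => ((2 * c) • innerSL ℝ (E := E d)) x :=
    funext fun x => (sq_grad c x).fderiv
  refine ⟨contDiff_const.mul (contDiff_norm_sq ℝ), by simp, by simp [gradient, e], fun x v => ?_⟩
  rw [iteratedFDeriv_two_apply, e, ContinuousLinearMap.fderiv]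
  simp only [smul_apply, Matrix.cons_val_zero, Matrix.cons_val_one, smul_eq_mul]
  rw [show innerSL ℝ v v = ‖v‖ ^ 2 from real_inner_self_eq_norm_sq v]
  constructor <;> nlinarith [sq_nonneg ‖v‖]

lemma gap (hd : 8 ≤ d) : ∃ B : Set (E d), MeasurableSet B ∧
    1 / 5 < (gibbs fun x : E d => 1 / 2 * ‖x‖ ^ 2).real B - (gibbs fun x : E d => 1 * ‖x‖ ^ 2).real B := by
  have hp : IsProbabilityMeasure (gibbs fun x : E d => 1 / 2 * ‖x‖ ^ 2) := by
    rw [gibbs_eq _ (inClass_sq le_rfl (by norm_num))]; exact pm_prob _ (by norm_num) _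
  have hZ : ∀ b : ℝ, 0 < b → ∫ y : E d, Real.exp (-(b * ‖y‖ ^ 2)) = (Real.pi / b) ^ ((d : ℝ) / 2) :=
    fun b hb => by simpa using GaussianFourier.integral_rexp_neg_mul_sq_norm (V := E d) hb
  have pi0 := Real.pi_pos
  set Z1 := (Real.pi / (1 / 2)) ^ ((d : ℝ) / 2) with hZ1
  set Z2 := (Real.pi / 1) ^ ((d : ℝ) / 2) with hZ2
  have z1 : 0 < Z1 := by positivity
  have z2 : 0 < Z2 := by positivity
  let p : E d → ℝ := fun x => Real.exp (-(1 / 2 * ‖x‖ ^ 2)) / Z1
  let r : E d → ℝ := fun x => Real.exp (-(1 * ‖x‖ ^ 2)) / Z2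
  let g : E d → ℝ := fun x => Real.exp (-(3 / 4 * ‖x‖ ^ 2)) / √(Z1 * Z2)
  have hg : ∀ x, g x ^ 2 = p x * r x := fun x => by
    simp only [g, p, r]
    rw [div_pow, Real.sq_sqrt (by positivity), div_mul_div_comm, ← Real.exp_add, ← Real.exp_nat_mul]
    congr 2; push_cast; ring
  have p0 : ∀ x, 0 ≤ p x := fun x => by positivity
  have r0 : ∀ x, 0 ≤ r x := fun x => by positivity
  have g0 : ∀ x, 0 ≤ g x := fun x => by positivity
  have hB : MeasurableSet {x | r x ≤ p x} := measurableSet_le (by fun_prop) (by fun_prop)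
  refine ⟨_, hB, ?_⟩
  have ig : Integrable g := by
    simpa [g] using (integrable_gauss (d := d) (c := 3 / 4) (by norm_num) 0 0).div_const √(Z1 * Z2)
  have key : (gibbs fun x : E d => 1 * ‖x‖ ^ 2) {x | r x ≤ p x} +
      (gibbs fun x : E d => 1 / 2 * ‖x‖ ^ 2) {x | r x ≤ p x}ᶜ ≤ ENNReal.ofReal (∫ x, g x) := by
    rw [ofReal_integral_eq_lintegral_ofReal ig (Eventually.of_forall g0),
      ← lintegral_add_compl _ hB, gibbs, gibbs, withDensity_apply _ hB, withDensity_apply _ hB.compl,
      hZ _ one_pos, hZ _ (by norm_num)]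
    refine add_le_add (setLIntegral_mono' hB fun x hx => ENNReal.ofReal_le_ofReal ?_)
      (setLIntegral_mono' hB.compl fun x hx => ENNReal.ofReal_le_ofReal ?_)
    · refine le_of_sq_le_sq (a := r x) ?_ (g0 x)
      rw [hg, sq]; exact mul_le_mul_of_nonneg_right hx (r0 x)
    · refine le_of_sq_le_sq (a := p x) ?_ (g0 x)
      rw [hg, sq]; exact mul_le_mul_of_nonneg_left (le_of_not_ge hx) (p0 x)
  have small : ∫ x, g x < 4 / 5 := by
    simp only [g]
    rw [integral_div, hZ _ (by norm_num), div_lt_iff₀ (by positivity)]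
    refine lt_of_pow_lt_pow_left₀ 2 (by positivity) ?_
    rw [mul_pow, Real.sq_sqrt (by positivity), hZ1, hZ2, sq, ← Real.mul_rpow (by positivity)
      (by positivity), ← Real.mul_rpow (by positivity) (by positivity),
      show Real.pi / (3 / 4) * (Real.pi / (3 / 4)) = 8 / 9 * (Real.pi / (1 / 2) * (Real.pi / 1)) by
        ring, Real.mul_rpow (by positivity) (by positivity)]
    refine mul_lt_mul_of_pos_right ?_ (by positivity)
    have : (8 : ℝ) ≤ d := by exact_mod_cast hd
    calc (8 / 9 : ℝ) ^ ((d : ℝ) / 2) ≤ (8 / 9) ^ ((4 : ℕ) : ℝ) :=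
          Real.rpow_le_rpow_of_exponent_ge (by norm_num) (by norm_num) (by push_cast; linarith)
      _ < _ := by rw [Real.rpow_natCast]; norm_num
  have hp2 : IsProbabilityMeasure (gibbs fun x : E d => 1 * ‖x‖ ^ 2) := by
    rw [gibbs_eq _ (inClass_sq (by norm_num) le_rfl)]; exact pm_prob _ (by norm_num) _
  have k2 := ENNReal.toReal_mono ENNReal.ofReal_ne_top key
  rw [ENNReal.toReal_add (measure_ne_top _ _) (measure_ne_top _ _),
    ENNReal.toReal_ofReal (integral_nonneg g0), ← Measure.real, ← Measure.real,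
    probReal_compl_eq_one_sub hB] at k2
  linarith

end ConvAux

open ConvAux

theorem solves_of_comp {d q : ℕ} (S : Seed) (Ψ : Pt d → S.T → E d) (hΨ : Comp q S.T Ψ)
    (h : ∀ V B, MeasurableSet B → |(S.μ.map (Ψ V)).real B - (pm V (3 / 2) 0).real B| ≤ 1 / 10) :
    Solves d q := by
  obtain ⟨m, e, he⟩ := S.gen
  obtain ⟨qu, out, h1, h2, h3⟩ := comp_alg q _ Ψ hΨ
  have hm : Measurable fun p : (Fin m → ℝ) × (ℕ → ℝ × E d) => (e p.1, p.2) :=
    (he.measurable.comp measurable_fst).prodMk measurable_snd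
  refine ⟨⟨m, fun k p => qu k (e p.1, p.2), fun p => out (e p.1, p.2), fun k => (h1 k).comp hm,
    h2.comp hm⟩, fun V hV B hB => ?_⟩
  rw [gibbs_eq V hV]
  convert h (toPt V hV) B hB using 3
  rw [← he.map_eq, Measure.map_map (comp_meas _ q _ Ψ hΨ) he.measurable, Alg.law]
  exact congrArg (fun f => (Measure.map f (Measure.pi fun _ => gaussianReal 0 1)).real B)
    (funext fun ω => h3 V hV (e ω))

theorem not_solves_zero : ∀ᶠ d in atTop, ¬ Solves d 0 := by
  filter_upwards [eventually_ge_atTop 8] with d hd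
  rintro ⟨A, hA⟩
  obtain ⟨B, hB, h⟩ := gap hd
  have h1 := abs_le.mp (hA _ (inClass_sq le_rfl (by norm_num)) B hB)
  have h2 := abs_le.mp (hA _ (inClass_sq (by norm_num) le_rfl) B hB)
  have e : A.law 0 (fun x => 1 / 2 * ‖x‖ ^ 2) = A.law 0 (fun x => 1 * ‖x‖ ^ 2) := rfl
  rw [e] at h1
  linarith [h1.1, h2.2]

theorem tendsto_of_solves
    (h : ∀ η : ℝ, 0 < η → ∃ d₀ : ℕ, ∀ d ≥ d₀, ∃ q : ℕ, (q : ℝ) ≤ (d : ℝ) ^ η ∧ Solves d q) :
    Tendsto (fun d : ℕ => Real.log (Q d) / Real.log d) atTop (𝓝 0) := by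
  rw [Metric.tendsto_atTop]
  intro ε hε
  obtain ⟨d₀, hd⟩ := h (ε / 2) (by positivity)
  refine ⟨max d₀ 2, fun d hd' => ?_⟩
  obtain ⟨q, h1, h2⟩ := hd d (le_of_max_le_left hd')
  have d2 : (2 : ℝ) ≤ d := by exact_mod_cast le_of_max_le_right hd'
  have l0 : 0 < Real.log d := Real.log_pos (by linarith)
  have h3 : (Q d : ℝ) ≤ q := Nat.cast_le.mpr (Nat.sInf_le h2)
  rw [dist_zero_right, Real.norm_of_nonneg (div_nonneg (Real.log_natCast_nonneg _) l0.le),
    div_lt_iff₀ l0]
  refine lt_of_le_of_lt (b := ε / 2 * Real.log d) ?_ (by nlinarith)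
  rcases (Q d).eq_zero_or_pos with h0 | h0
  · rw [h0]; simp only [Nat.cast_zero, Real.log_zero]; positivity
  · rw [← Real.log_rpow (by linarith)]
    exact Real.log_le_log (Nat.cast_pos.mpr h0) (h3.trans h1)

end Vale.Agent.P347
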