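import Vale.Agent.P347.CumA

/-! P347 part Cum: all cumulant tensors have dimension-free operator norms in every flattening. -/

open MeasureTheory Matrix
open scoped ENNReal

noncomputable section
namespace Vale.Agent.P347
namespace CumAux

variable {I : Cum} {c0 : ℝ}

/-- gradient terms -/
structure GT (w : W) where
  w' : W
  lt : w'.gr < w.gr
  b : Bool
  e : ∀ N : Type, w.κ N ≃ w'.κ N × N

def JJ (I : Cum) (b : Bool) : I.N → I.M → I.X → ℝ := if b then I.Ju else I.Jf

def gsum (I : Cum) {w : W} : List (GT w) → w.κ I.N → I.M → I.X → I.A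
  | [], _, _, _ => 0
  | t :: l, k, m, x => algebraMap ℝ I.A (JJ I t.b (t.e I.N k).2 m x) * val I t.w' (t.e I.N k).1 x +
      gsum I l k m x

lemma gsum_cons {w : W} (t : GT w) (l : List (GT w)) (k m x) : gsum I (t :: l) k m x =
    algebraMap ℝ I.A (JJ I t.b (t.e I.N k).2 m x) * val I t.w' (t.e I.N k).1 x +
      gsum I l k m x := rfl

def GT.lift {w : W} (t : GT w) : GT (.cD w) where
  w' := .cD t.w'
  lt := Nat.succ_lt_succ t.lt
  b := t.b
  e N := ((t.e N).prodCongr (Equiv.refl N)).trans (DR.sw _ _ _)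

lemma cD_gsum {w : W} (l : List (GT w)) (k : w.κ I.N) (j : I.N) (m : I.M) (x : I.X) :
    cD I j (gsum I l k m) x = gsum I (l.map GT.lift) (k, j) m x := by
  induction l with
  | nil => simp [gsum, cD]
  | cons t l ih =>
    change _ = algebraMap ℝ I.A (JJ I t.b (t.e I.N k).2 m x) *
      cD I j (val I t.w' (t.e I.N k).1) x + gsum I (l.map GT.lift) (k, j) m x
    rw [← ih]
    simp [cD, gsum]; ring

lemma grad (c0 : ℝ) : ∀ w : W, ∃ l : List (GT w), ∀ I : Cum, I.Ax c0 → ∀ k,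
    P I (val I w k) (gsum I l k)
  | .one => ⟨[], fun _ hI _ => P.const hI 1⟩
  | .ft => ⟨[⟨.one, by decide, false, fun N => (Equiv.punitProd N).symm⟩], fun I hI l =>
      (P.ctr hI (hI.PG_f l) (hI.PG_Jf l) (hI.HG_f l)).congr (fun _ => rfl) fun m x => by
        change algebraMap ℝ I.A (I.Jf l m x) * 1 + 0 = _
        simp⟩
  | .cD w => by
    obtain ⟨l, hl⟩ := grad c0 w
    refine ⟨⟨w, Nat.lt_succ_self _, true, fun _ => Equiv.refl _⟩ :: l.map GT.lift,
      fun I hI k => ((hl I hI k.1).cD hI k.2).congr (fun _ => rfl) fun m x => ?_⟩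
    rw [cD_gsum]
    rfl

/-- second moment bound -/
def VB (c0 : ℝ) (w : W) : Prop := ∃ c : ℝ, 0 ≤ c ∧ ∀ I : Cum, I.Ax c0 → ∀ y (A : w.κ I.N → ℝ),
  ∫ x, (∑ k, A k * I.ev y (val I w k x)) ^ 2 ∂(I.p y) ≤ c * ∑ k, A k ^ 2

lemma pg_sum (hI : I.Ax c0) {κ : Type} (s : Finset κ) (f : κ → I.X → ℝ) (h : ∀ k, I.PG (f k)) :
    I.PG fun x => ∑ k ∈ s, f k x := by
  classical
  induction s using Finset.induction with
  | empty => simpa using hI.PG_const 0
  | insert a s ha ih => simpa [Finset.sum_insert ha] using hI.PG_add _ _ (h a) ih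

lemma pg_lin (hI : I.Ax c0) {κ : Type} [Fintype κ] (A : κ → ℝ) (f : κ → I.X → ℝ)
    (h : ∀ k, I.PG (f k)) : I.PG fun x => ∑ k, A k * f k x :=
  pg_sum hI _ _ fun k => hI.PG_mul _ _ (hI.PG_const _) (h k)

lemma pg_sq (hI : I.Ax c0) {f : I.X → ℝ} (h : I.PG f) : I.PG fun x => f x ^ 2 := by
  simpa [sq] using hI.PG_mul _ _ h h

lemma hg_lin (hI : I.Ax c0) {κ : Type} (s : Finset κ) (A : κ → ℝ) (f : κ → I.X → ℝ)
    (G : κ → I.M → I.X → ℝ) (h : ∀ k, I.HG (f k) (G k)) :
    I.HG (fun x => ∑ k ∈ s, A k * f k x) fun m x => ∑ k ∈ s, A k * G k m x := by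
  classical
  induction s using Finset.induction with
  | empty => simpa using hI.HG_const 0
  | insert a s ha ih =>
    have := hI.HG_add _ _ _ _ (hI.HG_mul _ _ _ _ (hI.HG_const (A a)) (h a)) ih
    simpa [Finset.sum_insert ha] using this

lemma JJ_le (hI : I.Ax c0) (b : Bool) (x : I.X) (a : I.N → ℝ) :
    ∑ m, (∑ l, a l * JJ I b l m x) ^ 2 ≤ ∑ l, a l ^ 2 := by
  cases b
  exacts [hI.Jf_le x a, hI.Ju_le x a]

lemma gsum_bd (c0 : ℝ) {w : W} (l : List (GT w)) (hl : ∀ t ∈ l, VB c0 t.w') :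
    ∃ c : ℝ, 0 ≤ c ∧ ∀ I : Cum, I.Ax c0 → ∀ y (A : w.κ I.N → ℝ), ∃ φ : I.X → ℝ,
      Integrable φ (I.p y) ∧ (∀ x, ∑ m, (∑ k, A k * I.ev y (gsum I l k m x)) ^ 2 ≤ φ x) ∧
        ∫ x, φ x ∂(I.p y) ≤ c * ∑ k, A k ^ 2 := by
  induction l with
  | nil => exact ⟨0, le_rfl, fun I _ y A => ⟨fun _ => 0, by simp, by simp [gsum], by simp⟩⟩
  | cons t l ih =>
    obtain ⟨c, hc, H⟩ := ih fun t ht => hl t (List.mem_cons_of_mem _ ht)
    obtain ⟨c', hc', H'⟩ := hl t List.mem_cons_self
    refine ⟨2 * c' + 2 * c, by positivity, fun I hI y A => ?_⟩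
    obtain ⟨φ, h1, h2, h3⟩ := H I hI y A
    let β : I.N → I.X → ℝ := fun j x =>
      ∑ k, A ((t.e I.N).symm (k, j)) * I.ev y (val I t.w' k x)
    have iβ : ∀ j, Integrable (fun x => β j x ^ 2) (I.p y) := fun j =>
      hI.PG_int _ y (pg_sq hI (pg_lin hI _ _ fun k => (Q.val hI t.w' k).pg hI y))
    refine ⟨fun x => 2 * ∑ j, β j x ^ 2 + 2 * φ x,
      ((integrable_finset_sum _ fun j _ => iβ j).const_mul 2).add (h1.const_mul 2),
      fun x => ?_, ?_⟩
    · have e : ∀ m, ∑ k, A k * I.ev y (gsum I (t :: l) k m x) =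
          ∑ j, β j x * JJ I t.b j m x + ∑ k, A k * I.ev y (gsum I l k m x) := fun m => by
        simp only [gsum, map_add, map_mul, AlgHom.commutes, Algebra.algebraMap_self,
          RingHom.id_apply, mul_add, Finset.sum_add_distrib]
        congr 1
        rw [← (t.e I.N).symm.sum_comp, Fintype.sum_prod_type_right]
        refine Finset.sum_congr rfl fun j _ => ?_
        simp only [β, Finset.sum_mul, Equiv.apply_symm_apply]
        exact Finset.sum_congr rfl fun k _ => by ring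
      have j1 := JJ_le hI t.b x fun j => β j x
      calc _ ≤ ∑ m, (2 * (∑ j, β j x * JJ I t.b j m x) ^ 2 +
            2 * (∑ k, A k * I.ev y (gsum I l k m x)) ^ 2) := by
            refine Finset.sum_le_sum fun m _ => ?_
            rw [e]
            nlinarith [sq_nonneg (∑ j, β j x * JJ I t.b j m x -
              ∑ k, A k * I.ev y (gsum I l k m x))]
        _ ≤ _ := by
            rw [Finset.sum_add_distrib, ← Finset.mul_sum, ← Finset.mul_sum]
            linarith [h2 x]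
    · rw [integral_add ((integrable_finset_sum _ fun j _ => iβ j).const_mul 2) (h1.const_mul 2),
        integral_const_mul, integral_const_mul, integral_finset_sum _ fun j _ => iβ j]
      have b1 : ∑ j, ∫ x, β j x ^ 2 ∂(I.p y) ≤ c' * ∑ k, A k ^ 2 := by
        rw [← (t.e I.N).symm.sum_comp, Fintype.sum_prod_type_right, Finset.mul_sum]
        exact Finset.sum_le_sum fun j _ => H' I hI y _
      linarith

lemma vb (c0 : ℝ) (hc : 0 ≤ c0) (n : ℕ) : ∀ w : W, w.gr < n → VB c0 w := by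
  induction n with
  | zero => exact fun _ h => absurd h (Nat.not_lt_zero _)
  | succ n ih =>
    intro w hw
    by_cases h1 : w = .one
    · subst h1
      refine ⟨1, zero_le_one, fun I hI y A => ?_⟩
      have := hI.prob y
      have e : ∀ f : W.κ I.N .one → ℝ, ∑ k, f k = f () := fun f => Fintype.sum_unique (ι := Unit) f
      simp [e, val]
    · obtain ⟨l, hl⟩ := grad c0 w
      obtain ⟨c, hc', H⟩ := gsum_bd c0 l fun t _ => ih _ (by have := t.lt; omega)
      refine ⟨c0 * c, by positivity, fun I hI y A => ?_⟩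
      obtain ⟨φ, h2, h3, h4⟩ := H I hI y A
      have r := fun k => (hl I hI k).real hI y
      have key := hI.poin _ _ y (pg_lin hI A _ fun k => (r k).1)
        (fun m => pg_lin hI A _ fun k => (r k).2.1 m)
        (hg_lin hI Finset.univ A _ _ fun k => (r k).2.2)
      have m0 : ∫ x, ∑ k, A k * I.ev y (val I w k x) ∂(I.p y) = 0 := by
        rw [integral_finset_sum _ fun k _ => ((Q.val hI w k).int hI y).const_mul _]
        refine Finset.sum_eq_zero fun k _ => ?_
        rw [integral_const_mul, ← (Q.val hI w k).ev_EE hI, EE_val hI w k h1, map_zero, mul_zero]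
      rw [m0] at key
      have m1 := integral_mono_of_nonneg (μ := I.p y)
        (ae_of_all _ fun x => Finset.sum_nonneg fun m _ => sq_nonneg _) h2 (ae_of_all _ h3)
      have m2 := mul_le_mul_of_nonneg_left (m1.trans h4) hc
      rw [mul_assoc]
      linarith

def base (I : Cum) (w w' : W) : Matrix (w.κ I.N) (w'.κ I.N) I.A :=
  Matrix.of fun k k' => EE I fun x => val I w k x * val I w' k' x

lemma base_tr (w w' : W) : base I w w' = (base I w' w)ᵀ := by
  ext k k'
  exact EE_congr fun x => mul_comm _ _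

lemma base_bd (c0 : ℝ) (hc : 0 ≤ c0) (w w' : W) :
    ∃ c : ℝ, ∀ I : Cum, I.Ax c0 → I.toDR.Bd c (base I w w') := by
  obtain ⟨a, ha, Ha⟩ := vb c0 hc _ w (Nat.lt_succ_self _)
  obtain ⟨b, hb, Hb⟩ := vb c0 hc _ w' (Nat.lt_succ_self _)
  refine ⟨a + b + 1, fun I hI y z => ?_⟩
  set v := (base I w w').map (I.ev y) *ᵥ z with hv
  let α : I.X → ℝ := fun x => ∑ k, v k * I.ev y (val I w k x)
  let β : I.X → ℝ := fun x => ∑ k, z k * I.ev y (val I w' k x)
  have pα : I.PG α := pg_lin hI _ _ fun k => (Q.val hI w k).pg hI y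
  have pβ : I.PG β := pg_lin hI _ _ fun k => (Q.val hI w' k).pg hI y
  have e1 : ∀ k, v k = ∫ x, I.ev y (val I w k x) * β x ∂(I.p y) := fun k => by
    simp only [hv, mulVec, dotProduct, map_apply, base, of_apply, β, Finset.mul_sum]
    rw [integral_finset_sum _ fun k' _ => hI.PG_int _ y (hI.PG_mul _ _ ((Q.val hI w k).pg hI y)
      (hI.PG_mul _ _ (hI.PG_const _) ((Q.val hI w' k').pg hI y)))]
    refine Finset.sum_congr rfl fun k' _ => ?_
    rw [((Q.val hI w k).mul hI (Q.val hI w' k')).ev_EE hI, ← integral_mul_const]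
    exact integral_congr_ae (ae_of_all _ fun x => by simp only [map_mul]; ring)
  have e2 : ∑ k, v k ^ 2 = ∫ x, α x * β x ∂(I.p y) := by
    simp only [α, Finset.sum_mul]
    rw [integral_finset_sum _ fun k _ => hI.PG_int _ y (hI.PG_mul _ _ (hI.PG_mul _ _
      (hI.PG_const _) ((Q.val hI w k).pg hI y)) pβ)]
    refine Finset.sum_congr rfl fun k _ => ?_
    simp only [mul_assoc]
    rw [integral_const_mul, ← e1, sq]
  have iα := hI.PG_int _ y (pg_sq hI pα)
  have iβ := hI.PG_int _ y (pg_sq hI pβ)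
  have e3 : (a + 1) * ∫ x, α x * β x ∂(I.p y) ≤
      1 / 2 * ∫ x, α x ^ 2 ∂(I.p y) + (a + 1) ^ 2 / 2 * ∫ x, β x ^ 2 ∂(I.p y) := by
    rw [← integral_const_mul, ← integral_const_mul, ← integral_const_mul,
      ← integral_add (iα.const_mul _) (iβ.const_mul _)]
    refine integral_mono ((hI.PG_int _ y (hI.PG_mul _ _ pα pβ)).const_mul _)
      ((iα.const_mul _).add (iβ.const_mul _)) fun x => ?_
    nlinarith [sq_nonneg (α x - (a + 1) * β x)]
  have e4 := Ha I hI y v
  have e5 := Hb I hI y z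
  rw [← e2] at e3
  have s1 : 0 ≤ ∑ k, v k ^ 2 := by positivity
  have s2 : 0 ≤ ∑ k, z k ^ 2 := by positivity
  have e6 : (a + 1) ^ 2 / 2 * ∫ x, β x ^ 2 ∂(I.p y) ≤ (a + 1) ^ 2 / 2 * (b * ∑ k, z k ^ 2) :=
    mul_le_mul_of_nonneg_left e5 (by positivity)
  have e7 : (a + 1) * ∑ k, v k ^ 2 ≤ (a + 1) * ((a + 1) * (b * ∑ k, z k ^ 2)) := by
    change ∫ x, α x ^ 2 ∂(I.p y) ≤ _ at e4
    nlinarith
  have e8 := le_of_mul_le_mul_left e7 (by positivity)
  refine e8.trans ?_
  rw [← mul_assoc]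
  exact mul_le_mul_of_nonneg_right (by nlinarith) s2

/-- terms of the derivative expansions -/
structure ET (w : W) where
  w1 : W
  w2 : W
  ne : w2 ≠ .one
  e : ∀ N : Type, w.κ N ≃ w1.κ N × w2.κ N

def esum (I : Cum) {w : W} : List (ET w) → I.N → w.κ I.N → I.X → I.A
  | [], _, _, _ => 0
  | t :: l, j, k, x => EE I (fun x => ut I j x * val I t.w2 (t.e I.N k).2 x) *
      val I t.w1 (t.e I.N k).1 x + esum I l j k x

lemma esum_cons {w : W} (t : ET w) (l : List (ET w)) (j k x) : esum I (t :: l) j k x =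
    EE I (fun x => ut I j x * val I t.w2 (t.e I.N k).2 x) *
      val I t.w1 (t.e I.N k).1 x + esum I l j k x := rfl

def ET.liftA {w : W} (t : ET w) : ET (.cD w) where
  w1 := t.w1
  w2 := .cD t.w2
  ne := by simp
  e N := ((t.e N).prodCongr (Equiv.refl N)).trans (Equiv.prodAssoc _ _ _)

def ET.liftB {w : W} (t : ET w) : ET (.cD w) where
  w1 := .cD t.w1
  w2 := t.w2
  ne := t.ne
  e N := ((t.e N).prodCongr (Equiv.refl N)).trans (DR.sw _ _ _)

lemma cD_esum (c0 : ℝ) {w : W} (l : List (ET w)) : ∃ l' : List (ET (.cD w)), ∀ I : Cum, I.Ax c0 →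
    ∀ j k m x, cD I m (esum I l j k) x = esum I l' j (k, m) x := by
  induction l with
  | nil => exact ⟨[], fun I _ j k m x => by simp [esum, cD]⟩
  | cons t l ih =>
    obtain ⟨l', h⟩ := ih
    refine ⟨t.liftA :: t.liftB :: l', fun I hI j k m x => ?_⟩
    change _ = EE I (fun x => ut I j x * cD I m (val I t.w2 (t.e I.N k).2) x) *
      val I t.w1 (t.e I.N k).1 x + (EE I (fun x => ut I j x * val I t.w2 (t.e I.N k).2 x) *
      cD I m (val I t.w1 (t.e I.N k).1) x + esum I l' j (k, m) x)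
    rw [← h I hI, ← D_EE_ut hI j m (Q.val hI _ _) (EE_val hI _ _ t.ne)]
    simp only [cD, esum, map_add, Derivation.leibniz, smul_eq_mul]
    ring

lemma expand (c0 : ℝ) : ∀ w : W, ∃ l : List (ET w), ∀ I : Cum, I.Ax c0 → ∀ j k x,
    I.D j (val I w k x) = -esum I l j k x
  | .one => ⟨[], fun I _ j k x => by simp [val, esum]⟩
  | .ft => ⟨[⟨.one, .ft, by simp, fun N => (Equiv.punitProd N).symm⟩], fun I hI j l x => by
      change I.D j (algebraMap ℝ I.A (I.f l x) - I.Ex (I.f l)) =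
        -(EE I (fun x => ut I j x * (algebraMap ℝ I.A (I.f l x) - I.Ex (I.f l))) * 1 + 0)
      rw [EE_cov hI j (hI.PG_f l) (hI.PG_Jf l) (hI.HG_f l)]
      simp⟩
  | .cD w => by
    obtain ⟨l, hl⟩ := expand c0 w
    obtain ⟨l', hl'⟩ := cD_esum c0 l
    refine ⟨⟨w, .cD .one, by simp, fun N => (Equiv.refl _).prodCongr (Equiv.punitProd N).symm⟩ :: l',
      fun I hI j k x => ?_⟩
    obtain ⟨k, m⟩ := k
    change I.D j (cD I m (val I w k) x) =
      -(EE I (fun x => ut I j x * val I (.cD .one) ((), m) x) * val I w k x +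
        esum I l' j (k, m) x)
    simp only [val_u]
    rw [← hl' I hI, show (fun x => ut I j x * ut I m x) = fun x => ut I j x *
      (algebraMap ℝ I.A (I.u m x) - I.Ex (I.u m)) from rfl,
      EE_cov hI j (hI.PG_u m) (hI.PG_Ju m) (hI.HG_u m)]
    simp only [cD, map_add, Derivation.leibniz, smul_eq_mul, D_ut]
    rw [hI.D_D j m, hl I hI j k x, map_neg]
    ring

lemma Q.esum (hI : I.Ax c0) {w : W} (l : List (ET w)) (j : I.N) (k : w.κ I.N) :
    Q (esum I l j k) := by
  induction l with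
  | nil => exact Q.const hI 0
  | cons t l ih => exact ((Q.const hI _).mul hI (Q.val hI _ _)).add ih

lemma kron {J : DR} {c c' : ℝ} (k : ℕ) {L R L' R' : Type} [Fintype L] [Fintype R] [Fintype L']
    [Fintype R'] {T : Matrix L R J.A} {U : Matrix L' R' J.A} (h : J.CB c k T) (h' : J.CB c' k U) :
    J.CB (4 ^ k * (c * c')) k
      (Matrix.of fun (p : L × L') (r : R × R') => T p.1 r.1 * U p.2 r.2) := by
  classical
  have := DR.CB.mul k (DR.CB.tens L' k h)
    (DR.CB.sub k (Equiv.prodComm R L') (Equiv.prodComm R R') (DR.CB.tens R k h'))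
  convert this using 1
  ext p r
  simp [Matrix.mul_apply, Fintype.sum_prod_type]

def rowE (A N : Type) : A × N ≃ A × (Unit × N) :=
  (Equiv.refl A).prodCongr (Equiv.punitProd N).symm

lemma step (c0 : ℝ) (k : ℕ) (ih : ∀ w w' : W, ∃ c, ∀ I : Cum, I.Ax c0 →
    I.toDR.CB c k (base I w w')) (w w' : W) :
    ∃ c, ∀ I : Cum, I.Ax c0 → I.toDR.CB c k (I.toDR.DL (base I w w')) := by
  have h1 : ∀ l : List (ET w'), ∃ c, ∀ I : Cum, I.Ax c0 → I.toDR.CB c k
      (Matrix.of fun (p : w.κ I.N × I.N) (r : w'.κ I.N) =>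
        EE I fun x => val I w p.1 x * esum I l p.2 r x) := by
    intro l
    induction l with
    | nil =>
      refine ⟨0, fun I hI => ?_⟩
      convert DR.CB.zero (I := I.toDR) (c := 0) (L := w.κ I.N × I.N) (R := w'.κ I.N) k using 1
      ext p r
      simp [esum, EE_const hI]
    | cons t l ih' =>
      obtain ⟨c, hc⟩ := ih'
      obtain ⟨c1, hc1⟩ := ih w t.w1
      obtain ⟨c2, hc2⟩ := ih (.cD .one) t.w2
      refine ⟨2 * (|4 ^ k * (c1 * c2)| + |c|), fun I hI => ?_⟩
      · have := DR.CB.add k (DR.CB.sub k (rowE _ _) (t.e I.N) (kron k (hc1 I hI) (hc2 I hI)))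
          (hc I hI)
        convert this using 1
        ext p r
        change EE I _ = EE I (fun x => val I w p.1 x * val I t.w1 (t.e I.N r).1 x) *
          EE I (fun x => val I (.cD .one) ((), p.2) x * val I t.w2 (t.e I.N r).2 x) +
          EE I fun x => val I w p.1 x * esum I l p.2 r x
        simp only [val_u]
        rw [mul_comm, ← EE_mul hI _ ((Q.val hI _ _).mul hI (Q.val hI _ _)),
          ← EE_add hI ((Q.const hI _).mul hI ((Q.val hI _ _).mul hI (Q.val hI _ _)))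
            ((Q.val hI _ _).mul hI (Q.esum hI l _ _))]
        exact EE_congr fun x => by simp only [esum]; ring
  obtain ⟨l, hl⟩ := expand c0 w'
  obtain ⟨c, hc⟩ := h1 l
  obtain ⟨c1, hc1⟩ := ih (.cD w) w'
  refine ⟨2 * (|c1| + |c|), fun I hI => ?_⟩
  · have := DR.CB.add k (L := w.κ I.N × I.N) (hc1 I hI) (DR.CB.neg k (hc I hI))
    convert this using 1
    ext p r
    change I.D p.2 (EE I fun x => val I w p.1 x * val I w' r x) =
      EE I (fun x => cD I p.2 (val I w p.1) x * val I w' r x) +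
        -EE I fun x => val I w p.1 x * esum I l p.2 r x
    rw [D_EE hI _ ((Q.val hI _ _).mul hI (Q.val hI _ _)), ← neg_one_mul,
      ← EE_mul hI _ ((Q.val hI _ _).mul hI (Q.esum hI l _ _)),
      ← EE_add hI (((Q.val hI _ _).cD hI _).mul hI (Q.val hI _ _))
        ((Q.const hI _).mul hI ((Q.val hI _ _).mul hI (Q.esum hI l _ _)))]
    exact EE_congr fun x => by
      simp only [cD, Derivation.leibniz, smul_eq_mul, hl I hI]; ring

lemma all (c0 : ℝ) (hc : 0 ≤ c0) (k : ℕ) : ∀ w w' : W, ∃ c, ∀ I : Cum, I.Ax c0 →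
    I.toDR.CB c k (base I w w') := by
  induction k with
  | zero => exact base_bd c0 hc
  | succ k ih =>
    intro w w'
    obtain ⟨c1, h1⟩ := base_bd c0 hc w w'
    obtain ⟨c2, h2⟩ := step c0 k ih w w'
    obtain ⟨c3, h3⟩ := step c0 k ih w' w
    have a : |(|c1| + |c2| + |c3|)| = |c1| + |c2| + |c3| := abs_of_nonneg (by positivity)
    have := abs_nonneg c1
    have := abs_nonneg c2
    have := abs_nonneg c3
    refine ⟨|c1| + |c2| + |c3|, fun I hI => ⟨(h1 I hI).mono (by linarith),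
      DR.CB.mono (by linarith) k (h2 I hI), ?_⟩⟩
    rw [base_tr]
    exact DR.CB.mono (by linarith) k (DR.CB.transpose k (h3 I hI))

end CumAux

open CumAux in
theorem Cum.cb {ι : Type} (I : ι → Cum) (c0 : ℝ) (hc : 0 ≤ c0) (hI : ∀ i, (I i).Ax c0) (k : ℕ) :
    ∃ c : ℝ, ∀ i, (I i).toDR.CB c k (I i).Df := by
  obtain ⟨c, h⟩ := all c0 hc k .ft (.cD .one)
  refine ⟨c, fun i => ?_⟩
  have := DR.CB.sub k (Equiv.refl (I i).N) (Equiv.punitProd (I i).N).symm (h (I i) (hI i))
  convert this using 1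
  ext l m
  change (I i).D m ((I i).Ex ((I i).f l)) = EE (I i) fun x =>
    val (I i) .ft l x * val (I i) (.cD .one) ((), m) x
  rw [← EE_cov (hI i) m ((hI i).PG_f l) ((hI i).PG_Jf l) ((hI i).HG_f l)]
  exact EE_congr fun x => by rw [val_u, mul_comm]; rfl

end Vale.Agent.P347
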