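import Vale.Agent.P347.CalDefs

/-! P347 part Cum, first half: random ring elements, their expectations and gradients. -/

open MeasureTheory
open scoped ENNReal

noncomputable section
namespace Vale.Agent.P347
namespace CumAux

variable (I : Cum)

def ut (j : I.N) (x : I.X) : I.A := algebraMap ℝ I.A (I.u j x) - I.Ex (I.u j)
def cD (j : I.N) (a : I.X → I.A) : I.X → I.A := fun x => ut I j x * a x + I.D j (a x)

open Classical in
def EE (a : I.X → I.A) : I.A :=
  if h : ∃ e, ∀ y, I.ev y e = ∫ x, I.ev y (a x) ∂(I.p y) then h.choose else 0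

/-- polynomial random elements together with their gradients -/
inductive P : (I.X → I.A) → (I.M → I.X → I.A) → Prop
  | term (c : I.A) (h : I.X → ℝ) (H : I.M → I.X → ℝ) : I.PG h → (∀ m, I.PG (H m)) → I.HG h H →
      P (fun x => c * algebraMap ℝ I.A (h x)) (fun m x => c * algebraMap ℝ I.A (H m x))
  | add {a b G G'} : P a G → P b G' → P (fun x => a x + b x) (fun m x => G m x + G' m x)

variable {I} {c0 : ℝ}

lemma P.congr {a b G G'} (h : P I a G) (h1 : ∀ x, b x = a x) (h2 : ∀ m x, G' m x = G m x) :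
    P I b G' := by
  have e1 : b = a := funext h1
  have e2 : G' = G := funext fun m => funext (h2 m)
  rw [e1, e2]; exact h

lemma P.const (hI : I.Ax c0) (c : I.A) : P I (fun _ => c) (fun _ _ => 0) :=
  (P.term c (fun _ => 1) (fun _ _ => 0) (hI.PG_const 1) (fun _ => hI.PG_const 0)
    (hI.HG_const 1)).congr (by simp) (by simp)

lemma P.mul (hI : I.Ax c0) {a b G G'} (h : P I a G) (h' : P I b G') :
    P I (fun x => a x * b x) (fun m x => G m x * b x + a x * G' m x) := by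
  induction h with
  | term c h H h1 h2 h3 =>
    induction h' with
    | term c' k K k1 k2 k3 =>
      refine (P.term (c * c') (fun x => h x * k x) (fun m x => H m x * k x + h x * K m x)
        (hI.PG_mul _ _ h1 k1) (fun m => hI.PG_add _ _ (hI.PG_mul _ _ (h2 m) k1)
          (hI.PG_mul _ _ h1 (k2 m))) (hI.HG_mul _ _ _ _ h3 k3)).congr (fun x => ?_) fun m x => ?_
      · simp only [map_mul]; ring
      · simp only [map_mul, map_add]; ring
    | add _ _ ih1 ih2 => exact (ih1.add ih2).congr (fun x => by ring) fun m x => by ring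
  | add _ _ ih1 ih2 => exact (ih1.add ih2).congr (fun x => by ring) fun m x => by ring

lemma P.D (j : I.N) {a G} (h : P I a G) :
    P I (fun x => I.D j (a x)) (fun m x => I.D j (G m x)) := by
  induction h with
  | term c h H h1 h2 h3 =>
    exact (P.term (I.D j c) h H h1 h2 h3).congr (fun x => by simp [mul_comm])
      fun m x => by simp [mul_comm]
  | add _ _ ih1 ih2 => exact (ih1.add ih2).congr (fun x => by simp) fun m x => by simp

lemma P.ctr (hI : I.Ax c0) {h H} (h1 : I.PG h) (h2 : ∀ m, I.PG (H m)) (h3 : I.HG h H) :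
    P I (fun x => algebraMap ℝ I.A (h x) - I.Ex h) (fun m x => algebraMap ℝ I.A (H m x)) :=
  ((P.term 1 h H h1 h2 h3).add (P.const hI (-I.Ex h))).congr (fun x => by ring) fun m x => by ring

lemma P.ut (hI : I.Ax c0) (j : I.N) :
    P I (ut I j) (fun m x => algebraMap ℝ I.A (I.Ju j m x)) :=
  P.ctr hI (hI.PG_u j) (hI.PG_Ju j) (hI.HG_u j)

lemma P.cD (hI : I.Ax c0) (j : I.N) {a G} (h : P I a G) :
    P I (cD I j a) (fun m x => algebraMap ℝ I.A (I.Ju j m x) * a x + cD I j (G m) x) :=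
  (((P.ut hI j).mul hI h).add (h.D j)).congr (fun _ => rfl) fun m x => by
    simp only [CumAux.cD]; ring

lemma P.real (hI : I.Ax c0) (y : I.Pts) {a G} (h : P I a G) :
    I.PG (fun x => I.ev y (a x)) ∧ (∀ m, I.PG fun x => I.ev y (G m x)) ∧
      I.HG (fun x => I.ev y (a x)) fun m x => I.ev y (G m x) := by
  induction h with
  | term c h H h1 h2 h3 =>
    simp only [map_mul, AlgHom.commutes, Algebra.algebraMap_self, RingHom.id_apply]
    refine ⟨hI.PG_mul _ _ (hI.PG_const _) h1, fun m => hI.PG_mul _ _ (hI.PG_const _) (h2 m), ?_⟩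
    simpa using hI.HG_mul _ _ _ _ (hI.HG_const (I.ev y c)) h3
  | add _ _ ih1 ih2 =>
    simp only [map_add]
    exact ⟨hI.PG_add _ _ ih1.1 ih2.1, fun m => hI.PG_add _ _ (ih1.2.1 m) (ih2.2.1 m),
      hI.HG_add _ _ _ _ ih1.2.2 ih2.2.2⟩

lemma P.int (hI : I.Ax c0) (y : I.Pts) {a G} (h : P I a G) :
    Integrable (fun x => I.ev y (a x)) (I.p y) := hI.PG_int _ y (h.real hI y).1

lemma P.ev_EE (hI : I.Ax c0) {a G} (h : P I a G) (y : I.Pts) :
    I.ev y (EE I a) = ∫ x, I.ev y (a x) ∂(I.p y) := by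
  have : ∃ e, ∀ y, I.ev y e = ∫ x, I.ev y (a x) ∂(I.p y) := by
    induction h with
    | term c h H h1 h2 h3 =>
      refine ⟨c * I.Ex h, fun y => ?_⟩
      simp only [map_mul, AlgHom.commutes, Algebra.algebraMap_self, RingHom.id_apply]
      rw [integral_const_mul, hI.ev_Ex h y h1]
    | add p1 p2 ih1 ih2 =>
      obtain ⟨e1, h1⟩ := ih1
      obtain ⟨e2, h2⟩ := ih2
      refine ⟨e1 + e2, fun y => ?_⟩
      simp only [map_add]
      rw [integral_add (p1.int hI y) (p2.int hI y), h1, h2]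
  rw [EE, dif_pos this]
  exact this.choose_spec y

/-- elements with some gradient -/
def Q (a : I.X → I.A) : Prop := ∃ G, P I a G

lemma Q.add {a b} (h : Q (I := I) a) (h' : Q b) : Q fun x => a x + b x :=
  ⟨_, h.choose_spec.add h'.choose_spec⟩
lemma Q.mul (hI : I.Ax c0) {a b} (h : Q (I := I) a) (h' : Q b) : Q fun x => a x * b x :=
  ⟨_, h.choose_spec.mul hI h'.choose_spec⟩
lemma Q.const (hI : I.Ax c0) (c : I.A) : Q fun _ : I.X => c := ⟨_, P.const hI c⟩
lemma Q.D (j : I.N) {a} (h : Q (I := I) a) : Q fun x => I.D j (a x) := ⟨_, h.choose_spec.D j⟩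
lemma Q.cD (hI : I.Ax c0) (j : I.N) {a} (h : Q (I := I) a) : Q (cD I j a) :=
  ⟨_, h.choose_spec.cD hI j⟩
lemma Q.ut (hI : I.Ax c0) (j : I.N) : Q (ut I j) := ⟨_, P.ut hI j⟩
lemma Q.ev_EE (hI : I.Ax c0) {a} (h : Q (I := I) a) (y : I.Pts) :
    I.ev y (EE I a) = ∫ x, I.ev y (a x) ∂(I.p y) := h.choose_spec.ev_EE hI y
lemma Q.int (hI : I.Ax c0) {a} (h : Q (I := I) a) (y : I.Pts) :
    Integrable (fun x => I.ev y (a x)) (I.p y) := h.choose_spec.int hI y
lemma Q.pg (hI : I.Ax c0) {a} (h : Q (I := I) a) (y : I.Pts) :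
    I.PG (fun x => I.ev y (a x)) := (h.choose_spec.real hI y).1

lemma EE_add (hI : I.Ax c0) {a b} (h : Q (I := I) a) (h' : Q b) :
    EE I (fun x => a x + b x) = EE I a + EE I b := hI.sep _ _ fun y => by
  rw [map_add, (h.add h').ev_EE hI, h.ev_EE hI, h'.ev_EE hI, ← integral_add (h.int hI y)
    (h'.int hI y)]
  simp

lemma EE_mul (hI : I.Ax c0) (c : I.A) {a} (h : Q (I := I) a) :
    EE I (fun x => c * a x) = c * EE I a := hI.sep _ _ fun y => by
  rw [map_mul, ((Q.const hI c).mul hI h).ev_EE hI, h.ev_EE hI, ← integral_const_mul]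
  simp

lemma EE_const (hI : I.Ax c0) (c : I.A) : EE I (fun _ => c) = c := hI.sep _ _ fun y => by
  have := hI.prob y
  rw [(Q.const hI c).ev_EE hI]; simp

lemma EE_alg (hI : I.Ax c0) {h H} (h1 : I.PG h) (h2 : ∀ m, I.PG (H m)) (h3 : I.HG h H) :
    EE I (fun x => algebraMap ℝ I.A (h x)) = I.Ex h := hI.sep _ _ fun y => by
  rw [((P.term 1 h H h1 h2 h3).congr (b := fun x => algebraMap ℝ I.A (h x))
    (fun x => by simp) fun _ _ => rfl).ev_EE hI, hI.ev_Ex h y h1]
  simp

lemma EE_congr {a b : I.X → I.A} (h : ∀ x, a x = b x) : EE I a = EE I b := by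
  rw [funext h]

lemma D_EE (hI : I.Ax c0) (j : I.N) {a} (h : Q (I := I) a) :
    I.D j (EE I a) = EE I (cD I j a) := by
  obtain ⟨G, h⟩ := h
  induction h with
  | term c h H h1 h2 h3 =>
    have q : Q (I := I) fun x => algebraMap ℝ I.A (h x) :=
      ⟨_, (P.term 1 h H h1 h2 h3).congr (fun x => by simp) fun _ _ => rfl⟩
    have g1 := hI.PG_mul _ _ (hI.PG_u j) h1
    have g2 := fun m => hI.PG_add _ _ (hI.PG_mul _ _ (hI.PG_Ju j m) h1)
      (hI.PG_mul _ _ (hI.PG_u j) (h2 m))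
    have g3 := hI.HG_mul _ _ _ _ (hI.HG_u j) h3
    have q' : Q (I := I) fun x => algebraMap ℝ I.A (I.u j x * h x) :=
      ⟨_, (P.term 1 _ _ g1 g2 g3).congr (fun x => by simp) fun _ _ => rfl⟩
    rw [EE_mul hI c q, EE_alg hI h1 h2 h3, EE_congr (a := cD I j _)
      (b := fun x => c * algebraMap ℝ I.A (I.u j x * h x) +
        (I.D j c - c * I.Ex (I.u j)) * algebraMap ℝ I.A (h x)) fun x => by
          simp [cD, ut]; ring,
      EE_add hI ((Q.const hI _).mul hI q') ((Q.const hI _).mul hI q), EE_mul hI _ q, EE_mul hI _ q',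
      EE_alg hI h1 h2 h3, EE_alg hI g1 g2 g3, Derivation.leibniz, hI.D_Ex h j h1]
    simp only [smul_eq_mul]; ring
  | add p1 p2 ih1 ih2 =>
    rw [EE_add hI ⟨_, p1⟩ ⟨_, p2⟩, map_add, ih1, ih2,
      ← EE_add hI (Q.cD hI j ⟨_, p1⟩) (Q.cD hI j ⟨_, p2⟩)]
    exact EE_congr fun x => by simp [cD]; ring

lemma EE_ctr (hI : I.Ax c0) {h H} (h1 : I.PG h) (h2 : ∀ m, I.PG (H m)) (h3 : I.HG h H) :
    EE I (fun x => algebraMap ℝ I.A (h x) - I.Ex h) = 0 := by
  have q : Q (I := I) fun x => algebraMap ℝ I.A (h x) :=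
    ⟨_, (P.term 1 h H h1 h2 h3).congr (fun x => by simp) fun _ _ => rfl⟩
  rw [EE_congr (b := fun x => algebraMap ℝ I.A (h x) + -I.Ex h) fun x => by ring,
    EE_add hI q (Q.const hI _), EE_const hI, EE_alg hI h1 h2 h3, add_neg_cancel]

lemma EE_cov (hI : I.Ax c0) (j : I.N) {h H} (h1 : I.PG h) (h2 : ∀ m, I.PG (H m)) (h3 : I.HG h H) :
    EE I (fun x => ut I j x * (algebraMap ℝ I.A (h x) - I.Ex h)) = I.D j (I.Ex h) := by
  have q : Q (I := I) fun x => algebraMap ℝ I.A (h x) - I.Ex h := ⟨_, P.ctr hI h1 h2 h3⟩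
  have e := D_EE hI j q
  rw [EE_ctr hI h1 h2 h3, map_zero, EE_congr (a := cD I j _)
    (b := fun x => ut I j x * (algebraMap ℝ I.A (h x) - I.Ex h) + -I.D j (I.Ex h))
      fun x => by simp [cD], EE_add hI ((Q.ut hI j).mul hI q) (Q.const hI _), EE_const hI] at e
  linear_combination -e

lemma D_ut (j m : I.N) (x : I.X) : I.D m (ut I j x) = -I.D m (I.Ex (I.u j)) := by simp [ut]

lemma D_EE_ut (hI : I.Ax c0) (j m : I.N) {b} (h : Q (I := I) b) (h0 : EE I b = 0) :
    I.D m (EE I fun x => ut I j x * b x) = EE I fun x => ut I j x * cD I m b x := by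
  rw [D_EE hI m ((Q.ut hI j).mul hI h), EE_congr (a := cD I m _)
    (b := fun x => ut I j x * cD I m b x + (-I.D m (I.Ex (I.u j))) * b x) fun x => by
      simp only [cD, Derivation.leibniz, D_ut, smul_eq_mul]; ring,
    EE_add hI ((Q.ut hI j).mul hI (h.cD hI m)) ((Q.const hI _).mul hI h), EE_mul hI _ h, h0]
  simp

/-- codes of the families -/
inductive W
  | one
  | ft
  | cD (w : W)

def W.κ (N : Type) : W → Type
  | .one => Unit
  | .ft => N
  | .cD w => w.κ N × N

instance W.fin (N : Type) [Fintype N] : ∀ w : W, Fintype (w.κ N)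
  | .one => inferInstanceAs (Fintype Unit)
  | .ft => inferInstanceAs (Fintype N)
  | .cD w => @instFintypeProd _ _ (W.fin N w) _

def W.gr : W → ℕ
  | .one => 0
  | .ft => 1
  | .cD w => w.gr + 1

def val (I : Cum) : ∀ w : W, w.κ I.N → I.X → I.A
  | .one, _ => fun _ => 1
  | .ft, l => fun x => algebraMap ℝ I.A (I.f l x) - I.Ex (I.f l)
  | .cD w, p => cD I p.2 (val I w p.1)

lemma Q.val (hI : I.Ax c0) : ∀ (w : W) (k : w.κ I.N), Q (val I w k)
  | .one, _ => Q.const hI 1
  | .ft, l => ⟨_, P.ctr hI (hI.PG_f l) (hI.PG_Jf l) (hI.HG_f l)⟩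
  | .cD w, p => (Q.val hI w p.1).cD hI p.2

lemma EE_val (hI : I.Ax c0) : ∀ (w : W) (k : w.κ I.N), w ≠ .one → EE I (val I w k) = 0
  | .one, _, h => absurd rfl h
  | .ft, l, _ => EE_ctr hI (hI.PG_f l) (hI.PG_Jf l) (hI.HG_f l)
  | .cD w, p, _ => by
    rw [val, ← D_EE hI _ (Q.val hI w p.1)]
    by_cases h : w = .one
    · subst h
      rw [show val I .one p.1 = fun _ => 1 from rfl, EE_const hI]
      simp
    · rw [EE_val hI w p.1 h, map_zero]

lemma val_u (j : I.N) (x : I.X) : val I (.cD .one) ((), j) x = ut I j x := by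
  simp [val, cD]

end CumAux
end Vale.Agent.P347
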