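import Mathlib

/-! P347: first-order query complexity of well-conditioned log-concave sampling. -/

open MeasureTheory ProbabilityTheory

noncomputable section
namespace Vale.Agent.P347

abbrev E (d : ℕ) := EuclideanSpace ℝ (Fin d)

/-- The class of potentials: `C²`, `V 0 = 0`, `∇V 0 = 0`, and `I ≼ ∇²V ≼ 2 I` everywhere. -/
def InClass {d : ℕ} (V : E d → ℝ) : Prop :=
  ContDiff ℝ 2 V ∧ V 0 = 0 ∧ gradient V 0 = 0 ∧
    ∀ x v, ‖v‖ ^ 2 ≤ iteratedFDeriv ℝ 2 V x ![v, v] ∧
      iteratedFDeriv ℝ 2 V x ![v, v] ≤ 2 * ‖v‖ ^ 2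

/-- The Gibbs law with density `exp (-V) / Z`. -/
def gibbs {d : ℕ} (V : E d → ℝ) : Measure (E d) :=
  volume.withDensity fun x => ENNReal.ofReal (Real.exp (-V x) / ∫ y, Real.exp (-V y))

/-- A randomized adaptive algorithm: it draws `m` random reals; its `k`-th query point and its
output are measurable functions of these and of the record of oracle answers received so far. -/
structure Alg (d : ℕ) where
  m : ℕ
  query : ℕ → (Fin m → ℝ) × (ℕ → ℝ × E d) → E d
  out : (Fin m → ℝ) × (ℕ → ℝ × E d) → E d
  measurable_query : ∀ k, Measurable (query k)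
  measurable_out : Measurable out

/-- The record after `k` queries: entry `j < k` is the answer `(V x, ∇V x)` to the `j`-th query
`x`; later entries are `(0, 0)`. -/
def Alg.hist {d : ℕ} (A : Alg d) (V : E d → ℝ) (ω : Fin A.m → ℝ) (k : ℕ) : ℕ → ℝ × E d :=
  Nat.rec (fun _ => (0, 0))
    (fun j H => Function.update H j (V (A.query j (ω, H)), gradient V (A.query j (ω, H)))) k

/-- The law of the output after `q` queries, the random reals being independent `N(0,1)`. -/
def Alg.law {d : ℕ} (A : Alg d) (q : ℕ) (V : E d → ℝ) : Measure (E d) :=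
  (Measure.pi fun _ : Fin A.m => gaussianReal 0 1).map fun ω => A.out (ω, A.hist V ω q)

/-- Some algorithm with `q` queries is within total variation `1/10` of the Gibbs law for every
potential of the class. -/
def Solves (d q : ℕ) : Prop :=
  ∃ A : Alg d, ∀ V, InClass V → ∀ B, MeasurableSet B →
    |(A.law q V).real B - (gibbs V).real B| ≤ 1 / 10

/-- The query complexity. -/
def Q (d : ℕ) : ℕ := sInf {q | Solves d q}

end Vale.Agent.P347
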