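import Mathlib

/-! P347 part Div: the L2 bound for the divergence (Skorokhod) operator of a smooth positive
density `exp ell` whose Hessian is bounded below.  Standalone. -/

open MeasureTheory Set
open scoped ENNReal

namespace Vale.Agent.P347

namespace DivAux

open Filter Topology

variable {H N : Type} [NormedAddCommGroup H] [NormedSpace ℝ H]

/-- Directional derivative. -/
noncomputable def D (v : H) (f : H → ℝ) : H → ℝ := fun y => fderiv ℝ f y v

theorem D_contDiff {f : H → ℝ} (hf : ContDiff ℝ 2 f) (v : H) : ContDiff ℝ 1 (D v f) :=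
  (hf.fderiv_right (m := 1) (by norm_num)).clm_apply contDiff_const

theorem D_cont {f : H → ℝ} (hf : ContDiff ℝ 1 f) (v : H) : Continuous (D v f) :=
  (hf.continuous_fderiv (by norm_num)).clm_apply continuous_const

theorem D_symm {f : H → ℝ} (hf : ContDiff ℝ 2 f) (u v y : H) : D u (D v f) y = D v (D u f) y := by
  have h1 : DifferentiableAt ℝ (fderiv ℝ f) y :=
    (hf.fderiv_right (m := 1) (by norm_num)).differentiable (by norm_num) y
  have h2 : ∀ u v : H, D u (D v f) y = fderiv ℝ (fderiv ℝ f) y u v := fun u v => by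
    unfold D
    rw [fderiv_clm_apply h1 (differentiableAt_const v)]
    simp
  rw [h2, h2]
  exact (hf.contDiffAt.isSymmSndFDerivAt (by simp)) u v

theorem D_mul {f g : H → ℝ} (hf : Differentiable ℝ f) (hg : Differentiable ℝ g) (v y : H) :
    D v (fun y => f y * g y) y = D v f y * g y + f y * D v g y := by
  unfold D
  rw [fderiv_fun_mul (hf y) (hg y)]
  simp only [_root_.add_apply, _root_.smul_apply, smul_eq_mul]
  ring

theorem D_sum [Fintype N] {f : N → H → ℝ} (hf : ∀ l, Differentiable ℝ (f l)) (v y : H) :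
    D v (fun y => ∑ l, f l y) y = ∑ l, D v (f l) y := by
  unfold D
  rw [fderiv_fun_sum fun l _ => hf l y]
  simp

theorem D_sub {f g : H → ℝ} (hf : Differentiable ℝ f) (hg : Differentiable ℝ g) (v y : H) :
    D v (fun y => f y - g y) y = D v f y - D v g y := by
  unfold D
  rw [fderiv_fun_sub (hf y) (hg y)]
  simp

theorem D_add {f g : H → ℝ} (hf : Differentiable ℝ f) (hg : Differentiable ℝ g) (v y : H) :
    D v (fun y => f y + g y) y = D v f y + D v g y := by
  unfold D
  rw [fderiv_fun_add (hf y) (hg y)]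
  simp

theorem D_neg (f : H → ℝ) (v y : H) : D v (fun y => -f y) y = -D v f y := by
  unfold D
  rw [fderiv_fun_neg]
  simp

theorem D_exp {f : H → ℝ} (hf : Differentiable ℝ f) (v y : H) :
    D v (fun y => Real.exp (f y)) y = Real.exp (f y) * D v f y := by
  unfold D
  rw [fderiv_exp (hf y)]
  simp

/-- The divergence operator. -/
noncomputable def dv [Fintype N] (e : N → H) (ell : H → ℝ) (w : N → H → ℝ) : H → ℝ :=
  fun y => ∑ l, (-D (e l) ell y * w l y - D (e l) (w l) y)

theorem dv_contDiff [Fintype N] (e : N → H) {ell : H → ℝ} (hell : ContDiff ℝ 2 ell)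
    {w : N → H → ℝ} (hw : ∀ l, ContDiff ℝ 2 (w l)) : ContDiff ℝ 1 (dv e ell w) :=
  ContDiff.sum fun l _ => ((D_contDiff hell _).neg.mul ((hw l).of_le (by norm_num))).sub
    (D_contDiff (hw l) _)

/-- The vector field whose divergence is the defect in the Bochner identity. -/
noncomputable def G [Fintype N] (e : N → H) (ell : H → ℝ) (w : N → H → ℝ) (l : N) : H → ℝ :=
  fun y => (dv e ell w y * w l y + ∑ m, w m y * D (e m) (w l) y) * Real.exp (ell y)

theorem bochner [Fintype N] (e : N → H) {ell : H → ℝ} (hell : ContDiff ℝ 2 ell)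
    {w : N → H → ℝ} (hw : ∀ l, ContDiff ℝ 2 (w l)) (y : H) :
    dv e ell w y ^ 2 * Real.exp (ell y) + ∑ l, D (e l) (G e ell w l) y =
      (-∑ l, ∑ m, D (e l) (D (e m) ell) y * (w l y * w m y) +
        ∑ l, ∑ m, D (e m) (w l) y * D (e l) (w m) y) * Real.exp (ell y) := by
  have d1 : Differentiable ℝ ell := hell.differentiable (by norm_num)
  have d2 : ∀ l, Differentiable ℝ (w l) := fun l => (hw l).differentiable (by norm_num)
  have d3 : ∀ v, Differentiable ℝ (D v ell) := fun v =>
    (D_contDiff hell v).differentiable (by norm_num)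
  have d4 : ∀ v l, Differentiable ℝ (D v (w l)) := fun v l =>
    (D_contDiff (hw l) v).differentiable (by norm_num)
  have d5 : Differentiable ℝ (dv e ell w) := (dv_contDiff e hell hw).differentiable (by norm_num)
  have h1 : ∀ l, D (e l) (dv e ell w) y = ∑ m, (-D (e l) (D (e m) ell) y * w m y -
      D (e m) ell y * D (e l) (w m) y - D (e m) (D (e l) (w m)) y) := fun l => by
    unfold dv
    rw [D_sum fun m => ((d3 _).fun_neg.fun_mul (d2 m)).fun_sub (d4 _ m)]
    refine Finset.sum_congr rfl fun m _ => ?_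
    rw [D_sub ((d3 _).fun_neg.fun_mul (d2 m)) (d4 _ m), D_mul (d3 _).fun_neg (d2 m), D_neg,
      D_symm (hw m) (e l) (e m)]
    ring
  have h2 : ∀ l, D (e l) (G e ell w l) y = (D (e l) (dv e ell w) y * w l y +
      dv e ell w y * (D (e l) (w l) y + D (e l) ell y * w l y) +
      ∑ m, (D (e l) (w m) y * D (e m) (w l) y + w m y * D (e l) (D (e m) (w l)) y +
        w m y * D (e m) (w l) y * D (e l) ell y)) * Real.exp (ell y) := fun l => by
    have d6 : Differentiable ℝ fun y => ∑ m, w m y * D (e m) (w l) y :=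
      Differentiable.fun_sum fun m _ => (d2 m).mul (d4 _ l)
    unfold G
    rw [D_mul ((d5.fun_mul (d2 l)).fun_add d6) d1.exp, D_add (d5.fun_mul (d2 l)) d6, D_mul d5 (d2 l),
      D_sum fun m => (d2 m).fun_mul (d4 _ l), D_exp d1]
    simp only [D_mul (d2 _) (d4 _ l), Finset.sum_add_distrib, ← Finset.sum_mul]
    ring
  have h3 : ∑ l, dv e ell w y * (D (e l) (w l) y + D (e l) ell y * w l y) = -dv e ell w y ^ 2 := by
    rw [← Finset.mul_sum, show ∑ l, (D (e l) (w l) y + D (e l) ell y * w l y) = -dv e ell w y by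
      unfold dv
      rw [← Finset.sum_neg_distrib]
      exact Finset.sum_congr rfl fun l _ => by ring]
    ring
  have h4 : ∑ l, ∑ m, (w m y * D (e l) (D (e m) (w l)) y +
      w m y * D (e m) (w l) y * D (e l) ell y) =
      ∑ l, ∑ m, (w l y * D (e m) (D (e l) (w m)) y + w l y * D (e l) (w m) y * D (e m) ell y) :=
    Finset.sum_comm
  have h5 : ∑ l, D (e l) (dv e ell w) y * w l y =
      -∑ l, ∑ m, D (e l) (D (e m) ell) y * (w l y * w m y) -
      ∑ l, ∑ m, (w l y * D (e m) (D (e l) (w m)) y + w l y * D (e l) (w m) y * D (e m) ell y) := by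
    rw [← Finset.sum_neg_distrib, ← Finset.sum_sub_distrib]
    refine Finset.sum_congr rfl fun l _ => ?_
    rw [h1, Finset.sum_mul, ← Finset.sum_neg_distrib, ← Finset.sum_sub_distrib]
    exact Finset.sum_congr rfl fun m _ => by ring
  have h6 : ∑ l, ∑ m, (D (e l) (w m) y * D (e m) (w l) y + w m y * D (e l) (D (e m) (w l)) y +
        w m y * D (e m) (w l) y * D (e l) ell y) = ∑ l, ∑ m, D (e m) (w l) y * D (e l) (w m) y +
      ∑ l, ∑ m, (w m y * D (e l) (D (e m) (w l)) y + w m y * D (e m) (w l) y * D (e l) ell y) := by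
    rw [← Finset.sum_add_distrib]
    refine Finset.sum_congr rfl fun l _ => ?_
    rw [← Finset.sum_add_distrib]
    exact Finset.sum_congr rfl fun m _ => by ring
  simp only [h2]
  rw [← Finset.sum_mul, Finset.sum_add_distrib, Finset.sum_add_distrib, h3, h5, h6, h4]
  ring

variable [FiniteDimensional ℝ H] [MeasurableSpace H] [BorelSpace H] (μ : Measure H)
  [μ.IsAddHaarMeasure]

theorem integral_D {g : H → ℝ} (hg : ContDiff ℝ 1 g) (hs : HasCompactSupport g) (v : H) :
    Integrable (D v g) μ ∧ ∫ y, D v g y ∂μ = 0 := by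
  have h1 : Integrable (D v g) μ :=
    (D_cont hg v).integrable_of_hasCompactSupport (hs.fderiv_apply ℝ v)
  refine ⟨h1, ?_⟩
  have := integral_mul_fderiv_eq_neg_fderiv_mul_of_integrable (μ := μ) (f := fun _ => (1 : ℝ))
    (g := g) (v := v) (by simp) (by simp only [one_mul]; exact h1)
    (by simpa using hg.continuous.integrable_of_hasCompactSupport hs) (fun _ _ => by fun_prop)
    (fun x _ => hg.differentiable (by norm_num) x)
  simpa [D] using this

omit [NormedSpace ℝ H] [FiniteDimensional ℝ H] [μ.IsAddHaarMeasure] in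
theorem lint_eq {ell f : H → ℝ} (hell : Continuous ell) (hf : Continuous f) (h0 : ∀ y, 0 ≤ f y)
    (hi : Integrable (fun y => f y * Real.exp (ell y)) μ) :
    ∫⁻ y, ENNReal.ofReal (f y) ∂(μ.withDensity fun y => ENNReal.ofReal (Real.exp (ell y))) =
      ENNReal.ofReal (∫ y, f y * Real.exp (ell y) ∂μ) := by
  rw [lintegral_withDensity_eq_lintegral_mul _ (by fun_prop) (by fun_prop),
    ofReal_integral_eq_lintegral_ofReal hi
      (Eventually.of_forall fun y => mul_nonneg (h0 y) (Real.exp_pos _).le)]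
  refine lintegral_congr fun y => ?_
  rw [Pi.mul_apply, ← ENNReal.ofReal_mul (Real.exp_pos _).le, mul_comm]

theorem compact_case [Fintype N] (e : N → H) {ell : H → ℝ} (hell : ContDiff ℝ 2 ell)
    {c : ℝ} (hc : 0 ≤ c)
    (hess : ∀ y (x : N → ℝ), -∑ l, ∑ m, D (e l) (D (e m) ell) y * (x l * x m) ≤ c * ∑ l, x l ^ 2)
    {w : N → H → ℝ} (hw : ∀ l, ContDiff ℝ 2 (w l)) (hs : ∀ l, HasCompactSupport (w l)) :
    ∫⁻ y, ENNReal.ofReal (dv e ell w y ^ 2)
        ∂(μ.withDensity fun y => ENNReal.ofReal (Real.exp (ell y))) ≤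
      ∫⁻ y, ENNReal.ofReal (c * ∑ l, w l y ^ 2 + ∑ l, ∑ m, D (e m) (w l) y ^ 2)
        ∂(μ.withDensity fun y => ENNReal.ofReal (Real.exp (ell y))) := by
  have w1 : ∀ l, ContDiff ℝ 1 (w l) := fun l => (hw l).of_le (by norm_num)
  have e1 : ContDiff ℝ 1 ell := hell.of_le (by norm_num)
  let K := ⋃ l, tsupport (w l)
  have hK : IsCompact K := isCompact_iUnion fun l => hs l
  have hw0 : ∀ y ∉ K, ∀ l, w l y = 0 := fun y hy l =>
    image_eq_zero_of_notMem_tsupport fun h => hy (mem_iUnion.2 ⟨l, h⟩)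
  have hD0 : ∀ y ∉ K, ∀ l v, D v (w l) y = 0 := fun y hy l v => by
    have : fderiv ℝ (w l) y = 0 := image_eq_zero_of_notMem_tsupport fun h =>
      hy (mem_iUnion.2 ⟨l, tsupport_fderiv_subset ℝ h⟩)
    simp [D, this]
  have hG : ∀ l, Integrable (D (e l) (G e ell w l)) μ ∧ ∫ y, D (e l) (G e ell w l) y ∂μ = 0 :=
    fun l => integral_D μ ((((dv_contDiff e hell hw).mul (w1 l)).add
      (ContDiff.sum fun m _ => (w1 m).mul (D_contDiff (hw l) _))).mul e1.exp)
      (HasCompactSupport.intro hK fun y hy => by simp [G, hw0 y hy]) _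
  have c1 : Continuous fun y => dv e ell w y ^ 2 := (dv_contDiff e hell hw).continuous.pow 2
  have c2 : Continuous fun y => c * ∑ l, w l y ^ 2 + ∑ l, ∑ m, D (e m) (w l) y ^ 2 :=
    (continuous_const.mul (continuous_finsetSum _ fun l _ => (w1 l).continuous.pow 2)).add
      (continuous_finsetSum _ fun l _ => continuous_finsetSum _ fun m _ => (D_cont (w1 l) _).pow 2)
  have i1 : Integrable (fun y => dv e ell w y ^ 2 * Real.exp (ell y)) μ :=
    (c1.mul e1.continuous.rexp).integrable_of_hasCompactSupport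
      (HasCompactSupport.intro hK fun y hy => by simp [dv, hw0 y hy, hD0 y hy])
  have i2 : Integrable (fun y => (c * ∑ l, w l y ^ 2 + ∑ l, ∑ m, D (e m) (w l) y ^ 2) *
      Real.exp (ell y)) μ :=
    (c2.mul e1.continuous.rexp).integrable_of_hasCompactSupport
      (HasCompactSupport.intro hK fun y hy => by simp [hw0 y hy, hD0 y hy])
  rw [lint_eq μ e1.continuous c1 (fun y => sq_nonneg _) i1,
    lint_eq μ e1.continuous c2 (fun y => by positivity) i2]
  refine ENNReal.ofReal_le_ofReal ?_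
  have i3 : Integrable (fun y => ∑ l, D (e l) (G e ell w l) y) μ :=
    integrable_finsetSum _ fun l _ => (hG l).1
  have h1 : ∫ y, dv e ell w y ^ 2 * Real.exp (ell y) ∂μ =
      ∫ y, (dv e ell w y ^ 2 * Real.exp (ell y) + ∑ l, D (e l) (G e ell w l) y) ∂μ := by
    rw [integral_add i1 i3, integral_finsetSum _ fun l _ => (hG l).1]
    simp [fun l => (hG l).2]
  rw [h1]
  refine integral_mono (i1.add i3) i2 fun y => ?_
  simp only
  rw [bochner e hell hw y]
  refine mul_le_mul_of_nonneg_right (add_le_add (hess y fun l => w l y) ?_) (Real.exp_pos _).le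
  have h2 : ∑ l, ∑ m, D (e l) (w m) y ^ 2 = ∑ l, ∑ m, D (e m) (w l) y ^ 2 := Finset.sum_comm
  have h3 : ∑ l, ∑ m, D (e m) (w l) y * D (e l) (w m) y ≤
      ∑ l, ∑ m, (D (e m) (w l) y ^ 2 + D (e l) (w m) y ^ 2) / 2 :=
    Finset.sum_le_sum fun l _ => Finset.sum_le_sum fun m _ => by
      nlinarith [sq_nonneg (D (e m) (w l) y - D (e l) (w m) y)]
  simp only [← Finset.sum_div, Finset.sum_add_distrib] at h3
  linarith

omit [MeasurableSpace H] [BorelSpace H] in
theorem cutoff [Fintype N] (e : N → H) : ∃ χ : ℕ → H → ℝ, (∀ n, ContDiff ℝ 2 (χ n)) ∧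
    (∀ n, HasCompactSupport (χ n)) ∧ (∀ n y, χ n y ^ 2 ≤ 1) ∧
    (∀ n y, ∑ m, D (e m) (χ n) y ^ 2 ≤ 1) ∧ ∀ y, ∀ᶠ n in atTop, χ n =ᶠ[𝓝 y] fun _ => 1 := by
  let b : ContDiffBump (0 : H) := ⟨1, 2, one_pos, one_lt_two⟩
  have hb : ContDiff ℝ 2 b := b.contDiff
  obtain ⟨K, hK⟩ := (hb.continuous_fderiv (by norm_num)).bounded_above_of_compact_support
    (b.hasCompactSupport.fderiv ℝ)
  set s := ∑ m, (K * ‖e m‖) ^ 2 with hs
  have hs0 : 0 ≤ s := Finset.sum_nonneg fun _ _ => sq_nonneg _
  let t : ℕ → ℝ := fun n => (1 + s)⁻¹ * (1 / ((n : ℝ) + 1))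
  have ht0 : ∀ n, 0 < t n := fun n => by positivity
  have ht1 : ∀ n, t n ≤ (1 + s)⁻¹ := fun n =>
    mul_le_of_le_one_right (by positivity) (by
      rw [div_le_one (by positivity)]; linarith [Nat.cast_nonneg (α := ℝ) n])
  refine ⟨fun n y => b (t n • y), fun n => hb.comp (contDiff_const_smul _), fun n =>
    b.hasCompactSupport.comp_smul (ht0 n).ne', fun n y => ?_, fun n y => ?_, fun y => ?_⟩
  · exact pow_le_one₀ b.nonneg b.le_one
  · have h1 : ∀ m, D (e m) (fun y => b (t n • y)) y ^ 2 ≤ t n ^ 2 * (K * ‖e m‖) ^ 2 := fun m => by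
      have h2 : HasFDerivAt (fun y => b (t n • y))
          ((fderiv ℝ b (t n • y)).comp (t n • ContinuousLinearMap.id ℝ H)) y :=
        (hb.differentiable (by norm_num) _).hasFDerivAt.comp y ((hasFDerivAt_id y).const_smul _)
      unfold D
      rw [h2.fderiv]
      simp only [ContinuousLinearMap.comp_apply, _root_.smul_apply,
        ContinuousLinearMap.id_apply, map_smul, smul_eq_mul, mul_pow (t n)]
      refine mul_le_mul_of_nonneg_left (sq_le_sq' ?_ ?_) (sq_nonneg _) <;>
      have h3 := abs_le.1 (((fderiv ℝ b (t n • y)).le_opNorm (e m)).trans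
        (mul_le_mul_of_nonneg_right (hK _) (norm_nonneg _)))
      exacts [h3.1, h3.2]
    refine (Finset.sum_le_sum fun m _ => h1 m).trans ?_
    rw [← Finset.mul_sum, ← hs]
    have h2 : t n * (1 + s) ≤ 1 := by
      have := mul_le_mul_of_nonneg_right (ht1 n) (by positivity : 0 ≤ 1 + s)
      rwa [inv_mul_cancel₀ (by positivity)] at this
    have h3 := ht0 n
    nlinarith [mul_nonneg h3.le hs0]
  · have h1 : Tendsto (fun n => t n • y) atTop (𝓝 0) := by
      have := (tendsto_one_div_add_atTop_nhds_zero_nat.const_mul (1 + s)⁻¹).smul_const y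
      simpa [t] using this
    filter_upwards [h1.eventually (Metric.ball_mem_nhds (0 : H) one_pos)] with n hn
    exact (continuous_const_smul (t n)).continuousAt.eventually (b.eventuallyEq_one_of_mem_ball hn)

end DivAux

open DivAux Filter Topology

theorem div_ineq {H N : Type} [NormedAddCommGroup H] [NormedSpace ℝ H]
    [FiniteDimensional ℝ H] [MeasurableSpace H] [BorelSpace H] (μ : Measure H)
    [μ.IsAddHaarMeasure] [Fintype N] (e : N → H) (ell : H → ℝ) (hell : ContDiff ℝ 2 ell)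
    (c : ℝ) (hc : 0 ≤ c)
    (hess : ∀ y (x : N → ℝ), -∑ l, ∑ m,
      fderiv ℝ (fun y' => fderiv ℝ ell y' (e m)) y (e l) * (x l * x m) ≤ c * ∑ l, x l ^ 2)
    (w : N → H → ℝ) (hw : ∀ l, ContDiff ℝ 2 (w l)) :
    ∫⁻ y, ENNReal.ofReal
        ((∑ l, (-fderiv ℝ ell y (e l) * w l y - fderiv ℝ (w l) y (e l))) ^ 2)
        ∂(μ.withDensity fun y => ENNReal.ofReal (Real.exp (ell y))) ≤
      ENNReal.ofReal (c + 2) *
        ∫⁻ y, ENNReal.ofReal (∑ l, w l y ^ 2 + ∑ l, ∑ m, fderiv ℝ (w l) y (e m) ^ 2)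
        ∂(μ.withDensity fun y => ENNReal.ofReal (Real.exp (ell y))) := by
  obtain ⟨χ, h1, h2, h3, h4, h5⟩ := cutoff e
  set ν := μ.withDensity fun y => ENNReal.ofReal (Real.exp (ell y))
  have hw' : ∀ n l, ContDiff ℝ 2 fun y => χ n y * w l y := fun n l => (h1 n).mul (hw l)
  have hF := lintegral_liminf_le (μ := ν) (u := atTop)
    (f := fun n y => ENNReal.ofReal (dv e ell (fun l y => χ n y * w l y) y ^ 2))
    fun n => ((dv_contDiff e hell (hw' n)).continuous.pow 2).measurable.ennreal_ofReal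
  have hL : ∀ y, liminf (fun n => ENNReal.ofReal (dv e ell (fun l y => χ n y * w l y) y ^ 2))
      atTop = ENNReal.ofReal (dv e ell w y ^ 2) := fun y => by
    refine Tendsto.liminf_eq (tendsto_const_nhds.congr' ?_)
    filter_upwards [h5 y] with n hn
    have h6 : ∀ l, (fun y => χ n y * w l y) =ᶠ[𝓝 y] w l := fun l => by
      filter_upwards [hn] with z hz
      rw [hz, one_mul]
    simp only [dv, D, (h6 _).fderiv_eq, hn.eq_of_nhds, one_mul]
  simp only [hL] at hF
  refine le_trans hF (liminf_le_of_frequently_le' (Frequently.of_forall fun n => ?_))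
  refine (compact_case μ e hell hc hess (hw' n) fun l => (h2 n).mul_right).trans ?_
  rw [← lintegral_const_mul' _ _ ENNReal.ofReal_ne_top]
  refine lintegral_mono fun y => ?_
  simp only
  rw [← ENNReal.ofReal_mul (by positivity)]
  refine ENNReal.ofReal_le_ofReal ?_
  have d1 : Differentiable ℝ (χ n) := (h1 n).differentiable (by norm_num)
  have d2 : ∀ l, Differentiable ℝ (w l) := fun l => (hw l).differentiable (by norm_num)
  have a1 : ∑ l, (χ n y * w l y) ^ 2 ≤ ∑ l, w l y ^ 2 := Finset.sum_le_sum fun l _ => by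
    rw [mul_pow]
    exact mul_le_of_le_one_left (sq_nonneg _) (h3 n y)
  have a2 : ∑ l, ∑ m, D (e m) (fun y => χ n y * w l y) y ^ 2 ≤
      ∑ l, (2 * w l y ^ 2 + 2 * ∑ m, D (e m) (w l) y ^ 2) := Finset.sum_le_sum fun l _ => by
    calc _ ≤ ∑ m, (2 * w l y ^ 2 * D (e m) (χ n) y ^ 2 + 2 * D (e m) (w l) y ^ 2) :=
          Finset.sum_le_sum fun m _ => by
            rw [D_mul d1 (d2 l)]
            nlinarith [sq_nonneg (D (e m) (χ n) y * w l y - χ n y * D (e m) (w l) y),
              mul_le_of_le_one_left (sq_nonneg (D (e m) (w l) y)) (h3 n y)]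
      _ ≤ _ := by
          rw [Finset.sum_add_distrib, ← Finset.mul_sum, ← Finset.mul_sum]
          have := mul_le_of_le_one_right (by positivity : 0 ≤ 2 * w l y ^ 2) (h4 n y)
          linarith
  rw [Finset.sum_add_distrib, ← Finset.mul_sum, ← Finset.mul_sum] at a2
  have a3 : 0 ≤ ∑ l, ∑ m, D (e m) (w l) y ^ 2 := by positivity
  change _ ≤ (c + 2) * (∑ l, w l y ^ 2 + ∑ l, ∑ m, D (e m) (w l) y ^ 2)
  nlinarith [mul_le_mul_of_nonneg_left a1 hc, mul_nonneg hc a3]

end Vale.Agent.P347
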