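import Vale.Agent.P347.FlowB

/-! P347 part Flow: a smooth vector field with linear growth transports the densities
`exp (ell p τ)` that solve the continuity equation.  Standalone. -/

open MeasureTheory Set
open scoped ENNReal

namespace Vale.Agent.P347

open FlowAux Filter Topology in
theorem flow_exists {P H : Type} [NormedAddCommGroup P] [NormedSpace ℝ P] [FiniteDimensional ℝ P]
    [MeasurableSpace P] [BorelSpace P] [NormedAddCommGroup H] [NormedSpace ℝ H]
    [FiniteDimensional ℝ H] [MeasurableSpace H] [BorelSpace H] (μ : Measure H)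
    [μ.IsAddHaarMeasure] (X : P × ℝ × H → H) (hX : ContDiff ℝ 1 X) (ell : P × ℝ × H → ℝ)
    (hell : ContDiff ℝ 1 ell) (T : ℝ) (hT : 0 ≤ T) (C : ℝ)
    (growth : ∀ p, ∀ τ ∈ Icc (0 : ℝ) T, ∀ y, ‖X (p, τ, y)‖ ≤ C * (1 + ‖p‖ + ‖y‖))
    (cont : ∀ p, ∀ τ ∈ Icc (0 : ℝ) T, ∀ y, fderiv ℝ ell (p, τ, y) (0, 1, X (p, τ, y)) +
      LinearMap.trace ℝ H (fderiv ℝ (fun y' => X (p, τ, y')) y : H →ₗ[ℝ] H) = 0)
    (prob : ∀ p, ∀ τ ∈ Icc (0 : ℝ) T, ∫⁻ y, ENNReal.ofReal (Real.exp (ell (p, τ, y))) ∂μ = 1) :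
    ∃ Φ : P × H → ℝ → H, Measurable (fun w : (P × H) × ℝ => Φ w.1 w.2) ∧
      (∀ p y, Φ (p, y) 0 = y) ∧
      (∀ p y, ∀ τ ∈ Icc (0 : ℝ) T,
        HasDerivWithinAt (Φ (p, y)) (X (p, τ, Φ (p, y) τ)) (Icc 0 T) τ) ∧
      ∀ p, ∀ τ ∈ Icc (0 : ℝ) T,
        (μ.withDensity fun y => ENNReal.ofReal (Real.exp (ell (p, 0, y)))).map
            (fun y => Φ (p, y) τ) =
          μ.withDensity fun y => ENNReal.ofReal (Real.exp (ell (p, τ, y))) := by
  have hv : ∀ p, ContDiff ℝ 1 fun z : ℝ × H => X (p, z) := fun p =>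
    hX.comp (contDiff_const.prodMk contDiff_id)
  have hK : ∀ p : P, 0 ≤ max C 0 * (1 + ‖p‖) := fun p => by positivity
  have gr : ∀ p, ∀ τ ∈ Icc (0 : ℝ) T, ∀ y, ‖X (p, τ, y)‖ ≤ max C 0 * (1 + ‖p‖) * (‖y‖ + 1) :=
    fun p τ hτ y => (growth p τ hτ y).trans (by
      rw [mul_assoc]
      exact mul_le_mul (le_max_left _ _) (by nlinarith [norm_nonneg p, norm_nonneg y])
        (by positivity) (le_max_right _ _))
  choose α a0 a1 using fun w : P × H => exists_sol (hv w.1) hT (hK w.1) (gr w.1) w.2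
  have lim : ∀ (w : P × H), ∀ τ ∈ Icc (0 : ℝ) T, Tendsto (fun N : ℕ =>
      eul (fun z => X (w.1, z)) (τ / (N + 1)) w.2 (N + 1)) atTop (𝓝 (α w τ)) := fun w τ hτ => by
    simpa only [a0] using eul_tendsto (hv w.1) (hK w.1) (gr w.1) (a1 w) hτ
  have ce : ∀ (g : (P × H) × ℝ → ℝ), Continuous g → ∀ k,
      Continuous fun w : (P × H) × ℝ => eul (fun z => X (w.1.1, z)) (g w) w.1.2 k := fun g hg k => by
    induction k with
    | zero => exact continuous_fst.snd
    | succ k ih =>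
      exact ih.add (hg.smul (hX.continuous.comp (continuous_fst.fst.prodMk
        ((continuous_const.mul hg).prodMk ih))))
  have hm : Measurable fun w : (P × H) × ℝ => α w.1 (projIcc 0 T hT w.2) :=
    measurable_of_tendsto_metrizable (f := fun N : ℕ => fun w : (P × H) × ℝ =>
      eul (fun z => X (w.1.1, z)) ((projIcc 0 T hT w.2 : ℝ) / (N + 1)) w.1.2 (N + 1))
      (fun N => (ce _ ((continuous_subtype_val.comp (continuous_projIcc.comp continuous_snd)
        ).div_const _) _).measurable) (tendsto_pi_nhds.2 fun w => lim w.1 _ (projIcc 0 T hT w.2).2)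
  have pr : ∀ τ ∈ Icc (0 : ℝ) T, (projIcc 0 T hT τ : ℝ) = τ := fun τ hτ => by
    rw [projIcc_of_mem hT hτ]
  refine ⟨fun w τ => α w (projIcc 0 T hT τ), hm, fun p y => ?_, fun p y τ hτ => ?_,
    fun p τ hτ => ?_⟩
  · simp only [pr 0 ⟨le_rfl, hT⟩, a0]
  · simp only [pr τ hτ]
    exact (a1 (p, y) τ hτ).congr_of_mem (fun t ht => by rw [pr t ht]) hτ
  · have m1 : Measurable fun y => α (p, y) (projIcc 0 T hT τ) :=
      hm.comp ((measurable_const.prodMk measurable_id).prodMk measurable_const)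
    have hp : ∀ t ∈ Icc (0 : ℝ) T, IsProbabilityMeasure
        (μ.withDensity fun y => ENNReal.ofReal (Real.exp (ell (p, t, y)))) := fun t ht =>
      ⟨by rw [withDensity_apply _ MeasurableSet.univ, Measure.restrict_univ, prob p t ht]⟩
    have := hp 0 ⟨le_rfl, hT⟩
    have := hp τ hτ
    have := Measure.isProbabilityMeasure_map
      (μ := μ.withDensity fun y => ENNReal.ofReal (Real.exp (ell (p, 0, y)))) m1.aemeasurable
    refine Measure.eq_of_le_of_isProbabilityMeasure (Measure.le_intro fun s hs _ => ?_)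
    rw [s.measure_eq_iInf_isOpen (μ.withDensity _)]
    refine le_iInf₂ fun U h1 => le_iInf fun h2 => (measure_mono h1).trans ?_
    rw [Measure.map_apply m1 h2.measurableSet, withDensity_apply _ h2.measurableSet, pr τ hτ]
    refine transport μ (hv p) (l := ell ∘ Prod.mk p)
      (hell.comp (contDiff_const.prodMk contDiff_id)) (hK p) (gr p) (fun t ht y => ?_) hτ
      (fun y => lim (p, y) τ hτ) h2
    rw [((hell.differentiable one_ne_zero (p, t, y)).hasFDerivAt.comp (t, y)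
      (hasFDerivAt_prodMk_right p (t, y))).fderiv]
    exact cont p t ht y

end Vale.Agent.P347
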