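import Mathlib

/-! Existence of trajectories and convergence of the Euler scheme. -/

open Set Metric Filter Topology

namespace Vale.Agent.P347.FlowAux

variable {H : Type} [NormedAddCommGroup H] [NormedSpace ℝ H] [FiniteDimensional ℝ H]

theorem unif {E F : Type} [NormedAddCommGroup E] [NormedSpace ℝ E] [NormedAddCommGroup F]
    [NormedSpace ℝ F] {f : E → F} (hf : ContDiff ℝ 1 f) {K : Set E} (h1 : IsCompact K)
    (h2 : Convex ℝ K) {η : ℝ} (hη : 0 < η) : ∃ δ > 0, ∀ a ∈ K, ∀ b ∈ K, ‖b - a‖ ≤ δ →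
      ‖f b - f a - fderiv ℝ f a (b - a)‖ ≤ η * ‖b - a‖ := by
  obtain ⟨δ, h3, h4⟩ := Metric.uniformContinuousOn_iff_le.1
    (h1.uniformContinuousOn_of_continuous (hf.continuous_fderiv one_ne_zero).continuousOn) η hη
  refine ⟨δ, h3, fun a ha b hb hab => ?_⟩
  refine (h2.inter (convex_closedBall a δ)).norm_image_sub_le_of_norm_fderiv_le'
    (fun x _ => hf.differentiable one_ne_zero x) (fun x hx => ?_) ⟨ha, mem_closedBall_self h3.le⟩
    ⟨hb, mem_closedBall_iff_norm.2 hab⟩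
  rw [← dist_eq_norm]
  exact h4 x hx.1 a ha hx.2

theorem lip {v : ℝ × H → H} (hv : ContDiff ℝ 1 v) (T : ℝ) (c : H) (R : ℝ) : ∃ L, 0 ≤ L ∧
    (∀ s ∈ Icc (0 : ℝ) T, ∀ y ∈ closedBall c R, ‖fderiv ℝ (fun y' => v (s, y')) y‖ ≤ L) ∧
    ∀ s ∈ Icc (0 : ℝ) T, ∀ y ∈ closedBall c R, ∀ y' ∈ closedBall c R,
      ‖v (s, y) - v (s, y')‖ ≤ L * ‖y - y'‖ := by
  obtain ⟨L, hL⟩ := ((isCompact_Icc (a := (0 : ℝ)) (b := T)).prod (isCompact_closedBall c R)
    ).exists_bound_of_continuousOn (hv.continuous_fderiv one_ne_zero).continuousOn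
  have d : ∀ s y, HasFDerivAt (fun y' => v (s, y'))
      ((fderiv ℝ v (s, y)).comp (ContinuousLinearMap.inr ℝ ℝ H)) y := fun s y =>
    (hv.differentiable one_ne_zero (s, y)).hasFDerivAt.comp y (hasFDerivAt_prodMk_right s y)
  have b : ∀ s ∈ Icc (0 : ℝ) T, ∀ y ∈ closedBall c R, ‖fderiv ℝ (fun y' => v (s, y')) y‖
      ≤ max L 0 * ‖ContinuousLinearMap.inr ℝ ℝ H‖ := fun s hs y hy => by
    rw [(d s y).fderiv]
    exact (ContinuousLinearMap.opNorm_comp_le _ _).trans (mul_le_mul_of_nonneg_right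
      ((hL (s, y) ⟨hs, hy⟩).trans (le_max_left _ _)) (norm_nonneg _))
  exact ⟨_, by positivity, b, fun s hs y hy y' hy' =>
    (convex_closedBall c R).norm_image_sub_le_of_norm_fderiv_le
      (fun x _ => (d s x).differentiableAt) (b s hs) hy' hy⟩

theorem exists_sol {v : ℝ × H → H} (hv : ContDiff ℝ 1 v) {T K : ℝ} (hT : 0 ≤ T) (hK : 0 ≤ K)
    (growth : ∀ τ ∈ Icc (0 : ℝ) T, ∀ y, ‖v (τ, y)‖ ≤ K * (‖y‖ + 1)) (y : H) :
    ∃ α : ℝ → H, α 0 = y ∧ ∀ τ ∈ Icc (0 : ℝ) T, HasDerivWithinAt α (v (τ, α τ)) (Icc 0 T) τ := by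
  set R := max (gronwallBound ‖y‖ K K T) 1 with hR
  have R0 : 0 < R := lt_max_of_lt_right one_pos
  let χ : ContDiffBump (0 : H) := ⟨R, R + 1, R0, by linarith⟩
  have hw : ContDiff ℝ 1 fun z : ℝ × H => χ z.2 • v z := (χ.contDiff.comp contDiff_snd).smul hv
  have b1 : ∀ τ ∈ Icc (0 : ℝ) T, ∀ x, ‖χ x • v (τ, x)‖ ≤ K * (‖x‖ + 1) := fun τ hτ x => by
    rw [norm_smul, Real.norm_of_nonneg χ.nonneg]
    exact (mul_le_of_le_one_left (norm_nonneg _) χ.le_one).trans (growth τ hτ x)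
  have b2 : ∀ τ ∈ Icc (0 : ℝ) T, ∀ x, ‖χ x • v (τ, x)‖ ≤ K * (R + 2) := fun τ hτ x => by
    by_cases hx : ‖x‖ ≤ R + 1
    · exact (b1 τ hτ x).trans (mul_le_mul_of_nonneg_left (by linarith) hK)
    · rw [χ.zero_of_le_dist (by simpa using (not_le.1 hx).le)]
      simp; positivity
  obtain ⟨L, L0, -, hL⟩ := lip hw T y (K * (R + 2) * T)
  have pl : IsPicardLindelof (fun t x => χ x • v (t, x)) (⟨0, le_rfl, hT⟩ : Icc (0 : ℝ) T) y
      ⟨K * (R + 2) * T, by positivity⟩ 0 ⟨K * (R + 2), by positivity⟩ ⟨L, L0⟩ :=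
    ⟨fun t ht => LipschitzOnWith.of_dist_le_mul fun x hx x' hx' => by
        rw [dist_eq_norm, dist_eq_norm]; exact hL t ht x hx x' hx',
      fun x _ => (hw.continuous.comp (Continuous.prodMk_left x)).continuousOn,
      fun t ht x _ => b2 t ht x, by simp [hT]; exact le_rfl⟩
  obtain ⟨α, a0, a1⟩ := pl.exists_eq_forall_mem_Icc_hasDerivWithinAt₀
  refine ⟨α, a0, fun τ hτ => ?_⟩
  have g := norm_le_gronwallBound_of_norm_deriv_right_le (f := α) (δ := ‖y‖) (K := K) (ε := K)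
    (fun t ht => (a1 t ht).continuousWithinAt)
    (fun t ht => (a1 t (Ico_subset_Icc_self ht)).mono_of_mem_nhdsWithin (Icc_mem_nhdsGE_of_mem ht))
    (le_of_eq (congrArg norm a0))
    (fun t ht => (b1 t (Ico_subset_Icc_self ht) _).trans (le_of_eq (by ring))) τ hτ
  have : χ (α τ) = 1 := χ.one_of_mem_closedBall (mem_closedBall_zero_iff.2 (g.trans
    ((gronwallBound_mono (norm_nonneg _) hK hK (by linarith [hτ.2])).trans (le_max_left _ _))))
  simpa [this] using a1 τ hτ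

/-- The Euler scheme. -/
def eul (v : ℝ × H → H) (e : ℝ) (y : H) : ℕ → H
  | 0 => y
  | k + 1 => eul v e y k + e • v (k * e, eul v e y k)

omit [FiniteDimensional ℝ H] in
theorem eul_bound {v : ℝ × H → H} {T K e : ℝ} (he : 0 ≤ e)
    (growth : ∀ τ ∈ Icc (0 : ℝ) T, ∀ y, ‖v (τ, y)‖ ≤ K * (‖y‖ + 1)) (y : H) (k : ℕ)
    (hk : k * e ≤ T) : ‖eul v e y k‖ + 1 ≤ Real.exp (K * (k * e)) * (‖y‖ + 1) := by
  induction k with
  | zero => simp [eul]
  | succ k ih =>
    push_cast at hk ⊢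
    have h1 := ih (by nlinarith)
    have h2 := growth (k * e) ⟨by positivity, by nlinarith⟩ (eul v e y k)
    have h3 := norm_add_le (eul v e y k) (e • v (k * e, eul v e y k))
    rw [norm_smul, Real.norm_of_nonneg he] at h3
    have h4 := Real.add_one_le_exp (K * e)
    have h5 := mul_le_mul h4 h1 (by positivity) (by positivity)
    rw [← mul_assoc, ← Real.exp_add, show K * e + K * (k * e) = K * ((k + 1) * e) by ring] at h5
    have h6 := mul_le_mul_of_nonneg_left h2 he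
    rw [eul]
    linarith

omit [FiniteDimensional ℝ H] in
theorem eul_mem {v : ℝ × H → H} {T K e r : ℝ} (hK : 0 ≤ K) (he : 0 ≤ e)
    (growth : ∀ τ ∈ Icc (0 : ℝ) T, ∀ y, ‖v (τ, y)‖ ≤ K * (‖y‖ + 1)) {y : H} (hy : ‖y‖ ≤ r) (k : ℕ)
    (hk : k * e ≤ T) : eul v e y k ∈ closedBall (0 : H) (Real.exp (K * T) * (r + 1)) := by
  have h1 := eul_bound he growth y k hk
  have h2 := mul_le_mul (Real.exp_le_exp.2 (mul_le_mul_of_nonneg_left hk hK))
    (add_le_add_left hy 1) (by positivity) (Real.exp_pos _).le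
  rw [mem_closedBall_zero_iff]
  linarith

theorem small {τ δ : ℝ} (hδ : 0 < δ) : ∀ᶠ N : ℕ in atTop, τ / (N + 1) ≤ δ := by
  have := (tendsto_one_div_add_atTop_nhds_zero_nat (𝕜 := ℝ)).const_mul τ
  rw [mul_zero] at this
  filter_upwards [this.eventually_le_const hδ] with N hN
  rwa [mul_one_div] at hN

theorem eul_tendsto {v : ℝ × H → H} (hv : ContDiff ℝ 1 v) {T K : ℝ} (hK : 0 ≤ K)
    (growth : ∀ τ ∈ Icc (0 : ℝ) T, ∀ y, ‖v (τ, y)‖ ≤ K * (‖y‖ + 1)) {α : ℝ → H}
    (hα : ∀ τ ∈ Icc (0 : ℝ) T, HasDerivWithinAt α (v (τ, α τ)) (Icc 0 T) τ) {τ : ℝ}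
    (hτ : τ ∈ Icc (0 : ℝ) T) :
    Tendsto (fun N : ℕ => eul v (τ / (N + 1)) (α 0) (N + 1)) atTop (𝓝 (α τ)) := by
  have ca : ContinuousOn α (Icc 0 T) := fun t ht => (hα t ht).continuousWithinAt
  obtain ⟨B, hB⟩ := isCompact_Icc.exists_bound_of_continuousOn ca
  obtain ⟨L, L0, -, hL⟩ := lip hv T 0 (max B (Real.exp (K * T) * (‖α 0‖ + 1)))
  rw [Metric.tendsto_nhds]
  intro ε hε
  have T0 : 0 ≤ T := hτ.1.trans hτ.2
  obtain ⟨η, η0, hη⟩ : ∃ η > 0, η * T * Real.exp (L * T) < ε := by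
    refine ⟨ε / (T * Real.exp (L * T) + 1), by positivity, ?_⟩
    rw [mul_assoc, div_mul_eq_mul_div, div_lt_iff₀ (by positivity)]
    nlinarith
  obtain ⟨δ, δ0, hδ⟩ := Metric.uniformContinuousOn_iff_le.1
    (isCompact_Icc.uniformContinuousOn_of_continuous
      (hv.continuous.comp_continuousOn (continuousOn_id.prodMk ca))) η η0
  filter_upwards [small (τ := τ) δ0] with N hN
  set e := τ / (N + 1) with he
  have e0 : 0 ≤ e := div_nonneg hτ.1 (by positivity)
  have e1 : ((N + 1 : ℕ) : ℝ) * e = τ := by rw [he]; push_cast; field_simp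
  have key : ∀ k : ℕ, k * e ≤ T →
      ‖eul v e (α 0) k - α (k * e)‖ ≤ η * (k * e) * Real.exp (L * (k * e)) := by
    intro k
    induction k with
    | zero => intro _; simp [eul]
    | succ k ih =>
      intro hk
      have m := eul_mem hK e0 growth (le_refl ‖α 0‖) k
      push_cast at hk ⊢
      have k0 : 0 ≤ k * e := by positivity
      have k1 : k * e ≤ T := by nlinarith
      have h1 := ih k1
      have sub : Icc (k * e) ((k + 1) * e) ⊆ Icc 0 T := Icc_subset_Icc k0 hk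
      have h2 := (convex_Icc (k * e) ((k + 1) * e)).norm_image_sub_le_of_norm_hasDerivWithin_le
        (f := fun t => α t - t • v (k * e, α (k * e)))
        (f' := fun t => v (t, α t) - v (k * e, α (k * e))) (C := η) (fun t ht => by
          simpa using ((hα t (sub ht)).mono sub).fun_sub
            ((hasDerivWithinAt_id t _).smul_const (v (k * e, α (k * e))))) (fun t ht => by
          rw [← dist_eq_norm]
          refine hδ t (sub ht) _ ⟨k0, k1⟩ ?_
          rw [Real.dist_eq, abs_of_nonneg (by linarith [ht.1])]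
          linarith [ht.2]) (left_mem_Icc.2 (by linarith)) (right_mem_Icc.2 (by linarith))
      have h3 := hL _ ⟨k0, k1⟩ _ (closedBall_subset_closedBall (le_max_right _ _) (m k1)) _
        (mem_closedBall_zero_iff.2 ((hB _ ⟨k0, k1⟩).trans (le_max_left _ _)))
      rw [show (k + 1) * e - k * e = e by ring, Real.norm_of_nonneg e0] at h2
      have h4 : eul v e (α 0) (k + 1) - α ((k + 1) * e) = (eul v e (α 0) k - α (k * e))
          + e • (v (k * e, eul v e (α 0) k) - v (k * e, α (k * e)))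
          - (α ((k + 1) * e) - ((k + 1) * e) • v (k * e, α (k * e))
            - (α (k * e) - (k * e) • v (k * e, α (k * e)))) := by rw [eul]; module
      rw [h4]
      refine (norm_sub_le _ _).trans ((add_le_add (norm_add_le _ _) h2).trans ?_)
      rw [norm_smul, Real.norm_of_nonneg e0, show L * ((k + 1) * e) = L * e + L * (k * e) by ring,
        Real.exp_add]
      have h5 := mul_le_mul (Real.add_one_le_exp (L * e)) h1 (norm_nonneg _) (Real.exp_pos _).le
      have h6 := mul_le_mul_of_nonneg_left h3 e0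
      have h7 : 1 ≤ Real.exp (L * e) * Real.exp (L * (k * e)) :=
        one_le_mul_of_one_le_of_one_le (Real.one_le_exp (by positivity))
          (Real.one_le_exp (by positivity))
      nlinarith [mul_le_mul_of_nonneg_left h7 (mul_nonneg η0.le e0)]
  have := key (N + 1) (e1.le.trans hτ.2)
  rw [e1] at this
  rw [dist_eq_norm]
  refine (this.trans ?_).trans_lt hη
  gcongr <;> exact hτ.2

end Vale.Agent.P347.FlowAux
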