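import Vale.Agent.P347.FlowA

/-! One Euler step almost transports the densities. -/

open Set Metric Filter Topology MeasureTheory

namespace Vale.Agent.P347.FlowAux

variable {H : Type} [NormedAddCommGroup H] [NormedSpace ℝ H] [FiniteDimensional ℝ H]

theorem diff_det {E n : Type} [NormedAddCommGroup E] [NormedSpace ℝ E] [Fintype n] [DecidableEq n]
    {M : E → Matrix n n ℝ} (h : ∀ i j, Differentiable ℝ fun x => M x i j) :
    Differentiable ℝ fun x => (M x).det := by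
  simp only [Matrix.det_apply']
  fun_prop

theorem det_deriv : ∃ D : (H →L[ℝ] H) →L[ℝ] ℝ, (∀ A, D A = LinearMap.trace ℝ H (A : H →ₗ[ℝ] H)) ∧
    HasFDerivAt (fun B : H →L[ℝ] H => (1 + B).det) D 0 := by
  let b := Module.finBasis ℝ H
  let M : (H →L[ℝ] H) →ₗ[ℝ] Matrix _ _ ℝ :=
    (LinearMap.toMatrix b b).toLinearMap ∘ₗ ContinuousLinearMap.coeLM ℝ
  have e : ∀ B : H →L[ℝ] H, (1 + B).det = (1 + M B).det := fun B => by
    rw [ContinuousLinearMap.det, ← LinearMap.det_toMatrix b]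
    simp [M]
  have hM : ∀ i j, Differentiable ℝ fun B => (1 + M B) i j := fun i j =>
    (LinearMap.toContinuousLinearMap (Matrix.entryLinearMap ℝ ℝ i j ∘ₗ M)).differentiable.const_add
      ((1 : Matrix _ _ ℝ) i j)
  have hd : Differentiable ℝ fun B : H →L[ℝ] H => (1 + B).det := by
    simp only [e]
    exact diff_det hM
  refine ⟨_, fun A => ?_, (hd 0).hasFDerivAt⟩
  have h1 : HasDerivAt (fun r : ℝ => (1 + r • A).det)
      (fderiv ℝ (fun B : H →L[ℝ] H => (1 + B).det) 0 A) 0 := by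
    have := HasFDerivAt.comp_hasDerivAt_of_eq (0 : ℝ) (hd 0).hasFDerivAt
      ((hasDerivAt_id (0 : ℝ)).smul_const A) (by simp)
    rw [one_smul] at this
    exact this
  have e' : (fun r : ℝ => (1 + r • A).det) = fun r : ℝ => 1 + (M A).trace * r + (Matrix.det (1 +
      (Polynomial.X : Polynomial ℝ) • (M A).map Polynomial.C)).divX.divX.eval r * r ^ 2 := by
    funext r; rw [e, map_smul, Matrix.det_one_add_smul]
  rw [e'] at h1
  have h2 := (((hasDerivAt_id (0 : ℝ)).const_mul (M A).trace).const_add 1).fun_add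
    (((Matrix.det (1 + (Polynomial.X : Polynomial ℝ) • (M A).map Polynomial.C)).divX.divX.hasDerivAt
      0).fun_mul (hasDerivAt_pow 2 (0 : ℝ)))
  rw [h1.unique h2, LinearMap.trace_eq_matrix_trace ℝ b]
  simp [M]

theorem det_ge {L η : ℝ} (hL : 0 ≤ L) (hη : 0 < η) : ∃ δ > 0, ∀ e ∈ Icc (0 : ℝ) δ,
    ∀ A : H →L[ℝ] H, ‖A‖ ≤ L →
      Real.exp (e * LinearMap.trace ℝ H (A : H →ₗ[ℝ] H) - η * e) ≤ |(1 + e • A).det| := by
  obtain ⟨D, h1, h2⟩ := det_deriv (H := H)
  have h0 : (1 + (0 : H →L[ℝ] H)).det = 1 := by simp [ContinuousLinearMap.det]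
  have h3 := (h2.log (by rw [h0]; exact one_ne_zero)).isLittleO.def
    (show 0 < η / (L + 1) by positivity)
  have h4 := h2.continuousAt.eventually_ne (y := 0) (by rw [h0]; exact one_ne_zero)
  obtain ⟨r, r0, hr⟩ := Metric.eventually_nhds_iff.1 (h3.and h4)
  refine ⟨r / 2 / (L + 1), by positivity, fun e he A hA => ?_⟩
  have n1 : ‖e • A‖ ≤ e * (L + 1) := by
    rw [norm_smul, Real.norm_of_nonneg he.1]
    exact mul_le_mul_of_nonneg_left (by linarith) he.1
  have n2 := (le_div_iff₀ (by positivity)).1 he.2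
  obtain ⟨k1, k2⟩ := hr (y := e • A) (by rw [dist_zero_right]; linarith)
  rw [← Real.exp_log_eq_abs k2, Real.exp_le_exp]
  simp only [h0, Real.log_one, sub_zero, inv_one, one_smul, Real.norm_eq_abs] at k1
  rw [map_smul, h1, smul_eq_mul] at k1
  have k3 := mul_le_mul_of_nonneg_left n1 (show 0 ≤ η / (L + 1) by positivity)
  rw [show η / (L + 1) * (e * (L + 1)) = η * e by field_simp] at k3
  linarith [neg_abs_le (Real.log (1 + e • A).det - e * LinearMap.trace ℝ H (A : H →ₗ[ℝ] H))]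

variable [MeasurableSpace H] [BorelSpace H] (μ : Measure H) [μ.IsAddHaarMeasure]

theorem step {v : ℝ × H → H} (hv : ContDiff ℝ 1 v) {l : ℝ × H → ℝ} (hl : ContDiff ℝ 1 l) {T : ℝ}
    (cont : ∀ τ ∈ Icc (0 : ℝ) T, ∀ y, fderiv ℝ l (τ, y) (1, v (τ, y)) +
      LinearMap.trace ℝ H (fderiv ℝ (fun y' => v (τ, y')) y : H →ₗ[ℝ] H) = 0) (R : ℝ) {η : ℝ}
    (hη : 0 < η) : ∃ δ > 0, ∀ e ∈ Icc (0 : ℝ) δ, ∀ s, 0 ≤ s → s + e ≤ T → ∀ E : Set H,
      MeasurableSet E → (∀ y ∈ E, y ∈ closedBall (0 : H) R ∧ y + e • v (s, y) ∈ closedBall (0 : H) R)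
      → MeasurableSet ((fun y => y + e • v (s, y)) '' E) ∧
        ∫⁻ y in E, ENNReal.ofReal (Real.exp (l (s, y))) ∂μ ≤ ENNReal.ofReal (Real.exp (η * e)) *
          ∫⁻ y in (fun y => y + e • v (s, y)) '' E, ENNReal.ofReal (Real.exp (l (s + e, y))) ∂μ := by
  obtain ⟨L, L0, l1, l2⟩ := lip hv T 0 R
  have cK := (isCompact_Icc (a := (0 : ℝ)) (b := T)).prod (isCompact_closedBall (0 : H) R)
  obtain ⟨B, hB⟩ := cK.exists_bound_of_continuousOn
    (f := fun z => ((1 : ℝ), v z)) (continuous_const.prodMk hv.continuous).continuousOn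
  have B0 : 0 < max B 1 := by positivity
  obtain ⟨δ₁, d1, h1⟩ := unif hl cK ((convex_Icc _ _).prod (convex_closedBall _ _))
    (show 0 < η / 2 / max B 1 by positivity)
  obtain ⟨δ₂, d2, h2⟩ := det_ge (H := H) L0 (half_pos hη)
  refine ⟨min (δ₁ / max B 1) (min δ₂ (1 / (L + 1))), by positivity, fun e he s s0 s1 E hE hR => ?_⟩
  obtain ⟨e0, he⟩ := he
  rw [le_min_iff, le_min_iff, le_div_iff₀ B0, le_div_iff₀ (by positivity)] at he
  have hs : s ∈ Icc 0 T := ⟨s0, by linarith⟩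
  have dT : ∀ y ∈ E, HasFDerivWithinAt (fun y => y + e • v (s, y))
      (1 + e • fderiv ℝ (fun y' => v (s, y')) y) E y := fun y _ =>
    ((hasFDerivAt_id y).add (((hv.differentiable one_ne_zero).comp
      ((differentiable_const s).prodMk differentiable_id) y).hasFDerivAt.const_smul e)
      ).hasFDerivWithinAt
  have inj : InjOn (fun y => y + e • v (s, y)) E := fun y hy y' hy' h => by
    have k1 := mul_le_mul_of_nonneg_left (l2 s hs y (hR y hy).1 y' (hR y' hy').1) e0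
    have k2 : y - y' = -(e • (v (s, y) - v (s, y'))) := by
      simp only at h; rw [smul_sub, neg_sub, sub_eq_sub_iff_add_eq_add, h, add_comm]
    have k3 := congrArg norm k2
    rw [norm_neg, norm_smul, Real.norm_of_nonneg e0] at k3
    by_contra hne
    have k4 := norm_pos_iff.2 (sub_ne_zero.2 hne)
    rcases e0.eq_or_lt with k5 | k5
    · rw [← k5] at k3; linarith
    · nlinarith [he.2.2]
  refine ⟨measurable_image_of_fderivWithin hE dT inj, ?_⟩
  rw [lintegral_image_eq_lintegral_abs_det_fderiv_mul μ hE dT inj,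
    ← lintegral_const_mul' _ _ ENNReal.ofReal_ne_top]
  refine setLIntegral_mono' hE fun y hy => ?_
  rw [← ENNReal.ofReal_mul (abs_nonneg _), ← ENNReal.ofReal_mul (Real.exp_pos _).le]
  refine ENNReal.ofReal_le_ofReal (le_trans ?_ (mul_le_mul_of_nonneg_left
    (mul_le_mul_of_nonneg_right (h2 e ⟨e0, he.2.1⟩ _ (l1 s hs y (hR y hy).1)) (Real.exp_pos _).le)
    (Real.exp_pos _).le))
  rw [← Real.exp_add, ← Real.exp_add, Real.exp_le_exp]
  have k1 : (s + e, y + e • v (s, y)) - (s, y) = e • ((1 : ℝ), v (s, y)) := by simp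
  have k2 : ‖e • ((1 : ℝ), v (s, y))‖ ≤ e * max B 1 := by
    rw [norm_smul, Real.norm_of_nonneg e0]
    exact mul_le_mul_of_nonneg_left ((hB (s, y) ⟨hs, (hR y hy).1⟩).trans (le_max_left _ _)) e0
  have k3 := h1 (s, y) ⟨hs, (hR y hy).1⟩ (s + e, y + e • v (s, y))
    ⟨⟨by linarith, s1⟩, (hR y hy).2⟩ (by rw [k1]; linarith [he.1])
  rw [k1, map_smul, eq_neg_of_add_eq_zero_left (cont s hs y), Real.norm_eq_abs, smul_eq_mul] at k3
  have k4 := mul_le_mul_of_nonneg_left k2 (show 0 ≤ η / 2 / max B 1 by positivity)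
  rw [show η / 2 / max B 1 * (e * max B 1) = η / 2 * e by field_simp] at k4
  linarith [neg_le_of_abs_le (k3.trans k4)]

theorem transport {v : ℝ × H → H} (hv : ContDiff ℝ 1 v) {l : ℝ × H → ℝ} (hl : ContDiff ℝ 1 l)
    {T K : ℝ} (hK : 0 ≤ K) (growth : ∀ τ ∈ Icc (0 : ℝ) T, ∀ y, ‖v (τ, y)‖ ≤ K * (‖y‖ + 1))
    (cont : ∀ τ ∈ Icc (0 : ℝ) T, ∀ y, fderiv ℝ l (τ, y) (1, v (τ, y)) +
      LinearMap.trace ℝ H (fderiv ℝ (fun y' => v (τ, y')) y : H →ₗ[ℝ] H) = 0) {τ : ℝ}
    (hτ : τ ∈ Icc (0 : ℝ) T) {Φ : H → H}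
    (hΦ : ∀ y, Tendsto (fun N : ℕ => eul v (τ / (N + 1)) y (N + 1)) atTop (𝓝 (Φ y))) {U : Set H}
    (hU : IsOpen U) : (μ.withDensity fun y => ENNReal.ofReal (Real.exp (l (0, y)))) (Φ ⁻¹' U)
      ≤ ∫⁻ y in U, ENNReal.ofReal (Real.exp (l (τ, y))) ∂μ := by
  have ce : ∀ e k, Continuous fun y => eul v e y k := fun e k => by
    induction k with
    | zero => exact continuous_id
    | succ k ih => exact ih.add ((hv.continuous.comp (continuous_const.prodMk ih)).const_smul e)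
  let S : ℕ → Set H := fun M => closedBall 0 M ∩
    ⋂ N ≥ M, (fun y => eul v (τ / (N + 1)) y (N + 1)) ⁻¹' U
  have mS : Monotone S := fun a b h => inter_subset_inter
    (closedBall_subset_closedBall (Nat.cast_le.2 h)) (biInter_subset_biInter_left fun N hN =>
      le_trans h hN)
  have sub : Φ ⁻¹' U ⊆ ⋃ M, S M := fun y hy => by
    obtain ⟨a, ha⟩ := eventually_atTop.1 ((hΦ y).eventually (hU.mem_nhds hy))
    obtain ⟨b, hb⟩ := exists_nat_ge ‖y‖
    exact mem_iUnion.2 ⟨max a b, mem_closedBall_zero_iff.2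
      (hb.trans (Nat.cast_le.2 (le_max_right _ _))),
      mem_iInter₂.2 fun N hN => ha N (le_trans (le_max_left _ _) hN)⟩
  refine (measure_mono sub).trans ?_
  rw [mS.measure_iUnion, iSup_le_iff]
  intro M
  have lim : Tendsto (fun η : ℝ => ENNReal.ofReal (Real.exp (η * τ)) *
      ∫⁻ y in U, ENNReal.ofReal (Real.exp (l (τ, y))) ∂μ) (𝓝[>] 0)
      (𝓝 (ENNReal.ofReal (Real.exp (0 * τ)) * ∫⁻ y in U, ENNReal.ofReal (Real.exp (l (τ, y))) ∂μ)) :=
    ENNReal.Tendsto.mul_const ((ENNReal.continuous_ofReal.comp (by fun_prop :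
      Continuous fun η : ℝ => Real.exp (η * τ))).tendsto 0 |>.mono_left nhdsWithin_le_nhds)
      (Or.inl (by simp))
  rw [zero_mul, Real.exp_zero, ENNReal.ofReal_one, one_mul] at lim
  refine ge_of_tendsto lim (eventually_nhdsWithin_of_forall fun η hη => ?_)
  obtain ⟨δ, δ0, hδ⟩ := step μ hv hl cont (Real.exp (K * T) * (M + 1)) hη
  obtain ⟨N, n1, n2⟩ := ((small (τ := τ) δ0).and (eventually_ge_atTop M)).exists
  set e := τ / (N + 1) with he
  have e0 : 0 ≤ e := div_nonneg hτ.1 (by positivity)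
  have e1 : ((N + 1 : ℕ) : ℝ) * e = τ := by rw [he]; push_cast; field_simp
  let E : Set H := closedBall 0 M ∩ (fun y => eul v e y (N + 1)) ⁻¹' U
  have mE : MeasurableSet E := measurableSet_closedBall.inter (hU.preimage (ce _ _)).measurableSet
  have key : ∀ k : ℕ, k * e ≤ T → MeasurableSet ((fun y => eul v e y k) '' E) ∧
      ∫⁻ y in E, ENNReal.ofReal (Real.exp (l (0, y))) ∂μ ≤ ENNReal.ofReal (Real.exp (η * (k * e))) *
        ∫⁻ y in (fun y => eul v e y k) '' E, ENNReal.ofReal (Real.exp (l (k * e, y))) ∂μ := by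
    intro k
    induction k with
    | zero => intro _; simpa [eul] using mE
    | succ k ih =>
      intro hk
      have k2 : ((k + 1 : ℕ) : ℝ) * e = k * e + e := by push_cast; ring
      have k1 : k * e ≤ T := by linarith
      obtain ⟨i1, i2⟩ := ih k1
      obtain ⟨j1, j2⟩ := hδ e ⟨e0, n1⟩ (k * e) (by positivity) (k2 ▸ hk) _ i1 (by
        rintro _ ⟨y, hy, rfl⟩
        exact ⟨eul_mem hK e0 growth (mem_closedBall_zero_iff.1 hy.1) k k1,
          eul_mem hK e0 growth (mem_closedBall_zero_iff.1 hy.1) (k + 1) hk⟩)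
      rw [image_image] at j1 j2
      refine ⟨j1, i2.trans ((mul_le_mul_right j2 _).trans (le_of_eq ?_))⟩
      rw [← mul_assoc, ← ENNReal.ofReal_mul (Real.exp_pos _).le, ← Real.exp_add, ← mul_add, k2]
      rfl
  have k := (key (N + 1) (e1.le.trans hτ.2)).2
  rw [e1] at k
  refine (measure_mono (t := E) fun y hy => ⟨hy.1, mem_iInter₂.1 hy.2 N n2⟩).trans ?_
  rw [withDensity_apply _ mE]
  exact k.trans (mul_le_mul_right (lintegral_mono_set (by rintro _ ⟨y, hy, rfl⟩; exact hy.2)) _)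

end Vale.Agent.P347.FlowAux
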