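import Vale.Agent.P347.InstA

/-! P347 part Inst: the concrete instances satisfy the interface conditions. -/

open MeasureTheory ProbabilityTheory
open scoped ENNReal RealInnerProductSpace ContDiff

namespace Vale.Agent.P347

theorem InstAux.norm_sq {d : ℕ} (L : E d →L[ℝ] ℝ) : ‖L‖ ^ 2 = ∑ m, L (ee m) ^ 2 := by
  simpa [ee] using (EuclideanSpace.basisFun (Fin d) ℝ).norm_dual L

theorem InstAux.fderiv_coord {d : ℕ} {F : E d → E d} (hF : Differentiable ℝ F) (c : ℝ) (i : Fin d)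
    (x v : E d) : fderiv ℝ (fun x => c * F x i) x v = c * fderiv ℝ F x v i := by
  have := (((EuclideanSpace.proj i : E d →L[ℝ] ℝ).hasFDerivAt.comp x
    (hF x).hasFDerivAt).const_mul c).fderiv
  refine (congrArg (· v) this).trans ?_
  simp

namespace Ins
variable (I : Ins)

open InstAux

theorem cum_ax {f : Fin I.d ⊕ Fin I.d → E I.d → ℝ} {Jf : Fin I.d ⊕ Fin I.d → Fin I.d → E I.d → ℝ}
    (h1 : ∀ l, PG (f l)) (h2 : ∀ l m, PG (Jf l m)) (h3 : ∀ l, (I.cum f Jf).HG (f l) (Jf l))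
    (h4 : ∀ x (a : Fin I.d ⊕ Fin I.d → ℝ), ∑ m, (∑ l, a l * Jf l m x) ^ 2 ≤ ∑ l, a l ^ 2)
    (h5 : ∀ l m, PG (I.Ju l m)) (h6 : ∀ l, (I.cum f Jf).HG (I.u l) (I.Ju l))
    (h7 : ∀ x (a : Fin I.d ⊕ Fin I.d → ℝ), ∑ m, (∑ l, a l * I.Ju l m x) ^ 2 ≤ ∑ l, a l ^ 2) :
    (I.cum f Jf).Ax 4 where
  sep _ _ h := Sm.ext h
  D_D _ _ _ := Sm.D_comm _ _ _
  prob _ := pm_prob _ (I.half_lt _) _
  PG_const := PG.const
  PG_add _ _ := PG.add
  PG_mul _ _ := PG.mul
  PG_int _ _ h := PG.int_pm h _ (I.half_lt _) _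
  PG_u := I.pg_u
  PG_f := h1
  PG_Ju := h5
  PG_Jf := h2
  ev_Ex _ y h := I.Ex_apply h y
  D_Ex _ l h := I.D_Ex h l
  HG_const r := ⟨contDiff_const, fun m x => by
    change fderiv ℝ (fun _ : E I.d => r) x _ = _; simp⟩
  HG_add (a b : E I.d → ℝ) G G' ha hb := ⟨ha.1.add hb.1, fun m x => by
    change fderiv ℝ (fun x : E I.d => a x + b x) x _ = I.a * (G m x + G' m x)
    rw [fderiv_fun_add (ha.1.differentiable one_ne_zero x) (hb.1.differentiable one_ne_zero x),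
      add_apply, ha.2, hb.2, mul_add]⟩
  HG_mul (a b : E I.d → ℝ) G G' ha hb := ⟨ha.1.mul hb.1, fun m x => by
    change fderiv ℝ (fun x : E I.d => a x * b x) x _ = I.a * (G m x * b x + a x * G' m x)
    rw [fderiv_fun_mul (ha.1.differentiable one_ne_zero x) (hb.1.differentiable one_ne_zero x),
      add_apply, smul_apply, smul_apply, ha.2, hb.2, smul_eq_mul, smul_eq_mul]
    ring⟩
  HG_u := h6
  HG_f := h3
  Ju_le := h7
  Jf_le := h4
  poin (a : E I.d → ℝ) (G : Fin I.d → E I.d → ℝ) (y : Y I.d) ha hG hH := by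
    change _ ≤ 4 * ∫ x, ∑ m, G m x ^ 2 ∂(pm _ _ _)
    have e : ∀ x, ‖fderiv ℝ a x‖ ^ 2 = I.a ^ 2 * ∑ m, G m x ^ 2 := fun x => by
      simp only [norm_sq, hH.2, mul_pow, Finset.mul_sum]
    have pg : PG fun x => ∑ m, G m x ^ 2 := PG.sum _ fun m _ => PG.pow (hG m) 2
    refine (pm_poin I.V (I.half_lt y.1) _ hH.1 ha (by simpa only [e] using pg.const_mul _)).trans ?_
    simp only [e]
    rw [integral_const_mul, ← mul_assoc]
    refine mul_le_mul_of_nonneg_right ?_ (integral_nonneg fun x => by positivity)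
    rw [div_mul_eq_mul_div, div_le_iff₀ (by linarith [I.half_lt y.1])]
    nlinarith [I.one_le_tS y.1, I.ha]

theorem pg_Ju : ∀ l m, PG (I.Ju l m)
  | .inl _, _ => PG.const _
  | .inr _, _ => PG.const _

theorem hg_u : ∀ l, ContDiff ℝ 1 (I.u l) ∧ ∀ m x, fderiv ℝ (I.u l) x (ee m) = I.a * I.Ju l m x
  | .inl i => ⟨by unfold u; simp only [Sum.elim_inl]; fun_prop, fun m x =>
      (fderiv_coord differentiable_id I.a i x _).trans (by simp [Ju, ee])⟩
  | .inr _ => ⟨contDiff_const, fun m x => by simp [u, Ju]⟩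

theorem Ju_le (x : E I.d) (a : Fin I.d ⊕ Fin I.d → ℝ) :
    ∑ m, (∑ l, a l * I.Ju l m x) ^ 2 ≤ ∑ l, a l ^ 2 := by
  simp only [Fintype.sum_sum_type, Ju, Sum.elim_inl, Sum.elim_inr, mul_ite, mul_one, mul_zero,
    Finset.sum_ite_eq', Finset.mem_univ, if_true, Finset.sum_const_zero, add_zero]
  exact le_add_of_nonneg_right (by positivity)

theorem cum_f_ax : (I.cum I.f I.Jf).Ax 4 := by
  refine I.cum_ax I.pg_f ?_ ?_ (fun x a => ?_) I.pg_Ju I.hg_u I.Ju_le
  · rintro (i | i) m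
    · have := I.V.hF.continuous_fderiv one_ne_zero
      refine PG.of_le (by unfold Jf; simp only [Sum.elim_inl]; fun_prop) 1 fun x => ?_
      have h1 := PiLp.norm_apply_le (fderiv ℝ I.V.F x (ee m)) i
      have h2 := (fderiv ℝ I.V.F x).le_opNorm (ee m)
      have h3 : ‖ee m‖ = 1 := by simp [ee]
      rw [h3] at h2
      exact h1.trans (by linarith [I.V.lip x, norm_nonneg x])
    · exact PG.const 0
  · rintro (i | i)
    · have := I.V.hF
      exact ⟨by unfold f; simp only [Sum.elim_inl]; fun_prop, fun m x =>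
        fderiv_coord I.V.diffF I.a i x _⟩
    · exact ⟨contDiff_const, fun m x => by simp [f, Jf]⟩
  · let α : E I.d := WithLp.toLp 2 fun i => a (.inl i)
    have h1 := norm_sq ((innerSL ℝ α).comp (fderiv ℝ I.V.F x))
    have h2 := ((innerSL ℝ α).opNorm_comp_le (fderiv ℝ I.V.F x)).trans
      (mul_le_of_le_one_right (norm_nonneg _) (by linarith [I.V.lip x]))
    rw [innerSL_apply_norm] at h2
    have h3 := pow_le_pow_left₀ (norm_nonneg _) h2 2
    rw [h1, EuclideanSpace.real_norm_sq_eq] at h3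
    simp only [Fintype.sum_sum_type, Jf, Sum.elim_inl, Sum.elim_inr, mul_zero,
      Finset.sum_const_zero, add_zero]
    refine le_trans (le_of_eq_of_le ?_ h3) (le_add_of_nonneg_right (by positivity))
    simp [α, PiLp.inner_apply, mul_comm]

theorem cum_u_ax : (I.cum I.u I.Ju).Ax 4 :=
  I.cum_ax I.pg_u I.pg_Ju I.hg_u I.Ju_le I.pg_Ju I.hg_u I.Ju_le

theorem D_logZ (w y : Y I.d) : fderiv ℝ (fun y => Real.log (I.Z (fun _ => 1) y)) y w =
    ∑ i, I.Ex (fun x => x i) y * I.c1 y w i - I.Ex (fun x => ‖x‖ ^ 2 / 2) y * I.c0 y w := by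
  rw [((I.Z_deriv (PG.const 1) y).1.hasFDerivAt.log (I.Z_pos y).ne').fderiv]
  simp only [smul_apply, (I.Z_deriv (PG.const 1) y).2, I.Ex_fn (PG.coord _), I.Ex_fn pg_q, mul_one,
    smul_eq_mul, mul_sub, Finset.mul_sum, div_eq_inv_mul (I.Z _ _), mul_assoc]

theorem rho_eq {K : ℝ} (K0 : 0 < K)
    (hK : gam I.d = volume.withDensity fun x => ENNReal.ofReal (K * Real.exp (-‖x‖ ^ 2 / 2)))
    (s : ℝ) (θ : E I.d) : rho I.V I.a I.t0 s θ = volume.withDensity fun w => ENNReal.ofReal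
      (Real.exp (2 * Real.log K - (‖w.1‖ ^ 2 + ‖w.2‖ ^ 2) / 2 + Real.log (I.Z (fun _ => 1) (s, θ, w))
        - Real.log (I.Z (fun _ => 1) (0, θ, 0)))) := by
  have t0 : 1 / 2 < I.t0 := by have := I.ha; have := I.ht; nlinarith
  have c1 : Continuous fun z : E I.d => Zc I.V (I.t0 + (I.a * s) ^ 2) (θ + (I.a * s) • z) := by
    have := (I.Z_smooth (PG.const 1)).continuous.comp
      (by fun_prop : Continuous fun z : E I.d => ((s, θ, z, 0) : Y I.d))
    simpa only [Function.comp_def, Z, Zf_one, tS, thS] using this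
  rw [rho, NN_density I.V t0 θ _ K0 hK, hK, prod_withDensity (by fun_prop) (by fun_prop),
    ← Measure.volume_eq_prod]
  congr 1; funext w
  have p1 := Zc_pos I.V (I.half_lt s) (θ + (I.a * s) • w.1)
  have p2 := Zc_pos I.V t0 θ
  have e1 : I.Z (fun _ => 1) (s, θ, w) = Zc I.V (tS I.a I.t0 s) (θ + (I.a * s) • w.1) :=
    Zf_one _ _ _
  have e2 : I.Z (fun _ => 1) (0, θ, 0) = Zc I.V I.t0 θ := by simp [Z, tS, thS, Zf_one]
  rw [← ENNReal.ofReal_mul (by unfold tS at p1; positivity)]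
  simp only [e1, e2, Real.exp_sub, Real.exp_add, Real.exp_log p1, Real.exp_log p2, two_mul,
    Real.exp_log K0, add_div, neg_div, Real.exp_neg]
  congr 1; unfold tS; field_simp

theorem exists_ell' : ∃ ell : Sm (Y I.d), (∀ s θ, rho I.V I.a I.t0 s θ =
      volume.withDensity fun w => ENNReal.ofReal (Real.exp (ell (s, θ, w)))) ∧
    ∀ w y : Y I.d, w.2.1 = 0 → Sm.D w ell y = -(⟪y.2.2.1, w.2.2.1⟫ + ⟪y.2.2.2, w.2.2.2⟫) +
      (∑ i, I.Ex (fun x => x i) y * I.c1 y w i - I.Ex (fun x => ‖x‖ ^ 2 / 2) y * I.c0 y w) := by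
  obtain ⟨K, K0, hK⟩ := gam_density I.d
  have sZ := (I.Z_smooth (PG.const 1)).log fun y => (I.Z_pos y).ne'
  let π : Y I.d →L[ℝ] Y I.d := (ContinuousLinearMap.inr ℝ ℝ _).comp ((ContinuousLinearMap.inl ℝ _ _).comp
    ((ContinuousLinearMap.fst ℝ _ _).comp (ContinuousLinearMap.snd ℝ ℝ _)))
  have n1 : ContDiff ℝ ∞ fun y : Y I.d => ‖y.2.2.1‖ ^ 2 := (contDiff_norm_sq ℝ).comp (by fun_prop)
  have n2 : ContDiff ℝ ∞ fun y : Y I.d => ‖y.2.2.2‖ ^ 2 := (contDiff_norm_sq ℝ).comp (by fun_prop)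
  refine ⟨Sm.of (fun y => 2 * Real.log K - (‖y.2.2.1‖ ^ 2 + ‖y.2.2.2‖ ^ 2) / 2 +
    Real.log (I.Z (fun _ => 1) y) - Real.log (I.Z (fun _ => 1) (π y)))
    (((contDiff_const.sub ((n1.add n2).div_const 2)).add sZ).sub (sZ.comp π.contDiff)),
    I.rho_eq K0 hK, fun w y hw => ?_⟩
  have := ((((hasFDerivAt_id (𝕜 := ℝ) y).snd.snd.fst.norm_sq.add
    (hasFDerivAt_id (𝕜 := ℝ) y).snd.snd.snd.norm_sq).mul_const (2⁻¹)).const_sub
      (2 * Real.log K)).add (sZ.differentiable (by simp) y).hasFDerivAt |>.sub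
    ((sZ.differentiable (by simp) (π y)).hasFDerivAt.comp y π.hasFDerivAt)
  refine (congrArg (· w) this.fderiv).trans ?_
  have h0 : π w = 0 := by simp [π, hw]
  rw [← I.D_logZ]
  simp [h0]

theorem exists_ell : ∃ ell : Sm (Y I.d),
    (∀ s θ, rho I.V I.a I.t0 s θ =
      volume.withDensity fun w => ENNReal.ofReal (Real.exp (ell (s, θ, w)))) ∧
    (∀ l, I.cal.dz l ell = -I.cal.h l) ∧ I.cal.ds ell = I.cal.δ I.cal.v := by
  obtain ⟨ell, h0, dl⟩ := I.exists_ell'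
  refine ⟨ell, h0, fun l => Sm.ext fun y => ?_, Sm.ext fun y => ?_⟩
  · change Sm.D (0, 0, I.dirH l) ell y = -(I.zS l y - y.1 * I.Ex (I.u l) y)
    rw [dl _ _ rfl]
    rcases l with i | i
    · have := I.Ex_mul (PG.coord i) I.a y
      simp [dirH, c1, c0, ee, u, this, EuclideanSpace.inner_single_right]; ring
    · simp [dirH, c1, c0, ee, u, Ex_zero, EuclideanSpace.inner_single_right]
  · change Sm.D (1, 0, 0, 0) ell y = (∑ l, ((I.zS l - I.sS * I.Ex (I.u l)) * I.Ex (I.u l) -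
      Sm.D ((0, 0, I.dirH l) : Y I.d) (I.Ex (I.u l))) : Sm (Y I.d)) y
    have h1 := I.Ex_uu (PG.const 1) y
    simp only [mul_one] at h1
    have e : ∀ l, (I.zS l - I.sS * I.Ex (I.u l)) * I.Ex (I.u l) - Sm.D ((0, 0, I.dirH l) : Y I.d)
        (I.Ex (I.u l)) = I.zS l * I.Ex (I.u l) - I.sS * I.Ex fun x => I.u l x * I.u l x := fun l => by
      rw [I.dz_Ex (I.pg_u l), I.D_Ex (I.pg_u l)]; ring
    simp only [e, Sm.sum_apply, Sm.sub_apply, Sm.mul_apply, Finset.sum_sub_distrib,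
      ← Finset.mul_sum, h1]
    rw [dl _ _ rfl, Fintype.sum_sum_type]
    have := fun i => I.Ex_mul (PG.coord i) I.a y
    simp [c1, c0, u, this, Ex_zero]
    congr 1
    · exact Finset.sum_congr rfl fun i _ => by ring
    · ring

theorem D_zS (w : Y I.d) : ∀ m, Sm.D w (I.zS m)
    = algebraMap ℝ _ (Sum.elim (fun i => w.2.2.1 i) (fun i => w.2.2.2 i) m)
  | .inl i => Sm.D_of_clm w ((EuclideanSpace.proj i : E I.d →L[ℝ] ℝ).comp
      ((ContinuousLinearMap.fst ℝ _ _).comp ((ContinuousLinearMap.snd ℝ _ _).comp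
        (ContinuousLinearMap.snd ℝ _ _)))) _ fun _ => rfl
  | .inr i => Sm.D_of_clm w ((EuclideanSpace.proj i : E I.d →L[ℝ] ℝ).comp
      ((ContinuousLinearMap.snd ℝ _ _).comp ((ContinuousLinearMap.snd ℝ _ _).comp
        (ContinuousLinearMap.snd ℝ _ _)))) _ fun _ => rfl

theorem D_sS (w : Y I.d) : Sm.D w I.sS = algebraMap ℝ _ w.1 :=
  Sm.D_of_clm w (ContinuousLinearMap.fst ℝ _ _) _ fun _ => rfl

theorem dz_zS (l m : Fin I.d ⊕ Fin I.d) :
    Sm.D ((0, 0, I.dirH l) : Y I.d) (I.zS m) = if l = m then 1 else 0 := by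
  rw [D_zS]
  rcases l with i | i <;> rcases m with k | k <;> simp [dirH, ee, eq_comm (a := k)]

theorem slice (f : Sm (Y I.d)) (s : ℝ) (θ : E I.d) (y e : E I.d × E I.d) :
    fderiv ℝ (fun w => f (s, θ, w)) y e = Sm.D ((0, 0, e) : Y I.d) f (s, θ, y) :=
  congrArg (· e) ((f.hasF (s, θ, y)).comp y ((hasFDerivAt_prodMk_right s (θ, y)).comp y
    (hasFDerivAt_prodMk_right θ y))).fderiv

theorem cov_nonneg (y : Y I.d) (x : Fin I.d ⊕ Fin I.d → ℝ) :
    0 ≤ ∑ l, ∑ m, Sm.D (I.dirD l) (I.Ex (I.u m)) y * (x l * x m) := by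
  have := pm_prob I.V (I.half_lt y.1) (thS I.a y.1 y.2.1 y.2.2.1)
  have ii : ∀ {h}, PG h → Integrable h (I.p y) := fun H => H.int_pm _ (I.half_lt _) _
  have pg := fun l m => ((I.pg_u l).sub (PG.const (I.Ex (I.u l) y))).mul
    ((I.pg_u m).sub (PG.const (I.Ex (I.u m) y)))
  have e : ∀ l m, Sm.D (I.dirD l) (I.Ex (I.u m)) y * (x l * x m) = ∫ z, (I.u l z - I.Ex (I.u l) y)
      * (I.u m z - I.Ex (I.u m) y) * (x l * x m) ∂(I.p y) := fun l m => by
    rw [integral_mul_const, I.D_Ex (I.pg_u m), Sm.sub_apply, Sm.mul_apply,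
      I.Ex_apply ((I.pg_u l).mul (I.pg_u m))]
    congr 1
    simp only [sub_mul, mul_sub]
    rw [integral_sub (ii (((I.pg_u l).mul (I.pg_u m)).sub ((I.pg_u m).const_mul _)))
      (ii (((I.pg_u l).mul (PG.const _)).sub (PG.const _))),
      integral_sub (ii ((I.pg_u l).mul (I.pg_u m))) (ii ((I.pg_u m).const_mul _)),
      integral_sub (ii ((I.pg_u l).mul (PG.const _))) (ii (PG.const _)), integral_const_mul,
      integral_mul_const, ← I.Ex_apply (I.pg_u l), ← I.Ex_apply (I.pg_u m)]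
    simp [p]
  simp only [e]
  simp only [← integral_finsetSum _ fun m _ => ii ((pg _ m).mul (PG.const _))]
  rw [← integral_finsetSum _ fun l _ => ii (PG.sum _ fun m _ => (pg l m).mul (PG.const _))]
  refine integral_nonneg fun z => le_of_le_of_eq
    (mul_self_nonneg (∑ l, (I.u l z - I.Ex (I.u l) y) * x l)) ?_
  simp only [Finset.sum_mul_sum]
  exact Finset.sum_congr rfl fun l _ => Finset.sum_congr rfl fun m _ => by ring

theorem div_aux (s : ℝ) (θ : E I.d) (w : Fin I.d ⊕ Fin I.d → Sm (Y I.d)) :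
    ∫⁻ y, ENNReal.ofReal ((∑ l, ((I.zS l - I.sS * I.Ex (I.u l)) * w l -
      Sm.D ((0, 0, I.dirH l) : Y I.d) (w l)) : Sm (Y I.d)) (s, θ, y) ^ 2) ∂(rho I.V I.a I.t0 s θ) ≤
    ENNReal.ofReal 3 * ∫⁻ y, ENNReal.ofReal (∑ l, w l (s, θ, y) ^ 2 +
      ∑ l, ∑ m, Sm.D ((0, 0, I.dirH m) : Y I.d) (w l) (s, θ, y) ^ 2) ∂(rho I.V I.a I.t0 s θ) := by
  obtain ⟨ell, h1, h2, -⟩ := I.exists_ell
  have sm : ∀ f : Sm (Y I.d), ContDiff ℝ 2 fun y : E I.d × E I.d => f (s, θ, y) :=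
    fun f => (contDiff_infty.1 f.smooth 2).comp (by fun_prop)
  have h3 : ∀ l, Sm.D ((0, 0, I.dirH l) : Y I.d) ell = -(I.zS l - I.sS * I.Ex (I.u l)) := h2
  have : (volume : Measure (E I.d × E I.d)).IsAddHaarMeasure := Measure.prod.instIsAddHaarMeasure _ _
  have := div_ineq volume I.dirH _ (sm ell) 1 zero_le_one (fun y x => by
    have e : ∀ (c : Prop) [Decidable c] (z : Y I.d),
        (if c then 1 else 0 : Sm (Y I.d)) z = if c then 1 else 0 := fun c _ z => by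
      split_ifs <;> rfl
    simp only [slice, h3]
    simp only [map_neg, map_sub, dz_zS, Sm.D_mul, D_sS, map_zero, zero_mul, zero_add,
      I.dz_Ex (I.pg_u _), Sm.neg_apply, Sm.sub_apply, Sm.mul_apply, e, neg_mul, sub_mul, ite_mul, one_mul, Finset.sum_neg_distrib,
      neg_neg, Finset.sum_sub_distrib, Finset.sum_ite_eq, Finset.mem_univ, if_true, mul_assoc,
      ← Finset.mul_sum, ← sq, sub_le_self_iff]
    rw [← mul_assoc]
    exact mul_nonneg (mul_self_nonneg _) (I.cov_nonneg _ x)) _ fun l => sm (w l)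
  simpa only [slice, h3, ← h1, Sm.neg_apply, neg_neg, Sm.sum_apply, Sm.sub_apply, Sm.mul_apply,
    show (1 : ℝ) + 2 = 3 by norm_num] using this

theorem cal_ax : I.cal.Ax 3 where
  ds_dz _ _ := Sm.D_comm _ _ _
  ds_D _ _ := Sm.D_comm _ _ _
  dz_dz _ _ _ := Sm.D_comm _ _ _
  dz_D _ _ _ := Sm.D_comm _ _ _
  D_D _ _ _ := Sm.D_comm _ _ _
  ds_s := (I.D_sS _).trans (map_one _)
  dz_s _ := (I.D_sS _).trans (map_zero _)
  D_s l := (I.D_sS _).trans (by rcases l with i | i <;> exact map_zero _)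
  ds_z l := (I.D_zS _ l).trans (by rcases l with i | i <;> exact map_zero _)
  dz_z := I.dz_zS
  D_z l m := (I.D_zS _ m).trans (by rcases l with i | i <;> rcases m with i | i <;> exact map_zero _)
  dz_v l m := I.dz_Ex (I.pg_u m) l
  dz_g l m := I.dz_Ex (I.pg_f m) l
  sym l m := (I.D_Ex (I.pg_u m) l).trans (Eq.trans (by simp only [mul_comm])
    (I.D_Ex (I.pg_u l) m).symm)
  X0_v m := I.X0_Ex (I.pg_u m)
  X0_g m := I.X0_Ex (I.pg_f m)
  prob j := by
    have := NN_prob I.V (t := I.t0) (by have := I.ha; have := I.ht; nlinarith) j.1.2 (I.a * j.1.1)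
    exact inferInstanceAs (IsProbabilityMeasure (Measure.prod _ _))
  meas j f := ((Sm.cont f).comp (by fun_prop :
    Continuous fun y : E I.d × E I.d => ((j.1.1, j.1.2, y) : Y I.d))).measurable
  s_le j _ := j.2
  div j w := I.div_aux j.1.1 j.1.2 w

theorem g_inl (i : Fin I.d) (y : Y I.d) :
    I.cal.ev y (I.cal.g (Sum.inl i)) = gg I.V I.a I.t0 y.1 y.2.1 y.2.2.1 i := by
  refine (I.Ex_mul (PG.coordF I.V i) I.a y).trans ?_
  rw [I.Ex_apply (PG.coordF I.V i), gg, PiLp.smul_apply, MM_apply _ (I.half_lt _)]; rfl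

theorem g_inr (i : Fin I.d) : I.cal.g (Sum.inr i) = 0 := I.Ex_zero

theorem v_inl (i : Fin I.d) (y : Y I.d) :
    I.cal.ev y (I.cal.v (Sum.inl i)) = (I.a * thS I.a y.1 y.2.1 y.2.2.1 i -
      gg I.V I.a I.t0 y.1 y.2.1 y.2.2.1 i) / tS I.a I.t0 y.1 := by
  refine (I.Ex_mul (PG.coord i) I.a y).trans ?_
  rw [I.Ex_apply (PG.coord i), gg, PiLp.smul_apply, smul_eq_mul, ← mul_sub,
    ← mean_eq _ (I.half_lt _), eq_div_iff (by linarith [I.half_lt y.1]), p]
  ring

theorem v_inr (i : Fin I.d) : I.cal.v (Sum.inr i) = 0 := I.Ex_zero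

theorem Dg_inl (i k : Fin I.d) (y : Y I.d) :
    I.cal.ev y (I.cal.D (Sum.inl k) (I.cal.g (Sum.inl i))) =
      Gam I.V I.a (tS I.a I.t0 y.1) (thS I.a y.1 y.2.1 y.2.2.1) i k := by
  refine (I.D_inl (I.pg_f (.inl i)) k y).trans ?_
  have h1 := I.Ex_mul (PG.coordF I.V i) I.a y
  have h2 := I.Ex_mul ((PG.coordF I.V i).mul (PG.coord k)) I.a y
  have e : (fun x : E I.d => x k * (I.a * I.V.F x i)) = fun x => I.a * (I.V.F x i * x k) := by
    funext x; ring
  simp only [f, Sum.elim_inl, e, h1, h2]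
  rw [I.Ex_apply (PG.coordF I.V i), I.Ex_apply (PG.coord k),
    I.Ex_apply ((PG.coordF I.V i).mul (PG.coord k)), Gam, p]
  ring

end Ins

theorem Gam_symm {d : ℕ} (V : Pt d) (a : ℝ) {t : ℝ} (ht : 1 / 2 < t) (θ : E d) (i k : Fin d) :
    Gam V a t θ i k = Gam V a t θ k i := by
  have := pm_prob V ht θ
  have key : ∀ i k : Fin d, ∫ x, V.F x i * x k ∂(pm V t θ) - (∫ x, V.F x i ∂(pm V t θ)) *
      ∫ x, x k ∂(pm V t θ) = (if k = i then 1 else 0) - t * (∫ x, x i * x k ∂(pm V t θ) -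
        (∫ x, x i ∂(pm V t θ)) * ∫ x, x k ∂(pm V t θ)) := fun i k => by
    have e : ∀ x : E d, fderiv ℝ (fun x : E d => x k) x (EuclideanSpace.single i 1)
        = if k = i then 1 else 0 := fun x => by
      simpa using InstAux.fderiv_coord differentiable_id 1 k x (EuclideanSpace.single i 1)
    have h1 := pm_ibp V ht θ i (h := fun x => x k) (by fun_prop) (PG.coord k)
      (by simp only [e]; exact PG.const _)
    have e2 : ∀ x : E d, x k * (t * x i + V.F x i - θ i)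
        = t * (x i * x k) + V.F x i * x k - θ i * x k := fun x => by ring
    have p1 := ((PG.coord i).mul (PG.coord k)).const_mul t
    have p2 := (PG.coordF V i).mul (PG.coord k)
    simp only [e, e2] at h1
    rw [integral_sub ((p1.add p2).int_pm V ht θ) (((PG.coord k).const_mul _).int_pm V ht θ),
      integral_add (p1.int_pm V ht θ) (p2.int_pm V ht θ), integral_const_mul, integral_const_mul,
      integral_const, probReal_univ, one_smul] at h1
    have h2 := mean_eq V ht θ i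
    rw [MM_apply V ht] at h2
    linear_combination h1 - (∫ x, x k ∂(pm V t θ)) * h2
  simp only [Gam, key]
  simp only [eq_comm (a := k), mul_comm]

end Vale.Agent.P347
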