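import Mathlib
import Vale.Agent.Common.PrekopaLeindler

/-! P347 part Poin: dimension-free Poincare inequality for strongly log-concave densities, and the
divergence inequality.  Standalone. -/

open MeasureTheory Set Filter Topology
open scoped ENNReal

namespace Vale.Agent.P347

namespace PoinAux

variable {E : Type*} [NormedAddCommGroup E] [NormedSpace ℝ E] [FiniteDimensional ℝ E]
  [MeasurableSpace E] [BorelSpace E]

/-- Maurey's property tau for the quadratic cost -/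
def Tau (μ : Measure E) (κ : ℝ) : Prop :=
  ∀ f g : E → ℝ, Continuous f → Continuous g → (∀ x y, g x - f y ≤ κ / 4 * ‖x - y‖ ^ 2) →
    (∫⁻ x, ENNReal.ofReal (Real.exp (g x)) ∂μ) * ∫⁻ x, ENNReal.ofReal (Real.exp (-f x)) ∂μ ≤ 1

lemma exp_low (t : ℝ) (ht : |t| ≤ 1) : 1 + t + t ^ 2 / 2 - |t| ^ 3 ≤ Real.exp t := by
  have h := Real.exp_bound ht (n := 3) (by norm_num)
  simp only [Finset.sum_range_succ, Finset.range_zero, Finset.sum_empty, Nat.factorial] at h
  have h2 := (abs_le.mp h).1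
  have h3 : 0 ≤ |t| ^ 3 := by positivity
  norm_num at h2
  nlinarith

lemma intB (μ : Measure E) [IsProbabilityMeasure μ] {φ : E → ℝ} (hφ : Continuous φ) (B : ℝ)
    (hB : ∀ x, |φ x| ≤ B) : Integrable φ μ :=
  Integrable.of_bound hφ.aestronglyMeasurable B (ae_of_all _ fun x => by
    simpa using hB x)

lemma tau_real (μ : Measure E) [IsProbabilityMeasure μ] {κ : ℝ} (hT : Tau μ κ) (f g : E → ℝ)
    (hf : Continuous f) (hg : Continuous g) (h1 : ∀ x, |f x| ≤ 1) (h2 : ∀ x, |g x| ≤ 1)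
    (H : ∀ x y, g x - f y ≤ κ / 4 * ‖x - y‖ ^ 2) :
    (∫ x, Real.exp (g x) ∂μ) * ∫ x, Real.exp (-f x) ∂μ ≤ 1 := by
  have i1 : Integrable (fun x => Real.exp (g x)) μ := intB μ (by fun_prop) (Real.exp 1) fun x => by
    rw [abs_of_pos (Real.exp_pos _)]
    exact Real.exp_le_exp.mpr (abs_le.mp (h2 x)).2
  have i2 : Integrable (fun x => Real.exp (-f x)) μ := intB μ (by fun_prop) (Real.exp 1) fun x => by
    rw [abs_of_pos (Real.exp_pos _)]
    exact Real.exp_le_exp.mpr (by linarith [(abs_le.mp (h1 x)).1])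
  have key := hT f g hf hg H
  rw [← ofReal_integral_eq_lintegral_ofReal i1 (ae_of_all _ fun x => (Real.exp_pos _).le),
    ← ofReal_integral_eq_lintegral_ofReal i2 (ae_of_all _ fun x => (Real.exp_pos _).le),
    ← ENNReal.ofReal_mul (integral_nonneg fun x => (Real.exp_pos _).le)] at key
  exact ENNReal.ofReal_le_one.mp key

lemma alg (m s a K e0 : ℝ) (he0 : 0 < e0)
    (H : ∀ e, 0 < e → e < e0 → ∃ X Y : ℝ, 1 + e * m - e ^ 2 * a + e ^ 2 * s / 2 - K * e ^ 3 ≤ X ∧
      1 - e * m + e ^ 2 * s / 2 - K * e ^ 3 ≤ Y ∧ X * Y ≤ 1) : s - m ^ 2 ≤ a := by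
  set R : ℝ → ℝ := fun e => (s - a - m ^ 2) + e * (m * a - 2 * K) +
    e ^ 2 * ((s / 2 - a) * s / 2) + e ^ 3 * (-K * (s - a)) + e ^ 4 * K ^ 2 with hR
  have hc : Continuous R := by rw [hR]; fun_prop
  have t1 : Tendsto R (𝓝[>] 0) (𝓝 (R 0)) := hc.continuousAt.tendsto.mono_left nhdsWithin_le_nhds
  have p1 : ∀ᶠ e in 𝓝[>] (0 : ℝ), 0 < 1 + e * m - e ^ 2 * a + e ^ 2 * s / 2 - K * e ^ 3 := by
    have c : Continuous fun e : ℝ => 1 + e * m - e ^ 2 * a + e ^ 2 * s / 2 - K * e ^ 3 := by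
      fun_prop
    exact (c.continuousAt (x := 0)).eventually (lt_mem_nhds (by simp)) |>.filter_mono
      nhdsWithin_le_nhds
  have p2 : ∀ᶠ e in 𝓝[>] (0 : ℝ), 0 < 1 - e * m + e ^ 2 * s / 2 - K * e ^ 3 := by
    have c : Continuous fun e : ℝ => 1 - e * m + e ^ 2 * s / 2 - K * e ^ 3 := by
      fun_prop
    exact (c.continuousAt (x := 0)).eventually (lt_mem_nhds (by simp)) |>.filter_mono
      nhdsWithin_le_nhds
  have p3 : ∀ᶠ e in 𝓝[>] (0 : ℝ), e ∈ Ioo 0 e0 := Ioo_mem_nhdsGT he0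
  have : R 0 ≤ 0 := by
    refine le_of_tendsto t1 ?_
    filter_upwards [p1, p2, p3] with e h1 h2 h3
    obtain ⟨X, Y, hX, hY, hXY⟩ := H e h3.1 h3.2
    have h4 := mul_le_mul hX hY h2.le (h1.le.trans hX)
    have h5 : (1 + e * m - e ^ 2 * a + e ^ 2 * s / 2 - K * e ^ 3) *
        (1 - e * m + e ^ 2 * s / 2 - K * e ^ 3) = 1 + e ^ 2 * R e := by
      simp only [hR]; ring
    have h6 : e ^ 2 * R e ≤ 0 := by linarith
    have h7 : 0 < e ^ 2 := pow_pos h3.1 2
    by_contra hn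
    push Not at hn
    have := mul_pos h7 hn
    linarith
  simp only [hR] at this
  linarith

lemma compact_eta (μ : Measure E) [IsProbabilityMeasure μ] {κ : ℝ} (hκ : 0 < κ) (hT : Tau μ κ)
    (h : E → ℝ) (hh : ContDiff ℝ 1 h) (hs : HasCompactSupport h) (η : ℝ) (hη : 0 < η) :
    ∫ x, h x ^ 2 ∂μ - (∫ x, h x ∂μ) ^ 2 ≤ ∫ x, (‖fderiv ℝ h x‖ + η) ^ 2 / κ ∂μ := by
  have hc : Continuous h := hh.continuous
  have hD : Continuous (fderiv ℝ h) := hh.continuous_fderiv (by norm_num)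
  have hDs : HasCompactSupport (fderiv ℝ h) := hs.fderiv (𝕜 := ℝ)
  have hdiff : Differentiable ℝ h := hh.differentiable (by norm_num)
  obtain ⟨B1, hB1⟩ := hc.bounded_above_of_compact_support hs
  obtain ⟨B2, hB2⟩ := hD.bounded_above_of_compact_support hDs
  obtain ⟨δ, hδ, hδ'⟩ := Metric.uniformContinuous_iff.mp
    (hDs.uniformContinuous_of_continuous hD) η hη
  set A : E → ℝ := fun x => (‖fderiv ℝ h x‖ + η) ^ 2 / κ with hA
  have hAc : Continuous A := by rw [hA]; fun_prop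
  set B : ℝ := max (max B1 ((B2 + η) ^ 2 / κ)) 1 with hB
  have hB0 : 1 ≤ B := le_max_right _ _
  have hhB : ∀ x, |h x| ≤ B := fun x =>
    le_trans (by simpa using hB1 x) ((le_max_left _ _).trans (le_max_left _ _))
  have hA0 : ∀ x, 0 ≤ A x := fun x => by rw [hA]; positivity
  have hAB : ∀ x, A x ≤ B := fun x => by
    refine le_trans ?_ ((le_max_right _ _).trans (le_max_left _ _))
    simp only [hA]
    have := hB2 x
    gcongr
  have ih : Integrable h μ := intB μ hc B hhB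
  have ih2 : Integrable (fun x => h x ^ 2) μ := intB μ (by fun_prop) (B ^ 2) fun x => by
    rw [abs_pow]; exact pow_le_pow_left₀ (abs_nonneg _) (hhB x) 2
  have iA : Integrable A μ := intB μ hAc B fun x => by rw [abs_of_nonneg (hA0 x)]; exact hAB x
  refine alg (∫ x, h x ∂μ) (∫ x, h x ^ 2 ∂μ) (∫ x, A x ∂μ) (B ^ 2 + 8 * B ^ 3)
    (min (1 / (2 * B)) (κ * δ ^ 2 / (8 * B))) (by positivity) fun e he he' => ?_
  have e1 : e * (2 * B) ≤ 1 := by
    have := (lt_of_lt_of_le he' (min_le_left _ _)).le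
    rwa [le_div_iff₀ (by positivity)] at this
  have e2 : e * (8 * B) ≤ κ * δ ^ 2 := by
    have := (lt_of_lt_of_le he' (min_le_right _ _)).le
    rwa [le_div_iff₀ (by positivity)] at this
  have e3 : e ≤ 1 := by nlinarith
  have bf : ∀ x, |e * h x| ≤ e * B := fun x => by
    rw [abs_mul, abs_of_pos he]; exact mul_le_mul_of_nonneg_left (hhB x) he.le
  have bg : ∀ x, |e * h x - e ^ 2 * A x| ≤ e * (2 * B) := fun x => by
    have h1 := abs_le.mp (bf x)
    have h2 : e ^ 2 * A x ≤ e * B := by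
      have : e * A x ≤ B := by nlinarith [hA0 x, hAB x]
      nlinarith
    have h3 : 0 ≤ e ^ 2 * A x := mul_nonneg (sq_nonneg _) (hA0 x)
    rw [abs_le]; constructor <;> nlinarith
  have eB : 0 < e * B := by positivity
  refine ⟨∫ x, Real.exp (e * h x - e ^ 2 * A x) ∂μ, ∫ x, Real.exp (-(e * h x)) ∂μ, ?_, ?_, ?_⟩
  · have hI : ∫ x, (1 + e * h x - e ^ 2 * A x + e ^ 2 * h x ^ 2 / 2 - (B ^ 2 + 8 * B ^ 3) * e ^ 3) ∂μ
        = 1 + e * ∫ x, h x ∂μ - e ^ 2 * ∫ x, A x ∂μ + e ^ 2 * (∫ x, h x ^ 2 ∂μ) / 2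
          - (B ^ 2 + 8 * B ^ 3) * e ^ 3 := by
      rw [integral_sub, integral_add, integral_sub, integral_add, integral_div, integral_const_mul,
        integral_const_mul, integral_const_mul]
      · simp
      all_goals fun_prop
    rw [← hI]
    refine integral_mono (by fun_prop) (intB μ (by fun_prop) (Real.exp 1) fun x => ?_) fun x => ?_
    · rw [abs_of_pos (Real.exp_pos _)]
      exact Real.exp_le_exp.mpr ((abs_le.mp (bg x)).2.trans e1)
    · refine le_trans ?_ (exp_low _ ((bg x).trans e1))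
      have c1 : |e * h x - e ^ 2 * A x| ^ 3 ≤ (e * (2 * B)) ^ 3 :=
        pow_le_pow_left₀ (abs_nonneg _) (bg x) 3
      have c2 : h x * A x ≤ B ^ 2 := by
        have := (abs_le.mp (hhB x)).2
        nlinarith [hA0 x, hAB x]
      have c3 : e ^ 3 * (h x * A x) ≤ e ^ 3 * B ^ 2 :=
        mul_le_mul_of_nonneg_left c2 (by positivity)
      have c4 : 0 ≤ (e ^ 2 * A x) ^ 2 := sq_nonneg _
      nlinarith
  · have hI : ∫ x, (1 - e * h x + e ^ 2 * h x ^ 2 / 2 - (B ^ 2 + 8 * B ^ 3) * e ^ 3) ∂μ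
        = 1 - e * ∫ x, h x ∂μ + e ^ 2 * (∫ x, h x ^ 2 ∂μ) / 2
          - (B ^ 2 + 8 * B ^ 3) * e ^ 3 := by
      rw [integral_sub, integral_add, integral_sub, integral_div, integral_const_mul,
        integral_const_mul]
      · simp
      all_goals fun_prop
    rw [← hI]
    have bf' : ∀ x, |-(e * h x)| ≤ e * (2 * B) := fun x => by
      rw [abs_neg]; exact (bf x).trans (by nlinarith)
    refine integral_mono (by fun_prop) (intB μ (by fun_prop) (Real.exp 1) fun x => ?_) fun x => ?_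
    · rw [abs_of_pos (Real.exp_pos _)]
      exact Real.exp_le_exp.mpr ((abs_le.mp (bf' x)).2.trans e1)
    · refine le_trans ?_ (exp_low _ ((bf' x).trans e1))
      have c1 : |-(e * h x)| ^ 3 ≤ (e * (2 * B)) ^ 3 :=
        pow_le_pow_left₀ (abs_nonneg _) (bf' x) 3
      have c4 : 0 ≤ B ^ 2 * e ^ 3 := by positivity
      nlinarith
  · refine tau_real μ hT (fun x => e * h x) (fun x => e * h x - e ^ 2 * A x) (by fun_prop)
      (by fun_prop) (fun x => (bf x).trans (by nlinarith)) (fun x => (bg x).trans e1) fun x y => ?_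
    rcases lt_or_ge ‖x - y‖ δ with hxy | hxy
    · have mv : ‖h x - h y‖ ≤ (‖fderiv ℝ h x‖ + η) * ‖x - y‖ := by
        refine Convex.norm_image_sub_le_of_norm_fderiv_le (𝕜 := ℝ) (s := Metric.ball x δ)
          (fun z _ => hdiff z) (fun z hz => ?_) (convex_ball x δ) ?_ (Metric.mem_ball_self hδ)
        · have := hδ' (Metric.mem_ball.mp hz)
          rw [dist_eq_norm] at this
          have h2 := norm_le_norm_add_norm_sub' (fderiv ℝ h z) (fderiv ℝ h x)
          linarith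
        · rw [Metric.mem_ball, dist_comm, dist_eq_norm]; exact hxy
      have m2 : h x - h y ≤ (‖fderiv ℝ h x‖ + η) * ‖x - y‖ := (le_abs_self _).trans mv
      have m3 : e * (h x - h y) ≤ e * ((‖fderiv ℝ h x‖ + η) * ‖x - y‖) :=
        mul_le_mul_of_nonneg_left m2 he.le
      have m4 : e * ((‖fderiv ℝ h x‖ + η) * ‖x - y‖) ≤
          e ^ 2 * A x + κ / 4 * ‖x - y‖ ^ 2 := by
        simp only [hA]
        have : e ^ 2 * ((‖fderiv ℝ h x‖ + η) ^ 2 / κ) + κ / 4 * ‖x - y‖ ^ 2 -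
            e * ((‖fderiv ℝ h x‖ + η) * ‖x - y‖) =
            (e * (‖fderiv ℝ h x‖ + η) - κ / 2 * ‖x - y‖) ^ 2 / κ := by
          field_simp; ring
        have h0 : 0 ≤ (e * (‖fderiv ℝ h x‖ + η) - κ / 2 * ‖x - y‖) ^ 2 / κ := by positivity
        linarith
      linarith
    · have h1 := (abs_le.mp (bf x)).2
      have h2 := (abs_le.mp (bf y)).1
      have h3 : 0 ≤ e ^ 2 * A x := mul_nonneg (sq_nonneg _) (hA0 x)
      have h4 : δ ^ 2 ≤ ‖x - y‖ ^ 2 := pow_le_pow_left₀ hδ.le hxy 2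
      have h5 : κ * δ ^ 2 ≤ κ * ‖x - y‖ ^ 2 := mul_le_mul_of_nonneg_left h4 hκ.le
      nlinarith

lemma compact (μ : Measure E) [IsProbabilityMeasure μ] {κ : ℝ} (hκ : 0 < κ) (hT : Tau μ κ)
    (h : E → ℝ) (hh : ContDiff ℝ 1 h) (hs : HasCompactSupport h) :
    ∫ x, h x ^ 2 ∂μ - (∫ x, h x ∂μ) ^ 2 ≤ 1 / κ * ∫ x, ‖fderiv ℝ h x‖ ^ 2 ∂μ := by
  have hD : Continuous (fderiv ℝ h) := hh.continuous_fderiv (by norm_num)
  have hDs : HasCompactSupport (fderiv ℝ h) := hs.fderiv (𝕜 := ℝ)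
  obtain ⟨B2, hB2⟩ := hD.bounded_above_of_compact_support hDs
  have i1 : Integrable (fun x => ‖fderiv ℝ h x‖) μ := intB μ (by fun_prop) B2 fun x => by
    simpa using hB2 x
  have i2 : Integrable (fun x => ‖fderiv ℝ h x‖ ^ 2) μ := intB μ (by fun_prop) (B2 ^ 2) fun x => by
    rw [abs_of_nonneg (sq_nonneg _)]; exact pow_le_pow_left₀ (norm_nonneg _) (hB2 x) 2
  set R : ℝ → ℝ := fun η => 1 / κ * (∫ x, ‖fderiv ℝ h x‖ ^ 2 ∂μ + 2 * η * ∫ x, ‖fderiv ℝ h x‖ ∂μ
    + η ^ 2) with hR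
  have hc : Continuous R := by rw [hR]; fun_prop
  have t1 : Tendsto R (𝓝[>] 0) (𝓝 (R 0)) := hc.continuousAt.tendsto.mono_left nhdsWithin_le_nhds
  have : ∫ x, h x ^ 2 ∂μ - (∫ x, h x ∂μ) ^ 2 ≤ R 0 := by
    refine ge_of_tendsto t1 ?_
    filter_upwards [self_mem_nhdsWithin] with η hη
    refine (compact_eta μ hκ hT h hh hs η hη).trans (le_of_eq ?_)
    have : ∀ x, (‖fderiv ℝ h x‖ + η) ^ 2 / κ =
        1 / κ * (‖fderiv ℝ h x‖ ^ 2 + 2 * η * ‖fderiv ℝ h x‖ + η ^ 2) := fun x => by ring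
    simp only [this, hR]
    rw [integral_const_mul, integral_add, integral_add, integral_const_mul]
    · simp
    all_goals fun_prop
  simpa [hR] using this

lemma general (μ : Measure E) [IsProbabilityMeasure μ] {κ : ℝ} (hκ : 0 < κ) (hT : Tau μ κ)
    (h : E → ℝ) (hh : ContDiff ℝ 1 h) (i1 : Integrable (fun x => h x ^ 2) μ)
    (i2 : Integrable (fun x => ‖fderiv ℝ h x‖ ^ 2) μ) :
    ∫ x, h x ^ 2 ∂μ - (∫ x, h x ∂μ) ^ 2 ≤ 2 / κ * ∫ x, ‖fderiv ℝ h x‖ ^ 2 ∂μ := by
  have hc : Continuous h := hh.continuous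
  have hD : Continuous (fderiv ℝ h) := hh.continuous_fderiv (by norm_num)
  have hdiff : Differentiable ℝ h := hh.differentiable (by norm_num)
  let χ : ContDiffBump (0 : E) := ⟨1, 2, by norm_num, by norm_num⟩
  have hχ : ContDiff ℝ 1 χ := χ.contDiff
  have hχs : HasCompactSupport χ := χ.hasCompactSupport
  obtain ⟨C, hC⟩ := (hχ.continuous_fderiv (by norm_num)).bounded_above_of_compact_support
    (hχs.fderiv (𝕜 := ℝ))
  have hC0 : 0 ≤ C := (norm_nonneg _).trans (hC 0)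
  let c : ℕ → E → ℝ := fun n x => χ ((1 / ((n : ℝ) + 1)) • x)
  have cpos : ∀ n : ℕ, (0 : ℝ) < 1 / ((n : ℝ) + 1) := fun n => by positivity
  have hcd : ∀ n, ContDiff ℝ 1 (c n) := fun n => hχ.comp (contDiff_const_smul _)
  have hcs : ∀ n, HasCompactSupport (c n) := fun n =>
    hχs.comp_homeomorph (Homeomorph.smulOfNeZero _ (cpos n).ne')
  have hc0 : ∀ n x, 0 ≤ c n x := fun n x => χ.nonneg
  have hc1 : ∀ n x, c n x ≤ 1 := fun n x => χ.le_one
  have hcD : ∀ n x, ‖fderiv ℝ (c n) x‖ ≤ C * (1 / ((n : ℝ) + 1)) := fun n x => by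
    have h1 : HasFDerivAt (fun x : E => (1 / ((n : ℝ) + 1)) • x)
        ((1 / ((n : ℝ) + 1)) • ContinuousLinearMap.id ℝ E) x := (hasFDerivAt_id x).const_smul _
    have h2 := ((hχ.differentiable (by norm_num)) ((1 / ((n : ℝ) + 1)) • x)).hasFDerivAt.comp x h1
    have h3 : fderiv ℝ (c n) x = _ := h2.fderiv
    rw [h3]
    refine (ContinuousLinearMap.opNorm_comp_le _ _).trans ?_
    refine mul_le_mul (hC _) ?_ (norm_nonneg _) hC0
    rw [norm_smul, Real.norm_of_nonneg (cpos n).le]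
    exact mul_le_of_le_one_right (cpos n).le ContinuousLinearMap.norm_id_le
  have hlim : ∀ x, Tendsto (fun n => c n x) atTop (𝓝 1) := fun x => by
    have t0 : Tendsto (fun n : ℕ => (1 / ((n : ℝ) + 1)) • x) atTop (𝓝 0) := by
      simpa using (tendsto_one_div_add_atTop_nhds_zero_nat (𝕜 := ℝ)).smul_const x
    have := (hχ.continuous.tendsto 0).comp t0
    rwa [χ.one_of_mem_closedBall (Metric.mem_closedBall_self χ.rIn_pos.le)] at this
  have ih : Integrable h μ := by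
    refine Integrable.mono' (i1.add (integrable_const (1 : ℝ))) hc.aestronglyMeasurable
      (ae_of_all _ fun x => ?_)
    simp only [Pi.add_apply, Real.norm_eq_abs]
    nlinarith [sq_abs (h x), sq_nonneg (|h x| - 1), abs_nonneg (h x)]
  have ab : ∀ n x, |c n x * h x| ≤ |h x| := fun n x => by
    rw [abs_mul, abs_of_nonneg (hc0 n x)]
    exact mul_le_of_le_one_left (abs_nonneg _) (hc1 n x)
  have l1 : Tendsto (fun n => ∫ x, c n x * h x ∂μ) atTop (𝓝 (∫ x, h x ∂μ)) := by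
    refine tendsto_integral_of_dominated_convergence (fun x => |h x|)
      (fun n => ((hcd n).continuous.mul hc).aestronglyMeasurable) ih.abs
      (fun n => ae_of_all _ fun x => ab n x) (ae_of_all _ fun x => ?_)
    simpa using (hlim x).mul_const (h x)
  have l2 : Tendsto (fun n => ∫ x, (c n x * h x) ^ 2 ∂μ) atTop (𝓝 (∫ x, h x ^ 2 ∂μ)) := by
    refine tendsto_integral_of_dominated_convergence (fun x => h x ^ 2)
      (fun n => (((hcd n).continuous.mul hc).pow 2).aestronglyMeasurable) i1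
      (fun n => ae_of_all _ fun x => ?_) (ae_of_all _ fun x => ?_)
    · rw [Real.norm_of_nonneg (sq_nonneg _)]
      exact sq_le_sq.mpr (ab n x)
    · simpa using ((hlim x).mul_const (h x)).pow 2
  have l3 : Tendsto (fun n : ℕ => 2 / κ * (∫ x, ‖fderiv ℝ h x‖ ^ 2 ∂μ +
      (C * (1 / ((n : ℝ) + 1))) ^ 2 * ∫ x, h x ^ 2 ∂μ)) atTop
      (𝓝 (2 / κ * ∫ x, ‖fderiv ℝ h x‖ ^ 2 ∂μ)) := by
    have := ((((tendsto_one_div_add_atTop_nhds_zero_nat (𝕜 := ℝ)).const_mul C).pow 2).mul_const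
      (∫ x, h x ^ 2 ∂μ)).const_add (∫ x, ‖fderiv ℝ h x‖ ^ 2 ∂μ) |>.const_mul (2 / κ)
    simpa using this
  refine le_of_tendsto_of_tendsto' (l2.sub (l1.pow 2)) l3 fun n => ?_
  refine (compact μ hκ hT (fun x => c n x * h x) ((hcd n).mul hh) (hcs n).mul_right).trans ?_
  have pt : ∀ x, ‖fderiv ℝ (fun x => c n x * h x) x‖ ^ 2 ≤
      2 * (‖fderiv ℝ h x‖ ^ 2 + (C * (1 / ((n : ℝ) + 1))) ^ 2 * h x ^ 2) := fun x => by
    rw [fderiv_fun_mul ((hcd n).differentiable (by norm_num) x) (hdiff x)]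
    have n1 : ‖c n x • fderiv ℝ h x‖ ≤ ‖fderiv ℝ h x‖ := by
      rw [norm_smul, Real.norm_of_nonneg (hc0 n x)]
      exact mul_le_of_le_one_left (norm_nonneg _) (hc1 n x)
    have n2 : ‖h x • fderiv ℝ (c n) x‖ ≤ |h x| * (C * (1 / ((n : ℝ) + 1))) := by
      rw [norm_smul, Real.norm_eq_abs]
      exact mul_le_mul_of_nonneg_left (hcD n x) (abs_nonneg _)
    have n3 := (norm_add_le (c n x • fderiv ℝ h x) (h x • fderiv ℝ (c n) x)).trans
      (add_le_add n1 n2)
    have n4 := pow_le_pow_left₀ (norm_nonneg _) n3 2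
    rw [← sq_abs (h x)]
    nlinarith [sq_nonneg (‖fderiv ℝ h x‖ - |h x| * (C * (1 / ((n : ℝ) + 1))))]
  have iR : Integrable (fun x =>
      2 * (‖fderiv ℝ h x‖ ^ 2 + (C * (1 / ((n : ℝ) + 1))) ^ 2 * h x ^ 2)) μ := by fun_prop
  have := integral_mono_of_nonneg (ae_of_all _ fun x => sq_nonneg _) iR (ae_of_all _ pt)
  rw [integral_const_mul, integral_add i2 (i1.const_mul _), integral_const_mul] at this
  have k0 : 0 ≤ 1 / κ := by positivity
  calc _ ≤ 1 / κ * (2 * (∫ x, ‖fderiv ℝ h x‖ ^ 2 ∂μ +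
      (C * (1 / ((n : ℝ) + 1))) ^ 2 * ∫ x, h x ^ 2 ∂μ)) := mul_le_mul_of_nonneg_left this k0
    _ = _ := by ring

end PoinAux

open PoinAux in
theorem poincare {d : ℕ} (U : EuclideanSpace ℝ (Fin d) → ℝ) (hU : Continuous U) (κ : ℝ)
    (hκ : 0 < κ)
    (conv : ∀ x y, U ((1 / 2 : ℝ) • (x + y)) ≤ (U x + U y) / 2 - κ / 8 * ‖x - y‖ ^ 2)
    (prob : ∫⁻ x, ENNReal.ofReal (Real.exp (-U x)) = 1)
    (h : EuclideanSpace ℝ (Fin d) → ℝ) (hh : ContDiff ℝ 1 h)
    (i1 : Integrable (fun x => h x ^ 2 * Real.exp (-U x)))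
    (i2 : Integrable (fun x => ‖fderiv ℝ h x‖ ^ 2 * Real.exp (-U x))) :
    (∫ x, h x ^ 2 * Real.exp (-U x)) - (∫ x, h x * Real.exp (-U x)) ^ 2 ≤
      2 / κ * ∫ x, ‖fderiv ℝ h x‖ ^ 2 * Real.exp (-U x) := by
  have hm : Measurable fun x => ENNReal.ofReal (Real.exp (-U x)) := by
    have := hU.measurable
    fun_prop
  let μ : Measure (EuclideanSpace ℝ (Fin d)) :=
    volume.withDensity fun x => ENNReal.ofReal (Real.exp (-U x))
  haveI : IsProbabilityMeasure μ := ⟨by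
    simp only [μ]
    rw [withDensity_apply _ MeasurableSet.univ, Measure.restrict_univ, prob]⟩
  have hI : ∀ φ : EuclideanSpace ℝ (Fin d) → ℝ, ∫ x, φ x ∂μ = ∫ x, φ x * Real.exp (-U x) :=
    fun φ => by
      simp only [μ]
      rw [integral_withDensity_eq_integral_toReal_smul hm (ae_of_all _ fun x => by simp)]
      refine integral_congr_ae (ae_of_all _ fun x => ?_)
      simp [ENNReal.toReal_ofReal (Real.exp_pos _).le, mul_comm]
  have hJ : ∀ φ : EuclideanSpace ℝ (Fin d) → ℝ,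
      Integrable (fun x => φ x * Real.exp (-U x)) → Integrable φ μ := fun φ hφ => by
    simp only [μ]
    rw [integrable_withDensity_iff_integrable_smul' hm (ae_of_all _ fun x => by simp)]
    refine hφ.congr (ae_of_all _ fun x => ?_)
    simp [ENNReal.toReal_ofReal (Real.exp_pos _).le, mul_comm]
  have hL : ∀ φ : EuclideanSpace ℝ (Fin d) → ℝ, Continuous φ →
      ∫⁻ x, ENNReal.ofReal (Real.exp (φ x)) ∂μ =
        ∫⁻ x, ENNReal.ofReal (Real.exp (φ x - U x)) := fun φ hφ => by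
    simp only [μ]
    have := hφ.measurable
    rw [lintegral_withDensity_eq_lintegral_mul _ hm (by fun_prop)]
    refine lintegral_congr fun x => ?_
    simp only [Pi.mul_apply]
    rw [← ENNReal.ofReal_mul (Real.exp_pos _).le, ← Real.exp_add]
    congr 2; ring
  have hT : Tau μ κ := fun f g hf hg H => by
    rw [hL g hg, hL (fun x => -f x) hf.neg]
    have m1 := hf.measurable
    have m2 := hg.measurable
    have m3 := hU.measurable
    have key := Vale.Agent.Common.pl_euclidean d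
      (fun x => ENNReal.ofReal (Real.exp (g x - U x)))
      (fun x => ENNReal.ofReal (Real.exp (-f x - U x)))
      (fun x => ENNReal.ofReal (Real.exp (-U x))) (by fun_prop) (by fun_prop) hm fun x y => by
        rw [← ENNReal.ofReal_mul (Real.exp_pos _).le, ← ENNReal.ofReal_pow (Real.exp_pos _).le,
          ← Real.exp_add, ← Real.exp_nat_mul]
        refine ENNReal.ofReal_le_ofReal (Real.exp_le_exp.mpr ?_)
        have a1 := H x y
        have a2 := conv x y
        push_cast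
        linarith
    rwa [prob, one_pow] at key
  have := general μ hκ hT h hh (hJ _ i1) (hJ _ i2)
  rwa [hI, hI, hI] at this

end Vale.Agent.P347
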