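import Vale.Agent.P347.Base
import Vale.Agent.P347.Poin

/-! P347 part Mom, first half: moments of the tilted laws. -/

open MeasureTheory ProbabilityTheory Filter
open scoped ENNReal RealInnerProductSpace

namespace Vale.Agent.P347
variable {d : ℕ}

theorem pm_poin (V : Pt d) {t : ℝ} (ht : 1 / 2 < t) (θ : E d) {h : E d → ℝ}
    (h1 : ContDiff ℝ 1 h) (h2 : PG h) (h3 : PG fun x => ‖fderiv ℝ h x‖ ^ 2) :
    ∫ x, h x ^ 2 ∂(pm V t θ) - (∫ x, h x ∂(pm V t θ)) ^ 2 ≤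
      2 / (t - 1 / 2) * ∫ x, ‖fderiv ℝ h x‖ ^ 2 ∂(pm V t θ) := by
  have hZ := Zc_pos V ht θ
  let U : E d → ℝ := fun x => -(⟪θ, x⟫ - t / 2 * ‖x‖ ^ 2 - V.W x) + Real.log (Zc V t θ)
  have eU : ∀ x, Real.exp (-U x) = wt V t θ x / Zc V t θ := fun x => by
    simp only [U, neg_add, neg_neg, Real.exp_add, Real.exp_neg, Real.exp_log hZ, wt]
    rfl
  have eI : ∀ φ : E d → ℝ, ∫ x, φ x ∂(pm V t θ) = ∫ x, φ x * Real.exp (-U x) := fun φ => by
    rw [integral_pm V ht]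
    simp only [eU, smul_eq_mul, mul_comm]
  have iI : ∀ φ : E d → ℝ, PG φ → Integrable fun x => φ x * Real.exp (-U x) := fun φ H => by
    simpa only [eU, mul_div_assoc] using (H.int V ht θ).div_const (Zc V t θ)
  rw [eI, eI, eI]
  refine poincare U (by have := V.contW; fun_prop) (t - 1 / 2) (by linarith) (fun x y => ?_) ?_ h h1
    (iI _ (h2.pow 2)) (iI _ h3)
  · have a1 := V.midW x y
    have a2 : ‖(1 / 2 : ℝ) • (x + y)‖ ^ 2 = (‖x‖ ^ 2 + ‖y‖ ^ 2) / 2 - ‖x - y‖ ^ 2 / 4 := by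
      rw [norm_smul, mul_pow, norm_add_sq_real, norm_sub_sq_real]
      norm_num; ring
    simp only [U, a2, inner_smul_right, inner_add_right]
    linarith
  · have := (pm_prob V ht θ).measure_univ
    rw [pm, withDensity_apply _ MeasurableSet.univ, Measure.restrict_univ] at this
    simpa only [eU] using this

theorem MM_apply (V : Pt d) {t : ℝ} (ht : 1 / 2 < t) (θ : E d) (i : Fin d) :
    MM V t θ i = ∫ x, V.F x i ∂(pm V t θ) :=
  eval_integral_piLp (fun j => (PG.coordF V j).int_pm V ht θ) i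

namespace MomAux

lemma fderiv_wt (V : Pt d) (t : ℝ) (θ x : E d) : ∃ L : E d →L[ℝ] ℝ, HasFDerivAt (wt V t θ) L x ∧
    ∀ v, L v = wt V t θ x * (⟪θ, v⟫ - t * ⟪x, v⟫ - ⟪V.F x, v⟫) := by
  have h1 : HasFDerivAt (fun x : E d => ⟪θ, x⟫) (innerSL ℝ θ) x := (innerSL ℝ θ).hasFDerivAt
  have h2 := ((hasStrictFDerivAt_norm_sq x).hasFDerivAt).const_mul (t / 2)
  have h3 := (V.hW x).hasFDerivAt
  refine ⟨_, ((h1.sub h2).sub h3).exp, fun v => ?_⟩
  simp [wt]
  ring

lemma var_nonneg {μ : Measure (E d)} [IsProbabilityMeasure μ] {f : E d → ℝ} (h1 : Integrable f μ)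
    (h2 : Integrable (fun x => f x ^ 2) μ) : (∫ x, f x ∂μ) ^ 2 ≤ ∫ x, f x ^ 2 ∂μ := by
  have h0 : 0 ≤ ∫ x, (f x ^ 2 - 2 * (∫ x, f x ∂μ) * f x + (∫ x, f x ∂μ) ^ 2) ∂μ :=
    integral_nonneg fun x => by
      simp only [Pi.zero_apply]; nlinarith [sq_nonneg (f x - ∫ x, f x ∂μ)]
  rw [integral_add (by fun_prop) (integrable_const _), integral_sub h2 (h1.const_mul _),
    integral_const_mul] at h0
  simp at h0
  nlinarith

lemma cov_le (V : Pt d) {t : ℝ} (ht : 1 / 2 < t) (θ : E d) {a b : E d → ℝ} (ha : PG a) (hb : PG b)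
    {A B : ℝ} (hA0 : 0 ≤ A) (hB0 : 0 ≤ B)
    (hA : ∫ x, a x ^ 2 ∂(pm V t θ) - (∫ x, a x ∂(pm V t θ)) ^ 2 ≤ A ^ 2)
    (hB : ∫ x, b x ^ 2 ∂(pm V t θ) - (∫ x, b x ∂(pm V t θ)) ^ 2 ≤ B ^ 2) :
    |∫ x, a x * b x ∂(pm V t θ) - (∫ x, a x ∂(pm V t θ)) * ∫ x, b x ∂(pm V t θ)| ≤ A * B := by
  have := pm_prob V ht θ
  have ia := ha.int_pm V ht θ
  have ib := hb.int_pm V ht θ
  have ia2 := (ha.pow 2).int_pm V ht θ
  have ib2 := (hb.pow 2).int_pm V ht θ
  have iab := (ha.mul hb).int_pm V ht θ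
  have key := discrim_le_zero (a := A ^ 2) (b := 2 * (∫ x, a x * b x ∂(pm V t θ) -
    (∫ x, a x ∂(pm V t θ)) * ∫ x, b x ∂(pm V t θ))) (c := B ^ 2) fun s => by
      have p := (ha.const_mul s).add hb
      have v := var_nonneg (p.int_pm V ht θ) ((p.pow 2).int_pm V ht θ)
      have e : ∀ x, (s * a x + b x) ^ 2 = s ^ 2 * a x ^ 2 + 2 * s * (a x * b x) + b x ^ 2 :=
        fun x => by ring
      simp only [e] at v
      rw [integral_add (ia.const_mul _) ib, integral_add (by fun_prop)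
        ib2, integral_add (ia2.const_mul _) (iab.const_mul _), integral_const_mul,
        integral_const_mul, integral_const_mul] at v
      nlinarith [mul_le_mul_of_nonneg_left hA (sq_nonneg s)]
  rw [discrim] at key
  refine abs_le_of_sq_le_sq' ?_ (mul_nonneg hA0 hB0) |> abs_le.mpr
  nlinarith

lemma var_le (V : Pt d) {t : ℝ} (ht : 1 / 2 < t) (θ : E d) {h : E d → ℝ} (h1 : ContDiff ℝ 1 h)
    (h2 : PG h) {L : ℝ} (hL : ∀ x, ‖fderiv ℝ h x‖ ≤ L) :
    ∫ x, h x ^ 2 ∂(pm V t θ) - (∫ x, h x ∂(pm V t θ)) ^ 2 ≤ 2 / (t - 1 / 2) * L ^ 2 := by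
  have := pm_prob V ht θ
  have hc : Continuous (fderiv ℝ h) := h1.continuous_fderiv (by norm_num)
  have b : ∀ x, ‖fderiv ℝ h x‖ ^ 2 ≤ L ^ 2 := fun x => pow_le_pow_left₀ (norm_nonneg _) (hL x) 2
  have p : PG fun x => ‖fderiv ℝ h x‖ ^ 2 := ⟨by fun_prop, L ^ 2, 0, fun x => by
    simpa using b x⟩
  refine (pm_poin V ht θ h1 h2 p).trans (mul_le_mul_of_nonneg_left ?_ (by
    have : 0 < t - 1 / 2 := by linarith
    positivity))
  simpa using integral_mono (p.int_pm V ht θ) (integrable_const (L ^ 2)) b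

lemma var_inner (V : Pt d) {t : ℝ} (ht : 1 / 2 < t) (θ e : E d) :
    ∫ x, ⟪e, x⟫ ^ 2 ∂(pm V t θ) - (∫ x, ⟪e, x⟫ ∂(pm V t θ)) ^ 2 ≤ 2 / (t - 1 / 2) * ‖e‖ ^ 2 :=
  var_le V ht θ (innerSL ℝ e).contDiff (PG.inner e) fun x => by
    rw [ContinuousLinearMap.fderiv]
    simp

lemma var_innerF (V : Pt d) {t : ℝ} (ht : 1 / 2 < t) (θ e : E d) :
    ∫ x, ⟪e, V.F x⟫ ^ 2 ∂(pm V t θ) - (∫ x, ⟪e, V.F x⟫ ∂(pm V t θ)) ^ 2 ≤
      2 / (t - 1 / 2) * (‖e‖ * (1 / 2)) ^ 2 :=
  var_le V ht θ ((innerSL ℝ e).contDiff.comp V.hF) (PG.innerF V e) fun x => by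
    have h := (innerSL ℝ e).hasFDerivAt.comp x (V.diffF x).hasFDerivAt
    rw [h.fderiv]
    refine (ContinuousLinearMap.opNorm_comp_le _ _).trans ?_
    rw [innerSL_apply_norm]
    exact mul_le_mul_of_nonneg_left (V.lip x) (norm_nonneg _)

lemma int_F (V : Pt d) {t : ℝ} (ht : 1 / 2 < t) (θ : E d) : Integrable V.F (pm V t θ) :=
  Integrable.of_eval_piLp fun j => (PG.coordF V j).int_pm V ht θ

lemma inner_MM (V : Pt d) {t : ℝ} (ht : 1 / 2 < t) (θ e : E d) :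
    ⟪e, MM V t θ⟫ = ∫ x, ⟪e, V.F x⟫ ∂(pm V t θ) := (integral_inner (int_F V ht θ) e).symm

lemma deriv_Zf {h : E d → ℝ} (H : PG h) (V : Pt d) {t : ℝ} (ht : 1 / 2 < t) (θ η : E d) (s : ℝ) :
    HasDerivAt (fun s : ℝ => Zf V h t (θ + s • η))
      (Zf V (fun x => h x * ⟪η, x⟫) t (θ + s • η)) s := by
  obtain ⟨L, h1, h2⟩ := H.hasFDerivAt_Zf V (p := (t, θ + s • η)) ht
  have h3 : HasDerivAt (fun s : ℝ => ((t, θ + s • η) : ℝ × E d)) (0, η) s :=
    (hasDerivAt_const s t).prodMk (by simpa using ((hasDerivAt_id s).smul_const η).const_add θ)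
  refine (h1.comp_hasDerivAt s h3).congr_deriv ?_
  rw [h2]
  simp only [mul_zero, sub_zero, Zf, ← integral_mul_const]
  rw [← integral_finsetSum _ fun i _ => (((PG.coord i).mul H).int V ht _).mul_const _]
  refine integral_congr_ae (Eventually.of_forall fun x => ?_)
  simp only [PiLp.inner_apply, RCLike.inner_apply, conj_trivial, Finset.mul_sum, Finset.sum_mul]
  exact Finset.sum_congr rfl fun i _ => by ring

end MomAux
open MomAux

/-- Integration by parts against a coordinate direction. -/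
theorem pm_ibp (V : Pt d) {t : ℝ} (ht : 1 / 2 < t) (θ : E d) (i : Fin d) {h : E d → ℝ}
    (h1 : ContDiff ℝ 1 h) (h2 : PG h)
    (h3 : PG fun x => fderiv ℝ h x (EuclideanSpace.single i 1)) :
    ∫ x, h x * (t * x i + V.F x i - θ i) ∂(pm V t θ) =
      ∫ x, fderiv ℝ h x (EuclideanSpace.single i 1) ∂(pm V t θ) := by
  have e : ∀ x, h x * fderiv ℝ (wt V t θ) x (EuclideanSpace.single i 1) =
      -(h x * (t * x i + V.F x i - θ i) * wt V t θ x) := fun x => by
    obtain ⟨L, a, b⟩ := fderiv_wt V t θ x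
    rw [a.fderiv, b]
    simp only [EuclideanSpace.inner_single_right, conj_trivial, one_mul]
    ring
  have p : PG fun x => h x * (t * x i + V.F x i - θ i) :=
    h2.mul ((((PG.coord i).const_mul t).add (PG.coordF V i)).sub (PG.const _))
  have key := integral_mul_fderiv_eq_neg_fderiv_mul_of_integrable (μ := volume) (f := h)
    (g := wt V t θ) (v := EuclideanSpace.single i 1) (h3.int V ht θ)
    (by simp only [e]; exact (p.int V ht θ).neg) (h2.int V ht θ)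
    (fun x _ => h1.differentiable (by norm_num) x)
    (fun x _ => (fderiv_wt V t θ x).choose_spec.1.differentiableAt)
  simp only [e, integral_neg, neg_inj] at key
  rw [integral_pm_eq V ht, integral_pm_eq V ht, Zf, Zf, key]

theorem mean_eq (V : Pt d) {t : ℝ} (ht : 1 / 2 < t) (θ : E d) (i : Fin d) :
    t * ∫ x, x i ∂(pm V t θ) = θ i - MM V t θ i := by
  have := pm_prob V ht θ
  have key := pm_ibp V ht θ i (h := fun _ => 1) contDiff_const (PG.const 1)
    (by simpa using PG.const 0)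
  have i1 := ((PG.coord i).const_mul t).int_pm V ht θ
  have i2 := (PG.coordF V i).int_pm V ht θ
  simp only [one_mul] at key
  rw [integral_sub (by fun_prop) (integrable_const _), integral_add i1 i2,
    integral_const_mul] at key
  rw [MM_apply V ht]
  simp at key
  linarith

theorem MM_lip (V : Pt d) {t : ℝ} (ht : 1 / 2 < t) (θ θ' : E d) :
    ‖MM V t θ - MM V t θ'‖ ≤ ‖θ - θ'‖ / (t - 1 / 2) := by
  set e := MM V t θ - MM V t θ' with he
  set η := θ - θ' with hη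
  have k0 : 0 < t - 1 / 2 := by linarith
  let φ : ℝ → ℝ := fun s => Zf V (fun x => ⟪e, V.F x⟫) t (θ' + s • η) /
    Zf V (fun _ => 1) t (θ' + s • η)
  have hφ : ∀ s, φ s = ⟪e, MM V t (θ' + s • η)⟫ := fun s => by
    rw [inner_MM V ht, integral_pm_eq V ht, ← Zf_one]
  have hd : ∀ s, ∃ c, HasDerivAt φ c s ∧ ‖c‖ ≤ ‖e‖ * ‖η‖ / (t - 1 / 2) := fun s => by
    have hZ := Zc_pos V ht (θ' + s • η)
    refine ⟨_, (deriv_Zf (PG.innerF V e) V ht θ' η s).div (deriv_Zf (PG.const 1) V ht θ' η s)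
      (by rw [Zf_one]; exact hZ.ne'), ?_⟩
    have r0 : 0 ≤ √(2 / (t - 1 / 2)) := Real.sqrt_nonneg _
    have r1 : √(2 / (t - 1 / 2)) ^ 2 = 2 / (t - 1 / 2) := Real.sq_sqrt (by positivity)
    have c := cov_le V ht (θ' + s • η) (PG.innerF V e) (PG.inner η)
      (A := √(2 / (t - 1 / 2)) * (‖e‖ * (1 / 2))) (B := √(2 / (t - 1 / 2)) * ‖η‖)
      (by positivity) (by positivity) (by rw [mul_pow, r1]; exact var_innerF V ht _ e)
      (by rw [mul_pow, r1]; exact var_inner V ht _ η)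
    rw [integral_pm_eq V ht, integral_pm_eq V ht, integral_pm_eq V ht] at c
    rw [Real.norm_eq_abs, Zf_one]
    convert c using 1
    · congr 1
      simp only [one_mul]
      field_simp
    · rw [mul_mul_mul_comm, ← sq, r1]; field_simp
  choose c hc hc' using hd
  have mv := norm_image_sub_le_of_norm_deriv_le_segment_01' (f := φ) (f' := c)
    (fun s _ => (hc s).hasDerivWithinAt) (fun s _ => hc' s)
  rw [hφ, hφ, one_smul, zero_smul, add_zero, hη, add_sub_cancel, ← inner_sub_right, ← he,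
    real_inner_self_eq_norm_sq, Real.norm_of_nonneg (sq_nonneg _), ← hη] at mv
  rcases (norm_nonneg e).eq_or_lt with h0 | h0
  · rw [← h0]; positivity
  · rw [sq, mul_div_assoc] at mv
    exact le_of_mul_le_mul_left mv h0

namespace MomAux

lemma pg_sq (c : E d) : PG fun x : E d => ‖x - c‖ ^ 2 :=
  (PG.of_le (f := fun x : E d => ‖x - c‖) (by fun_prop) (1 + ‖c‖) fun x => by
    rw [abs_of_nonneg (norm_nonneg _)]
    nlinarith [norm_sub_le x c, norm_nonneg x, norm_nonneg c]).pow 2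

lemma MM_sq (V : Pt d) {t : ℝ} (ht : 1 / 2 < t) (θ c : E d) :
    ‖MM V t θ - V.F c‖ ^ 2 ≤ 1 / 4 * ∫ x, ‖x - c‖ ^ 2 ∂(pm V t θ) := by
  have := pm_prob V ht θ
  have p : ∀ i, PG fun x => V.F x i - V.F c i := fun i => (PG.coordF V i).sub (PG.const _)
  calc _ = ∑ i, (∫ x, (V.F x i - V.F c i) ∂(pm V t θ)) ^ 2 := by
        rw [EuclideanSpace.real_norm_sq_eq]
        refine Finset.sum_congr rfl fun i _ => ?_
        rw [integral_sub ((PG.coordF V i).int_pm V ht θ) (integrable_const _), ← MM_apply V ht]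
        simp
    _ ≤ ∑ i, ∫ x, (V.F x i - V.F c i) ^ 2 ∂(pm V t θ) := Finset.sum_le_sum fun i _ =>
        var_nonneg ((p i).int_pm V ht θ) (((p i).pow 2).int_pm V ht θ)
    _ ≤ _ := by
        rw [← integral_finsetSum _ fun i _ => ((p i).pow 2).int_pm V ht θ, ← integral_const_mul]
        refine integral_mono (integrable_finsetSum _ fun i _ => ((p i).pow 2).int_pm V ht θ)
          (((pg_sq c).int_pm V ht θ).const_mul _) fun x => ?_
        have h1 := pow_le_pow_left₀ (norm_nonneg _) (V.lipF x c) 2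
        rw [EuclideanSpace.real_norm_sq_eq] at h1
        simp only [PiLp.sub_apply] at h1
        simp only
        nlinarith

lemma pm_sq' (V : Pt d) {t : ℝ} (ht : 1 ≤ t) (θ : E d) :
    ∫ x, ‖x - t⁻¹ • θ‖ ^ 2 ∂(pm V t θ) ≤ 8 * d / t + ‖t⁻¹ • θ‖ ^ 2 / t ^ 2 := by
  have ht' : 1 / 2 < t := by linarith
  have t0 : 0 < t := by linarith
  have := pm_prob V ht' θ
  set c := t⁻¹ • θ with hc
  set e := ∫ x, ‖x - c‖ ^ 2 ∂(pm V t θ) with he
  have p : ∀ i, PG fun x : E d => x i - c i := fun i => (PG.coord i).sub (PG.const _)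
  have h1 : ∀ i, ∫ x, (x i - c i) ^ 2 ∂(pm V t θ) ≤ 4 / t + (MM V t θ i) ^ 2 / t ^ 2 := fun i => by
    have a := var_le V ht' θ (h := fun x : E d => x i - c i) (by fun_prop) (p i) (L := 1) fun x => by
      have h := (EuclideanSpace.proj (𝕜 := ℝ) i).hasFDerivAt (x := x) |>.sub_const (c i)
      rw [show (fun x : E d => x i - c i) = fun x => EuclideanSpace.proj (𝕜 := ℝ) i x - c i from rfl,
        h.fderiv]
      exact ContinuousLinearMap.opNorm_le_bound _ zero_le_one fun v => by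
        simpa using PiLp.norm_apply_le v i
    have b : ∫ x, (x i - c i) ∂(pm V t θ) = -MM V t θ i / t := by
      rw [integral_sub ((PG.coord i).int_pm V ht' θ) (integrable_const _)]
      have := mean_eq V ht' θ i
      simp only [hc, integral_const, probReal_univ, PiLp.smul_apply, smul_eq_mul, one_mul]
      field_simp
      linarith
    have k : 2 / (t - 1 / 2) ≤ 4 / t := by
      rw [div_le_div_iff₀ (by linarith) t0]; linarith
    rw [b, div_pow, neg_sq] at a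
    linarith
  have h2 : e ≤ 4 * d / t + ‖MM V t θ‖ ^ 2 / t ^ 2 := by
    have : e = ∑ i, ∫ x, (x i - c i) ^ 2 ∂(pm V t θ) := by
      rw [← integral_finsetSum _ fun i _ => ((p i).pow 2).int_pm V ht' θ]
      simp only [he, EuclideanSpace.real_norm_sq_eq, PiLp.sub_apply]
    rw [this, EuclideanSpace.real_norm_sq_eq, Finset.sum_div]
    refine (Finset.sum_le_sum fun i _ => h1 i).trans (le_of_eq ?_)
    rw [Finset.sum_add_distrib]
    simp; ring
  have h3 := MM_sq V ht' θ 0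
  have h4 : ∫ x, ‖x - 0‖ ^ 2 ∂(pm V t θ) ≤ 2 * e + 2 * ‖c‖ ^ 2 := by
    have := integral_mono ((pg_sq 0).int_pm V ht' θ)
      ((((pg_sq c).int_pm V ht' θ).const_mul 2).add (integrable_const (2 * ‖c‖ ^ 2))) fun x => by
        have := norm_add_le (x - c) c
        simp only [sub_add_cancel, sub_zero, Pi.add_apply] at this ⊢
        nlinarith [pow_le_pow_left₀ (norm_nonneg _) this 2, sq_nonneg (‖x - c‖ - ‖c‖)]
    simp only [Pi.add_apply] at this
    rw [integral_add (((pg_sq c).int_pm V ht' θ).const_mul 2) (integrable_const _),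
      integral_const_mul] at this
    simpa using this
  rw [V.F0, sub_zero] at h3
  have e0 : 0 ≤ e := integral_nonneg fun x => sq_nonneg _
  have h5 : ‖MM V t θ‖ ^ 2 / t ^ 2 ≤ e / 2 + ‖c‖ ^ 2 / t ^ 2 / 2 := by
    have t2 : 1 ≤ t ^ 2 := one_le_pow₀ ht
    have : e / t ^ 2 ≤ e := div_le_self e0 t2
    calc _ ≤ (e / 2 + ‖c‖ ^ 2 / 2) / t ^ 2 := by gcongr; linarith
      _ = e / t ^ 2 / 2 + ‖c‖ ^ 2 / t ^ 2 / 2 := by ring
      _ ≤ _ := by linarith
  have : 8 * (d : ℝ) / t = 2 * (4 * d / t) := by ring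
  linarith

end MomAux

theorem pm_sq (V : Pt d) {t : ℝ} (ht : 1 ≤ t) (θ : E d) :
    ∫ x, ‖x - t⁻¹ • θ‖ ^ 2 ∂(pm V t θ) ≤ 32 * d / t + 2 * ‖t⁻¹ • θ‖ ^ 2 / t ^ 2 := by
  refine (pm_sq' V ht θ).trans (add_le_add ?_ ?_)
  · gcongr; norm_num
  · gcongr; nlinarith [sq_nonneg ‖t⁻¹ • θ‖]

theorem MM_sub_F (V : Pt d) {t : ℝ} (ht : 1 ≤ t) (θ : E d) :
    ‖MM V t θ - V.F (t⁻¹ • θ)‖ ≤ 2 * √(d / t) + ‖t⁻¹ • θ‖ / (2 * t) := by
  have h1 := MM_sq V (t := t) (by linarith) θ (t⁻¹ • θ)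
  have h2 := pm_sq' V ht θ
  have t0 : 0 < t := by linarith
  have r1 : √(d / t) ^ 2 = d / t := Real.sq_sqrt (by positivity)
  refine (abs_le_of_sq_le_sq' ?_ (by positivity)).2
  have e1 : (‖t⁻¹ • θ‖ / (2 * t)) ^ 2 = ‖t⁻¹ • θ‖ ^ 2 / t ^ 2 / 4 := by field_simp; ring
  have e2 : 8 * (d : ℝ) / t = 8 * (d / t) := by ring
  have e3 : 0 ≤ √(d / t) * (‖t⁻¹ • θ‖ / (2 * t)) := by positivity
  have e4 : 0 ≤ (d : ℝ) / t := by positivity
  nlinarith

end Vale.Agent.P347
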