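import Vale.Agent.P347.Base
import Vale.Agent.P347.Poin
import Vale.Agent.P347.Gau
import Vale.Agent.P347.MomA

/-! P347 part Mom: moments of the tilted laws, and the final total variation estimate. -/

open MeasureTheory ProbabilityTheory Filter
open scoped ENNReal RealInnerProductSpace

namespace Vale.Agent.P347
variable {d : ℕ}
open MomAux

lemma MomAux.sq_add (x y : E d) : ‖x + y‖ ^ 2 ≤ 2 * ‖x‖ ^ 2 + 2 * ‖y‖ ^ 2 := by
  nlinarith [pow_le_pow_left₀ (norm_nonneg _) (norm_add_le x y) 2, sq_nonneg (‖x‖ - ‖y‖)]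

lemma MomAux.gam_lin (a c : ℝ) (ha : 0 ≤ a) (hc : 0 ≤ c) :
    ∫⁻ x, ENNReal.ofReal (a + c * ‖x‖ ^ 2) ∂(gam d) = ENNReal.ofReal (a + c * d) := by
  have e : ∀ x : E d, ENNReal.ofReal (a + c * ‖x‖ ^ 2) =
      ENNReal.ofReal a + ENNReal.ofReal c * ENNReal.ofReal (‖x‖ ^ 2) := fun x => by
    rw [ENNReal.ofReal_add ha (by positivity), ENNReal.ofReal_mul hc]
  simp only [e]
  rw [lintegral_add_left measurable_const, lintegral_const_mul _ (by fun_prop), gam_sq,
    ENNReal.ofReal_add ha (by positivity), ENNReal.ofReal_mul hc]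
  simp

theorem NN_sq (V : Pt d) {t : ℝ} (ht : 1 ≤ t) (θ : E d) (b : ℝ) :
    ∫⁻ z, ENNReal.ofReal (‖z - (b / t) • θ‖ ^ 2) ∂(NN V t θ b) ≤
      ENNReal.ofReal (2 * b ^ 2 * (32 * d / t + 2 * ‖t⁻¹ • θ‖ ^ 2 / t ^ 2) + 2 * d) := by
  have ht' : 1 / 2 < t := by linarith
  have := pm_prob V ht' θ
  rw [NN, lintegral_map (by fun_prop) (by fun_prop), lintegral_prod _ (by fun_prop)]
  have i1 := ((pg_sq (t⁻¹ • θ)).int_pm V ht' θ).const_mul (2 * b ^ 2)
  calc _ ≤ ∫⁻ x, ENNReal.ofReal (2 * b ^ 2 * ‖x - t⁻¹ • θ‖ ^ 2 + 2 * d) ∂(pm V t θ) := by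
        refine lintegral_mono fun x => ?_
        rw [← gam_lin _ _ (by positivity) (by norm_num)]
        refine lintegral_mono fun y => ENNReal.ofReal_le_ofReal ?_
        have e : b • x + y - (b / t) • θ = b • (x - t⁻¹ • θ) + y := by
          rw [div_eq_mul_inv]; module
        have := sq_add (b • (x - t⁻¹ • θ)) y
        rw [norm_smul, mul_pow, Real.norm_eq_abs, sq_abs] at this
        simp only [e]
        linarith
    _ ≤ _ := by
        rw [← ofReal_integral_eq_lintegral_ofReal (by fun_prop)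
          (Eventually.of_forall fun x => by positivity), integral_add i1 (integrable_const _),
          integral_const_mul]
        refine ENNReal.ofReal_le_ofReal ?_
        have := mul_le_mul_of_nonneg_left (pm_sq V ht θ) (by positivity : 0 ≤ 2 * b ^ 2)
        simp only [integral_const, probReal_univ, smul_eq_mul, one_mul]
        linarith

namespace MomAux

lemma conv {α β : Type*} [MeasurableSpace α] [MeasurableSpace β] {μ : Measure α} {ν : Measure β}
    [IsFiniteMeasure μ] [IsFiniteMeasure ν] {A : Set α} {B : Set β} {e : ℝ} (he : 0 ≤ e)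
    (h : μ.real A - e ≤ ν.real B) : μ A ≤ ν B + ENNReal.ofReal e := by
  rw [← ofReal_measureReal (μ := μ), ← ofReal_measureReal (μ := ν),
    ← ENNReal.ofReal_add measureReal_nonneg he]
  exact ENNReal.ofReal_le_ofReal (by linarith)

lemma wt_shift (V : Pt d) (hd : 1 ≤ d) (x y : E d) :
    wt V (3 / 2) 0 x * (1 - (1 / (200 * d) * ‖x‖ ^ 2 + (200 * d + 1) * ‖y‖ ^ 2)) ≤
      wt V (3 / 2) 0 (x - y) := by
  have d0 : (0 : ℝ) < d := by exact_mod_cast hd
  have h1 := (abs_le.mp (V.taylor x (-y))).2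
  rw [← sub_eq_add_neg, inner_neg_right, norm_neg] at h1
  have h2 := norm_sub_sq_real x y
  have h3 := (abs_le.mp (abs_real_inner_le_norm x y)).1
  have h4 := (abs_le.mp (abs_real_inner_le_norm (V.F x) y)).1
  have h5 := mul_le_mul_of_nonneg_right (V.normF x) (norm_nonneg y)
  have h6 : 2 * (‖x‖ * ‖y‖) ≤ 1 / (200 * d) * ‖x‖ ^ 2 + 200 * d * ‖y‖ ^ 2 := by
    have : 1 / (200 * d) * ‖x‖ ^ 2 + 200 * d * ‖y‖ ^ 2 - 2 * (‖x‖ * ‖y‖) =
        (‖x‖ - 200 * d * ‖y‖) ^ 2 / (200 * d) := by field_simp; ring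
    have h0 : 0 ≤ (‖x‖ - 200 * d * ‖y‖) ^ 2 / (200 * d) := by positivity
    linarith
  refine le_trans (mul_le_mul_of_nonneg_left (Real.one_sub_le_exp_neg _) (wt_pos _ _ _ _).le) ?_
  simp only [wt, ← Real.exp_add, inner_zero_left]
  refine Real.exp_le_exp.mpr ?_
  nlinarith

lemma pm_shift (V : Pt d) (hd : 1 ≤ d) {B : Set (E d)} (hB : MeasurableSet B) (y : E d) :
    (pm V (3 / 2) 0).real B - (3 / 100 + (200 * d + 1) * ‖y‖ ^ 2) ≤
      (pm V (3 / 2) 0).real {x | x + y ∈ B} := by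
  have d0 : (0 : ℝ) < d := by exact_mod_cast hd
  have ht : (1 / 2 : ℝ) < 3 / 2 := by norm_num
  have := pm_prob V ht 0
  have hZ := Zc_pos V ht 0
  have hB' : MeasurableSet {x | x + y ∈ B} := (measurable_add_const y) hB
  have p : PG fun x : E d => 1 / (200 * d) * ‖x‖ ^ 2 + (200 * d + 1) * ‖y‖ ^ 2 :=
    ((PG.norm.pow 2).const_mul _).add (PG.const _)
  have h1 : ∫ x, (1 / (200 * d) * ‖x‖ ^ 2 + (200 * d + 1) * ‖y‖ ^ 2) ∂(pm V (3 / 2) 0) ≤
      3 / 100 + (200 * d + 1) * ‖y‖ ^ 2 := by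
    rw [integral_add (((PG.norm.pow 2).const_mul _).int_pm V ht 0) (integrable_const _),
      integral_const_mul]
    have := pm_sq' V (t := 3 / 2) (by norm_num) 0
    simp only [smul_zero, sub_zero, norm_zero] at this
    have h2 : 1 / (200 * d) * ∫ x, ‖x‖ ^ 2 ∂(pm V (3 / 2) 0) ≤ 3 / 100 := by
      rw [one_div, inv_mul_le_iff₀ (by positivity)]
      norm_num at this
      linarith
    simp only [integral_const, probReal_univ, smul_eq_mul, one_mul]
    linarith
  have iB : Integrable (B.indicator (1 : E d → ℝ)) (pm V (3 / 2) 0) :=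
    (integrable_const 1).indicator hB
  have h2 : (pm V (3 / 2) 0).real {x | x + y ∈ B} =
      ∫ x, wt V (3 / 2) 0 (x - y) / Zc V (3 / 2) 0 * B.indicator 1 x := by
    rw [← integral_indicator_one hB', integral_pm V ht, ← integral_sub_right_eq_self _ y]
    refine integral_congr_ae (Eventually.of_forall fun x => ?_)
    by_cases hx : x ∈ B <;> simp [hx]
  have iR : Integrable fun x => wt V (3 / 2) 0 (x - y) / Zc V (3 / 2) 0 * B.indicator 1 x := by
    have := (((int_wt V ht 0).comp_sub_right y).div_const (Zc V (3 / 2) 0)).indicator hB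
    refine this.congr (Eventually.of_forall fun x => ?_)
    by_cases hx : x ∈ B <;> simp [hx]
  have iL := (integrable_withDensity_iff_integrable_smul' (dens_meas V (3 / 2) 0) (by simp)).mp
    (iB.sub (p.int_pm V ht 0))
  rw [h2, ← integral_indicator_one hB]
  refine le_trans (sub_le_sub_left h1 _) ?_
  rw [← integral_sub iB (p.int_pm V ht 0), integral_pm V ht]
  refine integral_mono (iL.congr (Eventually.of_forall fun x => ?_)) iR fun x => ?_
  · simp only [Pi.sub_apply]
    rw [ENNReal.toReal_ofReal (div_pos (wt_pos V _ _ x) hZ).le]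
  · simp only [smul_eq_mul]
    by_cases hx : x ∈ B
    · simp only [Set.indicator_of_mem hx, Pi.one_apply, mul_one]
      rw [div_mul_eq_mul_div]
      exact div_le_div_of_nonneg_right (wt_shift V hd x y) hZ.le
    · simp only [Set.indicator_of_notMem hx, mul_zero, zero_sub]
      have := div_pos (wt_pos V (3 / 2) 0 x) hZ
      exact mul_nonpos_of_nonneg_of_nonpos this.le (neg_nonpos.mpr (by positivity))

lemma one_side (V : Pt d) (hd : 1 ≤ d) {Ω : Type} [MeasurableSpace Ω] (P : Measure Ω)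
    [IsProbabilityMeasure P] {b : ℝ} (hb : 1000 * d ≤ b) {O Z : Ω → E d} (hO : Measurable O)
    (hZ : MeasurePreserving Z P (NN V (3 / 2) 0 b))
    (he : eLpNorm (fun ω => O ω - b⁻¹ • Z ω) 2 P ≤ ENNReal.ofReal (1 / (10 ^ 6 * d)))
    {B : Set (E d)} (hB : MeasurableSet B) :
    pm V (3 / 2) 0 B ≤ ((P.prod (gam d)).map fun p => O p.1 + (1 / (1000 * d) : ℝ) • p.2) B +
      ENNReal.ofReal (1 / 10) := by
  have d1 : (1 : ℝ) ≤ d := by exact_mod_cast hd
  have ht : (1 / 2 : ℝ) < 3 / 2 := by norm_num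
  have := pm_prob V ht 0
  have b0 : 0 < b := by linarith
  set r : ℝ := 1 / (1000 * d) with hr
  have r0 : 0 < r := by positivity
  have br : b⁻¹ ≤ r := by rw [hr, one_div]; exact inv_anti₀ (by positivity) hb
  have mZ := hZ.measurable
  let G : E d → ℝ≥0∞ := fun u => gam d {ζ | u + r • ζ ∈ B}
  have mS : MeasurableSet {p : E d × E d | p.1 + r • p.2 ∈ B} :=
    (by fun_prop : Measurable fun p : E d × E d => p.1 + r • p.2) hB
  have mG : Measurable G := measurable_measure_prodMk_left mS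
  have s0 : ((P.prod (gam d)).map fun p => O p.1 + r • p.2) B = ∫⁻ ω, G (O ω) ∂P := by
    rw [Measure.map_apply (by fun_prop) hB, Measure.prod_apply
      ((by fun_prop : Measurable fun p : Ω × E d => O p.1 + r • p.2) hB)]
    rfl
  have s1 : ∫⁻ ω, G (b⁻¹ • Z ω) ∂P ≤ ∫⁻ ω, G (O ω) ∂P + ENNReal.ofReal (2 / 1000) := by
    calc _ ≤ ∫⁻ ω, (G (O ω) + ENNReal.ofReal (2 * r⁻¹) * ‖O ω - b⁻¹ • Z ω‖ₑ) ∂P := by
          refine lintegral_mono fun ω => ?_
          have h := conv (by positivity) (gam_shift (A := {ζ | b⁻¹ • Z ω + r • ζ ∈ B})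
            ((by fun_prop : Measurable fun ζ : E d => b⁻¹ • Z ω + r • ζ) hB)
            (r⁻¹ • (O ω - b⁻¹ • Z ω)))
          have e : ∀ x : E d, b⁻¹ • Z ω + r • (x + r⁻¹ • (O ω - b⁻¹ • Z ω)) = O ω + r • x :=
            fun x => by rw [smul_add, smul_inv_smul₀ r0.ne']; abel
          simp only [Set.mem_setOf_eq, e] at h
          rw [norm_smul, Real.norm_of_nonneg (by positivity), ← mul_assoc,
            ENNReal.ofReal_mul (by positivity), ofReal_norm_eq_enorm] at h
          exact h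
      _ ≤ _ := by
          rw [lintegral_add_left (by fun_prop), lintegral_const_mul _ (by fun_prop),
            ← eLpNorm_one_eq_lintegral_enorm]
          refine add_le_add le_rfl ?_
          have := (eLpNorm_le_eLpNorm_of_exponent_le (p := 1) (q := 2) (by norm_num)
            (by fun_prop : Measurable fun ω => O ω - b⁻¹ • Z ω).aestronglyMeasurable).trans he
          refine (mul_le_mul_right this _).trans (le_of_eq ?_)
          rw [← ENNReal.ofReal_mul (by positivity), hr]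
          congr 1
          field_simp
          norm_num
  have s2 : ∫⁻ ω, G (b⁻¹ • Z ω) ∂P =
      ∫⁻ ξ, ∫⁻ ζ, pm V (3 / 2) 0 {x | x + (b⁻¹ • ξ + r • ζ) ∈ B} ∂(gam d) ∂(gam d) := by
    rw [hZ.lintegral_comp (f := fun z => G (b⁻¹ • z)) (by fun_prop), NN,
      lintegral_map (by fun_prop) (by fun_prop), lintegral_prod_symm _ (by fun_prop)]
    refine lintegral_congr fun ξ => ?_
    have mT : MeasurableSet {p : E d × E d | p.1 + (b⁻¹ • ξ + r • p.2) ∈ B} :=
      (by fun_prop : Measurable fun p : E d × E d => p.1 + (b⁻¹ • ξ + r • p.2)) hB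
    refine Eq.trans ?_ (Measure.prod_apply_symm (μ := pm V (3 / 2) 0) (ν := gam d) mT)
    rw [Measure.prod_apply mT]
    refine lintegral_congr fun x => ?_
    simp only [G, smul_add, inv_smul_smul₀ b0.ne', add_assoc]
    rfl
  have mH : Measurable fun p : E d × E d =>
      pm V (3 / 2) 0 {x | x + (b⁻¹ • p.1 + r • p.2) ∈ B} :=
    measurable_measure_prodMk_left
      ((by fun_prop : Measurable fun q : (E d × E d) × E d =>
        q.2 + (b⁻¹ • q.1.1 + r • q.1.2)) hB)
  set K : ℝ := (200 * d + 1) * (2 * r ^ 2) with hK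
  have K0 : 0 ≤ K := by positivity
  have s3 : ∀ ξ : E d, pm V (3 / 2) 0 B ≤
      ∫⁻ ζ, pm V (3 / 2) 0 {x | x + (b⁻¹ • ξ + r • ζ) ∈ B} ∂(gam d) +
        ENNReal.ofReal (3 / 100 + K * d + K * ‖ξ‖ ^ 2) := fun ξ => by
    calc _ = ∫⁻ _ : E d, pm V (3 / 2) 0 B ∂(gam d) := by simp
      _ ≤ ∫⁻ ζ, (pm V (3 / 2) 0 {x | x + (b⁻¹ • ξ + r • ζ) ∈ B} +
          ENNReal.ofReal (3 / 100 + K * ‖ξ‖ ^ 2 + K * ‖ζ‖ ^ 2)) ∂(gam d) := by
          refine lintegral_mono fun ζ => ?_
          refine (conv (by positivity) (pm_shift V hd hB (b⁻¹ • ξ + r • ζ))).trans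
            (add_le_add le_rfl (ENNReal.ofReal_le_ofReal ?_))
          have h1 := sq_add (b⁻¹ • ξ) (r • ζ)
          rw [norm_smul, norm_smul, mul_pow, mul_pow, Real.norm_of_nonneg r0.le,
            Real.norm_of_nonneg (by positivity)] at h1
          have h2 : b⁻¹ ^ 2 * ‖ξ‖ ^ 2 ≤ r ^ 2 * ‖ξ‖ ^ 2 := by gcongr
          have h3 := mul_le_mul_of_nonneg_left (h1.trans (add_le_add
            (mul_le_mul_of_nonneg_left h2 zero_le_two) le_rfl))
            (by positivity : (0 : ℝ) ≤ 200 * d + 1)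
          rw [hK]
          linarith
      _ = _ := by
          rw [lintegral_add_right _ (by fun_prop),
            gam_lin _ _ (by positivity) K0]
          congr 2; ring
  have s4 : pm V (3 / 2) 0 B ≤ ∫⁻ ω, G (b⁻¹ • Z ω) ∂P +
      ENNReal.ofReal (3 / 100 + K * d + K * d) := by
    rw [s2, ← gam_lin _ _ (by positivity) K0, ← lintegral_add_left mH.lintegral_prod_right']
    simpa using lintegral_mono (μ := gam d) s3
  rw [s0]
  refine s4.trans ((add_le_add s1 le_rfl).trans ?_)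
  rw [add_assoc, ← ENNReal.ofReal_add (by norm_num) (by positivity)]
  refine add_le_add le_rfl (ENNReal.ofReal_le_ofReal ?_)
  have : K * d ≤ 1 / 1000 := by
    rw [hK, hr]
    field_simp
    nlinarith
  linarith

end MomAux

theorem final_tv (V : Pt d) (hd : 1 ≤ d) {Ω : Type} [MeasurableSpace Ω] (P : Measure Ω)
    [IsProbabilityMeasure P] {b : ℝ} (hb : 1000 * d ≤ b) {O Z : Ω → E d} (hO : Measurable O)
    (hZ : MeasurePreserving Z P (NN V (3 / 2) 0 b))
    (he : eLpNorm (fun ω => O ω - b⁻¹ • Z ω) 2 P ≤ ENNReal.ofReal (1 / (10 ^ 6 * d)))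
    {B : Set (E d)} (hB : MeasurableSet B) :
    |((P.prod (gam d)).map fun p => O p.1 + (1 / (1000 * d) : ℝ) • p.2).real B -
      (pm V (3 / 2) 0).real B| ≤ 1 / 10 := by
  have := pm_prob V (t := 3 / 2) (by norm_num) 0
  have : IsProbabilityMeasure
      ((P.prod (gam d)).map fun p => O p.1 + (1 / (1000 * d) : ℝ) • p.2) :=
    Measure.isProbabilityMeasure_map (by fun_prop)
  have key : ∀ {B : Set (E d)}, MeasurableSet B → (pm V (3 / 2) 0).real B ≤
      ((P.prod (gam d)).map fun p => O p.1 + (1 / (1000 * d) : ℝ) • p.2).real B + 1 / 10 :=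
    fun hB => by
      have h := ENNReal.toReal_mono (by finiteness) (one_side V hd P hb hO hZ he hB)
      rwa [ENNReal.toReal_add (by finiteness) (by finiteness),
        ENNReal.toReal_ofReal (by norm_num)] at h
  have h1 := key hB
  have h2 := key hB.compl
  rw [probReal_compl_eq_one_sub hB, probReal_compl_eq_one_sub hB] at h2
  rw [abs_le]
  constructor <;> linarith

end Vale.Agent.P347
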