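import Vale.Agent.P347.InstDefs
import Vale.Agent.P347.Mom
import Vale.Agent.P347.Div

/-! P347 part Inst: derivatives of the expectations. -/

open MeasureTheory ProbabilityTheory
open scoped ENNReal RealInnerProductSpace ContDiff

noncomputable section
namespace Vale.Agent.P347

namespace Ins
variable (I : Ins)

theorem one_le_tS (s : ℝ) : I.a ^ 2 ≤ tS I.a I.t0 s := by
  have := I.ht; unfold tS; nlinarith [sq_nonneg (I.a * s)]

theorem half_lt (s : ℝ) : 1 / 2 < tS I.a I.t0 s := by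
  have := I.ha; have := I.one_le_tS s; nlinarith

/-- Partition integrals on the state space. -/
def Z (h : E I.d → ℝ) (y : Y I.d) : ℝ := Zf I.V h (tS I.a I.t0 y.1) (thS I.a y.1 y.2.1 y.2.2.1)

/-- Derivative of the tilt. -/
def c1 (y w : Y I.d) (i : Fin I.d) : ℝ := w.2.1 i + I.a * w.1 * y.2.2.1 i + I.a * y.1 * w.2.2.1 i

/-- Derivative of the precision. -/
def c0 (y w : Y I.d) : ℝ := 2 * I.a ^ 2 * y.1 * w.1

theorem pg_q {d : ℕ} : PG fun x : E d => ‖x‖ ^ 2 / 2 := by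
  simpa [div_eq_inv_mul] using (PG.norm.pow 2).const_mul 2⁻¹

theorem Z_deriv {h : E I.d → ℝ} (H : PG h) (y : Y I.d) : DifferentiableAt ℝ (I.Z h) y ∧
    ∀ w, fderiv ℝ (I.Z h) y w = ∑ i, I.Z (fun x => x i * h x) y * I.c1 y w i -
      I.Z (fun x => ‖x‖ ^ 2 / 2 * h x) y * I.c0 y w := by
  obtain ⟨L, h1, h2⟩ := H.hasFDerivAt_Zf I.V
    (p := (tS I.a I.t0 y.1, thS I.a y.1 y.2.1 y.2.2.1)) (I.half_lt _)
  have s1 : HasFDerivAt (fun y : Y I.d => I.a * y.1) _ y := (hasFDerivAt_fst (𝕜 := ℝ)).const_mul I.a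
  have s2 : HasFDerivAt (fun y : Y I.d => y.2.2.1) _ y := (hasFDerivAt_id (𝕜 := ℝ) y).snd.snd.fst
  have h3 : HasFDerivAt (fun y : Y I.d => (tS I.a I.t0 y.1, thS I.a y.1 y.2.1 y.2.2.1)) _ y :=
    ((s1.pow 2).const_add I.t0).prodMk ((hasFDerivAt_id (𝕜 := ℝ) y).snd.fst.add (s1.smul s2))
  have h5 := h1.comp y h3
  have h4 : HasFDerivAt (I.Z h) _ y := h5
  refine ⟨h4.differentiableAt, fun w => ?_⟩
  rw [h4.fderiv, ContinuousLinearMap.comp_apply, h2]
  congr 1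
  · refine Finset.sum_congr rfl fun i _ => ?_
    simp [Z, c1]; left; ring
  · simp [Z, c0]; left; ring

theorem Z_smooth {h : E I.d → ℝ} (H : PG h) : ContDiff ℝ ∞ (I.Z h) := by
  have : ∀ n : ℕ, ∀ h, PG h → ContDiff ℝ n (I.Z h) := by
    intro n
    induction n with
    | zero =>
      exact fun h H => contDiff_zero.2 (continuous_iff_continuousAt.2 fun y =>
        (I.Z_deriv H y).1.continuousAt)
    | succ n ih =>
      intro h H
      rw [Nat.cast_succ, contDiff_succ_iff_fderiv_apply]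
      refine ⟨fun y => (I.Z_deriv H y).1, by simp, fun w => ?_⟩
      simp only [(I.Z_deriv H _).2]
      refine (ContDiff.sum fun i _ => (ih _ ((PG.coord i).mul H)).mul ?_).sub
        ((ih _ (pg_q.mul H)).mul ?_)
      · unfold c1; fun_prop
      · unfold c0; fun_prop
  exact contDiff_infty.2 fun n => this n h H

theorem Z_pos (y : Y I.d) : 0 < I.Z (fun _ => 1) y := by
  rw [Z, Zf_one]; exact Zc_pos _ (I.half_lt _) _

theorem int_eq (h : E I.d → ℝ) (y : Y I.d) :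
    ∫ x, h x ∂(I.p y) = I.Z h y / I.Z (fun _ => 1) y := by
  rw [p, integral_pm_eq _ (I.half_lt _), Z, Z, Zf_one]

theorem Ex_fn {h : E I.d → ℝ} (H : PG h) :
    (I.Ex h : Y I.d → ℝ) = fun y => I.Z h y / I.Z (fun _ => 1) y := by
  simp only [Ex, int_eq]
  exact Sm.mk_fn ((I.Z_smooth H).div (I.Z_smooth (PG.const 1)) fun y => (I.Z_pos y).ne')

theorem Ex_apply {h : E I.d → ℝ} (H : PG h) (y : Y I.d) : I.Ex h y = ∫ x, h x ∂(I.p y) := by
  rw [I.Ex_fn H, int_eq]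

theorem D_gen {h : E I.d → ℝ} (H : PG h) (w y : Y I.d) : Sm.D w (I.Ex h) y =
    ∑ i, (I.Ex (fun x => x i * h x) y - I.Ex (fun x => x i) y * I.Ex h y) * I.c1 y w i -
      (I.Ex (fun x => ‖x‖ ^ 2 / 2 * h x) y - I.Ex (fun x => ‖x‖ ^ 2 / 2) y * I.Ex h y)
        * I.c0 y w := by
  have z0 := (I.Z_pos y).ne'
  have h1 := (I.Z_deriv H y).1.hasFDerivAt.fun_mul ((hasFDerivAt_inv z0).comp y
    (I.Z_deriv (PG.const 1) y).1.hasFDerivAt)
  simp only [I.Ex_fn H, I.Ex_fn ((PG.coord _).mul H), I.Ex_fn (PG.coord _), I.Ex_fn (pg_q.mul H),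
    I.Ex_fn pg_q, Sm.D_apply]
  refine (congrArg (· w) h1.fderiv).trans ?_
  simp only [add_apply, smul_apply, ContinuousLinearMap.comp_apply, (I.Z_deriv H y).2,
    (I.Z_deriv (PG.const 1) y).2, smul_eq_mul, Function.comp_apply,
    ContinuousLinearMap.toSpanSingleton_apply, mul_one]
  have e : ∀ i, (I.Z (fun x => x i * h x) y / I.Z (fun _ => 1) y - I.Z (fun x => x i) y /
      I.Z (fun _ => 1) y * (I.Z h y / I.Z (fun _ => 1) y)) * I.c1 y w i
      = (I.Z (fun _ => 1) y)⁻¹ * (I.Z (fun x => x i * h x) y * I.c1 y w i) - I.Z h y *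
        (I.Z (fun _ => 1) y ^ 2)⁻¹ * (I.Z (fun x => x i) y * I.c1 y w i) := fun i => by field_simp
  simp only [e, Finset.sum_sub_distrib, ← Finset.mul_sum]
  field_simp
  ring

theorem Ex_mul {h : E I.d → ℝ} (H : PG h) (c : ℝ) (y : Y I.d) :
    I.Ex (fun x => c * h x) y = c * I.Ex h y := by
  rw [I.Ex_apply (H.const_mul c), I.Ex_apply H, integral_const_mul]

theorem Ex_zero : I.Ex (fun _ => 0) = 0 := by
  ext y; rw [I.Ex_apply (PG.const 0)]; simp

theorem pg_u : ∀ l, PG (I.u l)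
  | .inl i => (PG.coord i).const_mul _
  | .inr _ => PG.const 0

theorem pg_f : ∀ l, PG (I.f l)
  | .inl i => (PG.coordF _ i).const_mul _
  | .inr _ => PG.const 0

theorem D_inl {h : E I.d → ℝ} (H : PG h) (i : Fin I.d) (y : Y I.d) :
    Sm.D (I.dirD (.inl i)) (I.Ex h) y
      = I.a * (I.Ex (fun x => x i * h x) y - I.Ex (fun x => x i) y * I.Ex h y) := by
  rw [I.D_gen H]
  simp [dirD, c1, c0, ee, mul_comm]

theorem D_Ex {h : E I.d → ℝ} (H : PG h) : ∀ l, Sm.D (I.dirD l) (I.Ex h)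
    = I.Ex (fun x => I.u l x * h x) - I.Ex (I.u l) * I.Ex h
  | .inl i => by
    ext y
    have := I.Ex_mul ((PG.coord i).mul H) I.a y
    have h2 := I.Ex_mul (PG.coord i) I.a y
    simp only [I.D_inl H, u, Sum.elim_inl, Sm.sub_apply, Sm.mul_apply, mul_assoc, this, h2]
    ring
  | .inr i => by simp [dirD, u, Ex_zero]

/-- Time coordinate. -/
def sS : Sm (Y I.d) := I.cal.s

/-- Space coordinates. -/
def zS (l : Fin I.d ⊕ Fin I.d) : Sm (Y I.d) := I.cal.z l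

@[simp] theorem sS_apply (y : Y I.d) : I.sS y = y.1 := rfl
@[simp] theorem zS_inl (i : Fin I.d) (y : Y I.d) : I.zS (.inl i) y = y.2.2.1 i := rfl
@[simp] theorem zS_inr (i : Fin I.d) (y : Y I.d) : I.zS (.inr i) y = y.2.2.2 i := rfl

theorem dz_Ex {h : E I.d → ℝ} (H : PG h) : ∀ l, Sm.D ((0, 0, I.dirH l) : Y I.d) (I.Ex h)
    = I.sS * Sm.D (I.dirD l) (I.Ex h)
  | .inl i => by
    refine Sm.ext fun y => ?_
    change Sm.D _ _ y = y.1 * Sm.D (I.dirD (.inl i)) _ y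
    rw [I.D_inl H, I.D_gen H]
    simp [dirH, c1, c0, ee]; ring
  | .inr i => by
    refine Sm.ext fun y => ?_
    change Sm.D _ _ y = y.1 * Sm.D (I.dirD (.inr i)) _ y
    rw [I.D_gen H]
    simp [dirH, dirD, c1, c0]

theorem Ex_uu {h : E I.d → ℝ} (H : PG h) (y : Y I.d) :
    ∑ l, I.Ex (fun x => I.u l x * (I.u l x * h x)) y
      = 2 * I.a ^ 2 * I.Ex (fun x => ‖x‖ ^ 2 / 2 * h x) y := by
  have pg := fun l => (I.pg_u l).mul ((I.pg_u l).mul H)
  rw [← I.Ex_mul (pg_q.mul H), I.Ex_apply ((pg_q.mul H).const_mul _)]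
  simp only [fun l => I.Ex_apply (pg l)]
  rw [p, ← integral_finsetSum _ fun l _ => (pg l).int_pm _ (I.half_lt _) _]
  congr 1; funext x
  simp only [Fintype.sum_sum_type, u, Sum.elim_inl, Sum.elim_inr, zero_mul, Finset.sum_const_zero,
    add_zero, EuclideanSpace.real_norm_sq_eq, Finset.sum_div, Finset.sum_mul, Finset.mul_sum]
  exact Finset.sum_congr rfl fun i _ => by ring

theorem ds_Ex {h : E I.d → ℝ} (H : PG h) : Sm.D ((1, 0, 0, 0) : Y I.d) (I.Ex h) =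
    ∑ l, (I.zS l * Sm.D (I.dirD l) (I.Ex h) - I.sS * (I.Ex (fun x => I.u l x * (I.u l x * h x))
      - I.Ex (fun x => I.u l x * I.u l x) * I.Ex h)) := by
  refine Sm.ext fun y => ?_
  have h1 := I.Ex_uu (PG.const 1) y
  simp only [mul_one] at h1
  simp only [Sm.sum_apply, Sm.sub_apply, Sm.mul_apply, Finset.sum_sub_distrib, ← Finset.mul_sum,
    ← Finset.sum_mul, h1, I.Ex_uu H]
  rw [I.D_gen H, Fintype.sum_sum_type]
  simp only [I.D_inl H]
  simp [c1, c0, dirD]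
  congr 1
  · exact Finset.sum_congr rfl fun i _ => by ring
  · ring

theorem X0_Ex {h : E I.d → ℝ} (H : PG h) :
    I.cal.X0 (I.Ex h) = I.cal.δ fun l => I.cal.D l (I.Ex h) := by
  change Sm.D ((1, 0, 0, 0) : Y I.d) (I.Ex h) + ∑ l, I.Ex (I.u l) *
    Sm.D ((0, 0, I.dirH l) : Y I.d) (I.Ex h) = ∑ l, ((I.zS l - I.sS * I.Ex (I.u l)) *
      Sm.D (I.dirD l) (I.Ex h) - Sm.D ((0, 0, I.dirH l) : Y I.d) (Sm.D (I.dirD l) (I.Ex h)))
  rw [I.ds_Ex H, ← Finset.sum_add_distrib]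
  refine Finset.sum_congr rfl fun l _ => ?_
  rw [I.dz_Ex H, I.D_Ex H, map_sub, Sm.D_mul, I.dz_Ex H, I.D_Ex H, I.dz_Ex (I.pg_u l),
    I.D_Ex (I.pg_u l), I.dz_Ex ((I.pg_u l).mul H), I.D_Ex ((I.pg_u l).mul H)]
  ring

end Ins

end Vale.Agent.P347
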