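import Mathlib

/-! P347: the ring of smooth functions on a normed space, with directional derivations. -/

open scoped ContDiff
noncomputable section
namespace Vale.Agent.P347

variable {Y : Type} [NormedAddCommGroup Y] [NormedSpace ℝ Y]

def smAlg (Y : Type) [NormedAddCommGroup Y] [NormedSpace ℝ Y] : Subalgebra ℝ (Y → ℝ) where
  carrier := {f | ContDiff ℝ ∞ f}
  mul_mem' {a b} ha hb := by
    have h1 : ContDiff ℝ ∞ a := ha
    have h2 : ContDiff ℝ ∞ b := hb
    exact h1.mul h2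
  add_mem' {a b} ha hb := by
    have h1 : ContDiff ℝ ∞ a := ha
    have h2 : ContDiff ℝ ∞ b := hb
    exact h1.add h2
  algebraMap_mem' r := by
    have h1 : ContDiff ℝ ∞ (fun _ : Y => r) := contDiff_const
    exact h1

def Sm (Y : Type) [NormedAddCommGroup Y] [NormedSpace ℝ Y] : Type := ↥(smAlg Y)
instance : CommRing (Sm Y) := inferInstanceAs (CommRing ↥(smAlg Y))
instance : Algebra ℝ (Sm Y) := inferInstanceAs (Algebra ℝ ↥(smAlg Y))
@[coe] def Sm.fn (f : Sm Y) : Y → ℝ := f.1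
instance : CoeFun (Sm Y) (fun _ => Y → ℝ) := ⟨Sm.fn⟩

namespace Sm
def of (f : Y → ℝ) (h : ContDiff ℝ ∞ f) : Sm Y := (⟨f, h⟩ : ↥(smAlg Y))
lemma smooth (f : Sm Y) : ContDiff ℝ ∞ f := f.2
lemma cont (f : Sm Y) : Continuous f := f.smooth.continuous
lemma diff (f : Sm Y) : Differentiable ℝ f := f.smooth.differentiable (by simp)
lemma hasF (f : Sm Y) (x : Y) : HasFDerivAt f (fderiv ℝ f x) x := (f.diff x).hasFDerivAt
@[ext] lemma ext {f g : Sm Y} (h : ∀ x, f x = g x) : f = g := Subtype.ext (funext h)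
@[simp] lemma of_apply (f : Y → ℝ) (h) (x : Y) : Sm.of f h x = f x := rfl
lemma of_fn (f : Y → ℝ) (h) : (Sm.of f h : Y → ℝ) = f := rfl
@[simp] lemma add_apply (f g : Sm Y) (x) : (f + g) x = f x + g x := rfl
@[simp] lemma sub_apply (f g : Sm Y) (x) : (f - g) x = f x - g x := rfl
@[simp] lemma mul_apply (f g : Sm Y) (x) : (f * g) x = f x * g x := rfl
@[simp] lemma neg_apply (f : Sm Y) (x) : (-f) x = -f x := rfl
@[simp] lemma zero_apply (x) : (0 : Sm Y) x = 0 := rfl
@[simp] lemma one_apply (x) : (1 : Sm Y) x = 1 := rfl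
@[simp] lemma smul_apply (c : ℝ) (f : Sm Y) (x) : (c • f) x = c * f x := rfl
@[simp] lemma algebraMap_apply (c : ℝ) (x) : (algebraMap ℝ (Sm Y) c) x = c := rfl
lemma add_fn (f g : Sm Y) : ((f + g : Sm Y) : Y → ℝ) = fun x => f x + g x := rfl
lemma mul_fn (f g : Sm Y) : ((f * g : Sm Y) : Y → ℝ) = fun x => f x * g x := rfl
lemma smul_fn (c : ℝ) (f : Sm Y) : ((c • f : Sm Y) : Y → ℝ) = fun x => c * f x := rfl

def ev (x : Y) : Sm Y →ₐ[ℝ] ℝ where
  toFun f := f x
  map_one' := rfl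
  map_mul' _ _ := rfl
  map_zero' := rfl
  map_add' _ _ := rfl
  commutes' _ := rfl

@[simp] lemma ev_apply (x : Y) (f : Sm Y) : ev x f = f x := rfl
@[simp] lemma sum_apply {κ : Type*} (s : Finset κ) (f : κ → Sm Y) (x) :
    (∑ i ∈ s, f i) x = ∑ i ∈ s, f i x := map_sum (ev x) f s
@[simp] lemma pow_apply (f : Sm Y) (k : ℕ) (x) : (f ^ k) x = f x ^ k := map_pow (ev x) f k
@[simp] lemma ofNat_apply (k : ℕ) [k.AtLeastTwo] (x) :
    (OfNat.ofNat k : Sm Y) x = OfNat.ofNat k := map_ofNat (ev x) k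

open Classical in
def mk (f : Y → ℝ) : Sm Y := if h : ContDiff ℝ ∞ f then Sm.of f h else 0
lemma mk_fn {f : Y → ℝ} (h : ContDiff ℝ ∞ f) : (mk f : Y → ℝ) = f := by
  rw [mk, dif_pos h]; rfl
lemma mk_apply {f : Y → ℝ} (h : ContDiff ℝ ∞ f) (x) : mk f x = f x := by rw [mk_fn h]

def Dl (v : Y) : Sm Y →ₗ[ℝ] Sm Y where
  toFun f := Sm.of (fun x => fderiv ℝ f x v)
    ((f.smooth.fderiv_right (m := ∞) (by simp)).clm_apply contDiff_const)
  map_add' f g := by
    ext x; simp only [Sm.of_apply, Sm.add_apply, Sm.add_fn]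
    rw [fderiv_fun_add (f.diff x) (g.diff x)]; rfl
  map_smul' c f := by
    ext x; simp only [Sm.of_apply, Sm.smul_apply, Sm.smul_fn, RingHom.id_apply]
    rw [fderiv_const_mul (f.diff x)]; rfl

def D (v : Y) : Derivation ℝ (Sm Y) (Sm Y) := Derivation.mk' (Dl v) (by
  intro f g; ext x
  show fderiv ℝ (fun x => f x * g x) x v = f x * fderiv ℝ g x v + g x * fderiv ℝ f x v
  rw [fderiv_fun_mul (f.diff x) (g.diff x)]; rfl)

lemma D_apply (v : Y) (f : Sm Y) (x) : D v f x = fderiv ℝ f x v := rfl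
lemma D_fn (v : Y) (f : Sm Y) : (D v f : Y → ℝ) = fun x => fderiv ℝ f x v := rfl
lemma D_mul (v : Y) (f g : Sm Y) : D v (f * g) = D v f * g + f * D v g := by
  rw [Derivation.leibniz]; simp [mul_comm, add_comm]

lemma D_comm (v w : Y) (f : Sm Y) : D v (D w f) = D w (D v f) := by
  ext x
  have h2 : ContDiff ℝ 2 f := contDiff_infty.1 f.smooth 2
  have hs := (h2.contDiffAt (x := x)).isSymmSndFDerivAt (by simp)
  have hd : DifferentiableAt ℝ (fderiv ℝ f) x :=
    ((f.smooth.fderiv_right (m := ∞) (by simp)).differentiable (by simp)) x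
  have key : ∀ a b : Y, D a (D b f) x = fderiv ℝ (fderiv ℝ f) x a b := by
    intro a b
    show fderiv ℝ (fun y => fderiv ℝ f y b) x a = _
    rw [fderiv_clm_apply hd (differentiableAt_const b)]; simp
  rw [key, key, hs.eq]

lemma D_add_dir (v w : Y) (f : Sm Y) : D (v + w) f = D v f + D w f := by
  ext x; simp [D_apply]
lemma D_smul_dir (c : ℝ) (v : Y) (f : Sm Y) : D (c • v) f = c • D v f := by
  ext x; simp [D_apply]
@[simp] lemma D_zero_dir (f : Sm Y) : D (0 : Y) f = 0 := by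
  ext x; simp [D_apply]
lemma D_of_clm (v : Y) (L : Y →L[ℝ] ℝ) (f : Sm Y) (h : ∀ x, f x = L x) :
    D v f = algebraMap ℝ _ (L v) := by
  ext x
  have : (f : Y → ℝ) = L := funext h
  rw [D_apply, this, L.fderiv]; rfl
end Sm

end Vale.Agent.P347
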