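import Vale.Agent.P347.NDefs
import Vale.Agent.P347.CalDefs
import Vale.Agent.P347.Sm

/-! P347: the concrete instances of `Cal` and `Cum`. -/

open MeasureTheory ProbabilityTheory
open scoped ENNReal

noncomputable section
namespace Vale.Agent.P347

/-- Points `(s, θ, z, ξ)`. -/
abbrev Y (d : ℕ) := ℝ × E d × E d × E d

structure Ins where
  d : ℕ
  V : Pt d
  a : ℝ
  t0 : ℝ
  ha : 1 ≤ a
  ht : a ^ 2 ≤ t0

def ee {d : ℕ} (i : Fin d) : E d := EuclideanSpace.single i (1 : ℝ)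

namespace Ins
variable (I : Ins)

def p (y : Y I.d) : Measure (E I.d) :=
  pm I.V (tS I.a I.t0 y.1) (thS I.a y.1 y.2.1 y.2.2.1)
def Ex (h : E I.d → ℝ) : Sm (Y I.d) := Sm.mk fun y => ∫ x, h x ∂(I.p y)
def dirD : Fin I.d ⊕ Fin I.d → Y I.d := Sum.elim (fun i => (0, I.a • ee i, 0, 0)) fun _ => 0
def dirH : Fin I.d ⊕ Fin I.d → E I.d × E I.d := Sum.elim (fun i => (ee i, 0)) fun i => (0, ee i)
def u : Fin I.d ⊕ Fin I.d → E I.d → ℝ := Sum.elim (fun i x => I.a * x i) fun _ _ => 0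
def f : Fin I.d ⊕ Fin I.d → E I.d → ℝ := Sum.elim (fun i x => I.a * I.V.F x i) fun _ _ => 0
def Ju : Fin I.d ⊕ Fin I.d → Fin I.d → E I.d → ℝ :=
  Sum.elim (fun i m _ => if i = m then 1 else 0) fun _ _ _ => 0
def Jf : Fin I.d ⊕ Fin I.d → Fin I.d → E I.d → ℝ :=
  Sum.elim (fun i m x => fderiv ℝ I.V.F x (ee m) i) fun _ _ _ => 0

def dr : DR where
  A := Sm (Y I.d)
  N := Fin I.d ⊕ Fin I.d
  D l := Sm.D (I.dirD l)
  Pts := Y I.d
  ev := Sm.ev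

def cal : Cal where
  toDR := I.dr
  ds := Sm.D ((1, 0, 0, 0) : Y I.d)
  dz l := Sm.D ((0, 0, I.dirH l) : Y I.d)
  s := Sm.of (fun y : Y I.d => y.1) (by fun_prop)
  z := Sum.elim (fun i => Sm.of (fun y : Y I.d => y.2.2.1 i) (by fun_prop))
    fun i => Sm.of (fun y : Y I.d => y.2.2.2 i) (by fun_prop)
  v l := I.Ex (I.u l)
  g l := I.Ex (I.f l)
  τ := Equiv.sumComm _ _
  J := {p : ℝ × E I.d // |p.1| ≤ 1}
  H := E I.d × E I.d
  pt j y := (j.1.1, j.1.2, y)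
  ρ j := rho I.V I.a I.t0 j.1.1 j.1.2

def cum (f : Fin I.d ⊕ Fin I.d → E I.d → ℝ) (Jf : Fin I.d ⊕ Fin I.d → Fin I.d → E I.d → ℝ) :
    Cum where
  toDR := I.dr
  M := Fin I.d
  X := E I.d
  p := I.p
  PG := PG
  Ex := I.Ex
  HG h G := ContDiff ℝ 1 h ∧ ∀ m x, fderiv ℝ h x (ee m) = I.a * G m x
  u := I.u
  f := f
  Ju := I.Ju
  Jf := Jf

end Ins

/-- `a² Cov (F_i, x_k)` under the tilted law. -/
def Gam {d : ℕ} (V : Pt d) (a t : ℝ) (θ : E d) (i k : Fin d) : ℝ :=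
  a ^ 2 * (∫ x, V.F x i * x k ∂(pm V t θ) - (∫ x, V.F x i ∂(pm V t θ)) * ∫ x, x k ∂(pm V t θ))

end Vale.Agent.P347
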