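import Mathlib

/-! P347: kernels over a differential ring and their operator-norm bounds. -/

open Matrix

noncomputable section
namespace Vale.Agent.P347

/-- Operator norm bound for a real matrix. -/
def OB {L R : Type} [Fintype L] [Fintype R] (c : ℝ) (T : Matrix L R ℝ) : Prop :=
  ∀ x : R → ℝ, ∑ l, (T *ᵥ x) l ^ 2 ≤ c ^ 2 * ∑ r, x r ^ 2

/-- `T ⊗ 1`. -/
def tens {L R A : Type} (M : Type) [DecidableEq M] [Zero A] (T : Matrix L R A) :
    Matrix (L × M) (R × M) A := Matrix.of fun p r => if p.2 = r.2 then T p.1 r.1 else 0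

@[simp] lemma tens_apply {L R A : Type} (M : Type) [DecidableEq M] [Zero A] (T : Matrix L R A)
    (p : L × M) (r : R × M) : tens M T p r = if p.2 = r.2 then T p.1 r.1 else 0 := rfl

namespace OB
variable {L R S L' R' : Type} [Fintype L] [Fintype R] [Fintype S] [Fintype L'] [Fintype R']
  {c c' : ℝ}

lemma mono {T : Matrix L R ℝ} (h : OB c T) (hc : |c| ≤ |c'|) : OB c' T := fun x =>
  (h x).trans (mul_le_mul_of_nonneg_right (sq_le_sq.2 hc) (by positivity))
lemma zero : OB c (0 : Matrix L R ℝ) := fun x => by simp; positivity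
lemma neg {T : Matrix L R ℝ} (h : OB c T) : OB c (-T) := fun x => by
  simpa [neg_mulVec] using h x
lemma add {T U : Matrix L R ℝ} (h : OB c T) (h' : OB c' U) : OB (2 * (|c| + |c'|)) (T + U) := by
  intro x
  have h1 := h x
  have h2 := h' x
  have h0 : 0 ≤ ∑ r, x r ^ 2 := by positivity
  calc ∑ l, ((T + U) *ᵥ x) l ^ 2 ≤ ∑ l, (2 * (T *ᵥ x) l ^ 2 + 2 * (U *ᵥ x) l ^ 2) := by
        refine Finset.sum_le_sum fun l _ => ?_
        rw [add_mulVec, Pi.add_apply]; nlinarith [sq_nonneg ((T *ᵥ x) l - (U *ᵥ x) l)]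
    _ ≤ _ := by
        rw [Finset.sum_add_distrib, ← Finset.mul_sum, ← Finset.mul_sum]
        rw [← sq_abs c] at h1
        rw [← sq_abs c'] at h2
        nlinarith [mul_nonneg (mul_nonneg (abs_nonneg c) (abs_nonneg c')) h0,
          mul_nonneg (sq_nonneg |c|) h0, mul_nonneg (sq_nonneg |c'|) h0]
lemma mul {T : Matrix L R ℝ} {U : Matrix R S ℝ} (h : OB c T) (h' : OB c' U) :
    OB (c * c') (T * U) := fun x => by
  rw [← mulVec_mulVec, mul_pow, mul_assoc]
  exact (h _).trans (mul_le_mul_of_nonneg_left (h' x) (sq_nonneg c))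
lemma sub {T : Matrix L R ℝ} (h : OB c T) (e : L' ≃ L) (e' : R' ≃ R) :
    OB c (T.submatrix e e') := fun x => by
  have := h (x ∘ e'.symm)
  rw [← e.sum_comp, ← e'.sum_comp] at this
  simpa [submatrix_mulVec_equiv] using this
lemma transpose {T : Matrix L R ℝ} (h : OB c T) : OB c Tᵀ := fun y => by
  set w := Tᵀ *ᵥ y with hw
  have h1 : ∑ r, w r ^ 2 = ∑ l, y l * (T *ᵥ w) l := by
    have : w ⬝ᵥ w = y ⬝ᵥ (T *ᵥ w) := by
      conv_lhs => rw [hw, mulVec_transpose]
      rw [dotProduct_mulVec, ← mulVec_transpose]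
    simpa [dotProduct, sq] using this
  have h2 := Finset.sum_mul_sq_le_sq_mul_sq Finset.univ y (T *ᵥ w)
  have h3 := h w
  have h4 : 0 ≤ ∑ l, y l ^ 2 := by positivity
  have h5 : 0 ≤ ∑ r, w r ^ 2 := by positivity
  rw [← h1] at h2
  rcases h5.eq_or_lt with h0 | h0
  · rw [← h0]; positivity
  · by_contra hh
    push Not at hh
    nlinarith [mul_le_mul_of_nonneg_left h3 h4]
lemma tens (M : Type) [Fintype M] [DecidableEq M] {T : Matrix L R ℝ} (h : OB c T) :
    OB c (tens M T) := fun x => by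
  have e : ∀ l m, (P347.tens M T *ᵥ x) (l, m) = (T *ᵥ fun r => x (r, m)) l := fun l m => by
    simp [mulVec, dotProduct, Fintype.sum_prod_type]
  rw [Fintype.sum_prod_type_right, Fintype.sum_prod_type_right, Finset.mul_sum]
  exact Finset.sum_le_sum fun m _ => by simpa [e] using h fun r => x (r, m)
lemma entry [DecidableEq R] {T : Matrix L R ℝ} (h : OB c T) (l : L) (r : R) : |T l r| ≤ |c| := by
  have h1 := h (Pi.single r 1)
  have h2 : ∑ r', (Pi.single r 1 : R → ℝ) r' ^ 2 = 1 := by simp [Pi.single_apply]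
  rw [h2, mul_one] at h1
  have h3 := Finset.single_le_sum (f := fun l => (T *ᵥ Pi.single r 1) l ^ 2)
    (fun _ _ => sq_nonneg _) (Finset.mem_univ l)
  simp only [mulVec_single_one, col_apply] at h3 h1
  exact sq_le_sq.1 (h3.trans h1)
end OB

/-- A commutative ring with derivations `D l` and evaluation points. -/
structure DR where
  A : Type
  [cr : CommRing A]
  [alg : Algebra ℝ A]
  N : Type
  [fN : Fintype N]
  [dN : DecidableEq N]
  D : N → Derivation ℝ A A
  Pts : Type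
  ev : Pts → A →ₐ[ℝ] ℝ

attribute [instance] DR.cr DR.alg DR.fN DR.dN

namespace DR
variable (I : DR)

def Bd {L R : Type} [Fintype L] [Fintype R] (c : ℝ) (T : Matrix L R I.A) : Prop :=
  ∀ y, OB c (T.map (I.ev y))
def DL {L R : Type} (T : Matrix L R I.A) : Matrix (L × I.N) R I.A :=
  Matrix.of fun p r => I.D p.2 (T p.1 r)
def DRt {L R : Type} (T : Matrix L R I.A) : Matrix L (R × I.N) I.A :=
  Matrix.of fun l p => I.D p.2 (T l p.1)
@[simp] lemma DL_apply {L R : Type} (T : Matrix L R I.A) (p r) :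
    I.DL T p r = I.D p.2 (T p.1 r) := rfl
@[simp] lemma DRt_apply {L R : Type} (T : Matrix L R I.A) (l p) :
    I.DRt T l p = I.D p.2 (T l p.1) := rfl

/-- All derivatives up to order `k`, in every flattening, have operator norm at most `c`. -/
def CB (c : ℝ) : ℕ → ∀ {L R : Type} [Fintype L] [Fintype R], Matrix L R I.A → Prop
  | 0, _, _, _, _, T => I.Bd c T
  | k + 1, _, _, _, _, T => I.Bd c T ∧ CB c k (I.DL T) ∧ CB c k (I.DRt T)

variable {I}
section
variable {L R S L' R' : Type} [Fintype L] [Fintype R] [Fintype S] [Fintype L'] [Fintype R']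
  {c c' : ℝ}
lemma Bd.mono {T : Matrix L R I.A} (h : I.Bd c T) (hc : |c| ≤ |c'|) : I.Bd c' T :=
  fun y => (h y).mono hc
lemma Bd.zero : I.Bd c (0 : Matrix L R I.A) := fun y => by
  rw [Matrix.map_zero _ (map_zero _)]; exact OB.zero
lemma Bd.neg {T : Matrix L R I.A} (h : I.Bd c T) : I.Bd c (-T) := fun y => by
  rw [Matrix.map_neg _ (map_neg _)]; exact (h y).neg
lemma Bd.add {T U : Matrix L R I.A} (h : I.Bd c T) (h' : I.Bd c' U) :
    I.Bd (2 * (|c| + |c'|)) (T + U) := fun y => by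
  rw [Matrix.map_add _ (map_add _)]; exact (h y).add (h' y)
lemma Bd.mul {T : Matrix L R I.A} {U : Matrix R S I.A} (h : I.Bd c T) (h' : I.Bd c' U) :
    I.Bd (c * c') (T * U) := fun y => by
  have : (T * U).map (I.ev y) = T.map (I.ev y) * U.map (I.ev y) := by
    ext l s; simp [Matrix.mul_apply]
  rw [this]; exact (h y).mul (h' y)
lemma Bd.sub {T : Matrix L R I.A} (h : I.Bd c T) (e : L' ≃ L) (e' : R' ≃ R) :
    I.Bd c (T.submatrix e e') := fun y => (h y).sub e e'
lemma Bd.transpose {T : Matrix L R I.A} (h : I.Bd c T) : I.Bd c Tᵀ := fun y => (h y).transpose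
lemma Bd.tens (M : Type) [Fintype M] [DecidableEq M] {T : Matrix L R I.A} (h : I.Bd c T) :
    I.Bd c (tens M T) := fun y => by
  have : (P347.tens M T).map (I.ev y) = P347.tens M (T.map (I.ev y)) := by
    ext p r; simp only [map_apply, tens_apply]; split_ifs <;> simp
  rw [this]; exact (h y).tens M
lemma CB.bd {k : ℕ} {T : Matrix L R I.A} (h : I.CB c k T) : I.Bd c T := by
  cases k
  exacts [h, h.1]
end

lemma CB.mono {c c' : ℝ} (hc : |c| ≤ |c'|) : ∀ (k : ℕ) {L R : Type} [Fintype L] [Fintype R]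
    {T : Matrix L R I.A}, I.CB c k T → I.CB c' k T
  | 0, _, _, _, _, _, h => Bd.mono h hc
  | k + 1, _, _, _, _, _, h => ⟨h.1.mono hc, CB.mono hc k h.2.1, CB.mono hc k h.2.2⟩
lemma CB.pred {c : ℝ} : ∀ (k : ℕ) {L R : Type} [Fintype L] [Fintype R]
    {T : Matrix L R I.A}, I.CB c (k + 1) T → I.CB c k T
  | 0, _, _, _, _, _, h => h.1
  | k + 1, _, _, _, _, _, h => ⟨h.1, CB.pred k h.2.1, CB.pred k h.2.2⟩
lemma CB.zero {c : ℝ} : ∀ (k : ℕ) {L R : Type} [Fintype L] [Fintype R],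
    I.CB c k (0 : Matrix L R I.A)
  | 0, _, _, _, _ => Bd.zero
  | k + 1, L, R, _, _ => by
    have h1 : I.DL (0 : Matrix L R I.A) = 0 := by ext; simp
    have h2 : I.DRt (0 : Matrix L R I.A) = 0 := by ext; simp
    exact ⟨Bd.zero, h1 ▸ CB.zero k, h2 ▸ CB.zero k⟩
lemma CB.neg {c : ℝ} : ∀ (k : ℕ) {L R : Type} [Fintype L] [Fintype R]
    {T : Matrix L R I.A}, I.CB c k T → I.CB c k (-T)
  | 0, _, _, _, _, _, h => Bd.neg h
  | k + 1, _, _, _, _, T, h => by
    have h1 : I.DL (-T) = -I.DL T := by ext; simp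
    have h2 : I.DRt (-T) = -I.DRt T := by ext; simp
    exact ⟨h.1.neg, h1 ▸ CB.neg k h.2.1, h2 ▸ CB.neg k h.2.2⟩
lemma CB.add {c c' : ℝ} : ∀ (k : ℕ) {L R : Type} [Fintype L] [Fintype R]
    {T U : Matrix L R I.A}, I.CB c k T → I.CB c' k U → I.CB (2 * (|c| + |c'|)) k (T + U)
  | 0, _, _, _, _, _, _, h, h' => Bd.add h h'
  | k + 1, _, _, _, _, T, U, h, h' => by
    have h1 : I.DL (T + U) = I.DL T + I.DL U := by ext; simp
    have h2 : I.DRt (T + U) = I.DRt T + I.DRt U := by ext; simp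
    exact ⟨h.1.add h'.1, h1 ▸ CB.add k h.2.1 h'.2.1, h2 ▸ CB.add k h.2.2 h'.2.2⟩
lemma CB.sub {c : ℝ} : ∀ (k : ℕ) {L R L' R' : Type} [Fintype L] [Fintype R] [Fintype L']
    [Fintype R'] {T : Matrix L R I.A} (e : L' ≃ L) (e' : R' ≃ R),
    I.CB c k T → I.CB c k (T.submatrix e e')
  | 0, _, _, _, _, _, _, _, _, _, e, e', h => Bd.sub h e e'
  | k + 1, _, _, _, _, _, _, _, _, _, e, e', h =>
    ⟨h.1.sub e e', CB.sub k (e.prodCongr (Equiv.refl _)) e' h.2.1,
      CB.sub k e (e'.prodCongr (Equiv.refl _)) h.2.2⟩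
lemma CB.transpose {c : ℝ} : ∀ (k : ℕ) {L R : Type} [Fintype L] [Fintype R]
    {T : Matrix L R I.A}, I.CB c k T → I.CB c k Tᵀ
  | 0, _, _, _, _, _, h => Bd.transpose h
  | k + 1, _, _, _, _, _, h => ⟨h.1.transpose, CB.transpose k h.2.2, CB.transpose k h.2.1⟩

/-- `(L × M) × N ≃ (L × N) × M`. -/
def sw (L M N : Type) : (L × M) × N ≃ (L × N) × M where
  toFun p := ((p.1.1, p.2), p.1.2)
  invFun p := ((p.1.1, p.2), p.1.2)
  left_inv _ := rfl
  right_inv _ := rfl

lemma CB.tens {c : ℝ} (M : Type) [Fintype M] [DecidableEq M] : ∀ (k : ℕ) {L R : Type} [Fintype L]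
    [Fintype R] {T : Matrix L R I.A}, I.CB c k T → I.CB c k (tens M T)
  | 0, _, _, _, _, _, h => Bd.tens M h
  | k + 1, L, R, _, _, T, h => by
    have h1 : I.DL (P347.tens M T) =
        (P347.tens M (I.DL T)).submatrix (sw L M I.N) (Equiv.refl _) := by
      ext p r; simp only [DL_apply, tens_apply, submatrix_apply, sw, Equiv.coe_fn_mk,
        Equiv.refl_apply]; split_ifs <;> simp
    have h2 : I.DRt (P347.tens M T) =
        (P347.tens M (I.DRt T)).submatrix (Equiv.refl _) (sw R M I.N) := by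
      ext p r; simp only [DRt_apply, tens_apply, submatrix_apply, sw, Equiv.coe_fn_mk,
        Equiv.refl_apply]; split_ifs <;> simp
    exact ⟨h.1.tens M, h1 ▸ CB.sub k _ _ (CB.tens M k h.2.1), h2 ▸ CB.sub k _ _ (CB.tens M k h.2.2)⟩

lemma DL_mul {L R S : Type} [Fintype R] (T : Matrix L R I.A) (U : Matrix R S I.A) :
    I.DL (T * U) = I.DL T * U + tens I.N T * I.DL U := by
  ext p s
  simp [Matrix.mul_apply, Fintype.sum_prod_type, map_sum, Finset.sum_add_distrib, mul_comm,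
    add_comm]
lemma DRt_mul {L R S : Type} [Fintype R] (T : Matrix L R I.A) (U : Matrix R S I.A) :
    I.DRt (T * U) = T * I.DRt U + I.DRt T * tens I.N U := by
  ext l p
  simp [Matrix.mul_apply, Fintype.sum_prod_type, map_sum, Finset.sum_add_distrib, mul_comm]

lemma CB.mul {c c' : ℝ} : ∀ (k : ℕ) {L R S : Type} [Fintype L] [Fintype R] [Fintype S]
    {T : Matrix L R I.A} {U : Matrix R S I.A}, I.CB c k T → I.CB c' k U →
    I.CB (4 ^ k * (c * c')) k (T * U)
  | 0, _, _, _, _, _, _, _, _, h, h' => by simpa [CB] using Bd.mul h h'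
  | k + 1, _, _, _, _, _, _, T, U, h, h' => by
    have e : |2 * (|4 ^ k * (c * c')| + |4 ^ k * (c * c')|)| ≤ |4 ^ (k + 1) * (c * c')| := by
      rw [abs_of_nonneg (by positivity), pow_succ, mul_comm _ (4 : ℝ), mul_assoc,
        abs_mul (4 : ℝ)]
      norm_num; linarith
    refine ⟨(h.1.mul h'.1).mono ?_, ?_, ?_⟩
    · rw [abs_mul (_ ^ _), abs_of_nonneg (by positivity : (0 : ℝ) ≤ 4 ^ (k + 1))]
      exact le_mul_of_one_le_left (abs_nonneg _) (one_le_pow₀ (by norm_num))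
    · rw [DL_mul]
      exact CB.mono e k (CB.add k (CB.mul k h.2.1 (CB.pred k h'))
        (CB.mul k (CB.tens _ k (CB.pred k h)) h'.2.1))
    · rw [DRt_mul]
      exact CB.mono e k (CB.add k (CB.mul k (CB.pred k h) h'.2.2)
        (CB.mul k h.2.2 (CB.tens _ k (CB.pred k h'))))
end DR

end Vale.Agent.P347
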