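import Vale.Agent.P347.Base

/-! P347: the interface between the analytic part and the algorithmic part. -/

open MeasureTheory ProbabilityTheory
open scoped ENNReal

noncomputable section
namespace Vale.Agent.P347
variable {d : ℕ}

def tS (a t0 s : ℝ) : ℝ := t0 + (a * s) ^ 2
def thS (a s : ℝ) (θ z : E d) : E d := θ + (a * s) • z
def nn (a t0 s : ℝ) (θ z : E d) : E d := z - (a * s / t0) • θ
def gg (V : Pt d) (a t0 s : ℝ) (θ z : E d) : E d := a • MM V (tS a t0 s) (thS a s θ z)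
def rho (V : Pt d) (a t0 s : ℝ) (θ : E d) : Measure (E d × E d) :=
  (NN V t0 θ (a * s)).prod (gam d)

/-- Admissible flow parameters. -/
structure Adm (q : ℕ) (a t0 s0 α θc h : ℝ) : Prop where
  ha : 1 ≤ a
  ht : a ^ 2 ≤ t0
  hs0 : |s0| ≤ 1
  hs1 : |s0 + α * q| ≤ 1
  hα : |α| ≤ 2 * h
  hθ : |θc| ≤ h
  h1 : h ≤ 1

/-- Node states of the flows `α X⁰ + θc X¹` and their quadrature identities.  A state is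
`(θ, z, ξ)`; `Φ V a t0 s0 α θc m` is the state `(z, ξ)` at node `m`, at time `s0 + α m`. -/
structure Nodes (q : ℕ) (C : ℝ) where
  DG : ∀ {d : ℕ}, Pt d → ℝ → ℝ → ℝ → E d × E d × E d → E d
  GG : ∀ {d : ℕ}, Pt d → ℝ → ℝ → ℝ → E d × E d × E d → E d
  GX : ∀ {d : ℕ}, Pt d → ℝ → ℝ → ℝ → E d × E d × E d → E d
  Φ : ∀ {d : ℕ}, Pt d → ℝ → ℝ → ℝ → ℝ → ℝ → ℕ → E d × E d × E d → E d × E d
  κ : ℝ → ℝ → ℝ → ℝ → ℕ → ℝ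
  b : ℝ → ℝ → ℝ → ℝ → ℕ → ℕ → ℝ
  b' : ℝ → ℝ → ℝ → ℝ → ℝ → ℕ → ℕ → ℝ
  b'' : ℝ → ℕ → ℕ → ℝ
  cf : ℕ → ℝ
  e : ℕ → ℝ
  mDG : ∀ {d : ℕ} (V : Pt d) a t0 s, 1 ≤ a → a ^ 2 ≤ t0 → Measurable (DG V a t0 s)
  mGG : ∀ {d : ℕ} (V : Pt d) a t0 s, 1 ≤ a → a ^ 2 ≤ t0 → Measurable (GG V a t0 s)
  mGX : ∀ {d : ℕ} (V : Pt d) a t0 s, 1 ≤ a → a ^ 2 ≤ t0 → Measurable (GX V a t0 s)
  GX_eq : ∀ {d : ℕ} (V : Pt d) a t0 s, 1 ≤ a → a ^ 2 ≤ t0 → ∀ θ z ξ η,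
    GX V a t0 s (θ, z, ξ) = DG V a (tS a t0 s) 0 (thS a s θ z, ξ, η)
  cf_le : ∀ m, |cf m| ≤ C
  e_le : ∀ m, |e m| ≤ C
  b''_le : ∀ θc, ∀ l ≤ q, ∀ m, |b'' θc l m| ≤ C * |θc|
  κ_le : ∀ {a t0 s0 α θc h}, Adm q a t0 s0 α θc h → ∀ l ≤ q, |κ a t0 s0 α l| ≤ 2
  b_le : ∀ {a t0 s0 α θc h}, Adm q a t0 s0 α θc h → ∀ l ≤ q, ∀ m,
    |b a t0 s0 α l m| ≤ C * h / a ^ 2
  b'_le : ∀ {a t0 s0 α θc h}, Adm q a t0 s0 α θc h → ∀ l ≤ q, ∀ m,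
    |b' a t0 s0 α θc l m| ≤ C * |θc|
  mΦ : ∀ {d : ℕ} (V : Pt d) {a t0 s0 α θc h}, Adm q a t0 s0 α θc h → ∀ m,
    Measurable (Φ V a t0 s0 α θc m)
  Φ0 : ∀ {d : ℕ} (V : Pt d) {a t0 s0 α θc h}, Adm q a t0 s0 α θc h → ∀ y,
    Φ V a t0 s0 α θc 0 y = y.2
  law : ∀ {d : ℕ} (V : Pt d) {a t0 s0 α θc h}, Adm q a t0 s0 α θc h → ∀ m ≤ q, ∀ θ,
    MeasurePreserving (fun w => Φ V a t0 s0 α θc m (θ, w)) (rho V a t0 s0 θ)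
      (rho V a t0 (s0 + α * m) θ)
  n_eq : ∀ {d : ℕ} (V : Pt d) {a t0 s0 α θc h}, Adm q a t0 s0 α θc h → ∀ l ≤ q, ∀ θ,
    eLpNorm (fun w : E d × E d => nn a t0 (s0 + α * l) θ (Φ V a t0 s0 α θc l (θ, w)).1 -
      (κ a t0 s0 α l • nn a t0 s0 θ w.1 + ∑ m ∈ Finset.range (q + 1),
        (b a t0 s0 α l m • gg V a t0 (s0 + α * m) θ (Φ V a t0 s0 α θc m (θ, w)).1 +
          b' a t0 s0 α θc l m • GX V a t0 (s0 + α * m) (θ, Φ V a t0 s0 α θc m (θ, w))))) 2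
      (rho V a t0 s0 θ) ≤ ENNReal.ofReal (C * h ^ (q + 1) * √d)
  ξ_eq : ∀ {d : ℕ} (V : Pt d) {a t0 s0 α θc h}, Adm q a t0 s0 α θc h → ∀ l ≤ q, ∀ θ,
    eLpNorm (fun w : E d × E d => (Φ V a t0 s0 α θc l (θ, w)).2 -
      (w.2 + ∑ m ∈ Finset.range (q + 1),
        b'' θc l m • DG V a t0 (s0 + α * m) (θ, Φ V a t0 s0 α θc m (θ, w)))) 2
      (rho V a t0 s0 θ) ≤ ENNReal.ofReal (C * h ^ (q + 1) * √d)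
  fd_eq : ∀ {d : ℕ} (V : Pt d) {a t0 s0 α θc h}, Adm q a t0 s0 α θc h → ∀ θ,
    eLpNorm (fun w : E d × E d => α • DG V a t0 s0 (θ, w) + θc • GG V a t0 s0 (θ, w) -
      ∑ m ∈ Finset.range (q + 1),
        cf m • gg V a t0 (s0 + α * m) θ (Φ V a t0 s0 α θc m (θ, w)).1) 2
      (rho V a t0 s0 θ) ≤ ENNReal.ofReal (C * h ^ (q + 1) * √d)
  p_eq : ∀ {d : ℕ} (V : Pt d) {a t0 s0 α θc h}, Adm q a t0 s0 α θc h → ∀ θ,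
    eLpNorm (fun w : E d × E d => α • ((Φ V a t0 s0 α θc q (θ, w)).2 - w.2) -
      θc • (gg V a t0 (s0 + α * q) θ (Φ V a t0 s0 α θc q (θ, w)).1 - gg V a t0 s0 θ w.1) +
      θc ^ 2 • ∑ m ∈ Finset.range (q + 1),
        e m • GG V a t0 (s0 + α * m) (θ, Φ V a t0 s0 α θc m (θ, w))) 2
      (rho V a t0 s0 θ) ≤ ENNReal.ofReal (θc ^ 2 * (C * h ^ (q + 1) * √d))
  lip : ∀ {d : ℕ} (V : Pt d) {a t0 α h}, Adm q a t0 0 α 0 h → t0 = a ^ 2 → 100 ≤ t0 → 0 ≤ α →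
    ∀ θ θ' w, ‖(tS a t0 (α * q))⁻¹ • thS a (α * q) θ (Φ V a t0 0 α 0 q (θ, w)).1 -
      (tS a t0 (α * q))⁻¹ • thS a (α * q) θ' (Φ V a t0 0 α 0 q (θ', w)).1‖ ≤
      (1 + 5 / 4 * (α * q) ^ 2 / t0) * (‖θ - θ'‖ / t0)

end Vale.Agent.P347
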