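import Vale.Agent.P347.NodesB

/-! P347 part Nodes: pointwise quadrature errors and the Lipschitz estimate. -/

open MeasureTheory Set Filter
open scoped ENNReal

noncomputable section
namespace Vale.Agent.P347.NodesAux

/-- The quadrature property. -/
def QD (q : ℕ) (C : ℝ) (L : ℕ → ℝ → ℝ) (cf : ℕ → ℝ) : Prop :=
  ∀ (F : Type) [NormedAddCommGroup F] [NormedSpace ℝ F] [CompleteSpace F] (f : ℕ → ℝ → F),
    (∀ k ≤ q, ∀ τ ∈ Icc (0 : ℝ) q, HasDerivWithinAt (f k) (f (k + 1) τ) (Icc 0 q) τ) →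
    ContinuousOn (f (q + 1)) (Icc 0 q) →
    (∀ (ψ : ℝ → ℝ) (b : ℝ), ContinuousOn ψ (Icc 0 q) → (∀ τ ∈ Icc (0 : ℝ) q, |ψ τ| ≤ b) →
      ∀ l ∈ Icc (0 : ℝ) q, ‖(∫ τ in (0 : ℝ)..l, ψ τ • f 0 τ) -
        ∑ m ∈ Finset.range (q + 1), (∫ τ in (0 : ℝ)..l, ψ τ * L m τ) • f 0 m‖ ^ 2 ≤
        C * b ^ 2 * ∫ τ in (0 : ℝ)..q, ‖f (q + 1) τ‖ ^ 2) ∧
    ‖f 1 0 - ∑ m ∈ Finset.range (q + 1), cf m • f 0 m‖ ^ 2 ≤
        C * ∫ τ in (0 : ℝ)..q, ‖f (q + 1) τ‖ ^ 2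

/-- Quadrature weights. -/
def psi1 (a t0 s0 α l τ : ℝ) : ℝ := rr a t0 (s0 + α * l) * (-α / rr a t0 (s0 + α * τ) ^ 3)
def psi2 (a t0 s0 α θc l τ : ℝ) : ℝ := rr a t0 (s0 + α * l) * (θc / rr a t0 (s0 + α * τ))

variable {I : Ins} {q : ℕ} {s0 α θc h C : ℝ} {Ψ : E I.d × E I.d × E I.d → ℝ → E I.d × E I.d}
  {L : ℕ → ℝ → ℝ} {cf : ℕ → ℝ}

theorem psi1_le (A : Adm q I.a I.t0 s0 α θc h) {l : ℝ} (hl : l ∈ Icc (0 : ℝ) q) (τ : ℝ) :
    |psi1 I.a I.t0 s0 α l τ| ≤ 4 * h / I.a ^ 2 := by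
  have r0 := rr_pos I (s0 + α * τ)
  have r1 := rr_pos I (s0 + α * l)
  have r2 := rr_le I (s_le A.hs0 A.hs1 hl) (s0 + α * τ)
  have r3 : I.a ^ 2 ≤ rr I.a I.t0 (s0 + α * τ) ^ 2 := by
    rw [rr_sq]; exact I.ht.trans (t0_le I _)
  have ha : 0 < I.a := by linarith [I.ha]
  have h0 := (abs_nonneg _).trans A.hθ
  rw [psi1, abs_mul, abs_div, abs_neg, abs_of_pos r1, abs_of_pos (pow_pos r0 3)]
  calc _ ≤ 2 * rr I.a I.t0 (s0 + α * τ) * (2 * h / rr I.a I.t0 (s0 + α * τ) ^ 3) := by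
        gcongr; exact A.hα
    _ = 4 * h / rr I.a I.t0 (s0 + α * τ) ^ 2 := by field_simp; ring
    _ ≤ _ := by gcongr

theorem psi2_le (A : Adm q I.a I.t0 s0 α θc h) {l : ℝ} (hl : l ∈ Icc (0 : ℝ) q) (τ : ℝ) :
    |psi2 I.a I.t0 s0 α θc l τ| ≤ 2 * |θc| := by
  have r0 := rr_pos I (s0 + α * τ)
  have r1 := rr_pos I (s0 + α * l)
  have r2 := rr_le I (s_le A.hs0 A.hs1 hl) (s0 + α * τ)
  rw [psi2, abs_mul, abs_div, abs_of_pos r1, abs_of_pos r0]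
  calc _ ≤ 2 * rr I.a I.t0 (s0 + α * τ) * (|θc| / rr I.a I.t0 (s0 + α * τ)) := by gcongr
    _ = _ := by field_simp

theorem rr_cont' (I : Ins) (s0 α : ℝ) : Continuous fun τ => rr I.a I.t0 (s0 + α * τ) :=
  (rr_cont _ _).comp (by fun_prop)

theorem psi1_cont (I : Ins) (s0 α l : ℝ) : Continuous (psi1 I.a I.t0 s0 α l) :=
  continuous_const.mul (continuous_const.div ((rr_cont' I s0 α).pow 3)
    fun _ => (pow_pos (rr_pos I _) 3).ne')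

theorem psi2_cont (I : Ins) (s0 α θc l : ℝ) : Continuous (psi2 I.a I.t0 s0 α θc l) :=
  continuous_const.mul (continuous_const.div (rr_cont' I s0 α) fun _ => (rr_pos I _).ne')

theorem IsFlow.quad1 (H : IsFlow I q s0 α θc Ψ) (Q : QD q C L cf) (hC : 1 ≤ C) (θ w)
    {φ : Fin I.d → I.cal.A} (hφ : Dom I q α θc φ) {ψ : ℝ → ℝ} {b : ℝ} (hψ : Continuous ψ)
    (hb : ∀ τ, |ψ τ| ≤ b) {l : ℝ} (hl : l ∈ Icc (0 : ℝ) q) :
    ‖(∫ τ in (0 : ℝ)..l, ψ τ • FF I α θc φ 0 (pt I s0 α Ψ θ w τ)) -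
      ∑ m ∈ Finset.range (q + 1), (∫ τ in (0 : ℝ)..l, ψ τ * L m τ) •
        FF I α θc φ 0 (pt I s0 α Ψ θ w m)‖ ^ 2 ≤ C * b ^ 2 * En I q s0 α θc Ψ θ w :=
  ((Q _ (fun k τ => FF I α θc φ k (pt I s0 α Ψ θ w τ)) (fun k _ _ hτ => H.FF_deriv θ w φ k hτ)
    (H.FF_contOn θ w φ _)).1 ψ b hψ.continuousOn (fun τ _ => hb τ) l hl).trans
    (mul_le_mul_of_nonneg_left (H.en_le θ w hφ) (by positivity))

theorem weaken {x b e : ℝ} (hC : 1 ≤ C) (he : 0 ≤ e) (hb : b ≤ 49) (hx : x ≤ C * b * e) :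
    x ≤ (7 * C) ^ 2 * e :=
  hx.trans (mul_le_mul_of_nonneg_right (by nlinarith) he)

theorem IsFlow.fd (H : IsFlow I q s0 α θc Ψ) (Q : QD q C L cf) (hC : 1 ≤ C) (θ w) :
    ‖α • FF I α θc (fBr I) 0 (s0, θ, w) + θc • FF I α θc (fG I) 0 (s0, θ, w) -
      ∑ m ∈ Finset.range (q + 1), cf m • gg I.V I.a I.t0 (s0 + α * m) θ (Ψ (θ, w) m).1‖ ^ 2 ≤
      (7 * C) ^ 2 * En I q s0 α θc Ψ θ w := by
  have := (Q _ (fun k τ => FF I α θc (fg I) k (pt I s0 α Ψ θ w τ))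
    (fun k _ _ hτ => H.FF_deriv θ w _ k hτ) (H.FF_contOn θ w _ _)).2.trans
    (mul_le_mul_of_nonneg_left (H.en_le θ w (dom_g I q α θc)) (by positivity))
  simp only [H.pt_zero, FF_g1, FF_g] at this
  exact weaken (b := 1) hC (En_nn θ w) (by norm_num) (by rw [mul_one]; exact this)

theorem IsFlow.xi_deriv (H : IsFlow I q s0 α θc Ψ) (θ w) {τ : ℝ} (hτ : τ ∈ Icc (0 : ℝ) q) :
    HasDerivWithinAt (fun τ => (Ψ (θ, w) τ).2) (θc • FF I α θc (fBr I) 0 (pt I s0 α Ψ θ w τ))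
      (Icc 0 q) τ := by
  have h3 : HasDerivWithinAt (fun τ => (Ψ (θ, w) τ).2) (Xf I α θc (pt I s0 α Ψ θ w τ)).2
      (Icc 0 q) τ := (H.deriv θ w τ hτ).snd
  exact h3.congr_deriv (Xf_snd I α θc _)

theorem IsFlow.xi (H : IsFlow I q s0 α θc Ψ) (Q : QD q C L cf) (hC : 1 ≤ C) (hθ : |θc| ≤ 1) (θ w)
    {l : ℝ} (hl : l ∈ Icc (0 : ℝ) q) :
    ‖(Ψ (θ, w) l).2 - (w.2 + ∑ m ∈ Finset.range (q + 1), (∫ τ in (0 : ℝ)..l, θc * L m τ) •
      FF I α θc (fBr I) 0 (pt I s0 α Ψ θ w m))‖ ^ 2 ≤ (7 * C) ^ 2 * En I q s0 α θc Ψ θ w := by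
  have h1 := H.quad1 Q hC θ w (dom_Br I q α θc) (ψ := fun _ => θc) continuous_const
    (fun _ => hθ) hl
  rw [ftc (fun τ hτ => H.xi_deriv θ w hτ) ((H.FF_contOn θ w _ 0).const_smul θc) hl, H.zero,
    sub_sub] at h1
  exact weaken hC (En_nn θ w) (by norm_num) h1

theorem IsFlow.pp (H : IsFlow I q s0 α θc Ψ) (Q : QD q C L cf) (hC : 1 ≤ C) (θ w) :
    ‖α • ((Ψ (θ, w) q).2 - w.2) - θc • (gg I.V I.a I.t0 (s0 + α * q) θ (Ψ (θ, w) q).1 -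
      gg I.V I.a I.t0 s0 θ w.1) + θc ^ 2 • ∑ m ∈ Finset.range (q + 1),
        (∫ τ in (0 : ℝ)..q, 1 * L m τ) • FF I α θc (fG I) 0 (pt I s0 α Ψ θ w m)‖ ^ 2 ≤
      (θc ^ 2 * (7 * C)) ^ 2 * En I q s0 α θc Ψ θ w := by
  have hq : (q : ℝ) ∈ Icc (0 : ℝ) q := ⟨Nat.cast_nonneg q, le_rfl⟩
  have h1 := weaken hC (En_nn θ w) (by norm_num) (H.quad1 Q hC θ w (dom_G I q α θc)
    (ψ := fun _ => 1) (b := 1) continuous_const (fun _ => by simp) hq)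
  have h2 := ftc (f := fun τ => α • (Ψ (θ, w) τ).2 - θc • FF I α θc (fg I) 0 (pt I s0 α Ψ θ w τ))
    (f' := fun τ => (-θc ^ 2) • (1 : ℝ) • FF I α θc (fG I) 0 (pt I s0 α Ψ θ w τ)) (fun τ hτ =>
      (((H.xi_deriv θ w hτ).const_smul α).sub ((H.FF_deriv θ w _ 0 hτ).const_smul θc)).congr_deriv
        (by rw [zero_add, FF_g1]; module))
    (((H.FF_contOn θ w (fG I) 0).const_smul (1 : ℝ)).const_smul (-θc ^ 2)) hq
  rw [intervalIntegral.integral_smul, H.pt_zero, H.zero, FF_g, FF_g] at h2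
  generalize ∫ τ in (0 : ℝ)..q, (1 : ℝ) • FF I α θc (fG I) 0 (pt I s0 α Ψ θ w τ) = u at h1 h2
  generalize ∑ m ∈ Finset.range (q + 1),
    (∫ τ in (0 : ℝ)..q, 1 * L m τ) • FF I α θc (fG I) 0 (pt I s0 α Ψ θ w m) = u' at h1
  have e : α • ((Ψ (θ, w) q).2 - w.2) - θc • (gg I.V I.a I.t0 (s0 + α * q) θ (Ψ (θ, w) q).1 -
      gg I.V I.a I.t0 s0 θ w.1) + θc ^ 2 • u' = (-θc ^ 2) • (u - u') := by
    rw [smul_sub (-θc ^ 2), h2]
    simp only [pt]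
    module
  rw [e, norm_smul, norm_neg, Real.norm_of_nonneg (sq_nonneg θc), mul_pow, mul_pow, mul_assoc]
  exact mul_le_mul_of_nonneg_left h1 (sq_nonneg _)

theorem IsFlow.n_int (H : IsFlow I q s0 α θc Ψ) (θ w) {l : ℝ} (hl : l ∈ Icc (0 : ℝ) q) :
    nn I.a I.t0 (s0 + α * l) θ (Ψ (θ, w) l).1 =
      (rr I.a I.t0 (s0 + α * l) / rr I.a I.t0 s0) • nn I.a I.t0 s0 θ w.1 +
      ((∫ τ in (0 : ℝ)..l, psi1 I.a I.t0 s0 α l τ • FF I α θc (fg I) 0 (pt I s0 α Ψ θ w τ)) +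
       ∫ τ in (0 : ℝ)..l, psi2 I.a I.t0 s0 α θc l τ • FF I α θc (fBl I) 0 (pt I s0 α Ψ θ w τ)) := by
  have c1 := (psi1_cont I s0 α l).continuousOn.fun_smul (H.FF_contOn θ w (fg I) 0)
  have c2 := (psi2_cont I s0 α θc l).continuousOn.fun_smul (H.FF_contOn θ w (fBl I) 0)
  have hs : Icc 0 l ⊆ Icc (0 : ℝ) q := Icc_subset_Icc_right hl.2
  rw [← intervalIntegral.integral_add ((c1.mono hs).intervalIntegrable_of_Icc hl.1)
    ((c2.mono hs).intervalIntegrable_of_Icc hl.1), ftc (fun τ hτ => ((H.n_deriv θ w hτ).const_smul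
      (rr I.a I.t0 (s0 + α * l))).congr_deriv (by simp only [psi1, psi2, smul_add, smul_smul]))
      (c1.fun_add c2) hl]
  simp only [Pi.smul_apply, smul_smul, mul_inv_cancel₀ (rr_pos I _).ne', one_smul, mul_zero,
    add_zero, H.zero, div_eq_mul_inv, add_sub_cancel]

theorem IsFlow.nq (H : IsFlow I q s0 α θc Ψ) (Q : QD q C L cf) (hC : 1 ≤ C)
    (A : Adm q I.a I.t0 s0 α θc h) (θ w) {l : ℝ} (hl : l ∈ Icc (0 : ℝ) q) :
    ‖nn I.a I.t0 (s0 + α * l) θ (Ψ (θ, w) l).1 -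
      ((rr I.a I.t0 (s0 + α * l) / rr I.a I.t0 s0) • nn I.a I.t0 s0 θ w.1 +
        ∑ m ∈ Finset.range (q + 1), ((∫ τ in (0 : ℝ)..l, psi1 I.a I.t0 s0 α l τ * L m τ) •
          gg I.V I.a I.t0 (s0 + α * m) θ (Ψ (θ, w) m).1 +
          (-∫ τ in (0 : ℝ)..l, psi2 I.a I.t0 s0 α θc l τ * L m τ) •
            -FF I α θc (fBl I) 0 (pt I s0 α Ψ θ w m)))‖ ^ 2 ≤
      (7 * C) ^ 2 * En I q s0 α θc Ψ θ w := by
  have h1 := H.quad1 Q hC θ w (dom_g I q α θc) (b := 4) (psi1_cont I s0 α l) (fun τ =>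
    (psi1_le A hl τ).trans (by
      rw [div_le_iff₀ (by nlinarith [I.ha])]; nlinarith [I.ha, A.h1])) hl
  have h2 := H.quad1 Q hC θ w (dom_Bl I q α θc) (b := 2) (psi2_cont I s0 α θc l) (fun τ =>
    (psi2_le A hl τ).trans (by linarith [A.hθ, A.h1])) hl
  refine weaken (b := 40) hC (En_nn θ w) (by norm_num) ?_
  rw [H.n_int θ w hl, add_sub_add_left_eq_sub, Finset.sum_add_distrib, add_sub_add_comm]
  simp only [neg_smul_neg]
  simp only [FF_g] at h1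
  have h3 : ∀ x y : E I.d, ‖x + y‖ ^ 2 ≤ 2 * ‖x‖ ^ 2 + 2 * ‖y‖ ^ 2 := fun x y => by
    nlinarith [norm_add_le x y, norm_nonneg (x + y), norm_nonneg x, norm_nonneg y,
      sq_nonneg (‖x‖ - ‖y‖)]
  refine (h3 _ _).trans ?_
  simp only [FF_g, pt] at h1 h2 ⊢
  linarith

theorem IsFlow.lip (H : IsFlow I q 0 α 0 Ψ) (h1 : |0 + α * q| ≤ 1) (ht : I.t0 = I.a ^ 2)
    (h100 : 100 ≤ I.t0) (hα : 0 ≤ α) (θ θ' w) :
    ‖(tS I.a I.t0 (α * q))⁻¹ • thS I.a (α * q) θ (Ψ (θ, w) q).1 -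
      (tS I.a I.t0 (α * q))⁻¹ • thS I.a (α * q) θ' (Ψ (θ', w) q).1‖ ≤
      (1 + 5 / 4 * (α * q) ^ 2 / I.t0) * (‖θ - θ'‖ / I.t0) := by
  have ha : 0 < I.a := by linarith [I.ha]
  have hq : (q : ℝ) ∈ Icc (0 : ℝ) q := ⟨Nat.cast_nonneg q, le_rfl⟩
  let u : E I.d → ℝ → E I.d := fun θ τ =>
    (rr I.a I.t0 (0 + α * τ))⁻¹ • nn I.a I.t0 (0 + α * τ) θ (Ψ (θ, w) τ).1
  let m : E I.d → ℝ → E I.d := fun θ τ =>
    I.t0⁻¹ • θ + (I.a * (0 + α * τ) / rr I.a I.t0 (0 + α * τ)) • u θ τ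
  have hm : ∀ θ τ, thS I.a (0 + α * τ) θ (Ψ (θ, w) τ).1 = tS I.a I.t0 (0 + α * τ) • m θ τ := by
    intro θ τ
    have r0 := rr_pos I (0 + α * τ)
    have r2 := rr_sq I (0 + α * τ)
    have t0 : I.t0 ≠ 0 := by linarith
    simp only [m, u, thS, nn, ← r2]
    unfold tS at r2
    generalize rr I.a I.t0 (0 + α * τ) = r at r0 r2
    match_scalars
    · field_simp; rw [r2]; ring
    · field_simp
  have uc : ∀ θ, ContinuousOn (u θ) (Icc 0 q) := fun θ τ hτ =>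
    (H.n_deriv θ w hτ).continuousWithinAt
  have mc : ∀ θ, ContinuousOn (m θ) (Icc 0 q) := fun θ => continuousOn_const.add
    (((by fun_prop : Continuous fun τ => I.a * (0 + α * τ)).div (rr_cont' I 0 α)
      fun _ => (rr_pos I _).ne').continuousOn.smul (uc θ))
  obtain ⟨τ₀, h₀, hmax⟩ := isCompact_Icc.exists_isMaxOn ⟨_, hq⟩ ((mc θ).sub (mc θ')).norm
  set M := ‖(m θ - m θ') τ₀‖ with hM
  have M0 : 0 ≤ M := norm_nonneg _
  set D := ‖θ - θ'‖ / I.t0 with hD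
  have D0 : 0 ≤ D := by positivity
  have ra : ∀ s, I.a ≤ rr I.a I.t0 s := fun s =>
    (sq_le_sq₀ ha.le (rr_pos I s).le).1 (by rw [rr_sq, ← ht]; exact t0_le I s)
  have hu := norm_image_sub_le_of_norm_deriv_le_segment' (C := α * M / (I.t0 - 1 / 2))
    (fun τ hτ => (H.n_deriv θ w hτ).sub (H.n_deriv θ' w hτ)) fun τ hτ => by
      have r0 := rr_pos I (0 + α * τ)
      have r2 := rr_sq I (0 + α * τ)
      have t1 := t0_le I (0 + α * τ)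
      have h2 := MM_lip I.V (by linarith : 1 / 2 < tS I.a I.t0 (0 + α * τ))
        (thS I.a (0 + α * τ) θ (Ψ (θ, w) τ).1) (thS I.a (0 + α * τ) θ' (Ψ (θ', w) τ).1)
      have h3 : ‖m θ τ - m θ' τ‖ ≤ M := hmax (Ico_subset_Icc_self hτ)
      have h4 := ra (0 + α * τ)
      conv_rhs at h2 => rw [hm, hm, ← smul_sub, norm_smul, Real.norm_of_nonneg (by linarith)]
      simp only [zero_div, zero_smul, add_zero, FF_g, gg, pt, ← smul_sub, norm_smul, norm_div,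
        norm_neg, Real.norm_of_nonneg hα, Real.norm_of_nonneg ha.le,
        Real.norm_of_nonneg (pow_pos r0 3).le]
      rw [← r2] at h2 t1 ⊢
      generalize rr I.a I.t0 (0 + α * τ) = r at r0 h2 t1 h4
      calc _ ≤ α / r ^ 3 * (r * (r ^ 2 * M / (I.t0 - 1 / 2))) := by
            refine mul_le_mul_of_nonneg_left (mul_le_mul h4 (h2.trans ?_) (norm_nonneg _) r0.le)
              (by positivity)
            gcongr
            linarith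
        _ = _ := by field_simp
  have key : ∀ τ ∈ Icc (0 : ℝ) q, ‖m θ τ - m θ' τ‖ ≤ D + (α * q) ^ 2 * (M / (I.t0 - 1 / 2)) := by
    intro τ hτ
    have h2 := hu τ hτ
    have h3 : (u θ - u θ') 0 = 0 := by simp [u, nn, H.zero]
    change ‖(u θ - u θ') τ - (u θ - u θ') 0‖ ≤ _ at h2
    rw [h3, sub_zero, sub_zero, Pi.sub_apply] at h2
    have r0 := rr_pos I (0 + α * τ)
    have h5 : 0 ≤ α * τ := mul_nonneg hα hτ.1
    have h6 : α * τ ≤ α * q := mul_le_mul_of_nonneg_left hτ.2 hα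
    have h4 : I.a * (0 + α * τ) / rr I.a I.t0 (0 + α * τ) ≤ α * τ := by
      rw [div_le_iff₀ r0]; nlinarith [ra (0 + α * τ)]
    simp only [m]
    rw [add_sub_add_comm, ← smul_sub, ← smul_sub]
    refine (norm_add_le _ _).trans (add_le_add (le_of_eq ?_) ?_)
    · rw [norm_smul, Real.norm_of_nonneg (by positivity), hD, div_eq_inv_mul]
    · rw [norm_smul, Real.norm_of_nonneg (by positivity)]
      have h7 : 0 ≤ M / (I.t0 - 1 / 2) := div_nonneg M0 (by linarith)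
      calc _ ≤ α * τ * (α * M / (I.t0 - 1 / 2) * τ) := mul_le_mul h4 h2 (norm_nonneg _) h5
        _ = (α * τ) ^ 2 * (M / (I.t0 - 1 / 2)) := by ring
        _ ≤ _ := by gcongr
  have S1 : (α * q) ^ 2 ≤ 1 := (sq_le_one_iff_abs_le_one _).2 (by simpa using h1)
  have k0 : M ≤ D + (α * q) ^ 2 * (M / (I.t0 - 1 / 2)) := key τ₀ h₀
  have k1 : M / (I.t0 - 1 / 2) ≤ M / 99 := by gcongr; linarith
  have k2 : M ≤ 99 / 98 * D := by
    have h7 : 0 ≤ M / (I.t0 - 1 / 2) := div_nonneg M0 (by linarith)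
    nlinarith
  have k3 : M / (I.t0 - 1 / 2) ≤ 5 / 4 * D / I.t0 := by
    rw [div_le_div_iff₀ (by linarith) (by linarith)]
    nlinarith
  have e : ∀ θ, (tS I.a I.t0 (α * q))⁻¹ • thS I.a (α * q) θ (Ψ (θ, w) q).1 = m θ q := fun θ => by
    have := hm θ q
    rw [zero_add] at this
    rw [this, inv_smul_smul₀ (by linarith [t0_le I (α * q)])]
  rw [e, e]
  calc _ ≤ D + (α * q) ^ 2 * (5 / 4 * D / I.t0) := (key q hq).trans (by gcongr)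
    _ = _ := by ring

end Vale.Agent.P347.NodesAux
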