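import Mathlib

/-! P347 part Quad: interpolation and finite differences at the nodes `0, 1, ..., q`, with the
error bounded by the energy of the derivative of order `q + 1`.  Standalone. -/

open MeasureTheory Set

namespace Vale.Agent.P347

namespace QuadAux

theorem taylor {F : Type} [NormedAddCommGroup F] [NormedSpace ℝ F] [CompleteSpace F] {q : ℕ}
    {f : ℕ → ℝ → F}
    (h1 : ∀ k ≤ q, ∀ τ ∈ Icc (0 : ℝ) q, HasDerivWithinAt (f k) (f (k + 1) τ) (Icc 0 q) τ)
    (h2 : ContinuousOn (f (q + 1)) (Icc 0 q)) (i : ℕ) : ∀ k, k + i = q → ∀ τ ∈ Icc (0 : ℝ) q,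
      ‖f k τ - ∑ j ∈ Finset.range (i + 1), (τ ^ j / j.factorial) • f (k + j) 0‖
        ≤ q ^ i * ∫ t in (0 : ℝ)..q, ‖f (q + 1) t‖ := by
  induction i with
  | zero =>
    rintro k rfl τ hτ
    have sub : Icc 0 τ ⊆ Icc (0 : ℝ) (k + 0 : ℕ) := Icc_subset_Icc_right hτ.2
    have := intervalIntegral.integral_eq_sub_of_hasDerivAt_of_le hτ.1
      (fun t ht => ((h1 k le_rfl t (sub ht)).continuousWithinAt).mono sub)
      (fun t ht => (h1 k le_rfl t (sub (Ioo_subset_Icc_self ht))).hasDerivAt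
        (Icc_mem_nhds ht.1 (ht.2.trans_le hτ.2)))
      ((h2.mono sub).intervalIntegrable_of_Icc hτ.1)
    simp only [zero_add, Finset.range_one, Finset.sum_singleton, pow_zero, Nat.factorial_zero,
      Nat.cast_one, div_one, one_smul, one_mul, ← this, add_zero]
    exact (intervalIntegral.norm_integral_le_integral_norm hτ.1).trans
      (intervalIntegral.integral_mono_interval le_rfl hτ.1 hτ.2
        (Filter.Eventually.of_forall fun _ => norm_nonneg _)
        (h2.norm.intervalIntegrable_of_Icc (hτ.1.trans hτ.2)))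
  | succ i ih =>
    intro k hk τ hτ
    have := (convex_Icc (0 : ℝ) q).norm_image_sub_le_of_norm_hasDerivWithin_le
      (f := fun τ => f k τ -
        ∑ j ∈ Finset.range (i + 1), (τ ^ (j + 1) / (j + 1).factorial) • f (k + (j + 1)) 0)
      (fun t ht => (h1 k (by omega) t ht).fun_sub (HasDerivWithinAt.fun_sum fun j _ =>
        (((hasDerivAt_pow (j + 1) t).div_const _).smul_const _).hasDerivWithinAt))
      (fun t ht => le_of_eq_of_le (by
        congr 2
        refine Finset.sum_congr rfl fun j _ => ?_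
        rw [add_right_comm, add_assoc k, Nat.factorial_succ]
        congr 1
        push_cast
        rw [mul_div_mul_left _ _ (by positivity)]) (ih (k + 1) (by omega) t ht))
      ⟨le_rfl, hτ.1.trans hτ.2⟩ hτ
    rw [Finset.sum_range_succ', ← sub_sub]
    simp only [ne_eq, Nat.add_eq_zero_iff, one_ne_zero, and_false, not_false_eq_true, zero_pow,
      zero_div, zero_smul, Finset.sum_const_zero, sub_zero, Real.norm_of_nonneg hτ.1] at this
    simp only [pow_zero, Nat.factorial_zero, Nat.cast_one, div_one, one_smul, add_zero]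
    refine this.trans ?_
    rw [pow_succ, mul_right_comm]
    exact mul_le_mul_of_nonneg_right (mul_le_mul_of_nonneg_left hτ.2 (by positivity))
      (intervalIntegral.integral_nonneg (hτ.1.trans hτ.2) fun _ _ => norm_nonneg _)

theorem cs {g : ℝ → ℝ} {q : ℝ} (hq : 0 < q) (hg : ContinuousOn g (Icc 0 q)) :
    (∫ t in (0 : ℝ)..q, g t) ^ 2 ≤ q * ∫ t in (0 : ℝ)..q, g t ^ 2 := by
  set E := ∫ t in (0 : ℝ)..q, g t with hE
  have i1 := hg.intervalIntegrable_of_Icc (μ := volume) hq.le
  have i2 := (hg.fun_pow 2).intervalIntegrable_of_Icc (μ := volume) hq.le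
  have h := intervalIntegral.integral_nonneg (μ := volume) hq.le
    (f := fun t => q ^ 2 * g t ^ 2 - 2 * q * E * g t + E ^ 2)
    fun t _ => by nlinarith [sq_nonneg (q * g t - E)]
  rw [intervalIntegral.integral_add ((i2.const_mul _).sub (i1.const_mul _)) (by simp),
    intervalIntegral.integral_sub (i2.const_mul _) (i1.const_mul _),
    intervalIntegral.integral_const_mul, intervalIntegral.integral_const_mul,
    intervalIntegral.integral_const, ← hE, smul_eq_mul] at h
  exact le_of_mul_le_mul_left (by nlinarith) hq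

end QuadAux

open QuadAux Polynomial in
theorem quad (q : ℕ) (hq : 1 ≤ q) : ∃ C : ℝ, 1 ≤ C ∧ ∃ (L : ℕ → ℝ → ℝ) (cf : ℕ → ℝ),
    (∀ m, Continuous (L m)) ∧ (∀ m, ∀ τ ∈ Icc (0 : ℝ) q, |L m τ| ≤ C) ∧ (∀ m, |cf m| ≤ C) ∧
    ∀ (F : Type) [NormedAddCommGroup F] [NormedSpace ℝ F] [CompleteSpace F] (f : ℕ → ℝ → F),
      (∀ k ≤ q, ∀ τ ∈ Icc (0 : ℝ) q, HasDerivWithinAt (f k) (f (k + 1) τ) (Icc 0 q) τ) →
      ContinuousOn (f (q + 1)) (Icc 0 q) →
      (∀ (ψ : ℝ → ℝ) (b : ℝ), ContinuousOn ψ (Icc 0 q) → (∀ τ ∈ Icc (0 : ℝ) q, |ψ τ| ≤ b) →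
        ∀ l ∈ Icc (0 : ℝ) q, ‖(∫ τ in (0 : ℝ)..l, ψ τ • f 0 τ) -
          ∑ m ∈ Finset.range (q + 1), (∫ τ in (0 : ℝ)..l, ψ τ * L m τ) • f 0 m‖ ^ 2 ≤
          C * b ^ 2 * ∫ τ in (0 : ℝ)..q, ‖f (q + 1) τ‖ ^ 2) ∧
      ‖f 1 0 - ∑ m ∈ Finset.range (q + 1), cf m • f 0 m‖ ^ 2 ≤
          C * ∫ τ in (0 : ℝ)..q, ‖f (q + 1) τ‖ ^ 2 := by
  let β : ℕ → ℝ[X] := fun m => Lagrange.basis (Finset.range (q + 1)) Nat.cast (min m q)
  have key : ∀ j ∈ Finset.range (q + 1),
      (X : ℝ[X]) ^ j = ∑ m ∈ Finset.range (q + 1), C ((m : ℝ) ^ j) * β m := fun j hj => by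
    refine (Lagrange.eq_interpolate (s := Finset.range (q + 1)) (v := Nat.cast)
      Nat.cast_injective.injOn (by
        rw [degree_X_pow, Finset.card_range]; exact_mod_cast Finset.mem_range.1 hj)).trans ?_
    rw [Lagrange.interpolate_apply]
    refine Finset.sum_congr rfl fun m hm => ?_
    simp only [β, min_eq_left (Nat.lt_succ_iff.1 (Finset.mem_range.1 hm)), eval_pow, eval_X]
  choose B hB using fun m => (isCompact_Icc (a := (0 : ℝ)) (b := q)).exists_bound_of_continuousOn
    (β m).continuous.continuousOn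
  have q0 : (0 : ℝ) < q := by exact_mod_cast hq
  have q1 : (1 : ℝ) ≤ q := by exact_mod_cast hq
  obtain ⟨A, A1, hA⟩ : ∃ A : ℝ, 1 ≤ A ∧ ∀ m, (∀ τ ∈ Icc (0 : ℝ) q, |eval τ (β m)| ≤ A) ∧
      |coeff (β m) 1| ≤ A := by
    have n0 : ∀ m, 0 ≤ |B m| + |coeff (β m) 1| := fun m => by positivity
    refine ⟨1 + ∑ m ∈ Finset.range (q + 1), (|B m| + |coeff (β m) 1|),
      le_add_of_nonneg_right (Finset.sum_nonneg fun m _ => n0 m), fun m => ?_⟩
    have h1 := Finset.single_le_sum (fun m _ => n0 m)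
      (Finset.mem_range.2 (Nat.lt_succ_of_le (min_le_right m q)))
    have h2 : β (min m q) = β m := by simp only [β, min_assoc, min_self]
    have h3 := hB (min m q)
    rw [h2] at h1 h3
    have h4 := le_abs_self (B (min m q))
    have h5 := abs_nonneg (coeff (β m) 1)
    have h6 := abs_nonneg (B (min m q))
    rw [Nat.succ_eq_add_one] at h1
    exact ⟨fun τ hτ => (h3 τ hτ).trans (by linarith), by linarith⟩
  set D := (1 + (q + 1) * A) * q ^ q with hD
  have D0 : 0 ≤ D := by positivity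
  have c0 : 0 ≤ D ^ 2 * q ^ 3 := by positivity
  refine ⟨A + D ^ 2 * q ^ 3, by linarith, fun m τ => (β m).eval τ, fun m => (β m).coeff 1,
    fun m => (β m).continuous, fun m τ hτ => by linarith [(hA m).1 τ hτ],
    fun m => by linarith [(hA m).2], fun F _ _ _ f h1 h2 => ?_⟩
  have t := taylor h1 h2 q 0 (zero_add q)
  have e := cs q0 h2.norm
  set E := ∫ t in (0 : ℝ)..q, ‖f (q + 1) t‖
  set I := ∫ t in (0 : ℝ)..q, ‖f (q + 1) t‖ ^ 2
  have E0 : 0 ≤ E := intervalIntegral.integral_nonneg q0.le fun _ _ => norm_nonneg _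
  have I0 : 0 ≤ I := intervalIntegral.integral_nonneg q0.le fun _ _ => by positivity
  simp only [zero_add] at t
  have main : ∀ (c : ℕ → ℝ) (d : ℕ → ℝ) (x : F), (∀ m, |c m| ≤ A) →
      (∀ j ∈ Finset.range (q + 1), ∑ m ∈ Finset.range (q + 1), (m : ℝ) ^ j * c m = d j) →
      ‖x - ∑ j ∈ Finset.range (q + 1), (d j / j.factorial) • f j 0‖ ≤ q ^ q * E →
      ‖x - ∑ m ∈ Finset.range (q + 1), c m • f 0 m‖ ≤ D * E := by
    intro c d x c1 c2 c3
    have : ∑ j ∈ Finset.range (q + 1), (d j / j.factorial) • f j 0 = ∑ m ∈ Finset.range (q + 1),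
        c m • ∑ j ∈ Finset.range (q + 1), ((m : ℝ) ^ j / j.factorial) • f j 0 := by
      simp only [Finset.smul_sum, smul_smul]
      rw [Finset.sum_comm]
      refine Finset.sum_congr rfl fun j hj => ?_
      rw [← Finset.sum_smul, ← c2 j hj, Finset.sum_div]
      congr 1
      exact Finset.sum_congr rfl fun m _ => by ring
    rw [this] at c3
    have k := norm_sum_le_of_le (Finset.range (q + 1)) (n := fun _ => A * (q ^ q * E))
      (f := fun m => c m • (f 0 m - ∑ j ∈ Finset.range (q + 1),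
        ((m : ℝ) ^ j / j.factorial) • f j 0)) fun m hm => by
      rw [norm_smul]
      exact mul_le_mul (c1 m) (t m ⟨by positivity, by
        exact_mod_cast Nat.lt_succ_iff.1 (Finset.mem_range.1 hm)⟩) (norm_nonneg _) (by linarith)
    simp only [smul_sub, Finset.sum_sub_distrib, Finset.sum_const, Finset.card_range,
      nsmul_eq_mul] at k
    have k2 := (norm_sub_le _ _).trans (add_le_add c3 k)
    rw [sub_sub_sub_cancel_right] at k2
    push_cast at k2
    rw [hD]; linarith
  have c0 : ContinuousOn (f 0) (Icc 0 q) := fun t ht => (h1 0 q.zero_le t ht).continuousWithinAt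
  have q3 : (q : ℝ) ≤ q ^ 3 := le_self_pow₀ q1 (by norm_num)
  refine ⟨fun ψ b p1 p2 l hl => ?_, ?_⟩
  · have sub : Icc 0 l ⊆ Icc (0 : ℝ) q := Icc_subset_Icc_right hl.2
    have b0 : 0 ≤ b := (abs_nonneg _).trans (p2 0 ⟨le_rfl, q0.le⟩)
    have ii : ∀ m, IntervalIntegrable (fun τ => (ψ τ * (β m).eval τ) • f 0 m) volume 0 l :=
      fun m => (((p1.mul (β m).continuous.continuousOn).smul continuousOn_const).mono
        sub).intervalIntegrable_of_Icc hl.1
    simp only [← intervalIntegral.integral_smul_const]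
    rw [← intervalIntegral.integral_finsetSum fun m _ => ii m, ← intervalIntegral.integral_sub
      (((p1.fun_smul c0).mono sub).intervalIntegrable_of_Icc hl.1)
      (by simpa only [Finset.sum_fn] using
        IntervalIntegrable.sum (Finset.range (q + 1)) fun m _ => ii m)]
    have := intervalIntegral.norm_integral_le_of_norm_le_const (a := 0) (b := l) (C := b * (D * E))
      (f := fun τ => ψ τ • f 0 τ - ∑ m ∈ Finset.range (q + 1), (ψ τ * (β m).eval τ) • f 0 m)
      fun τ hτ => by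
        rw [uIoc_of_le hl.1] at hτ
        have hτ' := sub (Ioc_subset_Icc_self hτ)
        simp only [mul_smul, ← Finset.smul_sum, ← smul_sub, norm_smul]
        refine mul_le_mul (p2 τ hτ') (main _ (fun j => τ ^ j) _ (fun m => (hA m).1 τ hτ')
          (fun j hj => ?_) (t τ hτ')) (norm_nonneg _) b0
        simpa [eval_finsetSum] using (congrArg (eval τ) (key j hj)).symm
    rw [sub_zero, abs_of_nonneg hl.1] at this
    refine (pow_le_pow_left₀ (norm_nonneg _) (this.trans
      (mul_le_mul_of_nonneg_left hl.2 (by positivity))) 2).trans ?_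
    have := mul_le_mul_of_nonneg_left e (show 0 ≤ b ^ 2 * D ^ 2 * q ^ 2 by positivity)
    nlinarith [show 0 ≤ A * b ^ 2 * I by positivity]
  · have := main (fun m => (β m).coeff 1) (fun j => if 1 = j then 1 else 0) (f 1 0)
      (fun m => (hA m).2) (fun j hj => by
        simpa only [finsetSum_coeff, coeff_X_pow, coeff_C_mul] using
          (congrArg (coeff · 1) (key j hj)).symm) (by
        have : 1 ∈ Finset.range (q + 1) := Finset.mem_range.2 (by omega)
        simp only [ite_div, zero_div, ite_smul, zero_smul, Finset.sum_ite_eq, this, if_true]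
        simp; positivity)
    refine (pow_le_pow_left₀ (norm_nonneg _) this 2).trans ?_
    have := mul_le_mul_of_nonneg_left e (sq_nonneg D)
    have := mul_le_mul_of_nonneg_left q3 (show 0 ≤ D ^ 2 * I by positivity)
    nlinarith [show 0 ≤ A * I by positivity]

end Vale.Agent.P347
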