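import Vale.Agent.P347.Inst
import Vale.Agent.P347.Calc
import Vale.Agent.P347.Cum
import Vale.Agent.P347.Flow
import Vale.Agent.P347.Quad
import Vale.Agent.P347.NodesC

/-! P347 part Nodes: assembly of the analytic interface. -/

open MeasureTheory Set
open scoped ENNReal

namespace Vale.Agent.P347

namespace NodesAux

open Classical in
/-- A family evaluated at arbitrary parameters. -/
noncomputable def WW (φ : ∀ I : Ins, Fin I.d → I.cal.A) {d : ℕ} (V : Pt d) (a t0 s : ℝ)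
    (p : E d × E d × E d) : E d :=
  if h : 1 ≤ a ∧ a ^ 2 ≤ t0 then
    FF ⟨d, V, a, t0, h.1, h.2⟩ 0 0 (φ ⟨d, V, a, t0, h.1, h.2⟩) 0 (s, p) else 0

theorem WW_eq (φ : ∀ I : Ins, Fin I.d → I.cal.A) (I : Ins) (α θc s : ℝ) (p) :
    WW φ I.V I.a I.t0 s p = FF I α θc (φ I) 0 (s, p) := dif_pos ⟨I.ha, I.ht⟩

theorem WW_meas (φ : ∀ I : Ins, Fin I.d → I.cal.A) (I : Ins) (s : ℝ) :
    Measurable (WW φ I.V I.a I.t0 s) := by
  rw [show WW φ I.V I.a I.t0 s = fun p => FF I 0 0 (φ I) 0 (s, p) from funext (WW_eq φ I 0 0 s)]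
  exact ((FF_cont I 0 0 _ 0).comp (by fun_prop)).measurable

theorem dz_Dg (I : Ins) (l m n : Fin I.d ⊕ Fin I.d) :
    I.cal.dz l (I.cal.D m (I.cal.g n)) = I.cal.s * I.cal.D l (I.cal.D m (I.cal.g n)) :=
  CalcAux.Kf.D I.cal_ax (fun l => I.cal_ax.dz_g l n) m l

theorem δ_split (I : Ins) (w : Fin I.d ⊕ Fin I.d → I.cal.A) : I.cal.δ w =
    ∑ k : Fin I.d, (I.cal.h (Sum.inl k) * w (Sum.inl k) - I.cal.dz (Sum.inl k) (w (Sum.inl k))) +
    ∑ k : Fin I.d, (I.cal.h (Sum.inr k) * w (Sum.inr k) - I.cal.dz (Sum.inr k) (w (Sum.inr k))) :=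
  Fintype.sum_sum_type fun l => I.cal.h l * w l - I.cal.dz l (w l)

theorem ev_Bl (I : Ins) (i : Fin I.d) (y : Y I.d) : I.cal.ev y (I.cal.B (Sum.inl i)) =
    -∑ k, y.2.2.2 k * Gam I.V I.a (tS I.a I.t0 y.1) (thS I.a y.1 y.2.1 y.2.2.1) k i := by
  have h0 : ∀ k f, I.cal.D (Sum.inr k) f = 0 := fun k f => Sm.D_zero_dir f
  have h1 : ∀ k, I.cal.Am (Sum.inl k) (Sum.inl i) = 0 := fun k => by
    change I.cal.D _ (I.cal.g (Sum.inr i)) - I.cal.D _ (I.cal.g (Sum.inr k)) = 0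
    rw [I.g_inr, I.g_inr, map_zero, map_zero, sub_zero]
  have h2 : ∀ k, I.cal.Am (Sum.inr k) (Sum.inl i) = -I.cal.D (Sum.inl i) (I.cal.g (Sum.inl k)) :=
    fun k => by
      change I.cal.D (Sum.inr k) _ - I.cal.D _ (I.cal.g (Sum.inl k)) = _
      rw [h0, zero_sub]
  have h3 : ∀ k, I.cal.dz (Sum.inr k) (I.cal.D (Sum.inl i) (I.cal.g (Sum.inl k))) = 0 := fun k => by
    rw [dz_Dg, h0, mul_zero]
  have h4 : ∀ k, I.cal.ev y (I.cal.h (Sum.inr k)) = y.2.2.2 k := fun k => by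
    unfold Cal.h
    rw [I.v_inr, mul_zero, sub_zero]; rfl
  have h5 : I.cal.B (Sum.inl i) = ∑ k : Fin I.d, (I.cal.h (Sum.inl k) * I.cal.Am (Sum.inl k)
      (Sum.inl i) - I.cal.dz (Sum.inl k) (I.cal.Am (Sum.inl k) (Sum.inl i))) +
      ∑ k : Fin I.d, (I.cal.h (Sum.inr k) * I.cal.Am (Sum.inr k)
      (Sum.inl i) - I.cal.dz (Sum.inr k) (I.cal.Am (Sum.inr k) (Sum.inl i))) :=
    δ_split I fun l => I.cal.Am l (Sum.inl i)
  rw [h5]
  simp only [h1, h2, h3, mul_zero, map_zero, sub_zero, Finset.sum_const_zero, zero_add, map_neg,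
    neg_zero, map_sum, map_mul, h4, I.Dg_inl, mul_neg, Finset.sum_neg_distrib]

theorem ev_Br (I : Ins) (i : Fin I.d) (θ z ξ : E I.d) :
    I.cal.ev (0, θ, z, ξ) (I.cal.B (Sum.inr i)) = ∑ k, z k * Gam I.V I.a I.t0 θ i k := by
  have h0 : ∀ k f, I.cal.D (Sum.inr k) f = 0 := fun k f => Sm.D_zero_dir f
  have hs : I.cal.ev (0, θ, z, ξ) I.cal.s = 0 := rfl
  have h4 : ∀ k, I.cal.ev (0, θ, z, ξ) (I.cal.z (Sum.inl k)) = z k := fun k => rfl
  have h5 : I.cal.δ (fun l => I.cal.D l (I.cal.g (Sum.inl i))) = ∑ k : Fin I.d,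
      (I.cal.h (Sum.inl k) * I.cal.D (Sum.inl k) (I.cal.g (Sum.inl i)) -
        I.cal.dz (Sum.inl k) (I.cal.D (Sum.inl k) (I.cal.g (Sum.inl i)))) +
      ∑ k : Fin I.d, (I.cal.h (Sum.inr k) * I.cal.D (Sum.inr k) (I.cal.g (Sum.inl i)) -
        I.cal.dz (Sum.inr k) (I.cal.D (Sum.inr k) (I.cal.g (Sum.inl i)))) :=
    Fintype.sum_sum_type _
  rw [B_inr, h5]
  simp only [h0, mul_zero, map_zero, sub_zero, Finset.sum_const_zero, add_zero, map_sum, map_sub,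
    map_mul, dz_Dg, hs, zero_mul, Cal.h, h4,
    I.Dg_inl]
  simp [tS, thS]

theorem flow_all (q : ℕ) (d : ℕ) (V : Pt d) (a t0 s0 α θc : ℝ) :
    ∃ Ψ : E d × E d × E d → ℝ → E d × E d, ∀ h, ∀ A : Adm q a t0 s0 α θc h,
      IsFlow ⟨d, V, a, t0, A.ha, A.ht⟩ q s0 α θc Ψ := by
  by_cases H : ∃ h, Adm q a t0 s0 α θc h
  · obtain ⟨h, A⟩ := H
    obtain ⟨Ψ, hΨ⟩ := flow ⟨d, V, a, t0, A.ha, A.ht⟩ q θc A.hs0 A.hs1
    exact ⟨Ψ, fun _ _ => hΨ⟩
  · exact ⟨0, fun h A => (H ⟨h, A⟩).elim⟩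

end NodesAux

open NodesAux

theorem nodes_exist (q : ℕ) (hq : 1 ≤ q) : ∃ C : ℝ, 1 ≤ C ∧ Nonempty (Nodes q C) := by
  obtain ⟨Cq, hC, L, cf, -, hL, hcf, Q⟩ := quad q hq
  obtain ⟨C0, hC0, hB⟩ := bound q
  choose Ψ hΨ using flow_all q
  have q1 : (1 : ℝ) ≤ q := by exact_mod_cast hq
  have r0 := Real.sqrt_nonneg (q * C0)
  set C := 7 * Cq * (√(q * C0) + q) with hCdef
  have c1 : 7 * (q * Cq) ≤ C := by rw [hCdef]; nlinarith
  have c2 : Cq ≤ q * Cq := by nlinarith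
  have mem : ∀ l ≤ q, (l : ℝ) ∈ Icc (0 : ℝ) q := fun l hl =>
    ⟨Nat.cast_nonneg l, by exact_mod_cast hl⟩
  have main : ∀ {d : ℕ} (V : Pt d) {a t0 s0 α θc h} (A : Adm q a t0 s0 α θc h) (θ : E d)
      {e : E d × E d → E d} {c : ℝ}, 0 ≤ c → (∀ w, ‖e w‖ ^ 2 ≤ (c * (7 * Cq)) ^ 2 *
        En ⟨d, V, a, t0, A.ha, A.ht⟩ q s0 α θc (Ψ d V a t0 s0 α θc) θ w) →
      eLpNorm e 2 (rho V a t0 s0 θ) ≤ ENNReal.ofReal (c * (C * h ^ (q + 1) * √d)) := by
    intro d V a t0 s0 α θc h A θ e c hc he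
    have h0 := (abs_nonneg _).trans A.hθ
    have h1 := (hΨ d V a t0 s0 α θc h A).energy A.hs0 A.hs1 θ fun s hs =>
      hB ⟨d, V, a, t0, A.ha, A.ht⟩ α θc h s θ A.hα A.hθ hs
    have h2 : q * (C0 * h ^ (2 * (q + 1)) * d) = (√(q * C0) * h ^ (q + 1) * √d) ^ 2 := by
      rw [mul_pow, mul_pow, Real.sq_sqrt (by positivity), Real.sq_sqrt (by positivity)]
      ring
    refine (eLp (by positivity) (by positivity) he (h1.trans (le_of_eq (congrArg _ h2)))).trans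
      (ENNReal.ofReal_le_ofReal ?_)
    calc _ = c * (7 * Cq * √(q * C0) * h ^ (q + 1) * √d) := by ring
      _ ≤ _ := by rw [hCdef]; gcongr; linarith
  refine ⟨C, by linarith, ⟨{
    DG := WW fBr
    GG := WW fG
    GX := fun V a t0 s p => -WW fBl V a t0 s p
    Φ := fun V a t0 s0 α θc m y => Ψ _ V a t0 s0 α θc y m
    κ := fun a t0 s0 α l => rr a t0 (s0 + α * l) / rr a t0 s0
    b := fun a t0 s0 α l m => ∫ τ in (0 : ℝ)..l, psi1 a t0 s0 α l τ * L m τ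
    b' := fun a t0 s0 α θc l m => -∫ τ in (0 : ℝ)..l, psi2 a t0 s0 α θc l τ * L m τ
    b'' := fun θc l m => ∫ τ in (0 : ℝ)..l, θc * L m τ
    cf := cf
    e := fun m => ∫ τ in (0 : ℝ)..q, 1 * L m τ
    mDG := fun V a t0 s ha ht => WW_meas fBr ⟨_, V, a, t0, ha, ht⟩ s
    mGG := fun V a t0 s ha ht => WW_meas fG ⟨_, V, a, t0, ha, ht⟩ s
    mGX := fun V a t0 s ha ht => (WW_meas fBl ⟨_, V, a, t0, ha, ht⟩ s).neg
    GX_eq := ?_
    cf_le := fun m => (hcf m).trans (by linarith)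
    e_le := fun m => (coef_le (b := 1) (hL m) (fun _ _ => by simp) (mem q le_rfl)).trans
      (by linarith)
    b''_le := fun θc l hl m => (coef_le (hL m) (fun _ _ => le_rfl) (mem l hl)).trans
      (mul_le_mul_of_nonneg_right (by linarith) (abs_nonneg _))
    κ_le := ?_
    b_le := ?_
    b'_le := ?_
    mΦ := fun V _ _ _ _ _ h A m => (hΨ _ V _ _ _ _ _ h A).meas.comp
      (f := fun y => (y, (m : ℝ))) (by fun_prop)
    Φ0 := fun V _ _ _ _ _ h A y => by simpa using (hΨ _ V _ _ _ _ _ h A).zero y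
    law := fun V _ _ _ _ _ h A m hm θ => (hΨ _ V _ _ _ _ _ h A).law θ m (mem m hm)
    n_eq := ?_
    ξ_eq := ?_
    fd_eq := ?_
    p_eq := ?_
    lip := fun V _ _ _ h A h1 h2 h3 θ θ' w => (hΨ _ V _ _ _ _ _ h A).lip A.hs1 h1 h2 h3 θ θ' w }⟩⟩
  · intro d V a t0 s ha ht θ z ξ η
    let I : Ins := ⟨d, V, a, t0, ha, ht⟩
    let I' : Ins := ⟨d, V, a, tS a t0 s, ha, ht.trans (t0_le I s)⟩
    refine (congrArg Neg.neg (WW_eq fBl I 0 0 s _)).trans (Eq.trans ?_ (WW_eq fBr I' 0 0 0 _).symm)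
    ext i
    rw [PiLp.neg_apply, FF, FF, vec_apply, vec_apply]
    refine (congrArg Neg.neg (ev_Bl I i _)).trans (Eq.trans ?_ (ev_Br I' i _ _ _).symm)
    rw [neg_neg]
    exact Finset.sum_congr rfl fun k _ => congrArg _
      (Gam_symm V a (by linarith [one_le_t0 I, t0_le I s]) _ k i)
  · intro a t0 s0 α θc h A l hl
    let I : Ins := ⟨0, ⟨0, 0, fun x => hasGradientAt_const x 0, contDiff_const, by simp, rfl, rfl⟩,
      a, t0, A.ha, A.ht⟩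
    rw [abs_of_pos (div_pos (rr_pos I _) (rr_pos I _)), div_le_iff₀ (rr_pos I _)]
    exact rr_le I (s_le A.hs0 A.hs1 (mem l hl)) s0
  · intro a t0 s0 α θc h A l hl m
    let I : Ins := ⟨0, ⟨0, 0, fun x => hasGradientAt_const x 0, contDiff_const, by simp, rfl, rfl⟩,
      a, t0, A.ha, A.ht⟩
    have h0 := (abs_nonneg _).trans A.hθ
    refine (coef_le (hL m) (fun τ _ => psi1_le (I := I) A (mem l hl) τ) (mem l hl)).trans ?_
    calc _ = 4 * (q * Cq) * h / a ^ 2 := by ring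
      _ ≤ _ := by gcongr; linarith
  · intro a t0 s0 α θc h A l hl m
    let I : Ins := ⟨0, ⟨0, 0, fun x => hasGradientAt_const x 0, contDiff_const, by simp, rfl, rfl⟩,
      a, t0, A.ha, A.ht⟩
    rw [abs_neg]
    refine (coef_le (hL m) (fun τ _ => psi2_le (I := I) A (mem l hl) τ) (mem l hl)).trans ?_
    calc _ = 2 * (q * Cq) * |θc| := by ring
      _ ≤ _ := by gcongr; linarith
  · intro d V a t0 s0 α θc h A l hl θ
    refine (main V A θ zero_le_one fun w => ?_).trans (by rw [one_mul])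
    have e := WW_eq fBl ⟨d, V, a, t0, A.ha, A.ht⟩ α θc
    simp only at e
    simp only [one_mul, e]
    exact (hΨ _ V _ _ _ _ _ h A).nq Q hC A θ w (mem l hl)
  · intro d V a t0 s0 α θc h A l hl θ
    refine (main V A θ zero_le_one fun w => ?_).trans (by rw [one_mul])
    have e := WW_eq fBr ⟨d, V, a, t0, A.ha, A.ht⟩ α θc
    simp only at e
    simp only [one_mul, e]
    exact (hΨ _ V _ _ _ _ _ h A).xi Q hC (A.hθ.trans A.h1) θ w (mem l hl)
  · intro d V a t0 s0 α θc h A θ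
    refine (main V A θ zero_le_one fun w => ?_).trans (by rw [one_mul])
    have e := WW_eq fBr ⟨d, V, a, t0, A.ha, A.ht⟩ α θc
    have e' := WW_eq fG ⟨d, V, a, t0, A.ha, A.ht⟩ α θc
    simp only at e e'
    simp only [one_mul, e, e']
    exact (hΨ _ V _ _ _ _ _ h A).fd Q hC θ w
  · intro d V a t0 s0 α θc h A θ
    refine main V A θ (sq_nonneg θc) fun w => ?_
    have e := WW_eq fG ⟨d, V, a, t0, A.ha, A.ht⟩ α θc
    simp only at e
    simp only [e]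
    exact (hΨ _ V _ _ _ _ _ h A).pp Q hC θ w

end Vale.Agent.P347
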