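import Vale.Agent.P347.Inst
import Vale.Agent.P347.Calc
import Vale.Agent.P347.Cum
import Vale.Agent.P347.Flow

/-! P347 part Nodes: the flow, the chain rule and the energy bound. -/

open MeasureTheory Set Filter
open scoped ENNReal

noncomputable section
namespace Vale.Agent.P347.NodesAux

variable {d : ℕ}

/-- The vector with the given coordinates. -/
def vec (x : Fin d → ℝ) : E d := ∑ i, x i • ee i

@[simp] theorem vec_apply (x : Fin d → ℝ) (i : Fin d) : vec x i = x i := by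
  simp [vec, ee, Pi.single_apply]

theorem vec_sq (x : Fin d → ℝ) : ‖vec x‖ ^ 2 = ∑ i, x i ^ 2 := by
  simp [EuclideanSpace.real_norm_sq_eq]

theorem vec_deriv {f : Fin d → ℝ → ℝ} {f' : Fin d → ℝ} {S : Set ℝ} {τ : ℝ}
    (h : ∀ i, HasDerivWithinAt (f i) (f' i) S τ) :
    HasDerivWithinAt (fun τ => vec fun i => f i τ) (vec f') S τ :=
  HasDerivWithinAt.fun_sum fun i _ => (h i).smul_const _

theorem vec_cont {X : Type} [TopologicalSpace X] {f : Fin d → X → ℝ} (h : ∀ i, Continuous (f i)) :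
    Continuous fun y => vec fun i => f i y :=
  continuous_finsetSum _ fun i _ => (h i).smul continuous_const

theorem coord_le (x : E d) (i : Fin d) : |x i| ≤ ‖x‖ := PiLp.norm_apply_le x i

variable (I : Ins)

/-- Coordinates on the slice. -/
def co : Fin I.d ⊕ Fin I.d → E I.d × E I.d →L[ℝ] ℝ :=
  Sum.elim (fun i => (EuclideanSpace.proj i).comp (ContinuousLinearMap.fst ℝ _ _))
    fun i => (EuclideanSpace.proj i).comp (ContinuousLinearMap.snd ℝ _ _)

theorem trace_eq (L : E I.d × E I.d →L[ℝ] E I.d × E I.d) :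
    LinearMap.trace ℝ _ (L : E I.d × E I.d →ₗ[ℝ] E I.d × E I.d) = ∑ l, co I l (L (I.dirH l)) := by
  rw [LinearMap.trace_eq_matrix_trace ℝ ((EuclideanSpace.basisFun (Fin I.d) ℝ).toBasis.prod
    (EuclideanSpace.basisFun (Fin I.d) ℝ).toBasis), Matrix.trace]
  refine Finset.sum_congr rfl fun l _ => ?_
  rcases l with i | i <;>
    simp [LinearMap.toMatrix_apply, co, Ins.dirH, ee, Module.Basis.prod_apply]

theorem co_dir (l m : Fin I.d ⊕ Fin I.d) : co I l (I.dirH m) = if l = m then 1 else 0 := by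
  rcases l with i | i <;> rcases m with k | k <;> simp [co, Ins.dirH, ee]

theorem sum_dir (x : Fin I.d ⊕ Fin I.d → ℝ) :
    ∑ l, x l • I.dirH l = (vec fun i => x (Sum.inl i), vec fun i => x (Sum.inr i)) := by
  ext i <;> simp [Ins.dirH, Prod.fst_sum, Prod.snd_sum, ee, Pi.single_apply]

/-- The components of the velocity field. -/
def xl (α θc : ℝ) (l : Fin I.d ⊕ Fin I.d) : I.cal.A := α • I.cal.v l + θc • I.cal.B l

/-- The velocity field. -/
def Xf (α θc : ℝ) (y : Y I.d) : E I.d × E I.d := ∑ l, Sm.fn (xl I α θc l) y • I.dirH l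

theorem fderiv_X (α θc : ℝ) (f : Sm (Y I.d)) (y : Y I.d) :
    fderiv ℝ f y (α, 0, Xf I α θc y) =
      α * Sm.fn (I.cal.ds f) y + ∑ l, Sm.fn (xl I α θc l) y * Sm.fn (I.cal.dz l f) y := by
  have e : ((α, 0, Xf I α θc y) : Y I.d) =
      α • ((1, 0, 0, 0) : Y I.d) + ∑ l, Sm.fn (xl I α θc l) y • ((0, 0, I.dirH l) : Y I.d) := by
    ext1
    · simp [Prod.fst_sum]
    ext1
    · simp [Prod.fst_sum, Prod.snd_sum]
    · simp [Prod.snd_sum, Xf]
  rw [e, map_add, map_sum]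
  simp only [map_smul, smul_eq_mul]
  rfl

theorem X_apply (α θc : ℝ) (f : Sm (Y I.d)) (y : Y I.d) :
    Sm.fn (I.cal.X α θc f) y = fderiv ℝ f y (α, 0, Xf I α θc y) := by
  rw [fderiv_X]
  change I.cal.ev y (I.cal.X α θc f) = α * I.cal.ev y (I.cal.ds f) +
    ∑ l, I.cal.ev y (α • I.cal.v l + θc • I.cal.B l) * I.cal.ev y (I.cal.dz l f)
  simp only [Cal.X, Cal.X0, Cal.X1, map_add, map_smul, map_sum, map_mul, smul_eq_mul, mul_add,
    add_mul, Finset.mul_sum, Finset.sum_add_distrib, mul_assoc, add_assoc]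

theorem hg : ∀ k, ∃ c, ∀ I : Ins, I.cal.toDR.CB c k I.cal.Dg := fun k =>
  Cum.cb (fun I : Ins => I.cum I.f I.Jf) 4 (by norm_num) (fun I => I.cum_f_ax) k

theorem hv : ∀ k, ∃ c, ∀ I : Ins, I.cal.toDR.CB c k I.cal.Dv := fun k =>
  Cum.cb (fun I : Ins => I.cum I.u I.Ju) 4 (by norm_num) (fun I => I.cum_u_ax) k

theorem one_le_t0 : 1 ≤ I.t0 := by nlinarith [I.ha, I.ht]

theorem t0_le (s : ℝ) : I.t0 ≤ tS I.a I.t0 s := by unfold tS; nlinarith [sq_nonneg (I.a * s)]

theorem tS_le {s : ℝ} (hs : |s| ≤ 1) : tS I.a I.t0 s ≤ 2 * I.t0 := by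
  unfold tS
  have := (sq_le_one_iff_abs_le_one s).2 hs
  nlinarith [I.ht, sq_nonneg I.a]

/-- Linear growth on the slab. -/
def LG (f : Y I.d → ℝ) : Prop :=
  ∃ C, 0 ≤ C ∧ ∀ s θ w, |s| ≤ 1 → |f (s, θ, w)| ≤ C * (1 + ‖θ‖ + ‖w‖)

variable {I} in
theorem LG.of_le {κ : Type} [Fintype κ] {f : Y I.d → ℝ} {g : κ → Y I.d → ℝ} (hg : ∀ a, LG I (g a))
    (c : ℝ) (h : ∀ s θ w, |s| ≤ 1 → |f (s, θ, w)| ≤ c * (1 + ∑ a, |g a (s, θ, w)|)) : LG I f := by
  choose C h0 hC using hg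
  refine ⟨|c| * (1 + ∑ a, C a), mul_nonneg (abs_nonneg _) (add_nonneg zero_le_one
    (Finset.sum_nonneg fun a _ => h0 a)), fun s θ w hs => (h s θ w hs).trans ?_⟩
  rw [mul_assoc, add_mul, Finset.sum_mul]
  refine mul_le_mul (le_abs_self c) (add_le_add ?_ (Finset.sum_le_sum fun a _ => hC a s θ w hs))
    (by positivity) (abs_nonneg _)
  linarith [norm_nonneg θ, norm_nonneg w]

theorem LG_v (l : Fin I.d ⊕ Fin I.d) : LG I (Sm.fn (I.cal.v l)) := by
  rcases l with i | i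
  · refine ⟨I.a * (2 * I.a + 2 * √I.d + 2), by have := I.ha; positivity, fun s θ w hs => ?_⟩
    have h1 := (one_le_t0 I).trans (t0_le I s)
    have ha := I.ha
    have h2 : Sm.fn (I.cal.v (Sum.inl i)) (s, θ, w) = _ := I.v_inl i (s, θ, w)
    rw [h2, abs_div, abs_of_pos (by linarith : 0 < tS I.a I.t0 s)]
    refine (div_le_self (abs_nonneg _) h1).trans ((abs_sub _ _).trans ?_)
    simp only [gg]
    generalize tS I.a I.t0 s = t at h1
    have h3 : ‖thS I.a s θ w.1‖ ≤ ‖θ‖ + I.a * ‖w‖ := by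
      refine (norm_add_le _ _).trans (add_le_add le_rfl ?_)
      rw [norm_smul, Real.norm_eq_abs, abs_mul, abs_of_pos (by linarith : 0 < I.a)]
      exact mul_le_mul (mul_le_of_le_one_right (by linarith) hs) (norm_fst_le w) (norm_nonneg _)
        (by linarith)
    generalize thS I.a s θ w.1 = x at h3
    have h4 := MM_sub_F I.V h1 x
    have h5 := I.V.normF (t⁻¹ • x)
    have h6 : ‖t⁻¹ • x‖ ≤ ‖x‖ := by
      rw [norm_smul, Real.norm_of_nonneg (by positivity)]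
      exact mul_le_of_le_one_left (norm_nonneg _) (inv_le_one_of_one_le₀ h1)
    have h7 : √(I.d / t) ≤ √I.d := Real.sqrt_le_sqrt (div_le_self (by positivity) h1)
    have h8 : ‖t⁻¹ • x‖ / (2 * t) ≤ ‖t⁻¹ • x‖ / 2 := by gcongr; linarith
    have h9 : ‖MM I.V t x‖ ≤ ‖x‖ + 2 * √I.d := by
      linarith [norm_sub_norm_le (MM I.V t x) (I.V.F (t⁻¹ • x))]
    rw [abs_mul, PiLp.smul_apply, smul_eq_mul, abs_mul, abs_of_pos (by linarith : 0 < I.a),
      ← mul_add, mul_assoc]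
    refine mul_le_mul_of_nonneg_left ?_ (by linarith)
    have h10 := Real.sqrt_nonneg (I.d : ℝ)
    nlinarith [coord_le x i, coord_le (MM I.V t x) i, norm_nonneg θ, norm_nonneg w,
      mul_nonneg h10 (norm_nonneg θ), mul_nonneg h10 (norm_nonneg w),
      mul_nonneg (by linarith : 0 ≤ I.a) (norm_nonneg θ)]
  · rw [I.v_inr]
    exact ⟨0, le_rfl, fun s θ w _ => by rw [zero_mul]; exact abs_zero.le⟩

theorem LG_z (l : Fin I.d ⊕ Fin I.d) : LG I (Sm.fn (I.cal.z l)) := by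
  refine ⟨1, zero_le_one, fun s θ w _ => ?_⟩
  rcases l with i | i
  · exact (coord_le w.1 i).trans (by linarith [norm_fst_le w, norm_nonneg θ])
  · exact (coord_le w.2 i).trans (by linarith [norm_snd_le w, norm_nonneg θ])

theorem LG_h (l : Fin I.d ⊕ Fin I.d) : LG I (Sm.fn (I.cal.h l)) := by
  refine LG.of_le (g := fun b : Bool => bif b then Sm.fn (I.cal.z l) else Sm.fn (I.cal.v l))
    (fun b => by cases b; exacts [LG_v I l, LG_z I l]) 1 fun s θ w hs => ?_
  have e : Sm.fn (I.cal.h l) (s, θ, w) =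
      Sm.fn (I.cal.z l) (s, θ, w) - s * Sm.fn (I.cal.v l) (s, θ, w) := rfl
  rw [e]
  refine (abs_sub _ _).trans ?_
  rw [abs_mul]
  simp only [Fintype.sum_bool, cond_true, cond_false]
  nlinarith [abs_nonneg (Sm.fn (I.cal.v l) (s, θ, w))]

theorem LG_B (m : Fin I.d ⊕ Fin I.d) : LG I (Sm.fn (I.cal.B m)) := by
  obtain ⟨C, hC⟩ := Cal.B_growth Ins.cal 3 Ins.cal_ax hg
  refine LG.of_le (LG_h I) (|C| * (Fintype.card I.cal.N + 1)) fun s θ w hs => ?_
  refine (hC I ⟨(s, θ), hs⟩ w m).trans ?_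
  change C * (_ + ∑ l : Fin I.d ⊕ Fin I.d, |Sm.fn (I.cal.h l) (s, θ, w)|) ≤ _
  have h1 : 0 ≤ ∑ l : Fin I.d ⊕ Fin I.d, |Sm.fn (I.cal.h l) (s, θ, w)| := by positivity
  generalize ∑ l : Fin I.d ⊕ Fin I.d, |Sm.fn (I.cal.h l) (s, θ, w)| = S at h1
  have h2 : (0 : ℝ) ≤ Fintype.card I.cal.N := by positivity
  rw [mul_assoc]
  exact mul_le_mul (le_abs_self C) (by nlinarith) (by positivity) (abs_nonneg C)

theorem LG_X (α θc : ℝ) : LG I fun y => ‖Xf I α θc y‖ := by
  refine LG.of_le (g := Sum.elim (fun l => Sm.fn (I.cal.v l)) fun l => Sm.fn (I.cal.B l))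
    (fun l => by rcases l with l | l; exacts [LG_v I l, LG_B I l]) (|α| + |θc|)
    fun s θ w hs => ?_
  rw [abs_norm, Fintype.sum_sum_type]
  refine (norm_sum_le _ _).trans ?_
  have h1 : ∀ l, ‖I.dirH l‖ = 1 := fun l => by rcases l with i | i <;> simp [Ins.dirH, ee]
  simp only [norm_smul, h1, mul_one, Sum.elim_inl, Sum.elim_inr, ← Finset.sum_add_distrib]
  rw [mul_add, Finset.mul_sum]
  refine le_add_of_nonneg_of_le (by positivity) (Finset.sum_le_sum fun l _ => ?_)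
  have e : Sm.fn (xl I α θc l) (s, θ, w) =
      α * Sm.fn (I.cal.v l) (s, θ, w) + θc * Sm.fn (I.cal.B l) (s, θ, w) := rfl
  rw [e, Real.norm_eq_abs]
  refine (abs_add_le _ _).trans ?_
  rw [abs_mul, abs_mul]
  nlinarith [mul_nonneg (abs_nonneg α) (abs_nonneg (Sm.fn (I.cal.B l) (s, θ, w))),
    mul_nonneg (abs_nonneg θc) (abs_nonneg (Sm.fn (I.cal.v l) (s, θ, w)))]

theorem s_le {q : ℕ} {s0 α τ : ℝ} (h0 : |s0| ≤ 1) (h1 : |s0 + α * q| ≤ 1)
    (hτ : τ ∈ Icc (0 : ℝ) q) : |s0 + α * τ| ≤ 1 := by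
  rw [abs_le] at h0 h1 ⊢
  rcases le_total 0 α with h | h <;> constructor <;> nlinarith [hτ.1, hτ.2]

/-- The properties of the flow. -/
structure IsFlow (q : ℕ) (s0 α θc : ℝ) (Ψ : E I.d × E I.d × E I.d → ℝ → E I.d × E I.d) : Prop where
  meas : Measurable fun w : (E I.d × E I.d × E I.d) × ℝ => Ψ w.1 w.2
  zero : ∀ y, Ψ y 0 = y.2
  deriv : ∀ θ w, ∀ τ ∈ Icc (0 : ℝ) q, HasDerivWithinAt (Ψ (θ, w))
    (Xf I α θc (s0 + α * τ, θ, Ψ (θ, w) τ)) (Icc 0 q) τ
  law : ∀ θ, ∀ τ ∈ Icc (0 : ℝ) q, MeasurePreserving (fun w => Ψ (θ, w) τ)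
    (rho I.V I.a I.t0 s0 θ) (rho I.V I.a I.t0 (s0 + α * τ) θ)

theorem flow (q : ℕ) {s0 α : ℝ} (θc : ℝ) (h0 : |s0| ≤ 1) (h1 : |s0 + α * q| ≤ 1) :
    ∃ Ψ, IsFlow I q s0 α θc Ψ := by
  obtain ⟨ell, e1, e2, e3⟩ := I.exists_ell
  obtain ⟨C, -, hC⟩ := LG_X I α θc
  let A : E I.d × ℝ × E I.d × E I.d → Y I.d := fun p => (s0 + α * p.2.1, p.1, p.2.2)
  have hA : ContDiff ℝ 1 A := by fun_prop
  have s1 : ∀ f : Sm (Y I.d), ContDiff ℝ 1 f := fun f => f.smooth.of_le (by simp)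
  have : (volume : Measure (E I.d × E I.d)).IsAddHaarMeasure :=
    Measure.prod.instIsAddHaarMeasure _ _
  obtain ⟨Ψ, a1, a2, a3, a4⟩ := flow_exists (P := E I.d) (H := E I.d × E I.d) volume
    (fun p => Xf I α θc (A p))
    (ContDiff.sum fun l _ => ((s1 _).comp hA).smul contDiff_const)
    (fun p => ell (A p)) ((s1 _).comp hA) q (Nat.cast_nonneg q) C
    (fun p τ hτ y => by simpa using hC _ p y (s_le h0 h1 hτ))
    (fun p τ hτ y => by
      have d1 : HasFDerivAt A ((α • ((ContinuousLinearMap.fst ℝ ℝ (E I.d × E I.d)).comp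
          (ContinuousLinearMap.snd ℝ (E I.d) _))).prod ((ContinuousLinearMap.fst ℝ _ _).prod
          ((ContinuousLinearMap.snd ℝ _ _).comp (ContinuousLinearMap.snd ℝ _ _)))) (p, τ, y) :=
        (((hasFDerivAt_fst.comp _ hasFDerivAt_snd).const_mul α).const_add s0).prodMk
          (hasFDerivAt_fst.prodMk (hasFDerivAt_snd.comp _ hasFDerivAt_snd))
      have d2 : ∀ f : Sm (Y I.d), HasFDerivAt (fun y' => f (A (p, τ, y')))
          ((fderiv ℝ f (A (p, τ, y))).comp ((0 : _ →L[ℝ] ℝ).prod ((0 : _ →L[ℝ] E I.d).prod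
            (ContinuousLinearMap.id ℝ _)))) y := fun f =>
        (f.hasF _).comp y ((hasFDerivAt_const (s0 + α * τ) y).prodMk
          ((hasFDerivAt_const p y).prodMk (hasFDerivAt_id y)))
      have d3 := HasFDerivAt.fun_sum (u := Finset.univ) fun l _ =>
        (d2 (xl I α θc l)).smul_const (I.dirH l)
      have d4 : fderiv ℝ (fun p => ell (A p)) (p, τ, y) = _ := ((ell.hasF _).comp _ d1).fderiv
      have d5 : fderiv ℝ (fun y' => Xf I α θc (A (p, τ, y'))) y = _ := d3.fderiv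
      rw [d4, d5, trace_eq]
      have d6 : fderiv ℝ ell (A (p, τ, y)) (α, 0, Xf I α θc (A (p, τ, y))) =
          α * I.cal.ev (A (p, τ, y)) (I.cal.ds ell) + ∑ l : I.cal.N, I.cal.ev (A (p, τ, y))
            (xl I α θc l) * I.cal.ev (A (p, τ, y)) (I.cal.dz l ell) := fderiv_X I α θc ell _
      have d7 : I.cal.δ (xl I α θc) = α • I.cal.δ I.cal.v := by
        have h3 : I.cal.δ (xl I α θc) = α • I.cal.δ I.cal.v + θc • I.cal.δ I.cal.B := by
          simp only [Cal.δ, Finset.smul_sum, ← Finset.sum_add_distrib]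
          refine Finset.sum_congr rfl fun l _ => ?_
          change I.cal.h l * (α • I.cal.v l + θc • I.cal.B l) -
            I.cal.dz l (α • I.cal.v l + θc • I.cal.B l) = _
          simp only [map_add, Derivation.map_smul, mul_add, mul_smul_comm, smul_sub]
          abel
        rw [h3, Cal.div_B I.cal_ax, smul_zero, add_zero]
      have d8 : I.cal.ev (A (p, τ, y)) (∑ l : I.cal.N, (I.cal.h l * xl I α θc l -
          I.cal.dz l (xl I α θc l))) = I.cal.ev (A (p, τ, y)) (α • I.cal.δ I.cal.v) :=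
        congrArg (I.cal.ev (A (p, τ, y))) d7
      rw [map_smul, ← e3, map_sum] at d8
      simp only [map_sub, map_mul, Finset.sum_sub_distrib] at d8
      simp only [e2] at d6
      simp only [ContinuousLinearMap.comp_apply, ContinuousLinearMap.prod_apply,
        ContinuousLinearMap.coe_fst', ContinuousLinearMap.coe_snd', smul_apply, smul_eq_mul,
        mul_one, sum_apply, ContinuousLinearMap.smulRight_apply, map_sum,
        map_smul, co_dir, mul_ite, mul_zero, Finset.sum_ite_eq, Finset.mem_univ, if_true]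
      rw [d6]
      change α * I.cal.ev _ (I.cal.ds ell) + ∑ l : I.cal.N, I.cal.ev _ (xl I α θc l) *
        I.cal.ev _ (-I.cal.h l) + ∑ l : I.cal.N, I.cal.ev (A (p, τ, y))
          (I.cal.dz l (xl I α θc l)) = 0
      simp only [map_neg, mul_neg, Finset.sum_neg_distrib]
      simp only [smul_eq_mul, mul_comm (I.cal.ev (A (p, τ, y)) (I.cal.h _))] at d8
      linarith)
    (fun p τ hτ => by
      have := (I.cal_ax.prob ⟨(s0 + α * τ, p), s_le h0 h1 hτ⟩).measure_univ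
      change rho I.V I.a I.t0 (s0 + α * τ) p univ = 1 at this
      rwa [e1, withDensity_apply _ MeasurableSet.univ, Measure.restrict_univ] at this)
  refine ⟨Ψ, a1, fun y => a2 y.1 y.2, a3, fun θ τ hτ => ⟨a1.comp (f := fun w => ((θ, w), τ))
    (by fun_prop), ?_⟩⟩
  have := a4 θ τ hτ
  simp only [A, mul_zero, add_zero] at this
  rw [e1, e1, this]

end Vale.Agent.P347.NodesAux
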