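import Vale.Agent.P347.NodesA

/-! P347 part Nodes: energy bound and the integrated identities along the flow. -/

open MeasureTheory Set Filter
open scoped ENNReal

noncomputable section
namespace Vale.Agent.P347.NodesAux

theorem eLp {Ω G : Type} [MeasurableSpace Ω] [NormedAddCommGroup G] {μ : Measure Ω} {e : Ω → G}
    {En : Ω → ℝ} {c M : ℝ} (hc : 0 ≤ c) (hM : 0 ≤ M) (h : ∀ w, ‖e w‖ ^ 2 ≤ c ^ 2 * En w)
    (hE : ∫⁻ w, ENNReal.ofReal (En w) ∂μ ≤ ENNReal.ofReal (M ^ 2)) :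
    eLpNorm e 2 μ ≤ ENNReal.ofReal (c * M) := by
  rw [eLpNorm_eq_lintegral_rpow_enorm_toReal (by simp) (by simp)]
  have e1 : ∀ w, ‖e w‖ₑ ^ (2 : ℝ≥0∞).toReal = ENNReal.ofReal (‖e w‖ ^ 2) := fun w => by
    rw [← ofReal_norm, ENNReal.ofReal_pow (norm_nonneg _)]
    simp
  have h1 : ∫⁻ w, ENNReal.ofReal (‖e w‖ ^ 2) ∂μ ≤ ENNReal.ofReal (c * M) ^ (2 : ℝ) := by
    rw [ENNReal.ofReal_rpow_of_nonneg (by positivity) (by norm_num), Real.rpow_two, mul_pow,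
      ENNReal.ofReal_mul (sq_nonneg c)]
    refine le_trans (lintegral_mono fun w => ?_) ((lintegral_const_mul' _ _
      ENNReal.ofReal_ne_top).le.trans (mul_le_mul_right hE _))
    simp only
    rw [← ENNReal.ofReal_mul (sq_nonneg c)]
    exact ENNReal.ofReal_le_ofReal (h w)
  simp only [e1]
  refine (ENNReal.rpow_le_rpow h1 (by simp)).trans (le_of_eq ?_)
  rw [← ENNReal.rpow_mul]
  simp

theorem ftc {G : Type} [NormedAddCommGroup G] [NormedSpace ℝ G] [CompleteSpace G] {f f' : ℝ → G}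
    {T l : ℝ} (h : ∀ τ ∈ Icc 0 T, HasDerivWithinAt f (f' τ) (Icc 0 T) τ)
    (hc : ContinuousOn f' (Icc 0 T)) (hl : l ∈ Icc 0 T) : ∫ τ in (0 : ℝ)..l, f' τ = f l - f 0 := by
  have hs : Icc 0 l ⊆ Icc 0 T := Icc_subset_Icc_right hl.2
  refine intervalIntegral.integral_eq_sub_of_hasDeriv_right_of_le hl.1
    (fun τ hτ => ((h τ (hs hτ)).continuousWithinAt).mono hs) (fun τ hτ => ?_)
    ((hc.mono hs).intervalIntegrable_of_Icc hl.1)
  exact ((h τ (hs (Ioo_subset_Icc_self hτ))).hasDerivAt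
    (Icc_mem_nhds hτ.1 (hτ.2.trans_le hl.2))).hasDerivWithinAt

theorem coef_le {q : ℕ} {L ψ : ℝ → ℝ} {C b l : ℝ} (hL : ∀ τ ∈ Icc (0 : ℝ) q, |L τ| ≤ C)
    (hψ : ∀ τ ∈ Icc (0 : ℝ) q, |ψ τ| ≤ b) (hl : l ∈ Icc (0 : ℝ) q) :
    |∫ τ in (0 : ℝ)..l, ψ τ * L τ| ≤ q * C * b := by
  have h0 : (0 : ℝ) ∈ Icc (0 : ℝ) q := ⟨le_rfl, Nat.cast_nonneg q⟩
  have hb := (abs_nonneg _).trans (hψ 0 h0)
  have hC := (abs_nonneg _).trans (hL 0 h0)
  have := intervalIntegral.norm_integral_le_of_norm_le_const (a := 0) (b := l) (C := b * C)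
    (f := fun τ => ψ τ * L τ) fun τ hτ => by
      rw [uIoc_of_le hl.1] at hτ
      have h1 : τ ∈ Icc (0 : ℝ) q := ⟨hτ.1.le, hτ.2.trans hl.2⟩
      rw [Real.norm_eq_abs, abs_mul]
      exact mul_le_mul (hψ τ h1) (hL τ h1) (abs_nonneg _) hb
  rw [sub_zero, abs_of_nonneg hl.1] at this
  nlinarith [mul_le_mul_of_nonneg_left hl.2 (mul_nonneg hb hC), Real.norm_eq_abs
    (∫ τ in (0 : ℝ)..l, ψ τ * L τ)]

variable (I : Ins)

/-- The vector of the `k`-th flow derivatives. -/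
def FF (α θc : ℝ) (φ : Fin I.d → I.cal.A) (k : ℕ) (y : Y I.d) : E I.d :=
  vec fun i => Sm.fn ((I.cal.X α θc)^[k] (φ i)) y

theorem FF_cont (α θc : ℝ) (φ : Fin I.d → I.cal.A) (k : ℕ) : Continuous (FF I α θc φ k) :=
  vec_cont fun _ => Sm.cont _

/-- The total energy density. -/
def Gt (q : ℕ) (α θc : ℝ) (y : Y I.d) : ℝ :=
  ∑ m, I.cal.ev y ((I.cal.X α θc)^[q + 1] (I.cal.B m)) ^ 2 +
    ∑ m, I.cal.ev y ((I.cal.X α θc)^[q + 1] (I.cal.X1 (I.cal.g m))) ^ 2 +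
    ∑ m, I.cal.ev y ((I.cal.X α θc)^[q + 1] (I.cal.g m)) ^ 2

theorem Gt_cont (q : ℕ) (α θc : ℝ) : Continuous (Gt I q α θc) :=
  ((continuous_finsetSum _ fun _ _ => (Sm.cont _).pow 2).add
    (continuous_finsetSum _ fun _ _ => (Sm.cont _).pow 2)).add
    (continuous_finsetSum _ fun _ _ => (Sm.cont _).pow 2)

theorem Gt_nn (q : ℕ) (α θc : ℝ) (y : Y I.d) : 0 ≤ Gt I q α θc y := by unfold Gt; positivity

theorem sum_inl (x : Fin I.d ⊕ Fin I.d → ℝ) : ∑ i, x (Sum.inl i) ^ 2 ≤ ∑ m, x m ^ 2 := by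
  rw [Fintype.sum_sum_type]; exact le_add_of_nonneg_right (by positivity)

theorem sum_inr (x : Fin I.d ⊕ Fin I.d → ℝ) : ∑ i, x (Sum.inr i) ^ 2 ≤ ∑ m, x m ^ 2 := by
  rw [Fintype.sum_sum_type]; exact le_add_of_nonneg_left (by positivity)

/-- The four families whose energies are controlled. -/
def fBl : Fin I.d → I.cal.A := fun i => I.cal.B (Sum.inl i)
def fBr : Fin I.d → I.cal.A := fun i => I.cal.B (Sum.inr i)
def fG : Fin I.d → I.cal.A := fun i => I.cal.X1 (I.cal.g (Sum.inl i))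
def fg : Fin I.d → I.cal.A := fun i => I.cal.g (Sum.inl i)

/-- The energy of the family is dominated by the total energy. -/
def Dom (q : ℕ) (α θc : ℝ) (φ : Fin I.d → I.cal.A) : Prop :=
  ∀ y, ‖FF I α θc φ (q + 1) y‖ ^ 2 ≤ Gt I q α θc y

theorem dom_Bl (q : ℕ) (α θc : ℝ) : Dom I q α θc (fBl I) := fun y => by
  rw [FF, vec_sq]
  refine (sum_inl I fun m => I.cal.ev y ((I.cal.X α θc)^[q + 1] (I.cal.B m))).trans ?_
  exact le_add_of_le_of_nonneg (le_add_of_nonneg_right (by positivity)) (by positivity)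

theorem dom_Br (q : ℕ) (α θc : ℝ) : Dom I q α θc (fBr I) := fun y => by
  rw [FF, vec_sq]
  refine (sum_inr I fun m => I.cal.ev y ((I.cal.X α θc)^[q + 1] (I.cal.B m))).trans ?_
  exact le_add_of_le_of_nonneg (le_add_of_nonneg_right (by positivity)) (by positivity)

theorem dom_G (q : ℕ) (α θc : ℝ) : Dom I q α θc (fG I) := fun y => by
  rw [FF, vec_sq]
  refine (sum_inl I fun m => I.cal.ev y ((I.cal.X α θc)^[q + 1] (I.cal.X1 (I.cal.g m)))).trans ?_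
  exact le_add_of_le_of_nonneg (le_add_of_nonneg_left (by positivity)) (by positivity)

theorem dom_g (q : ℕ) (α θc : ℝ) : Dom I q α θc (fg I) := fun y => by
  rw [FF, vec_sq]
  refine (sum_inl I fun m => I.cal.ev y ((I.cal.X α θc)^[q + 1] (I.cal.g m))).trans ?_
  exact le_add_of_nonneg_left (by positivity)

theorem FF_g (α θc : ℝ) (y : Y I.d) :
    FF I α θc (fg I) 0 y = gg I.V I.a I.t0 y.1 y.2.1 y.2.2.1 := by
  ext i
  rw [FF, vec_apply]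
  exact I.g_inl i y

theorem B_inr (i : Fin I.d) :
    I.cal.B (Sum.inr i) = I.cal.δ fun l => I.cal.D l (I.cal.g (Sum.inl i)) := by
  unfold Cal.B
  congr 1
  funext l
  exact (congrArg (fun x => I.cal.D l (I.cal.g (Sum.inl i)) - x)
    (Sm.D_zero_dir (I.cal.g (I.cal.τ l)))).trans (sub_zero _)

theorem FF_g1 (α θc : ℝ) (y : Y I.d) :
    FF I α θc (fg I) 1 y = α • FF I α θc (fBr I) 0 y + θc • FF I α θc (fG I) 0 y := by
  ext i
  simp only [FF, PiLp.add_apply, PiLp.smul_apply, vec_apply, Function.iterate_one,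
    Function.iterate_zero, id, fg, fBr, fG, B_inr]
  exact congrArg (fun f => Sm.fn f y) (Cal.X_g I.cal_ax α θc (Sum.inl i))

theorem Xf_fst (α θc : ℝ) (y : Y I.d) : (Xf I α θc y).1 =
    (α / tS I.a I.t0 y.1) • (I.a • thS I.a y.1 y.2.1 y.2.2.1 - FF I α θc (fg I) 0 y) +
      θc • FF I α θc (fBl I) 0 y := by
  rw [Xf, sum_dir, FF_g]
  ext i
  simp only [FF, PiLp.add_apply, PiLp.smul_apply, PiLp.sub_apply, vec_apply, smul_eq_mul]
  rw [div_mul_eq_mul_div, mul_div_assoc, ← I.v_inl i y]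
  rfl

theorem Xf_snd (α θc : ℝ) (y : Y I.d) : (Xf I α θc y).2 = θc • FF I α θc (fBr I) 0 y := by
  rw [Xf, sum_dir]
  ext i
  simp only [FF, PiLp.smul_apply, vec_apply, smul_eq_mul, xl, I.v_inr, smul_zero, zero_add]
  rfl

theorem bound (q : ℕ) : ∃ C : ℝ, 0 ≤ C ∧ ∀ (I : Ins) (α θc h s : ℝ) (θ : E I.d), |α| ≤ 2 * h →
    |θc| ≤ h → |s| ≤ 1 → ∫⁻ w, ENNReal.ofReal (Gt I q α θc (s, θ, w)) ∂(rho I.V I.a I.t0 s θ) ≤
      ENNReal.ofReal (C * h ^ (2 * (q + 1)) * I.d) := by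
  obtain ⟨C1, a1, b1⟩ := Cal.bound Ins.cal 3 Ins.cal_ax hg hv (q + 1)
  obtain ⟨C2, a2, b2⟩ := Cal.bound Ins.cal 3 Ins.cal_ax hg hv q
  refine ⟨(C1 + C1 + C2) * 3 ^ (2 * (q + 1)) * 2, by positivity, fun I α θc h s θ h1 h2 hs => ?_⟩
  let j : I.cal.J := ⟨(s, θ), hs⟩
  have e1 := CalcAux.lint_add I.cal_ax j (fun m => (I.cal.X α θc)^[q + 1] (I.cal.B m))
    fun m => (I.cal.X α θc)^[q + 1] (I.cal.X1 (I.cal.g m))
  have e2 : ∫⁻ w, ENNReal.ofReal (Gt I q α θc (s, θ, w)) ∂(rho I.V I.a I.t0 s θ) =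
      I.cal.nrm j (fun m => (I.cal.X α θc)^[q + 1] (I.cal.B m)) +
      I.cal.nrm j (fun m => (I.cal.X α θc)^[q + 1] (I.cal.X1 (I.cal.g m))) +
      I.cal.nrm j (fun m => (I.cal.X α θc)^[q + 1] (I.cal.g m)) := by
    rw [← e1]
    refine Eq.trans ?_ (lintegral_add_right _ (CalcAux.sq_meas I.cal_ax j
      fun m => (I.cal.X α θc)^[q + 1] (I.cal.g m)).ennreal_ofReal)
    exact lintegral_congr fun w => ENNReal.ofReal_add (by positivity) (by positivity)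
  rw [e2]
  refine (add_le_add (add_le_add (b1 I j α θc).1 (b1 I j α θc).2.1) (b2 I j α θc).2.2).trans ?_
  rw [← ENNReal.ofReal_add (by positivity) (by positivity),
    ← ENNReal.ofReal_add (by positivity) (by positivity)]
  refine ENNReal.ofReal_le_ofReal ?_
  have e3 : (Fintype.card I.cal.N : ℝ) = 2 * I.d := by
    change ((Fintype.card (Fin I.d ⊕ Fin I.d) : ℕ) : ℝ) = _
    simp [two_mul]
  have h3 : (|α| + |θc|) ^ (2 * (q + 1)) ≤ (3 * h) ^ (2 * (q + 1)) :=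
    pow_le_pow_left₀ (by positivity) (by linarith) _
  rw [e3, ← add_mul, ← add_mul, ← add_mul, ← add_mul]
  calc _ ≤ (C1 + C1 + C2) * (3 * h) ^ (2 * (q + 1)) * (2 * I.d) := by gcongr
    _ = _ := by rw [mul_pow]; ring

variable {I} {q : ℕ} {s0 α θc : ℝ} {Ψ : E I.d × E I.d × E I.d → ℝ → E I.d × E I.d}

/-- The point of the trajectory at time `τ`. -/
def pt (I : Ins) (s0 α : ℝ) (Ψ : E I.d × E I.d × E I.d → ℝ → E I.d × E I.d) (θ : E I.d)
    (w : E I.d × E I.d) (τ : ℝ) : Y I.d := (s0 + α * τ, θ, Ψ (θ, w) τ)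

/-- The energy of a trajectory. -/
def En (I : Ins) (q : ℕ) (s0 α θc : ℝ) (Ψ : E I.d × E I.d × E I.d → ℝ → E I.d × E I.d) (θ : E I.d)
    (w : E I.d × E I.d) : ℝ := ∫ τ in (0 : ℝ)..q, Gt I q α θc (pt I s0 α Ψ θ w τ)

theorem En_nn (θ w) : 0 ≤ En I q s0 α θc Ψ θ w :=
  intervalIntegral.integral_nonneg (Nat.cast_nonneg q) fun _ _ => Gt_nn _ _ _ _ _

theorem IsFlow.pt_zero (H : IsFlow I q s0 α θc Ψ) (θ w) : pt I s0 α Ψ θ w 0 = (s0, θ, w) := by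
  simp [pt, H.zero]

theorem IsFlow.pt_deriv (H : IsFlow I q s0 α θc Ψ) (θ w) {τ : ℝ} (hτ : τ ∈ Icc (0 : ℝ) q) :
    HasDerivWithinAt (pt I s0 α Ψ θ w) (α, 0, Xf I α θc (pt I s0 α Ψ θ w τ)) (Icc 0 q) τ := by
  have h1 : HasDerivWithinAt (fun τ => s0 + α * τ) α (Icc 0 q) τ := by
    simpa using (((hasDerivAt_id τ).const_mul α).const_add s0).hasDerivWithinAt
  exact h1.prodMk ((hasDerivWithinAt_const _ _ θ).prodMk (H.deriv θ w τ hτ))

theorem IsFlow.pt_cont (H : IsFlow I q s0 α θc Ψ) (θ w) :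
    ContinuousOn (pt I s0 α Ψ θ w) (Icc 0 q) := fun _ hτ => (H.pt_deriv θ w hτ).continuousWithinAt

theorem IsFlow.FF_deriv (H : IsFlow I q s0 α θc Ψ) (θ w) (φ : Fin I.d → I.cal.A) (k : ℕ) {τ : ℝ}
    (hτ : τ ∈ Icc (0 : ℝ) q) : HasDerivWithinAt (fun τ => FF I α θc φ k (pt I s0 α Ψ θ w τ))
      (FF I α θc φ (k + 1) (pt I s0 α Ψ θ w τ)) (Icc 0 q) τ :=
  vec_deriv fun i => by
    rw [Function.iterate_succ_apply']
    exact ((Sm.hasF _ _).comp_hasDerivWithinAt τ (H.pt_deriv θ w hτ)).congr_deriv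
      (X_apply I α θc _ _).symm

theorem IsFlow.FF_contOn (H : IsFlow I q s0 α θc Ψ) (θ w) (φ : Fin I.d → I.cal.A) (k : ℕ) :
    ContinuousOn (fun τ => FF I α θc φ k (pt I s0 α Ψ θ w τ)) (Icc 0 q) :=
  (FF_cont I α θc φ k).comp_continuousOn (H.pt_cont θ w)

theorem IsFlow.en_le (H : IsFlow I q s0 α θc Ψ) (θ w) {φ : Fin I.d → I.cal.A}
    (hφ : Dom I q α θc φ) : ∫ τ in (0 : ℝ)..q, ‖FF I α θc φ (q + 1) (pt I s0 α Ψ θ w τ)‖ ^ 2 ≤
      En I q s0 α θc Ψ θ w :=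
  intervalIntegral.integral_mono_on (Nat.cast_nonneg q)
    (((H.FF_contOn θ w φ _).norm.pow 2).intervalIntegrable_of_Icc (Nat.cast_nonneg q))
    (((Gt_cont I q α θc).comp_continuousOn (H.pt_cont θ w)).intervalIntegrable_of_Icc
      (Nat.cast_nonneg q)) fun _ _ => hφ _

theorem IsFlow.energy (H : IsFlow I q s0 α θc Ψ) (h0 : |s0| ≤ 1) (h1 : |s0 + α * q| ≤ 1) (θ)
    {M : ℝ} (hM : ∀ s, |s| ≤ 1 →
      ∫⁻ w, ENNReal.ofReal (Gt I q α θc (s, θ, w)) ∂(rho I.V I.a I.t0 s θ) ≤ ENNReal.ofReal M) :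
    ∫⁻ w, ENNReal.ofReal (En I q s0 α θc Ψ θ w) ∂(rho I.V I.a I.t0 s0 θ) ≤
      ENNReal.ofReal (q * M) := by
  have hp : IsProbabilityMeasure (rho I.V I.a I.t0 s0 θ) := I.cal_ax.prob ⟨(s0, θ), h0⟩
  have hG := (Gt_cont I q α θc).measurable
  have a1 : ∀ w, ENNReal.ofReal (En I q s0 α θc Ψ θ w) ≤
      ∫⁻ τ in Ioc (0 : ℝ) q, ENNReal.ofReal (Gt I q α θc (pt I s0 α Ψ θ w τ)) := fun w => by
    rw [En, intervalIntegral.integral_of_le (Nat.cast_nonneg q)]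
    exact GauAux.ofReal_integral_le (((Gt_cont I q α θc).comp_continuousOn
      (H.pt_cont θ w)).intervalIntegrable_of_Icc (Nat.cast_nonneg q)).1
  refine (lintegral_mono a1).trans ?_
  have hΨ := H.meas.comp (f := fun p : (E I.d × E I.d) × ℝ => ((θ, p.1), p.2)) (by fun_prop)
  rw [lintegral_lintegral_swap (Measurable.aemeasurable (hG.comp
    ((by fun_prop : Measurable fun p : (E I.d × E I.d) × ℝ => s0 + α * p.2).prodMk
      (measurable_const.prodMk hΨ))).ennreal_ofReal)]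
  refine (setLIntegral_mono' (g := fun _ => ENNReal.ofReal M) measurableSet_Ioc
    fun τ hτ => ?_).trans ?_
  · have h2 := Ioc_subset_Icc_self hτ
    refine le_trans (le_of_eq ?_) (hM _ (s_le h0 h1 h2))
    exact (H.law θ τ h2).lintegral_comp (f := fun w => ENNReal.ofReal
      (Gt I q α θc (s0 + α * τ, θ, w))) (hG.comp (by fun_prop)).ennreal_ofReal
  · rw [setLIntegral_const, Real.volume_Ioc, sub_zero, mul_comm,
      ENNReal.ofReal_mul (Nat.cast_nonneg q)]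

/-- The square root of the precision along the flow. -/
def rr (a t0 s : ℝ) : ℝ := √(tS a t0 s)

theorem rr_pos (I : Ins) (s : ℝ) : 0 < rr I.a I.t0 s :=
  Real.sqrt_pos.2 (by linarith [one_le_t0 I, t0_le I s])

theorem rr_sq (I : Ins) (s : ℝ) : rr I.a I.t0 s ^ 2 = tS I.a I.t0 s :=
  Real.sq_sqrt (by linarith [one_le_t0 I, t0_le I s])

theorem rr_le (I : Ins) {s : ℝ} (hs : |s| ≤ 1) (s' : ℝ) : rr I.a I.t0 s ≤ 2 * rr I.a I.t0 s' := by
  refine (sq_le_sq₀ (rr_pos I s).le (by linarith [rr_pos I s'])).1 ?_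
  rw [mul_pow, rr_sq, rr_sq]
  linarith [tS_le I hs, t0_le I s', one_le_t0 I]

theorem rr_cont (a t0 : ℝ) : Continuous (rr a t0) := by unfold rr tS; fun_prop

theorem IsFlow.n_deriv (H : IsFlow I q s0 α θc Ψ) (θ w) {τ : ℝ} (hτ : τ ∈ Icc (0 : ℝ) q) :
    HasDerivWithinAt
      (fun τ => (rr I.a I.t0 (s0 + α * τ))⁻¹ • nn I.a I.t0 (s0 + α * τ) θ (Ψ (θ, w) τ).1)
      ((-α / rr I.a I.t0 (s0 + α * τ) ^ 3) • FF I α θc (fg I) 0 (pt I s0 α Ψ θ w τ) +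
        (θc / rr I.a I.t0 (s0 + α * τ)) • FF I α θc (fBl I) 0 (pt I s0 α Ψ θ w τ)) (Icc 0 q) τ := by
  have h1 : HasDerivAt (fun τ => s0 + α * τ) α τ := by
    simpa using ((hasDerivAt_id τ).const_mul α).const_add s0
  have r0 := rr_pos I (s0 + α * τ)
  have r2 := rr_sq I (s0 + α * τ)
  have t0 : I.t0 ≠ 0 := by linarith [one_le_t0 I]
  have h2 : HasDerivAt (fun τ => rr I.a I.t0 (s0 + α * τ)) _ τ :=
    (((h1.const_mul I.a).pow 2).const_add I.t0).sqrt (by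
      change tS I.a I.t0 (s0 + α * τ) ≠ 0
      rw [← r2]; positivity)
  have h3 : HasDerivWithinAt (fun τ => (Ψ (θ, w) τ).1) (Xf I α θc (pt I s0 α Ψ θ w τ)).1
      (Icc 0 q) τ := (H.deriv θ w τ hτ).fst
  have h4 := (h2.fun_inv r0.ne').hasDerivWithinAt.smul (h3.sub
    (((h1.const_mul I.a).div_const I.t0).smul_const θ).hasDerivWithinAt)
  refine h4.congr_deriv ?_
  change _ • (_ - _) + (-(_ / (2 * rr I.a I.t0 (s0 + α * τ))) / _) • _ = _
  rw [Xf_fst, show (pt I s0 α Ψ θ w τ).1 = s0 + α * τ from rfl, ← r2]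
  simp only [pt, thS, Pi.sub_apply]
  unfold tS at r2
  generalize rr I.a I.t0 (s0 + α * τ) = r at r0 r2
  generalize s0 + α * τ = s at r2
  match_scalars
  all_goals field_simp
  · rw [r2]; ring
  · ring

end Vale.Agent.P347.NodesAux
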