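import Vale.Agent.P347.Rec1

/-! P347 part Param: choice of the parameters. -/

namespace Vale.Agent.P347

namespace ParamAux
open Filter

theorem nums (η : ℝ) (hη : 0 < η) : ∃ m G T J I P A : ℕ, 1 ≤ m * I ∧ m * I ≤ G * J ∧
    m + 1 + I * (G + T + 13) + T ≤ P ∧ 2 * T + 10 ≤ P ∧ 6 ≤ T ∧ 4 + 10 * ((J + 1) * I) ≤ T ∧
    m * I = P + 10 + A ∧ 0 < A ∧ 2 * ((P + 13 + (40 * J + 64) * I : ℕ) : ℝ) ≤ η * A := by
  obtain ⟨k, hk⟩ := exists_nat_ge (20 / η)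
  obtain ⟨I, hI⟩ : ∃ I, I = k + 5 := ⟨_, rfl⟩
  obtain ⟨X, hX⟩ : ∃ X, X = (I ^ 2 + 1) * I := ⟨_, rfl⟩
  obtain ⟨T, hT⟩ : ∃ T, T = 10 * X + 10 := ⟨_, rfl⟩
  obtain ⟨Y, hY⟩ : ∃ Y, Y = I * (T + 13) := ⟨_, rfl⟩
  obtain ⟨K, hK⟩ : ∃ K, K = 1 + Y + T + (2 * T + 10) := ⟨_, rfl⟩
  obtain ⟨c, hc⟩ : ∃ c, c = (40 * I ^ 2 + 64) * I := ⟨_, rfl⟩
  obtain ⟨M, hM⟩ : ∃ M, M = K + 13 + c := ⟨_, rfl⟩
  obtain ⟨Z, hZ⟩ : ∃ Z, Z = I * M := ⟨_, rfl⟩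
  obtain ⟨W, hW⟩ : ∃ W, W = (k ^ 2 + 8 * k + 14) * M := ⟨_, rfl⟩
  have h1 : Z * I = (2 * Z + K) + 10 + (W + (3 + c)) := by
    have : Z * I = 2 * Z + W + M := by rw [hZ, hW, hI]; ring
    omega
  have h0 : I * (M + T + 13) = Z + Y := by rw [hZ, hY]; ring
  refine ⟨Z, M, T, I ^ 2, I, 2 * Z + K, W + (3 + c), by omega, le_of_eq (by rw [hZ]; ring),
    by omega, by omega, by omega, by omega, h1, by omega, ?_⟩
  have h2 : 2 * Z + K + 13 + (40 * I ^ 2 + 64) * I = (2 * k + 11) * M := by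
    have : (2 * k + 11) * M = 2 * Z + M := by rw [hZ, hI]; ring
    omega
  rw [h2, hW]
  rw [div_le_iff₀ hη] at hk
  push_cast
  have h3 : (0 : ℝ) ≤ k := Nat.cast_nonneg k
  have h4 : (0 : ℝ) ≤ M := Nat.cast_nonneg M
  have h5 : (0 : ℝ) ≤ c := Nat.cast_nonneg c
  have h7 := mul_le_mul_of_nonneg_right hk h3
  have h8 := mul_nonneg hη.le h3
  have h6 : 2 * (2 * (k : ℝ) + 11) ≤ η * (k ^ 2 + 8 * k + 14) := by nlinarith
  nlinarith [mul_le_mul_of_nonneg_right h6 h4, mul_nonneg hη.le h5]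

theorem exp_le {b : ℝ} {n : ℕ} (h : 32 * 8 ^ (n + 1) * ((n + 1).factorial : ℝ) ≤ b) :
    Real.exp (-(b / 8)) ≤ b⁻¹ ^ n / 32 := by
  have f0 : (0 : ℝ) < (n + 1).factorial := by positivity
  have b0 : 0 < b := lt_of_lt_of_le (by positivity) h
  have h1 := Real.pow_div_factorial_le_exp (b / 8) (by positivity) (n + 1)
  rw [Real.exp_neg, inv_pow, div_eq_mul_inv (b ^ n)⁻¹, ← mul_inv]
  refine inv_anti₀ (by positivity) (le_trans ?_ h1)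
  rw [div_pow, div_div, le_div_iff₀ (by positivity), pow_succ b]
  nlinarith [mul_le_mul_of_nonneg_left h (pow_pos b0 n).le]

theorem floor_ge {x : ℝ} (hx : 2 ≤ x) : x / 2 ≤ ⌊x⌋₊ := by linarith [Nat.lt_floor_add_one x]

end ParamAux

open ParamAux Filter

theorem exists_par (hN : ∀ q, 1 ≤ q → ∃ C : ℝ, 1 ≤ C ∧ Nonempty (Nodes q C)) (η : ℝ)
    (hη : 0 < η) : ∃ d₀ : ℕ, ∀ d ≥ d₀, ∃ (p : Par) (N₀ : ℕ), 1 ≤ d ∧
      (d : ℝ) ^ 2 * p.pw (p.m * p.I) ≤ p.pw (p.P + 10) ∧ (N₀ : ℝ) ≤ p.pw (-(p.P + 4)) ∧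
      (1 - p.pw (p.P + 2) / 20) ^ N₀ ≤ p.pw (p.m * p.I) ∧ 4 + 10 * ((p.J + 1) * p.I) ≤ p.T ∧
      p.pw (-(p.P + 13 + p.cb * p.I)) ≤ (d : ℝ) ^ η := by
  obtain ⟨m, G, T, J, I, P, A, a1, a2, a3, a4, a5, a6, a7, a8, a9⟩ := nums η hη
  obtain ⟨C, hC, ⟨Nd⟩⟩ := hN (m * I) a1
  have A0 : (0 : ℝ) < A := by exact_mod_cast a8
  have ht : Tendsto (fun d : ℕ => (d : ℝ) ^ (2 / (A : ℝ))) atTop atTop :=
    (tendsto_rpow_atTop (by positivity)).comp tendsto_natCast_atTop_atTop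
  obtain ⟨d₀, hd⟩ := eventually_atTop.1 ((eventually_ge_atTop 1).and
    ((ht.eventually_ge_atTop 5).and ((ht.eventually_ge_atTop
      (100 * C ^ 2 * ((m * I : ℕ) + 1) ^ 2)).and ((ht.eventually_ge_atTop
      ((I + 3) * (m * I : ℕ))).and (ht.eventually_ge_atTop
      (32 * 8 ^ (m * I + 1) * ((m * I + 1).factorial : ℝ)))))))
  refine ⟨d₀, fun d hd' => ?_⟩
  obtain ⟨d1, b5, b1, b2, b3⟩ := hd d hd'
  have d1' : (1 : ℝ) ≤ d := by exact_mod_cast d1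
  have bA : ((d : ℝ) ^ (2 / (A : ℝ))) ^ A = d ^ 2 := by
    rw [← Real.rpow_natCast, ← Real.rpow_mul (by positivity), div_mul_cancel₀ _ A0.ne',
      Real.rpow_two]
  have bQ : ((d : ℝ) ^ (2 / (A : ℝ))) ^ (P + 13 + (40 * J + 64) * I) ≤ d ^ η := by
    rw [← Real.rpow_natCast, ← Real.rpow_mul (by positivity)]
    refine Real.rpow_le_rpow_of_exponent_le d1' ?_
    rwa [div_mul_eq_mul_div, div_le_iff₀ A0]
  generalize (d : ℝ) ^ (2 / (A : ℝ)) = b at b5 b1 b2 b3 bA bQ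
  have b0 : 0 < b := by linarith
  have e1 := exp_le b3
  have h1 : b⁻¹ ≤ 1 := inv_le_one_of_one_le₀ (by linarith)
  have h0 : 0 < b⁻¹ := by positivity
  have hb : ∀ k : ℕ, 2 ≤ b ^ (k + 1) := fun k =>
    le_trans (by linarith) (le_self_pow₀ (by linarith : 1 ≤ b) (Nat.succ_ne_zero k))
  refine ⟨⟨m * I, C, Nd, b⁻¹, m, G, T, J, I, P, ⌊b ^ 3⌋₊, a1, hC, h0,
    by rwa [← div_eq_mul_inv, div_le_one b0], le_rfl, a2, a3, a4, a5,
    by rwa [← mul_assoc, ← div_eq_mul_inv, div_le_one b0],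
    by rw [inv_inv]; exact Nat.floor_le (by positivity), ?_⟩, ⌊b ^ (P + 4)⌋₊, d1, ?_, ?_, ?_, a6,
    ?_⟩
  · have x0 : 0 ≤ b⁻¹ ^ 2 := by positivity
    have x1 : b⁻¹ ^ 2 ≤ 1 := pow_le_one₀ h0.le h1
    have h2 : (√(1 + b⁻¹ ^ 2))⁻¹ ≤ Real.exp (-(b⁻¹ ^ 2 / 4)) := by
      rw [← Real.sqrt_inv]
      refine Real.sqrt_le_iff.2 ⟨by positivity, ?_⟩
      rw [← Real.exp_nat_mul, inv_le_iff_one_le_mul₀ (by positivity)]
      have := Real.add_one_le_exp ((2 : ℕ) * -(b⁻¹ ^ 2 / 4))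
      push_cast at this ⊢
      nlinarith
    refine (pow_le_pow_left₀ (by positivity) h2 _).trans (le_trans ?_ e1)
    rw [← Real.exp_nat_mul, Real.exp_le_exp]
    have h3 := mul_le_mul_of_nonneg_right (floor_ge (hb 2)) x0
    have h4 : b ^ (2 + 1) / 2 * b⁻¹ ^ 2 = b / 2 := by field_simp
    rw [h4] at h3
    linarith
  · simp only [Par.pw]
    rw [← bA, ← Nat.cast_mul, a7, zpow_natCast, show (P : ℤ) + 10 = ((P + 10 : ℕ) : ℤ) by simp,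
      zpow_natCast, pow_add _ _ A, mul_left_comm, ← mul_pow, mul_inv_cancel₀ b0.ne', one_pow,
      mul_one]
  · simp only [Par.pw]
    rw [zpow_neg, inv_zpow, inv_inv, show (P : ℤ) + 4 = ((P + 4 : ℕ) : ℤ) by simp, zpow_natCast]
    exact Nat.floor_le (by positivity)
  · simp only [Par.pw]
    rw [← Nat.cast_mul, zpow_natCast, show (P : ℤ) + 2 = ((P + 2 : ℕ) : ℤ) by simp, zpow_natCast]
    have x0 : 0 ≤ b⁻¹ ^ (P + 2) := by positivity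
    have x1 : b⁻¹ ^ (P + 2) ≤ 1 := pow_le_one₀ h0.le h1
    refine (pow_le_pow_left₀ (by linarith) (Real.one_sub_le_exp_neg _) _).trans
      (le_trans ?_ (e1.trans (div_le_self (by positivity) (by norm_num))))
    rw [← Real.exp_nat_mul, Real.exp_le_exp]
    have h3 := mul_le_mul_of_nonneg_right (floor_ge (hb (P + 3))) x0
    have h4 : b ^ (P + 3 + 1) / 2 * b⁻¹ ^ (P + 2) = b ^ 2 / 2 := by
      rw [inv_pow]; field_simp; ring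
    rw [h4] at h3
    nlinarith
  · simp only [Par.pw, Par.cb]
    rw [zpow_neg, inv_zpow, inv_inv, show (P : ℤ) + 13 + ((40 * J + 64 : ℕ) : ℤ) * I =
      ((P + 13 + (40 * J + 64) * I : ℕ) : ℤ) by simp, zpow_natCast]
    exact bQ

end Vale.Agent.P347
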