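import Vale.Agent.P347.Acc
import Vale.Agent.P347.Mom
import Vale.Agent.P347.NDefs

/-! P347: parameters, graded access, accessible states. -/

open MeasureTheory ProbabilityTheory Filter
open scoped ENNReal

noncomputable section
namespace Vale.Agent.P347
variable {d : ℕ}

structure Par where
  q : ℕ
  C : ℝ
  Nd : Nodes q C
  h : ℝ
  m : ℕ
  G : ℕ
  T : ℕ
  J : ℕ
  I : ℕ
  P : ℕ
  N : ℕ
  hq : 1 ≤ q
  hC : 1 ≤ C
  h0 : 0 < h
  small : 100 * C ^ 2 * (q + 1) ^ 2 * h ≤ 1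
  hqm : m * I ≤ q
  hJG : m * I ≤ G * J
  hP : m + 1 + I * (G + T + 13) + T ≤ P
  hP2 : 2 * T + 10 ≤ P
  hT : 6 ≤ T
  hI : (I + 3) * (q * h) ≤ 1
  hN : (N : ℝ) ≤ h⁻¹ ^ 3
  hρ : (√(1 + h ^ 2))⁻¹ ^ N ≤ h ^ (m * I) / 32

namespace Par
variable (p : Par)

def pw (n : ℤ) : ℝ := p.h ^ n
def cb : ℕ := 40 * p.J + 64
def lam (i : ℕ) : ℤ := p.m + 1 + i * (p.G + p.T + 13)

lemma pw_pos (n : ℤ) : 0 < p.pw n := zpow_pos p.h0 n
lemma pw_add (a b : ℤ) : p.pw (a + b) = p.pw a * p.pw b := zpow_add₀ p.h0.ne' a b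
lemma pw_zero : p.pw 0 = 1 := zpow_zero _
lemma pw_one : p.pw 1 = p.h := zpow_one _
lemma pw_nat (n : ℕ) : p.h ^ n = p.pw n := (zpow_natCast _ _).symm
lemma H_le : 100 * p.C ^ 2 * (p.q + 1) ^ 2 ≤ p.pw (-1) := by
  rw [pw, zpow_neg_one, ← one_div, le_div_iff₀ p.h0]; exact p.small
lemma q1 : (1 : ℝ) ≤ p.q := by exact_mod_cast p.hq
lemma H_ge : 400 ≤ 100 * p.C ^ 2 * (p.q + 1) ^ 2 := by
  have h1 : 1 ≤ p.C ^ 2 := one_le_pow₀ p.hC
  have h2 : 4 ≤ ((p.q : ℝ) + 1) ^ 2 := by nlinarith [p.q1]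
  nlinarith
lemma h_le : p.h ≤ 1 / 400 := by nlinarith [p.small, p.H_ge, p.h0]
lemma h_le_one : p.h ≤ 1 := by linarith [p.h_le]
lemma qh_le : p.q * p.h ≤ 1 / 100 := by
  have h1 : 1 ≤ p.C ^ 2 := one_le_pow₀ p.hC
  have h2 : (p.q : ℝ) ≤ ((p.q : ℝ) + 1) ^ 2 := by nlinarith [p.q1]
  have h3 := mul_le_mul_of_nonneg_right h2 p.h0.le
  have h4 := mul_le_mul_of_nonneg_right h1 (mul_nonneg (sq_nonneg ((p.q : ℝ) + 1)) p.h0.le)
  nlinarith [p.small]
lemma pw_le {a b : ℤ} (hab : a ≤ b) : p.pw b ≤ p.pw a :=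
  zpow_le_zpow_right_of_le_one₀ p.h0 p.h_le_one hab
lemma pw_le_one {a : ℤ} (ha : 0 ≤ a) : p.pw a ≤ 1 := p.pw_zero ▸ p.pw_le ha
lemma one_le_pw {a : ℤ} (ha : a ≤ 0) : 1 ≤ p.pw a := p.pw_zero ▸ p.pw_le ha
/-- A constant is absorbed by one power of `h`. -/
lemma absorb {x : ℝ} (hx : x ≤ 100 * p.C ^ 2 * (p.q + 1) ^ 2) {a b : ℤ} (hab : b + 1 ≤ a) :
    x * p.pw a ≤ p.pw b := by
  calc x * p.pw a ≤ p.pw (-1) * p.pw a :=
        mul_le_mul_of_nonneg_right (hx.trans p.H_le) (p.pw_pos a).le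
    _ = p.pw (-1 + a) := (p.pw_add _ _).symm
    _ ≤ _ := p.pw_le (by omega)
lemma absorb' {x : ℝ} (hx : x ≤ 400) {a b : ℤ} (hab : b + 1 ≤ a) : x * p.pw a ≤ p.pw b :=
  p.absorb (hx.trans p.H_ge) hab
lemma cst {x y : ℝ} (hx : 0 ≤ x) (hxy : x + y ≤ 100) :
    x + y * (p.q + 1) ≤ 100 * p.C ^ 2 * (p.q + 1) ^ 2 := by
  have h1 : 1 ≤ p.C ^ 2 := one_le_pow₀ p.hC
  have h2 : (p.q : ℝ) + 1 ≤ ((p.q : ℝ) + 1) ^ 2 := by nlinarith [p.q1]
  have h3 := mul_le_mul_of_nonneg_right h1 (sq_nonneg ((p.q : ℝ) + 1))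
  nlinarith [p.q1]
lemma cst' {x y : ℝ} (a b : ℕ) (hy : y = x * p.C ^ a * (p.q + 1) ^ b) (hx : x ≤ 100)
    (ha : a ≤ 2) (hb : b ≤ 2) : y ≤ 100 * p.C ^ 2 * (p.q + 1) ^ 2 := by
  have h1 := pow_le_pow_right₀ p.hC ha
  have h2 := pow_le_pow_right₀ (show (1 : ℝ) ≤ p.q + 1 by linarith [p.q1]) hb
  have := p.hC
  rw [hy]
  gcongr
lemma big {t : ℝ} (ht : p.pw (-p.P) ≤ t) : 400 ≤ t := by
  have := p.absorb' (le_refl 400) (a := 0) (b := -p.P) (by have := p.hP2; omega)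
  rw [pw_zero] at this; linarith

/-- Graded access at level `k`, for all accuracy orders up to `i`. -/
def AccF (c : Ctx d) (X : Pt d → c.Ω → E d) (i k : ℕ) (D : ℝ) : Prop :=
  ∀ i' ≤ i, Acc c X (p.pw (p.T - k)) (D * p.pw (p.m * i' - k)) (p.pw (-(4 * k + p.cb * i')))

namespace AccF
variable {p} {c : Ctx d} {X X' : Pt d → c.Ω → E d} {i i' k k' : ℕ} {D D' : ℝ}

lemma meas (h : p.AccF c X i k D) (V) : Measurable (X V) := (h 0 (Nat.zero_le _)).1 V
lemma congr (h : p.AccF c X i k D) (hX : ∀ V ω, X V ω = X' V ω) : p.AccF c X' i k D :=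
  fun j hj => (h j hj).congr hX
lemma mono (h : p.AccF c X i k D) (hi : i' ≤ i) (hk : k ≤ k') (hD : D ≤ D') (h0 : 0 ≤ D') :
    p.AccF c X i' k' D' := fun j hj =>
  (h j (hj.trans hi)).mono (p.pw_pos _).le (p.pw_le (by omega))
    ((mul_le_mul_of_nonneg_right hD (p.pw_pos _).le).trans
      (mul_le_mul_of_nonneg_left (p.pw_le (by omega)) h0)) (p.pw_le (by omega))
lemma known {f : c.K → E d} (hf : Measurable f) (h0 : 0 ≤ D) :
    p.AccF c (fun V ω => f (c.κ V ω)) i k D := fun _ _ =>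
  (Acc.known hf _).mono' (mul_nonneg h0 (p.pw_pos _).le) (p.pw_pos _).le
lemma lift (h : p.AccF c X i k D) (S : Seed) {β : Type} [MeasurableSpace β]
    (Ψ : Pt d → c.K × S.T → β) (hΨ : ∀ V, Measurable (Ψ V)) :
    p.AccF (c.ext S Ψ hΨ) (fun V ω => X V ω.1) i k D := fun j hj => (h j hj).lift S Ψ hΨ
lemma lin (h : p.AccF c X i k D) (h' : p.AccF c X' i k D) (h0 : 0 ≤ D) {l l' : ℝ} {n : ℕ}
    (hn : 1 ≤ n) (hl : |l| + |l'| ≤ p.pw (-n)) :
    p.AccF c (fun V ω => l • X V ω + l' • X' V ω) i (k + n) D := fun j hj => by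
  have e1 := p.pw_pos (p.T - k)
  have e2 := p.pw_pos (p.m * j - k)
  refine (((h j hj).smul l).add ((h' j hj).smul l') (by positivity) (by positivity)).mono
    (by positivity) ?_ ?_ ?_
  · rw [← add_mul, show (p.T : ℤ) - (k + n : ℕ) = -n + (p.T - k) by push_cast; ring, p.pw_add]
    exact mul_le_mul_of_nonneg_right hl e1.le
  · rw [← add_mul, show (p.m : ℤ) * j - (k + n : ℕ) = -n + (p.m * j - k) by push_cast; ring,
      p.pw_add, mul_left_comm]
    exact mul_le_mul_of_nonneg_left (mul_le_mul_of_nonneg_right hl e2.le) h0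
  · rw [← two_mul]
    exact p.absorb' (by norm_num) (by push_cast; omega)
end AccF
end Par

def CC (a t0 s : ℝ) (θ z : E d) : E d := (√(tS a t0 s))⁻¹ • thS a s θ z
def G0 (V : Pt d) (t : ℝ) (C : E d) : E d := √t • MM V t (√t • C)

lemma le_tS (a t0 s : ℝ) : t0 ≤ tS a t0 s := le_add_of_nonneg_right (sq_nonneg _)
lemma tS_le {a t0 s : ℝ} (ht : a ^ 2 ≤ t0) (hs : |s| ≤ 1) : tS a t0 s ≤ 2 * t0 := by
  have : s ^ 2 ≤ 1 := by rw [← sq_abs]; nlinarith [abs_nonneg s]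
  unfold tS; nlinarith [sq_nonneg a]
@[simp] lemma tS_zero (a t0 : ℝ) : tS a t0 0 = t0 := by simp [tS]
@[simp] lemma thS_zero (a : ℝ) (θ z : E d) : thS a 0 θ z = θ := by simp [thS]
@[simp] lemma nn_zero (a t0 : ℝ) (θ z : E d) : nn a t0 0 θ z = z := by simp [nn]

lemma smul_CC {a t0 s : ℝ} (ht : 0 < t0) (θ z : E d) :
    √(tS a t0 s) • CC a t0 s θ z = thS a s θ z := by
  have : 0 < √(tS a t0 s) := Real.sqrt_pos.2 (ht.trans_le (le_tS _ _ _))
  rw [CC, smul_inv_smul₀ this.ne']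
lemma gg_eq (V : Pt d) {a t0 s : ℝ} (ht : 0 < t0) (θ z : E d) :
    gg V a t0 s θ z = (a / √(tS a t0 s)) • G0 V (tS a t0 s) (CC a t0 s θ z) := by
  have : 0 < √(tS a t0 s) := Real.sqrt_pos.2 (ht.trans_le (le_tS _ _ _))
  rw [G0, smul_CC ht, smul_smul, div_mul_cancel₀ _ this.ne', gg]
lemma CC_eq {a t0 s : ℝ} (ht : 0 < t0) (C z : E d) : CC a t0 s (√t0 • C) z =
    (√(tS a t0 s) / √t0) • C + (a * s / √(tS a t0 s)) • nn a t0 s (√t0 • C) z := by
  have h1 : 0 < √(tS a t0 s) := Real.sqrt_pos.2 (ht.trans_le (le_tS _ _ _))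
  have h2 : 0 < √t0 := Real.sqrt_pos.2 ht
  have h3 : √(tS a t0 s) ^ 2 = √t0 ^ 2 + (a * s) ^ 2 := by
    rw [Real.sq_sqrt (ht.le.trans (le_tS _ _ _)), Real.sq_sqrt ht.le, tS]
  have h4 : (√(tS a t0 s))⁻¹ * √t0 =
      √(tS a t0 s) / √t0 - a * s / √(tS a t0 s) * (a * s / t0 * √t0) := by
    conv_rhs => rw [← Real.sq_sqrt ht.le]
    rw [Real.sqrt_sq h2.le, Real.sq_sqrt ht.le]
    conv_rhs => enter [2, 2, 1, 2]; rw [← Real.sq_sqrt ht.le]
    field_simp
    linarith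
  simp only [CC, thS, nn, smul_add, smul_sub, smul_smul, h4]
  rw [div_eq_inv_mul (a * s) (√(tS a t0 s))]
  module
lemma ratio_le {a t0 s : ℝ} (h0 : 0 < t0) (ht : a ^ 2 ≤ t0) (hs : |s| ≤ 1) :
    |√(tS a t0 s) / √t0| ≤ 2 := by
  rw [abs_of_nonneg (by positivity), div_le_iff₀ (Real.sqrt_pos.2 h0)]
  refine Real.sqrt_le_iff.2 ⟨by positivity, ?_⟩
  rw [mul_pow, Real.sq_sqrt h0.le]; linarith [tS_le ht hs]
lemma coef_le {a t0 s : ℝ} (h0 : 0 < t0) : |a * s / √(tS a t0 s)| ≤ 1 := by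
  have h1 : 0 < √(tS a t0 s) := Real.sqrt_pos.2 (h0.trans_le (le_tS _ _ _))
  rw [abs_div, abs_of_pos h1, div_le_one h1]
  exact Real.abs_le_sqrt (by unfold tS; linarith)
lemma coef_le' {a t0 s : ℝ} (h0 : 0 < t0) (ht : a ^ 2 ≤ t0) : |a / √(tS a t0 s)| ≤ 1 := by
  have h1 : 0 < √(tS a t0 s) := Real.sqrt_pos.2 (h0.trans_le (le_tS _ _ _))
  rw [abs_div, abs_of_pos h1, div_le_one h1]
  exact Real.abs_le_sqrt (ht.trans (le_tS _ _ _))

lemma MM_meas (V : Pt d) {t : ℝ} (ht : 1 / 2 < t) : Measurable (MM V t) := by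
  refine (LipschitzWith.of_dist_le_mul (K := ⟨(t - 1 / 2)⁻¹, by positivity [sub_pos.2 ht]⟩)
    fun x y => ?_).continuous.measurable
  rw [dist_eq_norm, dist_eq_norm]
  exact (MM_lip V ht x y).trans (by rw [div_eq_inv_mul]; rfl)
lemma G0_meas (V : Pt d) {t : ℝ} (ht : 1 / 2 < t) : Measurable (G0 V t) := by
  have := MM_meas V ht
  unfold G0; fun_prop
lemma gg_meas (V : Pt d) (a s : ℝ) {t0 : ℝ} (ht : 1 / 2 < t0) :
    Measurable fun w : E d × E d => gg V a t0 s w.1 w.2 := by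
  have := MM_meas V (ht.trans_le (le_tS a t0 s))
  unfold gg thS; fun_prop
lemma gg_meas' (V : Pt d) (a s : ℝ) {t0 : ℝ} (ht : 1 / 2 < t0) {Ω : Type} [MeasurableSpace Ω]
    {θ z : Ω → E d} (hθ : Measurable θ) (hz : Measurable z) :
    Measurable fun w => gg V a t0 s (θ w) (z w) := by
  have := MM_meas V (ht.trans_le (le_tS a t0 s))
  unfold gg thS; fun_prop
lemma G0_lip (V : Pt d) {t : ℝ} (ht : 1 ≤ t) (C C' : E d) :
    ‖G0 V t C - G0 V t C'‖ ≤ 2 * ‖C - C'‖ := by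
  have h := MM_lip V (t := t) (by linarith) (√t • C) (√t • C')
  rw [← smul_sub, norm_smul, Real.norm_of_nonneg (by positivity)] at h
  rw [G0, G0, ← smul_sub, norm_smul, Real.norm_of_nonneg (by positivity)]
  refine (mul_le_mul_of_nonneg_left h (by positivity)).trans ?_
  rw [← mul_div_assoc, ← mul_assoc, Real.mul_self_sqrt (by linarith), div_le_iff₀ (by linarith)]
  nlinarith [norm_nonneg (C - C')]

lemma rho_snd (V : Pt d) (a s : ℝ) {t0 : ℝ} (ht : 1 / 2 < t0) (θ : E d) :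
    MeasurePreserving Prod.snd (rho V a t0 s θ) (gam d) := by
  have := NN_prob V ht θ (a * s)
  exact measurePreserving_snd
lemma rho_zero (V : Pt d) (a : ℝ) {t0 : ℝ} (ht : 1 / 2 < t0) (θ : E d) :
    rho V a t0 0 θ = (gam d).prod (gam d) := by rw [rho, mul_zero, NN_zero V ht]

section
variable {Ω : Type} [MeasurableSpace Ω] {P : Measure Ω} [IsProbabilityMeasure P] {V : Pt d}
  {a t0 s D : ℝ} {C : Ω → E d} {y : Ω → E d × E d}

lemma rad_xi (ht : 1 / 2 < t0) {θ : Ω → E d} (h : CL P θ y (rho V a t0 s)) :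
    L2 P (fun ω => (y ω).2) √d :=
  h.l2 (g := fun w => w.2.2) (by fun_prop) (by positivity) fun θ =>
    ((show L2 (gam d) (fun x : E d => x) √d from
      ⟨measurable_id, by positivity, gam_eLpNorm.le⟩).comp (rho_snd V a s ht θ)).2.2

lemma rad_nn (h1 : 1 ≤ t0) (ht : a ^ 2 ≤ t0) (hs : |s| ≤ 1) (hD : √d ≤ D)
    (h : CL P (fun ω => √t0 • C ω) y (rho V a t0 s)) (hC : L2 P C (√t0 * D)) :
    L2 P (fun ω => nn a t0 s (√t0 • C ω) (y ω).1) (9 * D) := by
  have h0 : 0 ≤ D := (Real.sqrt_nonneg _).trans hD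
  have hd : (d : ℝ) ≤ D ^ 2 := by
    rw [← Real.sq_sqrt (Nat.cast_nonneg d)]; exact pow_le_pow_left₀ (by positivity) hD 2
  have m1 := hC.1
  have m2 := h.2.1
  have hs2 : (a * s) ^ 2 ≤ t0 := by linarith [tS_le ht hs, show tS a t0 s = t0 + (a * s) ^ 2 from rfl]
  have hsq : 0 < √t0 := Real.sqrt_pos.2 (by linarith)
  have hc := hC.smul (√t0)⁻¹
  rw [abs_of_pos (by positivity), ← mul_assoc, inv_mul_cancel₀ hsq.ne', one_mul,
    L2.iff (by fun_prop) h0] at hc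
  rw [L2.iff (by unfold nn; fun_prop) (by positivity),
    h.2.2 (fun w => ENNReal.ofReal (‖nn a t0 s w.1 w.2.1‖ ^ 2)) (by unfold nn; fun_prop)]
  calc _ ≤ ∫⁻ ω, (ENNReal.ofReal (66 * D ^ 2) +
        ENNReal.ofReal 4 * ENNReal.ofReal (‖(√t0)⁻¹ • C ω‖ ^ 2)) ∂P := by
        refine lintegral_mono fun ω => ?_
        have := NN_prob V (t := t0) (by linarith) (√t0 • C ω) (a * s)
        have e := (measurePreserving_fst (μ := NN V t0 (√t0 • C ω) (a * s))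
          (ν := gam d)).lintegral_comp
          (f := fun z => ENNReal.ofReal (‖z - (a * s / t0) • √t0 • C ω‖ ^ 2)) (by fun_prop)
        refine (le_of_eq e).trans ((NN_sq V h1 _ _).trans ?_)
        rw [← ENNReal.ofReal_mul (by norm_num), ← ENNReal.ofReal_add (by positivity) (by positivity)]
        apply ENNReal.ofReal_le_ofReal
        have e2 : t0⁻¹ • √t0 • C ω = (√t0)⁻¹ • C ω := by
          rw [smul_smul]; congr 1
          conv_lhs => enter [1]; rw [← Real.mul_self_sqrt (by linarith : 0 ≤ t0)]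
          field_simp
        rw [e2]
        set x := ‖(√t0)⁻¹ • C ω‖ ^ 2
        have hx : 0 ≤ x := by positivity
        have k1 : (a * s) ^ 2 * (32 * d / t0 + 2 * x / t0 ^ 2) ≤ t0 * (32 * d / t0 + 2 * x / t0 ^ 2) :=
          mul_le_mul_of_nonneg_right hs2 (by positivity)
        have k2 : t0 * (32 * d / t0 + 2 * x / t0 ^ 2) = 32 * d + 2 * x / t0 := by field_simp
        have k3 : 2 * x / t0 ≤ 2 * x := div_le_self (by positivity) h1
        linarith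
    _ ≤ _ := by
        rw [lintegral_add_left measurable_const, lintegral_const_mul _ (by fun_prop)]
        simp only [lintegral_const, measure_univ, mul_one]
        refine (add_le_add_right (mul_le_mul_right hc _) _).trans ?_
        rw [← ENNReal.ofReal_mul (by norm_num), ← ENNReal.ofReal_add (by positivity) (by positivity)]
        exact ENNReal.ofReal_le_ofReal (by nlinarith)

lemma rad_CC (h1 : 1 ≤ t0) (ht : a ^ 2 ≤ t0) (hs : |s| ≤ 1) (hD : √d ≤ D)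
    (h : CL P (fun ω => √t0 • C ω) y (rho V a t0 s)) (hC : L2 P C (√t0 * D)) :
    L2 P (fun ω => CC a t0 s (√t0 • C ω) (y ω).1) (√(tS a t0 s) * D + 9 * D) := by
  have h0 : 0 ≤ D := (Real.sqrt_nonneg _).trans hD
  have hsq : 0 < √t0 := Real.sqrt_pos.2 (by linarith)
  refine (((hC.smul _).add ((rad_nn h1 ht hs hD h hC).smul _)).congr fun ω =>
    (CC_eq (by linarith) _ _).symm).mono (add_le_add (le_of_eq ?_) ?_)
  · rw [abs_of_nonneg (by positivity)]; field_simp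
  · exact mul_le_of_le_one_left (by positivity) (coef_le (by linarith))

lemma CL.spare (ht : 1 / 2 < t0) {θ : Ω → E d} (h : CL P θ y (rho V a t0 s)) :
    CL (P.prod (gam d)) (fun w => thS a s (θ w.1) (y w.1).1) (fun w => ((y w.1).2, w.2))
      (rho V a (tS a t0 s) 0) := by
  have m1 := h.1
  have m2 := h.2.1
  refine ⟨by unfold thS; fun_prop, by fun_prop, fun f hf => ?_⟩
  simp only [rho_zero V a (ht.trans_le (le_tS a t0 s))]
  have hG : Measurable fun θ' : E d => ∫⁻ w, f (θ', w) ∂((gam d).prod (gam d)) :=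
    hf.lintegral_prod_right'
  rw [lintegral_prod _ (Measurable.aemeasurable (by unfold thS; fun_prop)),
    measurePreserving_fst.lintegral_comp (f := fun ω =>
      ∫⁻ w, f (thS a s (θ ω) (y ω).1, w) ∂((gam d).prod (gam d)))
      (hG.comp (by unfold thS; fun_prop))]
  have hF : Measurable fun w : E d × E d × E d =>
      ∫⁻ η, f (thS a s w.1 w.2.1, w.2.2, η) ∂(gam d) :=
    Measurable.lintegral_prod_right' (f := fun u : (E d × E d × E d) × E d =>
      f (thS a s u.1.1 u.1.2.1, u.1.2.2, u.2)) (by unfold thS; fun_prop)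
  refine (h.2.2 _ hF).trans ((lintegral_congr fun ω => ?_).trans
    (h.2.2 (fun w => ∫⁻ u, f (thS a s w.1 w.2.1, u) ∂((gam d).prod (gam d)))
      (hG.comp (by unfold thS; fun_prop))).symm)
  have := NN_prob V ht (θ ω) (a * s)
  simp only [rho]
  have n1 : Measurable fun w : E d × E d => ∫⁻ η, f (thS a s (θ ω) w.1, w.2, η) ∂(gam d) :=
    hF.comp (by fun_prop : Measurable fun w : E d × E d => (θ ω, w))
  have n2 : Measurable fun w : E d × E d =>
      ∫⁻ u, f (thS a s (θ ω) w.1, u) ∂((gam d).prod (gam d)) :=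
    hG.comp (by unfold thS; fun_prop : Measurable fun w : E d × E d => thS a s (θ ω) w.1)
  rw [lintegral_prod _ n1.aemeasurable, lintegral_prod _ n2.aemeasurable]
  refine lintegral_congr fun z => ?_
  simp only [lintegral_const, measure_univ, mul_one]
  exact (lintegral_prod (fun u => f (thS a s (θ ω) z, u)) (Measurable.aemeasurable (by fun_prop))).symm
end

end Vale.Agent.P347
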