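import Vale.Agent.P347.Rec1

/-! P347: access to node states. -/

open MeasureTheory ProbabilityTheory Filter
open scoped ENNReal

noncomputable section
namespace Vale.Agent.P347
variable {d : ℕ}

namespace Par
variable (p : Par)

def ep (i j : ℕ) : ℤ := min (p.m * i) (p.G * j)

/-- The sampling primitive at accuracy order `(i, j)`. -/
def St (d i j : ℕ) : Prop :=
  ∀ (c : Ctx d) (k : ℕ) (t D w r : ℝ) (C : Pt d → c.Ω → E d),
    k + 10 * ((p.J + 1) * i + j + 1) ≤ p.T → p.pw (-p.P) ≤ t → √d ≤ D → p.AccF c C i k D →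
    (∀ V, L2 (c.P V) (C V) (√t * D)) → 0 < r → |w| ≤ p.pw (p.lam i) * r →
    Acc c (fun V ω => w • G0 V t (C V ω)) r
      (|w| * D * p.pw (p.ep i j - (p.T + 1)))
      (p.pw (-(4 * (k + 10 * (j + 1)) + p.cb * i)))

/-- An accessible state at time `s`. -/
structure AS (c : Ctx d) (a t0 s : ℝ) (C : Pt d → c.Ω → E d) (y : Pt d → c.Ω → E d × E d)
    (i k : ℕ) (D : ℝ) : Prop where
  big : p.pw (-p.P) ≤ a ^ 2
  ha : 1 ≤ a
  ht : a ^ 2 ≤ t0
  hs : |s| ≤ 1
  hD : √d ≤ D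
  cl : ∀ V, CL (c.P V) (fun ω => √t0 • C V ω) (y V) (rho V a t0 s)
  rad : ∀ V, L2 (c.P V) (C V) (√t0 * D)
  aC : p.AccF c C i k D
  an : p.AccF c (fun V ω => nn a t0 s (√t0 • C V ω) (y V ω).1) i k D
  aξ : p.AccF c (fun V ω => (y V ω).2) i k D

def GN (d i : ℕ) : Prop :=
  ∀ (c : Ctx d) (k : ℕ) (a t0 s0 α θc D : ℝ) (C : Pt d → c.Ω → E d)
    (y : Pt d → c.Ω → E d × E d), Adm p.q a t0 s0 α θc p.h →
    |s0| + i * (p.q * p.h) ≤ 1 → |s0 + α * p.q| + i * (p.q * p.h) ≤ 1 →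
    |θc| ≤ p.pw (p.lam i - (p.G + 10)) → k + 4 + 10 * ((p.J + 1) * i) ≤ p.T →
    p.AS c a t0 s0 C y i k D → ∀ l ≤ p.q, p.AS c a t0 (s0 + α * l) C
      (fun V ω => p.Nd.Φ V a t0 s0 α θc l (√t0 • C V ω, y V ω)) i (k + 1) D

variable {p} {c : Ctx d} {a t0 s : ℝ} {C : Pt d → c.Ω → E d} {y : Pt d → c.Ω → E d × E d}
  {i j k : ℕ} {D w r : ℝ}

section
variable {Ω : Type} [MeasurableSpace Ω] {P : Measure Ω} [IsProbabilityMeasure P] {V : Pt d}
  {s0 α θc : ℝ} {θ : Ω → E d} {y : Ω → E d × E d}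

lemma mgg (adm : Adm p.q a t0 s0 α θc p.h) (V : Pt d) (s : ℝ) (m : ℕ) :
    Measurable fun u : E d × E d × E d => gg V a t0 s u.1 (p.Nd.Φ V a t0 s0 α θc m u).1 :=
  gg_meas' V a s (by nlinarith [adm.ha, adm.ht]) measurable_fst (p.Nd.mΦ V adm m).fst
lemma mΦ' (adm : Adm p.q a t0 s0 α θc p.h) (V : Pt d) (m : ℕ) :
    Measurable fun u : E d × E d × E d => (u.1, p.Nd.Φ V a t0 s0 α θc m u) :=
  measurable_fst.prodMk (p.Nd.mΦ V adm m)
lemma err0 (p : Par) (d : ℕ) : 0 ≤ p.C * p.h ^ (p.q + 1) * √d := by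
  have := p.hC
  have := p.h0
  positivity

lemma fd_L2 (adm : Adm p.q a t0 s0 α θc p.h) (h : CL P θ y (rho V a t0 s0)) :
    L2 P (fun ω => α • p.Nd.DG V a t0 s0 (θ ω, y ω) + θc • p.Nd.GG V a t0 s0 (θ ω, y ω) -
      ∑ m ∈ Finset.range (p.q + 1), p.Nd.cf m • gg V a t0 (s0 + α * m) (θ ω)
        (p.Nd.Φ V a t0 s0 α θc m (θ ω, y ω)).1) (p.C * p.h ^ (p.q + 1) * √d) := by
  have m1 : Measurable fun u : E d × E d × E d => α • p.Nd.DG V a t0 s0 u +
      θc • p.Nd.GG V a t0 s0 u - ∑ m ∈ Finset.range (p.q + 1), p.Nd.cf m •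
        gg V a t0 (s0 + α * m) u.1 (p.Nd.Φ V a t0 s0 α θc m u).1 :=
    (((p.Nd.mDG V a t0 s0 adm.ha adm.ht).const_smul α).add
      ((p.Nd.mGG V a t0 s0 adm.ha adm.ht).const_smul θc)).sub
      (Finset.measurable_sum _ fun m _ => (mgg adm V _ m).const_smul (p.Nd.cf m))
  exact h.l2 m1 (p.err0 d) (p.Nd.fd_eq V adm)

lemma n_L2 (adm : Adm p.q a t0 s0 α θc p.h) (h : CL P θ y (rho V a t0 s0)) {l : ℕ}
    (hl : l ≤ p.q) :
    L2 P (fun ω => nn a t0 (s0 + α * l) (θ ω) (p.Nd.Φ V a t0 s0 α θc l (θ ω, y ω)).1 -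
      (p.Nd.κ a t0 s0 α l • nn a t0 s0 (θ ω) (y ω).1 + ∑ m ∈ Finset.range (p.q + 1),
        (p.Nd.b a t0 s0 α l m • gg V a t0 (s0 + α * m) (θ ω)
          (p.Nd.Φ V a t0 s0 α θc m (θ ω, y ω)).1 + p.Nd.b' a t0 s0 α θc l m •
          p.Nd.GX V a t0 (s0 + α * m) (θ ω, p.Nd.Φ V a t0 s0 α θc m (θ ω, y ω)))))
      (p.C * p.h ^ (p.q + 1) * √d) := by
  have m0 := p.Nd.mΦ V adm l
  have m2 : Measurable fun u : E d × E d × E d =>
      nn a t0 (s0 + α * l) u.1 (p.Nd.Φ V a t0 s0 α θc l u).1 := by unfold nn; fun_prop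
  have m3 : Measurable fun u : E d × E d × E d => nn a t0 s0 u.1 u.2.1 := by unfold nn; fun_prop
  have m1 : Measurable fun u : E d × E d × E d =>
      nn a t0 (s0 + α * l) u.1 (p.Nd.Φ V a t0 s0 α θc l u).1 -
      (p.Nd.κ a t0 s0 α l • nn a t0 s0 u.1 u.2.1 + ∑ m ∈ Finset.range (p.q + 1),
        (p.Nd.b a t0 s0 α l m • gg V a t0 (s0 + α * m) u.1
          (p.Nd.Φ V a t0 s0 α θc m u).1 + p.Nd.b' a t0 s0 α θc l m •
          p.Nd.GX V a t0 (s0 + α * m) (u.1, p.Nd.Φ V a t0 s0 α θc m u))) :=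
    m2.sub ((m3.const_smul (p.Nd.κ a t0 s0 α l)).add (Finset.measurable_sum _ fun m _ =>
      ((mgg adm V _ m).const_smul (p.Nd.b a t0 s0 α l m)).add
        (((p.Nd.mGX V a t0 _ adm.ha adm.ht).comp (mΦ' adm V m)).const_smul
          (p.Nd.b' a t0 s0 α θc l m))))
  exact h.l2 m1 (p.err0 d) (p.Nd.n_eq V adm l hl)

lemma ξ_L2 (adm : Adm p.q a t0 s0 α θc p.h) (h : CL P θ y (rho V a t0 s0)) {l : ℕ}
    (hl : l ≤ p.q) :
    L2 P (fun ω => (p.Nd.Φ V a t0 s0 α θc l (θ ω, y ω)).2 -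
      ((y ω).2 + ∑ m ∈ Finset.range (p.q + 1), p.Nd.b'' θc l m •
          p.Nd.DG V a t0 (s0 + α * m) (θ ω, p.Nd.Φ V a t0 s0 α θc m (θ ω, y ω))))
      (p.C * p.h ^ (p.q + 1) * √d) := by
  have m1 : Measurable fun u : E d × E d × E d => (p.Nd.Φ V a t0 s0 α θc l u).2 -
      (u.2.2 + ∑ m ∈ Finset.range (p.q + 1), p.Nd.b'' θc l m •
          p.Nd.DG V a t0 (s0 + α * m) (u.1, p.Nd.Φ V a t0 s0 α θc m u)) :=
    (p.Nd.mΦ V adm l).snd.sub (measurable_snd.snd.add (Finset.measurable_sum _ fun m _ =>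
      ((p.Nd.mDG V a t0 _ adm.ha adm.ht).comp (mΦ' adm V m)).const_smul (p.Nd.b'' θc l m)))
  exact h.l2 m1 (p.err0 d) (p.Nd.ξ_eq V adm l hl)

lemma p_L2 (adm : Adm p.q a t0 s0 α θc p.h) (h : CL P θ y (rho V a t0 s0)) :
    L2 P (fun ω => α • ((p.Nd.Φ V a t0 s0 α θc p.q (θ ω, y ω)).2 - (y ω).2) -
      θc • (gg V a t0 (s0 + α * p.q) (θ ω) (p.Nd.Φ V a t0 s0 α θc p.q (θ ω, y ω)).1 -
        gg V a t0 s0 (θ ω) (y ω).1) + θc ^ 2 • ∑ m ∈ Finset.range (p.q + 1), p.Nd.e m •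
          p.Nd.GG V a t0 (s0 + α * m) (θ ω, p.Nd.Φ V a t0 s0 α θc m (θ ω, y ω)))
      (θc ^ 2 * (p.C * p.h ^ (p.q + 1) * √d)) := by
  have m2 : Measurable fun u : E d × E d × E d => gg V a t0 s0 u.1 u.2.1 :=
    gg_meas' V a s0 (by nlinarith [adm.ha, adm.ht]) measurable_fst measurable_snd.fst
  have m1 : Measurable fun u : E d × E d × E d =>
      α • ((p.Nd.Φ V a t0 s0 α θc p.q u).2 - u.2.2) -
      θc • (gg V a t0 (s0 + α * p.q) u.1 (p.Nd.Φ V a t0 s0 α θc p.q u).1 -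
        gg V a t0 s0 u.1 u.2.1) + θc ^ 2 • ∑ m ∈ Finset.range (p.q + 1), p.Nd.e m •
          p.Nd.GG V a t0 (s0 + α * m) (u.1, p.Nd.Φ V a t0 s0 α θc m u) :=
    ((((p.Nd.mΦ V adm _).snd.sub measurable_snd.snd).const_smul α).sub
      (((mgg adm V _ _).sub m2).const_smul θc)).add ((Finset.measurable_sum _ fun m _ =>
      ((p.Nd.mGG V a t0 _ adm.ha adm.ht).comp (mΦ' adm V m)).const_smul (p.Nd.e m)).const_smul
        (θc ^ 2))
  exact h.l2 m1 (mul_nonneg (sq_nonneg _) (p.err0 d)) (p.Nd.p_eq V adm)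
end

namespace AS
lemma D0 (h : p.AS c a t0 s C y i k D) : 0 ≤ D := (Real.sqrt_nonneg _).trans h.hD
lemma t400 (h : p.AS c a t0 s C y i k D) : 400 ≤ t0 := (p.big h.big).trans h.ht
lemma mono (h : p.AS c a t0 s C y i k D) {i' k' : ℕ} (hi : i' ≤ i) (hk : k ≤ k') :
    p.AS c a t0 s C y i' k' D :=
  ⟨h.big, h.ha, h.ht, h.hs, h.hD, h.cl, h.rad, h.aC.mono hi hk le_rfl h.D0,
    h.an.mono hi hk le_rfl h.D0, h.aξ.mono hi hk le_rfl h.D0⟩
lemma aCC (h : p.AS c a t0 s C y i k D) :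
    p.AccF c (fun V ω => CC a t0 s (√t0 • C V ω) (y V ω).1) i (k + 1) D := by
  have h0 : 0 < t0 := by linarith [h.t400]
  refine (h.aC.lin h.an h.D0 (n := 1) le_rfl ?_).congr fun V ω => (CC_eq h0 _ _).symm
  have := p.H_le
  have := p.H_ge
  have := ratio_le h0 h.ht h.hs
  have := coef_le (a := a) (s := s) h0
  simp only [Nat.cast_one]; linarith
lemma radCC (h : p.AS c a t0 s C y i k D) (V) :
    L2 (c.P V) (fun ω => CC a t0 s (√t0 • C V ω) (y V ω).1) (√(tS a t0 s) * (2 * D)) := by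
  refine (rad_CC (by linarith [h.t400]) h.ht h.hs h.hD (h.cl V) (h.rad V)).mono ?_
  have : 9 ≤ √(tS a t0 s) := Real.le_sqrt_of_sq_le (by linarith [h.t400, le_tS a t0 s])
  nlinarith [h.D0]

lemma GA (hS : p.St d i j) (h : p.AS c a t0 s C y i k D)
    (hk : k + 1 + 10 * ((p.J + 1) * i + j + 1) ≤ p.T) (hr : 0 < r)
    (hw : |w| ≤ p.pw (p.lam i) * r) :
    Acc c (fun V ω => w • gg V a t0 s (√t0 • C V ω) (y V ω).1) r
      (|w| * (2 * D) * p.pw (p.ep i j - (p.T + 1)))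
      (p.pw (-(4 * (k + 1 + 10 * (j + 1)) + p.cb * i))) := by
  have h0 : 0 < t0 := by linarith [h.t400]
  have D0 := h.D0
  have hc : |w * (a / √(tS a t0 s))| ≤ |w| := by
    rw [abs_mul]; exact mul_le_of_le_one_right (abs_nonneg _) (coef_le' h0 h.ht)
  have := hS c (k + 1) (tS a t0 s) (2 * D) (w * (a / √(tS a t0 s))) r _ hk
    (h.big.trans (h.ht.trans (le_tS _ _ _))) (by linarith [h.hD])
    (h.aCC.mono le_rfl le_rfl (by linarith) (by linarith)) h.radCC hr (hc.trans hw)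
  refine (this.congr fun V ω => by rw [gg_eq V h0, smul_smul]).mono' ?_ (by push_cast; rfl)
  have := p.pw_pos (p.ep i j - (p.T + 1))
  gcongr

lemma DGA (hS : p.St d i p.J) (hG : p.GN d i) (hi : i ≤ p.I) (h : p.AS c a t0 s C y i k D)
    (hs : |s| + (i + 1) * (p.q * p.h) ≤ 1) (hk : k + 2 + 10 * ((p.J + 1) * (i + 1)) ≤ p.T) (hr : 0 < r)
    (hw : |w| * p.pw (-2) ≤ p.pw (p.lam i) * r) :
    Acc c (fun V ω => w • p.Nd.DG V a t0 s (√t0 • C V ω, y V ω)) r
      (|w| * D * p.pw (p.m * i - (p.T + 3))) (p.pw (-(4 * (k + 3 + 10 * (p.J + 1)) + p.cb * i))) := by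
  have h0 := p.h0
  have hC := p.hC
  have q1 := p.q1
  have D0 := h.D0
  have t4 := h.t400
  have hm : (p.J + 1) * (i + 1) = (p.J + 1) * i + p.J + 1 := by ring
  have hqh : 0 ≤ p.q * p.h := by positivity
  have hqh' : 0 ≤ i * (p.q * p.h) := by positivity
  have hs' : |s + p.h * p.q| ≤ |s| + p.q * p.h :=
    (abs_add_le _ _).trans (by rw [abs_of_nonneg (a := p.h * p.q) (by positivity), mul_comm])
  have adm : Adm p.q a t0 s p.h 0 p.h :=
    ⟨h.ha, h.ht, h.hs, by linarith, by rw [abs_of_pos h0]; linarith, by simpa using h0.le,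
      p.h_le_one⟩
  have nodes := hG c k a t0 s p.h 0 D C y adm (by linarith) (by linarith)
    (by simpa using (p.pw_pos _).le) (by omega) h
  have hmin : p.ep i p.J = p.m * i := by
    have : p.m * i ≤ p.G * p.J := (Nat.mul_le_mul_left _ hi).trans p.hJG
    exact min_eq_left (by exact_mod_cast this)
  have hinv : p.h⁻¹ = p.pw (-1) := (zpow_neg_one _).symm
  have b1 := p.pw_pos (-1)
  have wle : ∀ m, |w * p.Nd.cf m * p.h⁻¹| ≤ |w| * p.C * p.pw (-1) := fun m => by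
    rw [abs_mul, abs_mul, hinv, abs_of_pos b1]
    have := p.Nd.cf_le m
    gcongr
  have e1 := p.pw_pos (p.m * i - (p.T + 1))
  have terms : ∀ m ∈ Finset.range (p.q + 1), Acc c (fun V ω => (w * p.Nd.cf m * p.h⁻¹) •
      gg V a t0 (s + p.h * m) (√t0 • C V ω) (p.Nd.Φ V a t0 s p.h 0 m (√t0 • C V ω, y V ω)).1)
      (r / (p.q + 1)) (|w| * p.C * p.pw (-1) * (2 * D) * p.pw (p.m * i - (p.T + 1)))
      (p.pw (-(4 * (k + 2 + 10 * (p.J + 1)) + p.cb * i))) := fun m hm' => by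
    have := GA hS (nodes m (by simpa [Nat.lt_succ_iff] using hm')) (by omega)
      (r := r / (p.q + 1)) (by positivity) (w := w * p.Nd.cf m * p.h⁻¹) (by
        refine (wle m).trans ?_
        rw [← mul_div_assoc, le_div_iff₀ (by positivity)]
        refine le_trans ?_ hw
        have := p.absorb (x := p.C * (p.q + 1)) (p.cst' (x := 1) 1 1 (by ring) (by norm_num)
          (by norm_num) (by norm_num)) (a := -1) (b := -2) (by norm_num)
        nlinarith [abs_nonneg w])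
    rw [hmin] at this
    refine this.mono' ?_ (by push_cast; rfl)
    have := wle m
    gcongr
  have hsum := Acc.sum _ terms (by positivity)
  have mD := p.Nd.mDG (d := d)
  have err : ∀ V, L2 (c.P V) (fun ω => (∑ m ∈ Finset.range (p.q + 1), (w * p.Nd.cf m * p.h⁻¹) •
      gg V a t0 (s + p.h * m) (√t0 • C V ω) (p.Nd.Φ V a t0 s p.h 0 m (√t0 • C V ω, y V ω)).1) -
      w • p.Nd.DG V a t0 s (√t0 • C V ω, y V ω))
      (|-(w * p.h⁻¹)| * (p.C * p.h ^ (p.q + 1) * √d)) := fun V => by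
    refine ((fd_L2 adm (h.cl V)).smul (-(w * p.h⁻¹))).congr fun ω => ?_
    simp only [zero_smul, add_zero, smul_sub, smul_smul, Finset.smul_sum]
    rw [show -(w * p.h⁻¹) * p.h = -w by field_simp, neg_smul, sub_eq_add_neg, add_comm,
      ← Finset.sum_neg_distrib, sub_eq_add_neg]
    congr 1
    exact Finset.sum_congr rfl fun m _ => by rw [← neg_smul]; congr 1; ring
  have m5 : ∀ V, Measurable fun ω => w • p.Nd.DG V a t0 s (√t0 • C V ω, y V ω) := fun V =>
    ((mD V a t0 s h.ha h.ht).comp ((h.cl V).1.prodMk (h.cl V).2.1)).const_smul w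
  refine (hsum.perturb m5 err).mono (by positivity) (le_of_eq ?_) ?_ ?_
  · simp only [Finset.card_range]; push_cast; field_simp
  · simp only [Finset.card_range]
    rw [abs_neg, abs_mul, hinv, abs_of_pos b1, p.pw_nat]
    have k1 : 4 * p.C * (p.q + 1) * (p.pw (-1) * p.pw (p.m * i - (p.T + 1))) ≤
        p.pw (p.m * i - (p.T + 3)) := by
      rw [← p.pw_add]
      exact p.absorb (p.cst' (x := 4) 1 1 (by ring) (by norm_num) (by norm_num) (by norm_num))
        (by omega)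
    have k2 : 2 * p.C * (p.pw (-1) * p.pw (p.q + 1 : ℕ)) ≤ p.pw (p.m * i - (p.T + 3)) := by
      rw [← p.pw_add]
      have : p.m * i ≤ p.q := (Nat.mul_le_mul_left _ hi).trans p.hqm
      exact p.absorb (p.cst' (x := 2) 1 0 (by ring) (by norm_num) (by norm_num) (by norm_num))
        (by push_cast; zify at this; omega)
    have k3 := mul_le_mul_of_nonneg_left k1 (mul_nonneg (abs_nonneg w) D0)
    have k4 := mul_le_mul_of_nonneg_left k2 (mul_nonneg (abs_nonneg w) D0)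
    have k5 : |w| * p.pw (-1) * (p.C * p.pw (p.q + 1 : ℕ) * √d) ≤
        |w| * p.pw (-1) * (p.C * p.pw (p.q + 1 : ℕ) * D) := by
      have := p.pw_pos (p.q + 1 : ℕ)
      have := h.hD
      gcongr
    push_cast at *
    nlinarith
  · simp only [Finset.card_range]; push_cast
    exact p.absorb (by simpa using p.cst (x := 0) (y := 1) le_rfl (by norm_num)) (by omega)

lemma GXA (hS : p.St d i p.J) (hG : p.GN d i) (hi : i ≤ p.I) (h : p.AS c a t0 s C y i k D)
    (hk : k + 3 + 10 * ((p.J + 1) * (i + 1)) ≤ p.T) (hr : 0 < r)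
    (hw : |w| * p.pw (-2) ≤ p.pw (p.lam i) * r) :
    Acc c (fun V ω => w • p.Nd.GX V a t0 s (√t0 • C V ω, y V ω)) r
      (|w| * (2 * D) * p.pw (p.m * i - (p.T + 3)))
      (p.pw (-(4 * (k + 4 + 10 * (p.J + 1)) + p.cb * i))) := by
  have D0 := h.D0
  have t4 := h.t400
  have h' : p.AS (c.ext (Seed.gauss d) (fun _ _ => ()) fun _ => measurable_const) a (tS a t0 s) 0
      (fun V u => CC a t0 s (√t0 • C V u.1) (y V u.1).1) (fun V u => ((y V u.1).2, u.2))
      i (k + 1) (2 * D) := by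
    refine ⟨h.big, h.ha, h.ht.trans (le_tS _ _ _), by simp, by linarith [h.hD], fun V => ?_,
      fun V => (h.radCC V).comp measurePreserving_fst,
      (h.aCC.lift _ _ _).mono le_rfl le_rfl (by linarith) (by linarith), ?_, ?_⟩
    · simp only [smul_CC (show 0 < t0 by linarith)]
      exact (h.cl V).spare (by linarith)
    · simp only [nn_zero]
      exact (h.aξ.lift _ _ _).mono le_rfl (by omega) (by linarith) (by linarith)
    · exact AccF.known (c := c.ext (Seed.gauss d) (fun _ _ => ()) fun _ => measurable_const)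
        (f := fun k : (c.K × E d) × Unit => k.1.2) (by fun_prop) (by linarith)
  have := DGA hS hG hi h' (by
    have h1 : (i : ℝ) ≤ p.I := by exact_mod_cast hi
    have h2 : 0 ≤ p.q * p.h := by have := p.h0; positivity
    rw [abs_zero]; nlinarith [p.hI]) (by omega) hr hw
  refine Acc.descend ((this.congr fun V u => ?_).mono' le_rfl (by push_cast; ring_nf; rfl))
    fun V => ((p.Nd.mGX V a t0 s h.ha h.ht).comp ((h.cl V).1.prodMk (h.cl V).2.1)).const_smul w
  rw [smul_CC (show 0 < t0 by linarith), ← p.Nd.GX_eq V a t0 s h.ha h.ht]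
end AS

lemma seg_le {s0 α M : ℝ} (h1 : |s0| ≤ M) (h2 : |s0 + α * p.q| ≤ M) {l : ℕ} (hl : l ≤ p.q) :
    |s0 + α * l| ≤ M := by
  rw [abs_le] at h1 h2
  have h3 : (l : ℝ) ≤ p.q := by exact_mod_cast hl
  have h4 : (0 : ℝ) ≤ l := Nat.cast_nonneg l
  rw [abs_le]
  rcases le_total 0 α with hα | hα <;> constructor <;> nlinarith

lemma adm_le {s0 α θc : ℝ} (adm : Adm p.q a t0 s0 α θc p.h) {l : ℕ} (hl : l ≤ p.q) :
    |s0 + α * l| ≤ 1 := seg_le adm.hs0 adm.hs1 hl

lemma AS.node {s0 α θc : ℝ} (adm : Adm p.q a t0 s0 α θc p.h) (h : p.AS c a t0 s0 C y i k D)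
    {l : ℕ} (hl : l ≤ p.q) : p.AS c a t0 (s0 + α * l) C
      (fun V ω => p.Nd.Φ V a t0 s0 α θc l (√t0 • C V ω, y V ω)) 0 (k + 1) D := by
  have D0 := h.D0
  have t4 := h.t400
  have cl := fun V => (h.cl V).map (p.Nd.mΦ V adm l) (p.Nd.law V adm l hl)
  have key : ∀ (X : Pt d → c.Ω → E d), (∀ V, L2 (c.P V) (X V) (9 * D)) →
      p.AccF c X 0 (k + 1) D := fun X hX i' hi' => by
    obtain rfl : i' = 0 := by omega
    refine ((Acc.known (c := c) (f := fun _ => 0) measurable_const _).perturb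
      (fun V => (hX V).1) fun V => (hX V).neg.congr fun ω => by simp).mono' ?_ (p.pw_pos _).le
    have := p.absorb' (x := 9) (by norm_num) (a := 0) (b := p.m * (0 : ℕ) - (k + 1 : ℕ))
      (by push_cast; omega)
    rw [pw_zero] at this
    nlinarith
  exact ⟨h.big, h.ha, h.ht, adm_le adm hl, h.hD, cl, h.rad,
    h.aC.mono (Nat.zero_le _) (by omega) le_rfl D0,
    key _ fun V => rad_nn (by linarith) h.ht (adm_le adm hl) h.hD (cl V) (h.rad V),
    key _ fun V => (rad_xi (by linarith) (cl V)).mono (by linarith [h.hD])⟩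

lemma GN_zero : p.GN d 0 := fun _ _ _ _ _ _ _ _ _ _ adm _ _ _ _ h _ hl => h.node adm hl

lemma lam_succ (p : Par) (i : ℕ) : p.lam (i + 1) = p.lam i + (p.G + p.T + 13) := by
  simp only [lam]; push_cast; ring
lemma lam_ge (p : Par) (i : ℕ) : p.m + 1 ≤ p.lam i := by
  simp only [lam]; exact le_add_of_nonneg_right (by positivity)
lemma lam_le (p : Par) (hi : i ≤ p.I) : p.lam i + p.T ≤ p.P := by
  have h1 := p.hP
  have h2 := Nat.mul_le_mul_right (p.G + p.T + 13) hi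
  simp only [lam]; zify at h1 h2; linarith

lemma GN_succ (hS : p.St d i p.J) (hG : p.GN d i) (hi : i + 1 ≤ p.I) : p.GN d (i + 1) := by
  intro c k a t0 s0 α θc D C y adm hs0 hs1 hθ hk h l hl
  have h0 := p.h0
  have hC := p.hC
  have q1 := p.q1
  have D0 := h.D0
  have t4 := h.t400
  have hqh : 0 ≤ p.q * p.h := by positivity
  have ls := p.lam_succ i
  have lg := p.lam_ge i
  have ll := p.lam_le (i := i) (by omega)
  have hm : (p.J + 1) * (i + 1) = (p.J + 1) * i + p.J + 1 := by ring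
  have hm2 : (p.m : ℤ) * (i + 1 : ℕ) = p.m * i + p.m := by push_cast; ring
  have hm3 : (p.cb : ℤ) * (i + 1 : ℕ) = p.cb * i + 40 * p.J + 64 := by
    simp only [cb]; push_cast; ring
  push_cast at hs0 hs1
  have nodes := hG c k a t0 s0 α θc D C y adm (by linarith) (by linarith)
    (hθ.trans (p.pw_le (by omega))) (by omega) (h.mono (Nat.le_succ i) le_rfl)
  have hmin : p.ep i p.J = p.m * i := by
    have : p.m * i ≤ p.G * p.J := (Nat.mul_le_mul_left _ (by omega)).trans p.hJG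
    exact min_eq_left (by exact_mod_cast this)
  have r0 := p.pw_pos (p.T - k)
  have e0 := p.pw_pos (p.m * (i + 1 : ℕ) - k)
  have c0 := p.pw_pos (-(4 * k + p.cb * (i + 1 : ℕ)))
  have wb : ∀ m, |p.Nd.b a t0 s0 α l m| ≤ p.pw (p.lam i + p.T) := fun m => by
    refine (p.Nd.b_le adm l hl m).trans ?_
    have h1 : p.C * p.h / a ^ 2 ≤ p.C * p.h / p.pw (-p.P) :=
      div_le_div_of_nonneg_left (by positivity) (p.pw_pos _) h.big
    have h2 : p.C * p.h / p.pw (-p.P) = p.C * p.pw (1 + p.P) := by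
      rw [p.pw_add, p.pw_one, pw, pw, zpow_neg, div_inv_eq_mul, mul_assoc]
    exact h1.trans (h2.le.trans (p.absorb
      (p.cst' (x := 1) 1 0 (by ring) (by norm_num) (by norm_num) (by norm_num)) (by omega)))
  have wθ : p.C * |θc| ≤ p.pw (p.lam i + p.T + 2) :=
    (mul_le_mul_of_nonneg_left hθ (by positivity)).trans (p.absorb
      (p.cst' (x := 1) 1 0 (by ring) (by norm_num) (by norm_num) (by norm_num)) (by omega))
  have w2 : ∀ x : ℝ, |x| ≤ p.C * |θc| → |x| * p.pw (-2) ≤ p.pw (p.lam i) * p.pw (p.T - k) :=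
    fun x hx => by
      refine (mul_le_mul_of_nonneg_right (hx.trans wθ) (p.pw_pos _).le).trans ?_
      rw [← p.pw_add, ← p.pw_add]; exact p.pw_le (by omega)
  have ee : ∀ (x : ℝ) (u v : ℤ), |x| ≤ p.pw u → p.lam i + p.m * i - 1 ≤ u + v →
      |x| * (2 * D) * p.pw v ≤ 2 * D * p.pw (p.m * (i + 1 : ℕ) - k) := fun x u v hx huv => by
    have h1 : p.pw u * p.pw v ≤ p.pw (p.m * (i + 1 : ℕ) - k) := by
      rw [← p.pw_add]; exact p.pw_le (by omega)
    have h2 := mul_le_mul_of_nonneg_right hx (p.pw_pos v).le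
    nlinarith
  have qe : p.C * p.h ^ (p.q + 1) * √d ≤ D * p.pw (p.m * (i + 1 : ℕ) - k) := by
    have h1 : p.m * (i + 1) ≤ p.q := (Nat.mul_le_mul_left _ hi).trans p.hqm
    have h2 : p.C * p.h ^ (p.q + 1) ≤ p.pw (p.m * (i + 1 : ℕ) - k) := by
      rw [p.pw_nat]
      exact p.absorb (p.cst' (x := 1) 1 0 (by ring) (by norm_num) (by norm_num) (by norm_num))
        (by zify at h1; push_cast at *; omega)
    rw [mul_comm D]
    exact mul_le_mul h2 h.hD (by positivity) e0.le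
  have fin : ∀ {X X' : Pt d → c.Ω → E d} {x y z : ℝ}, x ≤ 2 → y ≤ 2 → z ≤ 2 →
      Acc c X (x * p.pw (p.T - k) + (Finset.range (p.q + 1)).card * (y * p.pw (p.T - k)))
        (x * (D * p.pw (p.m * (i + 1 : ℕ) - k)) + (Finset.range (p.q + 1)).card *
          (y * (2 * D * p.pw (p.m * (i + 1 : ℕ) - k))))
        (p.pw (-(4 * k + p.cb * (i + 1 : ℕ))) + (Finset.range (p.q + 1)).card *
          (z * p.pw (-(4 * k + p.cb * (i + 1 : ℕ))))) → 0 ≤ x → 0 ≤ y →
      (∀ V, L2 (c.P V) (fun ω => X' V ω - X V ω) (p.C * p.h ^ (p.q + 1) * √d)) →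
      (∀ V, Measurable (X' V)) →
      Acc c X' (p.pw (p.T - (k + 1 : ℕ))) (D * p.pw (p.m * (i + 1 : ℕ) - (k + 1 : ℕ)))
        (p.pw (-(4 * (k + 1 : ℕ) + p.cb * (i + 1 : ℕ)))) := by
    intro X X' x y z hx hy hz hA x0 y0 hL hM
    simp only [Finset.card_range] at hA
    refine (hA.perturb hM fun V => (hL V).neg.congr fun ω => neg_sub _ _).mono
      (by positivity) ?_ ?_ ?_
    · have := p.absorb (p.cst (x := 2) (y := 2) (by norm_num) (by norm_num)) (a := p.T - k)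
        (b := p.T - (k + 1 : ℕ)) (by push_cast; omega)
      refine le_trans ?_ this
      push_cast
      nlinarith [mul_le_mul_of_nonneg_right hy (mul_nonneg (show (0 : ℝ) ≤ p.q + 1 by positivity) r0.le)]
    · have := p.absorb (p.cst (x := 3) (y := 4) (by norm_num) (by norm_num))
        (a := p.m * (i + 1 : ℕ) - k) (b := p.m * (i + 1 : ℕ) - (k + 1 : ℕ)) (by push_cast; omega)
      refine le_trans ?_ (mul_le_mul_of_nonneg_left this D0)
      have k1 := mul_nonneg D0 e0.le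
      have k2 := mul_le_mul_of_nonneg_right hy (mul_nonneg (show (0 : ℝ) ≤ p.q + 1 by positivity) k1)
      have k3 := mul_le_mul_of_nonneg_right hx k1
      rw [Nat.cast_add_one p.q]
      nlinarith
    · have := p.absorb (p.cst (x := 1) (y := 2) (by norm_num) (by norm_num))
        (a := -(4 * k + p.cb * (i + 1 : ℕ))) (b := -(4 * (k + 1 : ℕ) + p.cb * (i + 1 : ℕ)))
        (by push_cast; omega)
      refine le_trans ?_ this
      rw [Nat.cast_add_one p.q]
      nlinarith [mul_le_mul_of_nonneg_right hz (mul_nonneg (show (0 : ℝ) ≤ p.q + 1 by positivity) c0.le)]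
  have hl' := nodes l hl
  have mem : ∀ m ∈ Finset.range (p.q + 1), m ≤ p.q := fun m hm' => by
    simpa [Nat.lt_succ_iff] using hm'
  refine ⟨h.big, h.ha, h.ht, hl'.hs, h.hD, hl'.cl, h.rad, h.aC.mono le_rfl (by omega) le_rfl D0,
    fun i' hi' => ?_, fun i' hi' => ?_⟩
  · rcases hi'.lt_or_eq with hlt | rfl
    · exact hl'.an i' (by omega)
    have terms := Acc.sum (r := 2 * p.pw (p.T - k))
      (e := 2 * (2 * D * p.pw (p.m * (i + 1 : ℕ) - k)))
      (Q := 2 * p.pw (-(4 * k + p.cb * (i + 1 : ℕ)))) _ (fun m hm' =>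
      ((((nodes m (mem m hm')).GA hS (by omega) r0 ((wb m).trans (by
          rw [← p.pw_add]; exact p.pw_le (by omega)))).mono'
          (ee _ _ _ (wb m) (by rw [hmin]; omega))
          (p.pw_le (a := -(4 * k + p.cb * (i + 1 : ℕ))) (by push_cast at *; omega))).add
        (((nodes m (mem m hm')).GXA hS hG (by omega) (by omega) r0
          (w2 _ (p.Nd.b'_le adm l hl m))).mono'
          (ee _ _ _ ((p.Nd.b'_le adm l hl m).trans wθ) (by omega))
          (p.pw_le (a := -(4 * k + p.cb * (i + 1 : ℕ))) (by push_cast at *; omega)))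
        r0.le r0.le).mono (by positivity) (by linarith) (by linarith) (by linarith))
      (by positivity)
    exact fin (p.Nd.κ_le adm l hl) le_rfl le_rfl
      (((h.an _ le_rfl).smul (p.Nd.κ a t0 s0 α l)).add terms (by positivity) (by positivity))
      (abs_nonneg _) (by norm_num) (fun V => n_L2 adm (h.cl V) hl) hl'.an.meas
  · rcases hi'.lt_or_eq with hlt | rfl
    · exact hl'.aξ i' (by omega)
    have terms := Acc.sum (r := 1 * p.pw (p.T - k))
      (e := 1 * (2 * D * p.pw (p.m * (i + 1 : ℕ) - k)))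
      (Q := 1 * p.pw (-(4 * k + p.cb * (i + 1 : ℕ)))) _ (fun m hm' =>
      ((nodes m (mem m hm')).DGA hS hG (by omega) (by
          linarith [seg_le (M := 1 - (i + 1) * (p.q * p.h)) (by linarith) (by linarith : |s0 + α * p.q| ≤ _) (mem m hm')])
          (by omega) r0 (w2 _ (p.Nd.b''_le θc l hl m))).mono r0.le (by linarith) (by
          have k1 := ee _ _ (p.m * i - (p.T + 3)) ((p.Nd.b''_le θc l hl m).trans wθ) (by omega)
          have k2 := mul_nonneg (mul_nonneg (abs_nonneg (p.Nd.b'' θc l m)) D0)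
            (p.pw_pos (p.m * i - (p.T + 3))).le
          linarith) (by
          rw [one_mul]; exact p.pw_le (by push_cast at *; omega)))
      (by positivity)
    refine fin (x := 1) (y := 1) (z := 1) (by norm_num) (by norm_num) (by norm_num) ?_ (by norm_num) (by norm_num)
      (fun V => ξ_L2 adm (h.cl V) hl) hl'.aξ.meas
    simpa only [one_mul] using (h.aξ _ le_rfl).add terms (by positivity) (by positivity)

end Par
end Vale.Agent.P347
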