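import Vale.Agent.P347.Rec2

/-! P347: the base case and the localization step of the sampling primitive. -/

open MeasureTheory ProbabilityTheory Filter
open scoped ENNReal

noncomputable section
namespace Vale.Agent.P347
variable {d : ℕ}

lemma L2.const {Ω : Type} [MeasurableSpace Ω] {P : Measure Ω} [IsProbabilityMeasure P]
    {f g : Ω → E d} {e A B : ℝ} (h : L2 P f e) (hg : Measurable g) (hA : 0 ≤ A) (hB : 0 ≤ B)
    (hle : ∀ x, ‖g x‖ ≤ A + B * ‖f x‖) : L2 P g (A + B * e) := by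
  refine ⟨hg, add_nonneg hA (mul_nonneg hB h.2.1), ?_⟩
  have h1 := (h.smul B).2.2
  rw [abs_of_nonneg hB] at h1
  have m := h.1
  calc eLpNorm g 2 P ≤ eLpNorm ((fun _ => A) + fun x => ‖B • f x‖) 2 P :=
        eLpNorm_mono_real fun x => by
          simpa [norm_smul, abs_of_nonneg hB] using hle x
    _ ≤ eLpNorm (fun _ => A) 2 P + eLpNorm (fun x => ‖B • f x‖) 2 P :=
        eLpNorm_add_le aestronglyMeasurable_const (Measurable.aestronglyMeasurable (by fun_prop))
          (by norm_num)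
    _ ≤ _ := by
        rw [ENNReal.ofReal_add hA (mul_nonneg hB h.2.1), eLpNorm_norm]
        refine add_le_add ?_ h1
        rw [eLpNorm_const _ (by norm_num) (IsProbabilityMeasure.ne_zero P)]
        simp [Real.enorm_eq_ofReal hA]

namespace Par
variable {p : Par} {c : Ctx d} {t D w r : ℝ} {C : Pt d → c.Ω → E d} {i j k : ℕ}

lemma base (hk : k ≤ p.T) (ht : p.pw (-p.P) ≤ t) (hD : √d ≤ D) (hA : p.AccF c C i k D)
    (hR : ∀ V, L2 (c.P V) (C V) (√t * D)) :
    Acc c (fun V ω => w • G0 V t (C V ω)) r (|w| * D * (4 * p.pw (-k))) (2 * p.pw (-(4 * k))) := by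
  have t4 := p.big ht
  have D0 : 0 ≤ D := (Real.sqrt_nonneg _).trans hD
  have s0 : 0 < √t := Real.sqrt_pos.2 (by linarith)
  have s1 : 1 ≤ √t := Real.one_le_sqrt.2 (by linarith)
  have ss : √t * √t = t := Real.mul_self_sqrt (by linarith)
  have h1 := (hA 0 (Nat.zero_le _)).query (√t)⁻¹ (w * √t) r
    (X' := fun V ω => w • G0 V t (C V ω)) (e' := |w * √t| * (2 * √(d / t) + 1 / (2 * t) * D))
    (fun V => ((G0_meas V (by linarith)).comp (hA.meas V)).const_smul w) fun V => by
      have k1 := (hR V).smul (√t)⁻¹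
      rw [abs_of_pos (by positivity), ← mul_assoc, inv_mul_cancel₀ s0.ne', one_mul] at k1
      have m1 := MM_meas V (t := t) (by linarith)
      have m2 := hA.meas V
      have m3 := V.contF.measurable
      refine ((k1.const (g := fun ω => V.F ((√t)⁻¹ • C V ω) - MM V t (√t • C V ω)) (by fun_prop)
        (by positivity) (by positivity) fun ω => ?_).smul (w * √t)).congr fun ω => ?_
      · have := MM_sub_F V (t := t) (by linarith) (√t • C V ω)
        rw [smul_smul, show t⁻¹ * √t = (√t)⁻¹ by field_simp; nlinarith, norm_sub_rev] at this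
        refine this.trans (le_of_eq ?_)
        ring
      · simp only [G0, smul_sub, smul_smul]
  refine h1.mono' ?_ ?_
  · have e1 := p.one_le_pw (a := -k) (by omega)
    have e2 := p.pw_le_one (a := p.T - k) (by omega)
    have e3 := p.pw_pos (p.T - k)
    have e4 : √t * √(d / t) = √d := by
      rw [Real.sqrt_div (Nat.cast_nonneg d)]; field_simp
    have e5 : √t * (1 / (2 * t)) ≤ 1 / 2 := by
      rw [mul_one_div, div_le_div_iff₀ (by linarith) (by norm_num)]; nlinarith
    simp only [Nat.cast_zero, mul_zero, zero_sub]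
    rw [abs_mul, abs_of_pos s0, abs_of_pos (inv_pos.2 s0), abs_of_pos e3]
    have e6 : |w| * √t * (1 / 2 * ((√t)⁻¹ * (D * p.pw (-k) + p.pw (p.T - k) * √d))) +
        |w| * √t * (2 * √(d / t) + 1 / (2 * t) * D) =
        |w| * (1 / 2 * (D * p.pw (-k) + p.pw (p.T - k) * √d) + 2 * (√t * √(d / t)) +
          √t * (1 / (2 * t)) * D) := by field_simp; ring
    rw [e6, e4, mul_assoc |w| D]
    refine mul_le_mul_of_nonneg_left ?_ (abs_nonneg w)
    nlinarith [mul_le_mul_of_nonneg_right e2 (Real.sqrt_nonneg (d : ℝ)),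
      mul_le_mul_of_nonneg_right e5 D0, mul_le_mul_of_nonneg_left e1 D0]
  · have := p.one_le_pw (a := -(4 * k)) (by omega)
    simp only [Nat.cast_zero, mul_zero, add_zero]; linarith

lemma samp (hG : p.GN d i) (hi : i ≤ p.I) (hk : k + 4 + 10 * ((p.J + 1) * i) ≤ p.T)
    (ht : p.pw (-p.P) ≤ t) (hD : √d ≤ D) (hA : p.AccF c C i k D)
    (hR : ∀ V, L2 (c.P V) (C V) (√t * D)) :
    ∃ (S : Seed) (n : ℕ) (Ψ : Pt d → c.K × S.T → E d) (y : Pt d → c.Ω × S.T → E d × E d)
      (f : S.T → E d), (n : ℝ) ≤ p.pw (-(4 * (k + 2 : ℕ) + p.cb * i)) ∧ Comp n _ Ψ ∧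
      Measurable f ∧ (∀ V u, (y V u).2 = f u.2) ∧ (∀ V, Measurable (y V)) ∧
      (∀ V ω, MeasurePreserving (fun σ => y V (ω, σ)) S.μ
        (rho V √t t (p.q * p.h) (√t • C V ω))) ∧
      ∀ V, L2 ((c.P V).prod S.μ) (fun u => Ψ V (c.κ V u.1, u.2) -
        CC √t t (p.q * p.h) (√t • C V u.1) (y V u).1) (D * p.pw (p.m * i - (k + 2 : ℕ))) := by
  have t4 := p.big ht
  have D0 : 0 ≤ D := (Real.sqrt_nonneg _).trans hD
  have s0 : 0 < √t := Real.sqrt_pos.2 (by linarith)
  have s1 : 1 ≤ √t := Real.one_le_sqrt.2 (by linarith)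
  have ss : √t ^ 2 = t := Real.sq_sqrt (by linarith)
  have h0 := p.h0
  have q1 := p.q1
  have qh := p.qh_le
  have hqh : 0 ≤ p.q * p.h := by positivity
  have hI : (i : ℝ) * (p.q * p.h) ≤ p.I * (p.q * p.h) :=
    mul_le_mul_of_nonneg_right (by exact_mod_cast hi) hqh
  have e2 : |(0 : ℝ) + 2 * p.h * p.q| = 2 * (p.q * p.h) := by
    rw [abs_of_nonneg (by positivity)]; ring
  have adm : Adm p.q √t t 0 (2 * p.h) 0 p.h :=
    ⟨s1, ss.le, by simp, by rw [e2]; linarith, by rw [abs_of_pos (by linarith)],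
      by simpa using h0.le, p.h_le_one⟩
  let c1 := c.ext ((Seed.gauss d).prod (Seed.gauss d)) (fun _ _ => ()) fun _ => measurable_const
  have A1 : p.AS c1 √t t 0 (fun V u => C V u.1) (fun _ u => u.2) i k D :=
    ⟨ss.symm ▸ ht, s1, ss.le, by simp, hD, fun V => CL.of_strong (θ := fun ω => √t • C V ω)
      ((hA.meas V).const_smul √t) measurable_snd fun ω => by
        rw [rho_zero V _ (by linarith)]; exact MeasurePreserving.id _,
      fun V => (hR V).comp measurePreserving_fst, hA.lift _ _ _, by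
        simp only [nn_zero]
        exact AccF.known (c := c1) (f := fun k : (c.K × (E d × E d)) × Unit => k.1.2.1)
          (by fun_prop) D0,
      AccF.known (c := c1) (f := fun k : (c.K × (E d × E d)) × Unit => k.1.2.2) (by fun_prop) D0⟩
  have A2 := hG c1 k _ _ _ _ _ D _ _ adm (by rw [abs_zero]; linarith [p.hI])
    (by rw [e2]; linarith [p.hI]) (by simpa using (p.pw_pos _).le) hk A1 p.q le_rfl
  set S := p.q * p.h with hS
  set t' := tS √t t S with ht'
  have t'0 : 0 < √t' := Real.sqrt_pos.2 (by linarith [le_tS √t t S])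
  have c1' := ratio_le (a := √t) (s := S) (by linarith : 0 < t) ss.le
    (by rw [abs_of_nonneg hqh]; linarith)
  have c2' := coef_le (a := √t) (s := S) (by linarith : 0 < t)
  have A3 := (A2.aC.lin A2.an D0 (l := √t' / √t) (l' := √t * S / √t' * (1 / 2)) (n := 1) le_rfl (by
    have := p.H_le
    have := p.H_ge
    rw [abs_mul, abs_of_pos (by norm_num : (0 : ℝ) < 1 / 2)]
    simp only [Nat.cast_one]; linarith)) i le_rfl
  have r3 : (√3 / 2) ^ 2 = (3 : ℝ) / 4 := by rw [div_pow, Real.sq_sqrt (by norm_num)]; norm_num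
  obtain ⟨_, S2, n2, Ψ2, hn, hΨ, hζ⟩ := A3.mono (r' := √t * S / √t' * (√3 / 2)) (p.pw_pos _).le (by
    have k1 : √t' ≤ 2 * √t := by
      rwa [abs_of_nonneg (by positivity), div_le_iff₀ s0] at c1'
    have k2 : p.h / 2 ≤ √t * S / √t' := by
      rw [le_div_iff₀ t'0]
      nlinarith [mul_le_mul_of_nonneg_right q1 h0.le]
    have k3 : 1 / 2 ≤ √3 / 2 := by
      have : 1 ≤ √3 := Real.one_le_sqrt.2 (by norm_num)
      linarith
    have k4 := p.absorb' (x := 4) (by norm_num) (a := p.T - (k + 1 + 1 : ℕ)) (b := 1)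
      (by push_cast; omega)
    rw [pw_one] at k4
    nlinarith) le_rfl le_rfl
  choose ζ hζ1 hζ2 hζ3 using hζ
  refine ⟨(((Seed.gauss d).prod (Seed.gauss d)).prod S2).prod (Seed.gauss d), n2,
    fun V u => Ψ2 V (((u.1, u.2.1.1), ()), u.2.1.2),
    fun V u => ((1 / 2 : ℝ) • (p.Nd.Φ V √t t 0 (2 * p.h) 0 p.q (√t • C V u.1, u.2.1.1)).1 +
      (√3 / 2) • ζ V ((u.1, u.2.1.1), u.2.1.2), u.2.2), Prod.snd, hn,
    hΨ.pre (f := fun u : c.K × (((E d × E d) × S2.T) × E d) => (((u.1, u.2.1.1), ()), u.2.1.2))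
      (by fun_prop), measurable_snd, fun _ _ => rfl, fun V => ?_, fun V ω => ?_, fun V => ?_⟩
  · have := p.Nd.mΦ V adm p.q
    have := hA.meas V
    have := hζ1 V
    fun_prop
  · have := NN_prob V (t := t) (by linarith) (√t • C V ω) (√t * (0 + 2 * p.h * p.q))
    have k1 : MeasurePreserving (fun u : E d × E d =>
        (p.Nd.Φ V √t t 0 (2 * p.h) 0 p.q (√t • C V ω, u)).1) ((gam d).prod (gam d))
        (NN V t (√t • C V ω) (√t * (0 + 2 * p.h * p.q))) := by
      have k0 := p.Nd.law V adm p.q le_rfl (√t • C V ω)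
      rw [rho_zero V _ (by linarith)] at k0
      exact measurePreserving_fst.comp k0
    have k2 := k1.skew_product (g := fun u σ => ζ V ((ω, u), σ)) (μc := S2.μ) (μd := gam d)
      ((hζ1 V).comp (by fun_prop : Measurable fun u : (E d × E d) × S2.T => ((ω, u.1), u.2)))
      (Eventually.of_forall fun u => (hζ2 V (ω, u)).map_eq)
    have k3 := (NN_rot V (t := t) (by linarith) (√t • C V ω) _ (r := 1 / 2) (r' := √3 / 2)
      (by rw [r3]; norm_num)).comp k2
    rw [show 1 / 2 * (√t * (0 + 2 * p.h * p.q)) = √t * S by rw [hS]; ring] at k3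
    exact k3.prod (MeasurePreserving.id _)
  · have k1 : MeasurePreserving (fun u : c.Ω × (((E d × E d) × S2.T) × E d) =>
        ((u.1, u.2.1.1), u.2.1.2))
        ((c.P V).prod ((((gam d).prod (gam d)).prod S2.μ).prod (gam d)))
        (((c.P V).prod ((gam d).prod (gam d))).prod S2.μ) :=
      (measurePreserving_prodAssoc _ _ _).symm.comp
        ((MeasurePreserving.id _).prod measurePreserving_fst)
    refine ((hζ3 V).comp k1).congr fun u => ?_
    rw [CC_eq (by linarith), ← ht']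
    simp only [nn]
    rw [show √t * (0 + 2 * p.h * p.q) / t = 2 * (√t * S / t) by rw [hS]; ring]
    module

end Par
end Vale.Agent.P347
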