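import Vale.Agent.P347.Rec3

/-! P347: one stage of the main chain, and the sampling primitive. -/

open MeasureTheory ProbabilityTheory Filter
open scoped ENNReal

noncomputable section
namespace Vale.Agent.P347
variable {d : ℕ}

namespace Par
variable {p : Par} {c : Ctx d} {t D w r : ℝ} {C : Pt d → c.Ω → E d} {i j k n : ℕ}

/-- The correction term of one stage. -/
lemma extra (hS : p.St d i j) (hG : p.GN d i) (hi1 : 1 ≤ i) (hi : i ≤ p.I)
    {y : Pt d → c.Ω → E d × E d} {a θc : ℝ}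
    (hk : k + 6 + 10 * ((p.J + 1) * i + j + 1) ≤ p.T) (A0 : p.AS c a t (p.q * p.h) C y i k D)
    (hθ : |θc| ≤ p.pw (p.lam i - 3)) (hr : 0 < r) (hw : |w| ≤ p.pw (p.lam i - 4) * r) :
    Adm p.q a t (p.q * p.h) (-p.h) θc p.h ∧
    Acc c (fun V ω => (w * θc) • ∑ m ∈ Finset.range (p.q + 1), p.Nd.e m •
      p.Nd.GG V a t (p.q * p.h + -p.h * m) (√t • C V ω,
        p.Nd.Φ V a t (p.q * p.h) (-p.h) θc m (√t • C V ω, y V ω))) r
      (|w| * D * (p.pw (p.ep i (j + 1) - p.T + 4) / 2))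
      (p.pw (-(4 * (k + 4 + 10 * (j + 1)) + p.cb * i))) := by
  have h0 := p.h0
  have hC := p.hC
  have q1 := p.q1
  have qh := p.qh_le
  have D0 := A0.D0
  have hqh : 0 ≤ p.q * p.h := by positivity
  have hI : (i : ℝ) * (p.q * p.h) ≤ p.I * (p.q * p.h) :=
    mul_le_mul_of_nonneg_right (by exact_mod_cast hi) hqh
  have hI' := p.hI
  have lg : (p.m : ℤ) + 1 + (p.G + p.T + 13) ≤ p.lam i := by
    have : (1 : ℤ) ≤ i := by exact_mod_cast hi1
    simp only [lam]; nlinarith [show (0 : ℤ) ≤ p.G + p.T + 13 by positivity]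
  set θ' := p.pw (p.lam i - (p.G + 10)) with hθ'
  have θ0 : 0 < θ' := p.pw_pos _
  have θh : θ' ≤ p.h := p.pw_one ▸ p.pw_le (by omega)
  have θθ : |θc| ≤ θ' := hθ.trans (p.pw_le (by omega))
  have e0 : |p.q * p.h + -p.h * p.q| = 0 := by ring_nf; simp
  have adm : Adm p.q a t (p.q * p.h) (-p.h) θc p.h :=
    ⟨A0.ha, A0.ht, A0.hs, by rw [e0]; norm_num, by rw [abs_neg, abs_of_pos h0]; linarith,
      θθ.trans θh, p.h_le_one⟩
  refine ⟨adm, ?_⟩
  have B := hG c k _ _ _ _ _ D _ _ adm (by rw [abs_of_nonneg hqh]; linarith)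
    (by rw [e0]; linarith) θθ (by omega) A0
  have sm : ∀ m ≤ p.q, |p.q * p.h + -p.h * m| ≤ p.q * p.h := fun m hm =>
    seg_le (abs_of_nonneg hqh).le (by rw [e0]; exact hqh) hm
  have admF : ∀ m ≤ p.q, Adm p.q a t (p.q * p.h + -p.h * m) 0 θ' p.h := fun m hm =>
    ⟨A0.ha, A0.ht, by linarith [sm m hm], by rw [zero_mul, add_zero]; linarith [sm m hm],
      by simpa using h0.le, by rwa [abs_of_pos θ0], p.h_le_one⟩
  have F := fun m hm => hG c (k + 1) _ _ _ _ _ D _ _ (admF m hm) (by linarith [sm m hm])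
    (by rw [zero_mul, add_zero]; linarith [sm m hm]) (abs_of_pos θ0).le (by omega) (B m hm)
  have mem : ∀ m ∈ Finset.range (p.q + 1), m ≤ p.q := fun m hm' => by
    simpa [Nat.lt_succ_iff] using hm'
  have w1 : ∀ m, |w * θc * p.Nd.e m / θ'| ≤ |w| * (p.C * p.pw (p.G + 7)) := fun m => by
    rw [abs_div, abs_of_pos θ0, div_le_iff₀ θ0, abs_mul, abs_mul, mul_assoc |w|, mul_assoc |w|,
      mul_assoc p.C, hθ', ← p.pw_add, show (p.G : ℤ) + 7 + (p.lam i - (p.G + 10)) = p.lam i - 3 by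
        ring, mul_comm p.C]
    have := p.Nd.e_le m
    have := p.pw_pos (p.lam i - 3)
    gcongr
  have g7 := p.pw_pos (p.G + 7)
  have w2 : ∀ m m', |w * θc * p.Nd.e m / θ' * p.Nd.cf m'| ≤
      |w| * (p.C * p.pw (p.G + 7)) * p.C := fun m m' => by
    rw [abs_mul]
    exact mul_le_mul (w1 m) (p.Nd.cf_le m') (abs_nonneg _) (by positivity)
  have e1 := p.pw_pos (p.ep i j - (p.T + 1))
  have terms := Acc.sum _ (fun m hm => (Acc.sum _ (fun m' hm' =>
    ((F m (mem m hm) m' (mem m' hm')).GA hS (by omega) (r := r / (p.q + 1) ^ 2) (by positivity)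
      (w := w * θc * p.Nd.e m / θ' * p.Nd.cf m') (by
        refine (w2 m m').trans ?_
        rw [← mul_div_assoc, le_div_iff₀ (by positivity)]
        have k1 := p.absorb (p.cst' (x := 1) 2 2 rfl (by norm_num) le_rfl le_rfl)
          (a := p.G + 7 + (p.lam i - 4)) (b := p.lam i) (by omega)
        rw [p.pw_add] at k1
        have k2 := mul_le_mul_of_nonneg_right hw
          (show 0 ≤ p.C ^ 2 * (p.q + 1) ^ 2 * p.pw (p.G + 7) by positivity)
        nlinarith [mul_le_mul_of_nonneg_right k1 hr.le])).mono'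
      (e' := |w| * (p.C * p.pw (p.G + 7)) * p.C * (2 * D) * p.pw (p.ep i j - (p.T + 1)))
      (by have := w2 m m'; gcongr) le_rfl) (by positivity)).perturb
      (X' := fun V ω => (w * θc * p.Nd.e m) • p.Nd.GG V a t (p.q * p.h + -p.h * m) (√t • C V ω,
        p.Nd.Φ V a t (p.q * p.h) (-p.h) θc m (√t • C V ω, y V ω)))
      (e' := |w| * (p.C * p.pw (p.G + 7)) * (p.C * p.h ^ (p.q + 1) * √d))
      (fun V => ((p.Nd.mGG V a t _ A0.ha A0.ht).comp
        (((B m (mem m hm)).cl V).1.prodMk ((B m (mem m hm)).cl V).2.1)).const_smul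
          (w * θc * p.Nd.e m)) fun V => by
      refine (((fd_L2 (admF m (mem m hm)) ((B m (mem m hm)).cl V)).smul
        (-(w * θc * p.Nd.e m / θ'))).congr fun ω => ?_).mono ?_
      · simp only [zero_smul, zero_add, smul_sub, smul_smul, Finset.smul_sum, neg_mul,
          div_mul_cancel₀ _ θ0.ne', neg_smul, Finset.sum_neg_distrib]
        abel
      · rw [abs_neg]; exact mul_le_mul_of_nonneg_right (w1 m) (p.err0 d)) (by positivity)
  refine (terms.congr fun V ω => ?_).mono (by positivity) (le_of_eq ?_) ?_ ?_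
  · simp only [Finset.smul_sum, smul_smul]
  · simp only [Finset.card_range]; push_cast; field_simp
  · simp only [Finset.card_range, Nat.cast_add_one p.q]
    have ep1 : p.ep i (j + 1) ≤ p.ep i j + p.G := by
      simp only [ep]; push_cast
      rw [mul_add, mul_one]; omega
    have ep2 : p.ep i (j + 1) ≤ p.q := by
      have : p.m * i ≤ p.q := (Nat.mul_le_mul_left _ hi).trans p.hqm
      exact (min_le_left _ _).trans (by exact_mod_cast this)
    have k1 := p.absorb (p.cst' (x := 8) 2 2 rfl (by norm_num) le_rfl le_rfl)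
      (a := p.G + 7 + (p.ep i j - (p.T + 1))) (b := p.ep i (j + 1) - p.T + 4) (by omega)
    have k2 := p.absorb (p.cst' (x := 4) 2 1 rfl (by norm_num) le_rfl (by norm_num))
      (a := p.G + 7 + (p.q + 1 : ℕ)) (b := p.ep i (j + 1) - p.T + 4) (by push_cast; omega)
    rw [p.pw_add] at k1 k2
    rw [← p.pw_nat] at k2
    have k3 := mul_le_mul_of_nonneg_left k1 (mul_nonneg (abs_nonneg w) D0)
    have k4 := mul_le_mul_of_nonneg_left k2 (mul_nonneg (abs_nonneg w) D0)
    have k5 := mul_le_mul_of_nonneg_left A0.hD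
      (show 0 ≤ (p.q + 1) * (|w| * (p.C * p.pw (p.G + 7)) * (p.C * p.h ^ (p.q + 1))) by positivity)
    nlinarith
  · simp only [Finset.card_range, Nat.cast_add_one p.q]
    rw [← mul_assoc]
    exact p.absorb (p.cst' (x := 1) 0 2 (by ring) (by norm_num) (by norm_num) le_rfl)
      (by push_cast; omega)

end Par
end Vale.Agent.P347
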