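import Vale.Agent.P347.Rec4

/-! P347: the main chain and the sampling primitive at every order. -/

open MeasureTheory ProbabilityTheory Filter
open scoped ENNReal

noncomputable section
namespace Vale.Agent.P347
variable {d : ℕ}

namespace Par
variable (p : Par)

def rr : ℝ := (√(1 + p.h ^ 2))⁻¹
def Er (i j n k : ℕ) : ℝ := p.pw (p.m * i - k - 3) +
  n * (p.pw (p.m * i - 3) + p.pw (p.ep i j - p.T + 4)) + 4 * p.pw (-k) * p.rr ^ n

def StG (d i j n : ℕ) : Prop :=
  ∀ (c : Ctx d) (k : ℕ) (t D w r : ℝ) (C : Pt d → c.Ω → E d),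
    k + 10 * ((p.J + 1) * i + j + 1) ≤ p.T → p.pw (-p.P) ≤ t → √d ≤ D → p.AccF c C i k D →
    (∀ V, L2 (c.P V) (C V) (√t * D)) → 0 < r → 2 * (n + 1) * |w| ≤ p.pw (p.lam i - 4) * r →
    Acc c (fun V ω => w • G0 V t (C V ω)) r (|w| * (D * (1 + p.h ^ 4) ^ n) * p.Er i j n k)
      ((n + 2) * p.pw (-(4 * (k + 10 * (j + 1) - 1) + p.cb * i)))

lemma rr_pos : 0 < p.rr := by unfold rr; positivity
lemma rr_le : p.rr ≤ 1 :=
  inv_le_one_of_one_le₀ (Real.one_le_sqrt.2 (le_add_of_nonneg_right (sq_nonneg _)))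

variable {p} {i j n : ℕ}

lemma StG_zero : p.StG d i j 0 := by
  intro c k t D w r C hk ht hD hA hR _ _
  have D0 : 0 ≤ D := (Real.sqrt_nonneg _).trans hD
  refine (base (by omega) ht hD hA hR).mono' ?_ ?_
  · have := p.pw_pos (p.m * i - k - 3)
    simp only [Er, pow_zero, mul_one, Nat.cast_zero, zero_mul, add_zero]
    gcongr; linarith
  · have : (0 : ℤ) ≤ p.cb * i := by positivity
    simp only [Nat.cast_zero, zero_add]
    exact mul_le_mul_of_nonneg_left (p.pw_le (by omega)) (by norm_num)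

lemma Er_step {k : ℕ} {x y A : ℝ} (hx : 0 ≤ x) (hy : y ≤ p.rr * x) (hA : 1 ≤ A) :
    y * A * p.Er i j n 0 + x * (p.pw (p.ep i j - p.T + 4) / 2) +
      (x * (p.pw (p.ep i j - p.T + 4) / 2) + x * p.pw (p.m * i - k - 3)) ≤
      x * A * p.Er i j (n + 1) k := by
  have r0 := p.rr_pos
  have r1 := p.rr_le
  have a1 := p.pw_pos (p.m * i - k - 3)
  have a2 := p.pw_pos (p.m * i - 3)
  have a3 := p.pw_pos (p.ep i j - p.T + 4)
  have a4 := p.one_le_pw (a := -k) (by omega)
  have E0 : p.Er i j n 0 = p.pw (p.m * i - 3) +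
      n * (p.pw (p.m * i - 3) + p.pw (p.ep i j - p.T + 4)) + 4 * p.rr ^ n := by
    simp [Er, pw_zero]
  have E1 : 0 ≤ p.Er i j n 0 := by rw [E0]; positivity
  have h1 : y * A * p.Er i j n 0 ≤ x * A * (p.rr * p.Er i j n 0) := by
    have := mul_le_mul_of_nonneg_right hy (mul_nonneg (by linarith : 0 ≤ A) E1)
    nlinarith
  have h2 : p.rr * p.Er i j n 0 + p.pw (p.ep i j - p.T + 4) + p.pw (p.m * i - k - 3) ≤
      p.Er i j (n + 1) k := by
    rw [E0, Er, pow_succ]; push_cast
    have b1 := mul_le_mul_of_nonneg_right r1 (show 0 ≤ p.pw (p.m * i - 3) +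
      n * (p.pw (p.m * i - 3) + p.pw (p.ep i j - p.T + 4)) by positivity)
    have b2 := mul_le_mul_of_nonneg_right a4 (show 0 ≤ p.rr ^ n * p.rr by positivity)
    nlinarith
  have h3 := mul_le_mul_of_nonneg_left h2 (mul_nonneg hx (by linarith : 0 ≤ A))
  have h4 := mul_le_mul_of_nonneg_left hA (mul_nonneg hx (add_pos a3 a1).le)
  nlinarith

lemma post_samp {c : Ctx d} {k : ℕ} {t D : ℝ} {C : Pt d → c.Ω → E d} (hk : k + 2 ≤ p.T)
    (ht : p.pw (-p.P) ≤ t) (hD : √d ≤ D) (hA : p.AccF c C i k D)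
    (hR : ∀ V, L2 (c.P V) (C V) (√t * D)) {S : Seed} {Ψ : Pt d → c.K × S.T → E d}
    {y : Pt d → c.Ω × S.T → E d × E d} {f : S.T → E d} (hΨ : ∀ V, Measurable (Ψ V))
    (hf : Measurable f) (hy2 : ∀ V u, (y V u).2 = f u.2) (hym : ∀ V, Measurable (y V))
    (hlaw : ∀ V ω, MeasurePreserving (fun σ => y V (ω, σ)) S.μ
        (rho V √t t (p.q * p.h) (√t • C V ω)))
    (herr : ∀ V, L2 ((c.P V).prod S.μ) (fun u => Ψ V (c.κ V u.1, u.2) -
        CC √t t (p.q * p.h) (√t • C V u.1) (y V u).1) (D * p.pw (p.m * i - (k + 2 : ℕ)))) :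
    p.AS (c.ext S Ψ hΨ) √t t (p.q * p.h) (fun V u => C V u.1) y i (k + 4) D ∧
      ∀ V, L2 ((c.P V).prod S.μ) (fun u => Ψ V (c.κ V u.1, u.2))
        (√(tS √t t (p.q * p.h)) * ((1 + p.h ^ 4) * D)) := by
  have t4 := p.big ht
  have D0 : 0 ≤ D := (Real.sqrt_nonneg _).trans hD
  have s0 : 0 < √t := Real.sqrt_pos.2 (by linarith)
  have s1 : 1 ≤ √t := Real.one_le_sqrt.2 (by linarith)
  have ss : √t ^ 2 = t := Real.sq_sqrt (by linarith)
  have h0 := p.h0
  have q1 := p.q1
  have qh := p.qh_le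
  have hs : |p.q * p.h| ≤ 1 := by rw [abs_of_nonneg (by positivity)]; linarith
  set t' := tS √t t (p.q * p.h) with ht'
  have tt' : t ≤ t' := le_tS _ _ _
  have t'0 : 0 < √t' := Real.sqrt_pos.2 (by linarith)
  have c1 := ratio_le (a := √t) (s := p.q * p.h) (by linarith : 0 < t) ss.le hs
  rw [← ht'] at c1
  let c2 := c.ext S Ψ hΨ
  have cl : ∀ V, CL (c2.P V) (fun u => √t • C V u.1) (y V) (rho V √t t (p.q * p.h)) := fun V =>
    CL.of_strong (θ := fun ω => √t • C V ω) ((hA.meas V).const_smul √t) (hym V) (hlaw V)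
  have rad : ∀ V, L2 (c2.P V) (fun u => C V u.1) (√t * D) := fun V =>
    (hR V).comp measurePreserving_fst
  have radCC := fun V => rad_CC (by linarith) ss.le hs hD (cl V) (rad V)
  have aCC : p.AccF c2 (fun V u => CC √t t (p.q * p.h) (√t • C V u.1) (y V u).1) i (k + 2) D :=
    fun i' hi' => ((Acc.known (c := c2) (f := fun k : (c.K × S.T) × E d => k.2) measurable_snd
      _).perturb (fun V => (radCC V).1) herr).mono' (by
        have : (p.m : ℤ) * i' ≤ p.m * i := by exact_mod_cast Nat.mul_le_mul_left _ hi'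
        rw [zero_add]; exact mul_le_mul_of_nonneg_left (p.pw_le (by omega)) D0) (p.pw_pos _).le
  refine ⟨⟨ss.symm ▸ ht, s1, ss.le, hs, hD, cl, rad,
    (hA.lift _ _ _).mono le_rfl (by omega) le_rfl D0, ?_, ?_⟩, fun V => ?_⟩
  · have k0 : |√t' / (√t * (p.q * p.h))| ≤ 2 * p.pw (-1) := by
      rw [abs_of_nonneg (by positivity), div_le_iff₀ s0] at c1
      rw [abs_of_nonneg (by positivity), div_le_iff₀ (by positivity), pw, zpow_neg_one]
      calc √t' ≤ 2 * √t * 1 := by linarith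
        _ ≤ 2 * √t * p.q := by gcongr
        _ = _ := by field_simp
    refine (aCC.lin ((hA.lift S Ψ hΨ).mono le_rfl (by omega) le_rfl D0) D0
      (l := √t' / (√t * (p.q * p.h))) (l' := -(√t' / (√t * (p.q * p.h)) * (√t' / √t)))
      (n := 2) (by norm_num) ?_).congr fun V u => ?_
    · have k1 := p.absorb' (x := 6) (by norm_num) (a := -1) (b := -((2 : ℕ) : ℤ)) (by norm_num)
      have k2 := mul_le_mul_of_nonneg_left c1 (abs_nonneg (√t' / (√t * (p.q * p.h))))
      rw [abs_neg, abs_mul]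
      refine le_trans ?_ k1
      linarith
    · rw [CC_eq (by linarith), ← ht', smul_add, smul_smul, smul_smul,
        show √t' / (√t * (p.q * p.h)) * (√t * (p.q * p.h) / √t') = 1 by field_simp]
      module
  · exact (AccF.known (c := c2) (f := fun k : (c.K × S.T) × E d => f k.1.2) (by fun_prop)
      D0).congr fun V u => (hy2 V u).symm
  · refine (((herr V).add (radCC V)).congr fun u => sub_add_cancel _ _).mono ?_
    rw [← ht']
    have h4 : 0 ≤ p.h ^ 4 := by positivity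
    have k1 : p.pw (-(p.T + 5)) ≤ √t' := Real.le_sqrt_of_sq_le (by
      rw [sq, ← p.pw_add]
      exact (p.pw_le (by have := p.hP2; omega)).trans (ht.trans tt'))
    have k2 := p.absorb' (x := 10) (by norm_num) (a := -p.T) (b := (4 : ℕ) + -(p.T + 5))
      (by push_cast; omega)
    rw [p.pw_add, ← p.pw_nat] at k2
    have k3 := p.pw_le (a := -p.T) (b := p.m * i - (k + 2 : ℕ)) (by
      have : (0 : ℤ) ≤ p.m * i := by positivity
      push_cast; omega)
    have k4 := p.one_le_pw (a := -p.T) (by omega)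
    have k5 := mul_le_mul_of_nonneg_left k1 h4
    have k6 : p.pw (p.m * i - (k + 2 : ℕ)) + 9 ≤ p.h ^ 4 * √t' := by linarith
    nlinarith [mul_le_mul_of_nonneg_left k6 D0]

lemma step_err {Ω : Type} [MeasurableSpace Ω] {P : Measure Ω} [IsProbabilityMeasure P] {V : Pt d}
    {t D w r1 : ℝ} {u : ℤ} {C O : Ω → E d} {y : Ω → E d × E d} (hi : i ≤ p.I) (t4 : 400 ≤ t)
    (hD : √d ≤ D) (r0 : 0 < r1) (adm : Adm p.q √t t (p.q * p.h) (-p.h) (w * p.h / r1) p.h)
    (cl : CL P (fun ω => √t • C ω) y (rho V √t t (p.q * p.h))) (hO : Measurable O)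
    (herr : L2 P (fun ω => O ω - CC √t t (p.q * p.h) (√t • C ω) (y ω).1) (D * p.pw (u + 1))) :
    L2 P (fun ω => r1 • (y ω).2 + ((w * (√t / √(tS √t t (p.q * p.h)))) •
        G0 V (tS √t t (p.q * p.h)) (O ω) +
      (w * (w * p.h / r1)) • ∑ m ∈ Finset.range (p.q + 1), p.Nd.e m •
      p.Nd.GG V √t t (p.q * p.h + -p.h * m) (√t • C ω,
        p.Nd.Φ V √t t (p.q * p.h) (-p.h) (w * p.h / r1) m (√t • C ω, y ω))) - w • G0 V t (C ω) -
      r1 • (p.Nd.Φ V √t t (p.q * p.h) (-p.h) (w * p.h / r1) p.q (√t • C ω, y ω)).2)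
      (|w| * D * (p.pw (p.ep i j - p.T + 4) / 2) + |w| * D * p.pw u) := by
  have D0 : 0 ≤ D := (Real.sqrt_nonneg _).trans hD
  have h0 := p.h0
  have hc := coef_le' (s := p.q * p.h) (by linarith : 0 < t) adm.ht
  set t' := tS √t t (p.q * p.h) with ht'
  set θc := w * p.h / r1 with hθc
  have tt' : t ≤ t' := le_tS _ _ _
  have e0 : p.q * p.h + -p.h * p.q = 0 := by ring
  have m1 := G0_meas V (t := t') (by linarith)
  have m2 : Measurable fun ω => CC √t t (p.q * p.h) (√t • C ω) (y ω).1 := by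
    have := cl.1
    have := cl.2.1
    unfold CC thS; fun_prop
  have k1 := (p_L2 adm cl).smul (r1 / p.h)
  have k2 := (herr.of_le (g := fun ω => G0 V t' (O ω) -
    G0 V t' (CC √t t (p.q * p.h) (√t • C ω) (y ω).1)) ((m1.comp hO).sub (m1.comp m2))
    (by norm_num) fun u => G0_lip V (by linarith) _ _).smul (w * (√t / √t'))
  refine ((k1.add k2).congr fun ω => ?_).mono (add_le_add ?_ ?_)
  · have f1 : r1 / p.h * θc = w := by rw [hθc]; field_simp
    have f2 : gg V √t t (p.q * p.h + -p.h * p.q) (√t • C ω)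
        (p.Nd.Φ V √t t (p.q * p.h) (-p.h) θc p.q (√t • C ω, y ω)).1 = G0 V t (C ω) := by
      rw [e0]; simp [gg, G0]
    rw [f2, gg_eq V (by linarith), ← ht']
    simp only [smul_add, smul_sub, smul_smul, f1, sq, ← mul_assoc,
      show r1 / p.h * -p.h = -r1 by field_simp]
    module
  · have f1 : |r1 / p.h| * θc ^ 2 = |w| * |θc| := by
      rw [← sq_abs, sq, ← mul_assoc, ← abs_mul, hθc]; congr 2; field_simp
    have ep2 : p.ep i j ≤ p.q := by
      have : p.m * i ≤ p.q := (Nat.mul_le_mul_left _ hi).trans p.hqm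
      exact (min_le_left _ _).trans (by exact_mod_cast this)
    have f2 := p.absorb (p.cst' (x := 2) 1 0 rfl (by norm_num) (by norm_num) (by norm_num))
      (a := (p.q + 1 : ℕ)) (b := p.ep i j - p.T + 4) (by
        have := p.hT
        push_cast; omega)
    rw [← p.pw_nat] at f2
    have f0 := p.pw_pos (p.ep i j - p.T + 4)
    have f3 : |θc| * (p.C * p.h ^ (p.q + 1) * √d) ≤ 1 * (p.pw (p.ep i j - p.T + 4) / 2 * D) :=
      mul_le_mul (adm.hθ.trans p.h_le_one)
        (mul_le_mul (by linarith) hD (by positivity) (by linarith)) (p.err0 d) (by norm_num)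
    rw [← mul_assoc, f1, mul_assoc]
    exact (mul_le_mul_of_nonneg_left f3 (abs_nonneg w)).trans (le_of_eq (by ring))
  · have f1 := p.absorb' (x := 2) (by norm_num) (a := u + 1) (b := u) le_rfl
    have f2 := p.pw_pos (u + 1)
    have f3 : |w * (√t / √t')| ≤ |w| := by
      rw [abs_mul]; exact mul_le_of_le_one_right (abs_nonneg _) hc
    calc _ ≤ |w| * (2 * (D * p.pw (u + 1))) := by gcongr
      _ = |w| * D * (2 * p.pw (u + 1)) := by ring
      _ ≤ _ := by gcongr

lemma StG_succ (hS : p.St d i j) (hG : p.GN d i) (hi1 : 1 ≤ i) (hi : i ≤ p.I)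
    (ih : p.StG d i (j + 1) n) : p.StG d i (j + 1) (n + 1) := by
  intro c k t D w r C hk ht hD hA hR hr hw
  obtain ⟨S, n1, Ψ, y, f, hn, hΨ, hf, hy2, hym, hlaw, herr⟩ := samp hG hi (by omega) ht hD hA hR
  obtain ⟨A0, hrad⟩ := post_samp (by omega) ht hD hA hR hΨ.meas hf hy2 hym hlaw herr
  have t4 := p.big ht
  have D0 : 0 ≤ D := (Real.sqrt_nonneg _).trans hD
  have ss : √t ^ 2 = t := Real.sq_sqrt (by linarith)
  have h0 := p.h0
  have hq' : p.h ≤ p.q * p.h := le_mul_of_one_le_left h0.le p.q1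
  have tt' : t ≤ tS √t t (p.q * p.h) := le_tS _ _ _
  have t'0 : 0 < √(tS √t t (p.q * p.h)) := Real.sqrt_pos.2 (by linarith)
  have kn : ∀ i k D', 0 ≤ D' →
      p.AccF (c.ext S Ψ hΨ.meas) (fun V u => Ψ V (c.κ V u.1, u.2)) i k D' := fun i k D' h =>
    AccF.known (c := c.ext S Ψ hΨ.meas) (f := fun k : (c.K × S.T) × E d => k.2) measurable_snd h
  obtain ⟨r1, hr1⟩ : ∃ r1, r1 = r / (2 * (n + 2)) := ⟨_, rfl⟩
  have r0 : 0 < r1 := by rw [hr1]; positivity
  have hw1 : |w| ≤ p.pw (p.lam i - 4) * r1 := by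
    rw [hr1, ← mul_div_assoc, le_div_iff₀ (by positivity)]
    push_cast at hw; linarith
  have hθ : |w * p.h / r1| ≤ p.pw (p.lam i - 3) := by
    rw [abs_div, abs_mul, abs_of_pos h0, abs_of_pos r0, div_le_iff₀ r0,
      show p.lam i - 3 = 1 + (p.lam i - 4) by ring, p.pw_add, p.pw_one]
    nlinarith
  obtain ⟨adm, X1⟩ := extra hS hG hi1 hi (by omega) A0 hθ r0 hw1
  have hc : |√t / √(tS √t t (p.q * p.h))| ≤ p.rr := by
    rw [abs_of_nonneg (by positivity), rr, div_le_iff₀ t'0, ← div_eq_inv_mul,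
      le_div_iff₀ (by positivity), ← Real.sqrt_mul (by linarith)]
    refine Real.sqrt_le_sqrt ?_
    rw [tS, mul_pow, ss]
    nlinarith [pow_le_pow_left₀ h0.le hq' 2]
  have hw' : |w * (√t / √(tS √t t (p.q * p.h)))| ≤ p.rr * |w| := by
    rw [abs_mul, mul_comm]; exact mul_le_mul_of_nonneg_right hc (abs_nonneg w)
  have hw'' := hw'.trans (mul_le_of_le_one_left (abs_nonneg w) p.rr_le)
  have h4 : 0 ≤ p.h ^ 4 := by positivity
  have X2 := ih _ 0 _ ((1 + p.h ^ 4) * D) (w * (√t / √(tS √t t (p.q * p.h))))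
    (2 * (n + 1) * r1) _ (by omega) (ht.trans tt') (by nlinarith) (kn _ _ _ (by positivity)) hrad
    (by positivity) (by
      rw [mul_left_comm]
      exact mul_le_mul_of_nonneg_left (hw''.trans hw1) (by positivity))
  have X3 := ((X2.add X1 (by positivity) r0.le).addKnown
    (f := fun k : (c.K × S.T) × E d => r1 • f k.1.2) (by fun_prop)).congr
    (fun V u => by simp only [← hy2 V u]; rfl)
  have X4 := Acc.bind (X := fun V ω => w • G0 V t (C V ω)) (r₁ := r1)
    (r := √(r1 ^ 2 + (2 * (n + 1) * r1 + r1) ^ 2))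
    hΨ X3 (fun V => ((G0_meas V (by linarith)).comp (hA.meas V)).const_smul w) (fun V =>
      ⟨_, ((p.Nd.mΦ V adm _).comp ((A0.cl V).1.prodMk (A0.cl V).2.1)).snd, fun ω =>
        (rho_snd V _ _ (by linarith) _).comp ((p.Nd.law V adm _ le_rfl _).comp (hlaw V ω)),
        step_err (j := j + 1) (u := p.m * i - k - 3) hi t4 hD r0 adm (A0.cl V)
          ((kn 0 0 0 le_rfl).meas V) (by
            have := herr V
            rwa [show (p.m : ℤ) * i - (k + 2 : ℕ) = p.m * i - k - 3 + 1 by push_cast; ring]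
              at this)⟩)
    (Real.sq_sqrt (by positivity))
  refine X4.mono (by positivity) ?_ ?_ ?_
  · have e : r = r1 + (2 * (n + 1) * r1 + r1) := by rw [hr1]; field_simp; ring
    have : 0 ≤ 2 * (n + 1) * r1 + r1 := by positivity
    conv_rhs => rw [e]
    exact Real.sqrt_le_iff.2 ⟨by positivity, by nlinarith⟩
  · have := Er_step (p := p) (i := i) (j := j + 1) (n := n) (k := k)
      (x := |w| * D) (y := |w * (√t / √(tS √t t (p.q * p.h)))| * D)
      (A := (1 + p.h ^ 4) ^ (n + 1)) (by positivity)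
      (by rw [← mul_assoc]; exact mul_le_mul_of_nonneg_right hw' D0) (one_le_pow₀ (by linarith))
    refine le_trans (le_of_eq ?_) (this.trans (le_of_eq ?_)) <;> ring
  · have k1 := p.pw_le (a := -(4 * (k + (10 : ℤ) * ((j + 1 : ℕ) + 1) - 1) + p.cb * i))
      (b := -(4 * ((0 : ℕ) + (10 : ℤ) * ((j + 1 : ℕ) + 1) - 1) + p.cb * i)) (by push_cast; omega)
    have k2 := p.absorb' (x := 2) (by norm_num)
      (b := -(4 * (k + (10 : ℤ) * ((j + 1 : ℕ) + 1) - 1) + p.cb * i))
      (a := -(4 * ((k + 4 : ℕ) + 4 + 10 * (j + 1)) + p.cb * i)) (by push_cast; omega)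
    have k3 := p.pw_le (a := -(4 * ((k + 4 : ℕ) + 4 + 10 * (j + 1)) + p.cb * i))
      (b := -(4 * (k + 2 : ℕ) + p.cb * i)) (by push_cast; omega)
    have k4 := mul_le_mul_of_nonneg_left k1 (show (0 : ℝ) ≤ n + 2 by positivity)
    rw [Nat.cast_add_one n]
    linarith

lemma grow_le (p : Par) : (1 + p.h ^ 4) ^ p.N ≤ 2 := by
  have h0 := p.h0
  have h1 : (1 + p.h ^ 4) ^ p.N ≤ Real.exp (p.h ^ 4) ^ p.N :=
    pow_le_pow_left₀ (by positivity) (by linarith [Real.add_one_le_exp (p.h ^ 4)]) _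
  have h2 : (p.N : ℝ) * p.h ^ 4 ≤ p.h :=
    (mul_le_mul_of_nonneg_right p.hN (by positivity)).trans (le_of_eq (by field_simp))
  rw [← Real.exp_nat_mul] at h1
  refine h1.trans ((Real.exp_le_exp.2 (h2.trans p.h_le)).trans ?_)
  have := Real.exp_bound_div_one_sub_of_interval (x := 1 / 400) (by norm_num) (by norm_num)
  linarith

lemma N_le (p : Par) : (p.N : ℝ) ≤ p.pw (-3) := by
  have := p.hN
  rwa [inv_pow, ← zpow_natCast, ← zpow_neg] at this

lemma St_base (h : i = 0 ∨ j = 0) : p.St d i j := by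
  intro c k t D w r C hk ht hD hA hR _ _
  have D0 : 0 ≤ D := (Real.sqrt_nonneg _).trans hD
  have e : p.ep i j = 0 := by
    rcases h with rfl | rfl
    · simp only [ep, Nat.cast_zero, mul_zero]; exact min_eq_left (by positivity)
    · simp only [ep, Nat.cast_zero, mul_zero]; exact min_eq_right (by positivity)
  have : (0 : ℤ) ≤ p.cb * i := by positivity
  exact (base (by omega) ht hD hA hR).mono' (mul_le_mul_of_nonneg_left
    (p.absorb' (by norm_num) (by omega)) (by positivity)) (p.absorb' (by norm_num) (by omega))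

lemma St_of_StG (hi : i ≤ p.I) (h : p.StG d i j p.N) : p.St d i j := by
  intro c k t D w r C hk ht hD hA hR hr hw
  have D0 : 0 ≤ D := (Real.sqrt_nonneg _).trans hD
  have hN := p.N_le
  have b1 := p.one_le_pw (a := -3) (by norm_num)
  have b2 := p.absorb' (x := 4) (by norm_num) (a := -3) (b := -4) (by norm_num)
  have hT := p.hT
  refine (h c k t D w r C hk ht hD hA hR hr ?_).mono' ?_ ?_
  · rw [show p.lam i - 4 = -4 + p.lam i by ring, p.pw_add, mul_assoc (p.pw (-4))]
    exact mul_le_mul (by linarith) hw (abs_nonneg w) (p.pw_pos _).le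
  · have e1 : p.ep i j ≤ p.m * i := min_le_left _ _
    have e2 : (p.m : ℤ) * i ≤ p.m * p.I := by exact_mod_cast Nat.mul_le_mul_left _ hi
    have k1 := p.absorb' (x := 8) (by norm_num) (a := p.m * i - k - 3)
      (b := p.ep i j - (p.T + 1)) (by omega)
    have k2 := p.absorb' (x := 8) (by norm_num) (a := -3 + (p.m * i - 3))
      (b := p.ep i j - (p.T + 1)) (by omega)
    have k3 := p.absorb' (x := 8) (by norm_num) (a := -3 + (p.ep i j - p.T + 4))
      (b := p.ep i j - (p.T + 1)) (by omega)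
    have k4 := p.pw_le (b := -k + (p.m * p.I : ℕ)) (a := p.ep i j - (p.T + 1))
      (by push_cast; omega)
    rw [p.pw_add] at k2 k3 k4
    rw [← p.pw_nat] at k4
    have k5 := mul_le_mul_of_nonneg_left p.hρ (p.pw_pos (-k)).le
    have k6 := mul_le_mul_of_nonneg_right hN
      (add_pos (p.pw_pos (p.m * i - 3)) (p.pw_pos (p.ep i j - p.T + 4))).le
    have k7 : p.Er i j p.N k ≤ p.pw (p.ep i j - (p.T + 1)) / 2 := by
      simp only [Er, rr]; linarith
    have k8 : 0 ≤ p.Er i j p.N k := by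
      have := p.pw_pos (p.m * i - k - 3)
      have := p.pw_pos (p.m * i - 3)
      have := p.pw_pos (p.ep i j - p.T + 4)
      have := p.pw_pos (-k)
      have := p.rr_pos
      unfold Er; positivity
    calc _ ≤ |w| * (D * 2) * (p.pw (p.ep i j - (p.T + 1)) / 2) := by
          have := p.grow_le
          gcongr
      _ = _ := by ring
  · rw [show -(4 * ((k : ℤ) + 10 * (j + 1)) + p.cb * i) =
      -4 + -(4 * (k + 10 * (j + 1) - 1) + p.cb * i) by ring, p.pw_add]
    exact mul_le_mul_of_nonneg_right (by linarith) (p.pw_pos _).le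

lemma St_of_GN (hi : i ≤ p.I) (hG : p.GN d i) (j : ℕ) : p.St d i j := by
  rcases Nat.eq_zero_or_pos i with h0 | h0
  · exact St_base (Or.inl h0)
  induction j with
  | zero => exact St_base (Or.inr rfl)
  | succ j ih =>
    refine St_of_StG hi ?_
    generalize p.N = n
    induction n with
    | zero => exact StG_zero
    | succ n ihn => exact StG_succ ih hG h0 hi ihn

theorem GN_all (p : Par) (d : ℕ) : ∀ i ≤ p.I, p.GN d i := by
  intro i hi
  induction i with
  | zero => exact GN_zero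
  | succ i ih => exact GN_succ (St_of_GN (by omega) (ih (by omega)) _) (ih (by omega)) hi

end Par
end Vale.Agent.P347
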