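import Vale.Agent.P347.Rec5

/-! P347: one round of the top-level chain. -/

open MeasureTheory ProbabilityTheory Filter
open scoped ENNReal

noncomputable section
namespace Vale.Agent.P347
variable {d : ℕ}

/-- The known data of the context can be generated with `Q` queries. -/
def Rz (c : Ctx d) (Q : ℝ) : Prop :=
  ∃ (S : Seed) (n : ℕ) (Ψ : Pt d → S.T → c.K), (n : ℝ) ≤ Q ∧ Comp n S.T Ψ ∧
    ∀ V, (c.P V).map (c.κ V) = S.μ.map (Ψ V)

lemma Rz.ext {c : Ctx d} {Q Q' : ℝ} (h : Rz c Q) {S : Seed} {β : Type} [MeasurableSpace β]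
    {Ψ : Pt d → c.K × S.T → β} {n : ℕ} (hΨ : Comp n _ Ψ) (hn : (n : ℝ) ≤ Q') :
    Rz (c.ext S Ψ hΨ.meas) (Q + Q') := by
  obtain ⟨S0, n0, Ψ0, h1, h2, h3⟩ := h
  have k1 : Comp (n + n0) (S0.T × S.T) fun V u => ((Ψ0 V u.1, u.2), Ψ V (Ψ0 V u.1, u.2)) :=
    Comp.comp (Ψ := fun V (r : (S0.T × S.T) × c.K) => ((r.2, r.1.2), Ψ V (r.2, r.1.2)))
      (h2.pre measurable_fst)
      ((hΨ.pre (f := fun r : (S0.T × S.T) × c.K => (r.2, r.1.2)) (by fun_prop)).post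
        (g := fun r : ((S0.T × S.T) × c.K) × β => ((r.1.2, r.1.1.2), r.2)) (by fun_prop))
  refine ⟨S0.prod S, n + n0, _, by push_cast; linarith, k1, fun V => ?_⟩
  have m := hΨ.meas V
  have mG : Measurable fun u : c.K × S.T => (u, Ψ V u) := by fun_prop
  have e1 := ((c.hκ V).measurePreserving (c.P V)).prod (MeasurePreserving.id S.μ)
  have e2 := ((h2.meas V).measurePreserving S0.μ).prod (MeasurePreserving.id S.μ)
  rw [← h3 V] at e2
  exact ((mG.measurePreserving _).comp e1).map_eq.trans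
    ((mG.measurePreserving _).comp e2).map_eq.symm

def TL (d : ℕ) (t e Q : ℝ) : Prop :=
  ∃ (c : Ctx d) (f : c.K → E d) (Z : Pt d → c.Ω → E d), Rz c Q ∧ Measurable f ∧
    ∀ V, MeasurePreserving (Z V) (c.P V) (NN V (3 / 2) 0 √t) ∧
      L2 (c.P V) (fun ω => f (c.κ V ω) - (√t / (t + 3 / 2)) • Z V ω) e

lemma TL.mono {t e Q e' Q' : ℝ} (h : TL d t e Q) (he : e ≤ e') (hQ : Q ≤ Q') : TL d t e' Q' := by
  obtain ⟨c, f, Z, ⟨S, n, Ψ, a, b⟩, h2, h3⟩ := h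
  exact ⟨c, f, Z, ⟨S, n, Ψ, a.trans hQ, b⟩, h2, fun V => ⟨(h3 V).1, (h3 V).2.mono he⟩⟩

lemma radZ (V : Pt d) {t : ℝ} (ht : 1 ≤ t) :
    L2 (NN V (3 / 2) 0 √t) (fun z => (√t / (t + 3 / 2)) • z) (7 * √d) := by
  have h := NN_sq V (t := 3 / 2) (by norm_num) 0 √t
  simp only [smul_zero, sub_zero, norm_zero] at h
  have h1 : L2 (NN V (3 / 2) 0 √t) (fun z => z) (7 * √t * √d) := by
    rw [L2.iff measurable_id' (by positivity)]
    refine h.trans (ENNReal.ofReal_le_ofReal ?_)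
    rw [mul_pow, mul_pow, Real.sq_sqrt (by linarith), Real.sq_sqrt (Nat.cast_nonneg d)]
    nlinarith [mul_le_mul_of_nonneg_right ht (Nat.cast_nonneg (α := ℝ) d)]
  refine (h1.smul _).mono ?_
  rw [abs_of_nonneg (by positivity), div_mul_eq_mul_div, div_le_iff₀ (by linarith)]
  have : √t * √t = t := Real.mul_self_sqrt (by linarith)
  nlinarith [Real.sqrt_nonneg (d : ℝ)]

lemma TL_init {t : ℝ} (ht : 1 ≤ t) : TL d t (7 * √d) 0 := by
  have := fun V : Pt d => NN_prob V (t := 3 / 2) (by norm_num) 0 √t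
  refine ⟨⟨E d, Unit, fun V => NN V (3 / 2) 0 √t, fun _ _ => (), fun _ => measurable_const⟩,
    fun _ => 0, fun _ z => z, ⟨Seed.gauss d, 0, fun _ _ => (), by simp,
      Comp.of_meas measurable_const, fun V => by simp⟩, measurable_const,
    fun V => ⟨MeasurePreserving.id _, (radZ V ht).neg.congr fun z => by simp⟩⟩

lemma tower_law {Ω H : Type} [MeasurableSpace Ω] [MeasurableSpace H] {P : Measure Ω}
    {μ : Measure H} [SFinite μ] [SFinite P] {V : Pt d} {t b t₁ : ℝ} (ht : 0 ≤ t) (h₁ : 0 < t₁)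
    (hb : t₁ = t + b ^ 2) {Z : Ω → E d} (hZ : MeasurePreserving Z P (NN V (3 / 2) 0 √t))
    {Φ : E d × H → E d} (hΦ : Measurable Φ)
    (hl : ∀ θ, MeasurePreserving (fun w => Φ (θ, w)) μ (NN V (t + 3 / 2) θ b)) :
    MeasurePreserving (fun u : Ω × H => (√t₁)⁻¹ • (√t • Z u.1 + b • Φ (√t • Z u.1, u.2)))
      (P.prod μ) (NN V (3 / 2) 0 √t₁) := by
  have mZ := hZ.measurable
  refine ⟨by fun_prop, Measure.ext fun A hA => ?_⟩
  have mg : Measurable (A.indicator (1 : E d → ℝ≥0∞)) := measurable_one.indicator hA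
  rw [← lintegral_indicator_one hA, ← lintegral_indicator_one hA]
  generalize A.indicator (1 : E d → ℝ≥0∞) = g at mg
  have s0 : 0 < √t₁ := Real.sqrt_pos.2 h₁
  have key := NN_tower V (t := 3 / 2) (by norm_num) 0 (b := √t) (b' := b) (b'' := √t₁)
    (by rw [Real.sq_sqrt ht, Real.sq_sqrt h₁.le, hb]) (fun θ => g ((√t₁)⁻¹ • θ)) (by fun_prop)
  simp only [zero_add, inv_smul_smul₀ s0.ne', Real.sq_sqrt ht, add_comm (3 / 2 : ℝ)] at key
  have e : ∀ z, ∫⁻ w, g ((√t₁)⁻¹ • (√t • z + b • Φ (√t • z, w))) ∂μ =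
      ∫⁻ z', g ((√t₁)⁻¹ • (√t • z + b • z')) ∂(NN V (t + 3 / 2) (√t • z) b) := fun z =>
    (hl _).lintegral_comp (f := fun z' => g ((√t₁)⁻¹ • (√t • z + b • z'))) (by fun_prop)
  rw [lintegral_map mg (by fun_prop), lintegral_prod _ (Measurable.aemeasurable (by fun_prop)),
    ← key, ← funext e]
  exact hZ.lintegral_comp (f := fun z => ∫⁻ w, g ((√t₁)⁻¹ • (√t • z + b • Φ (√t • z, w))) ∂μ)
    (Measurable.lintegral_prod_right' (f := fun u : E d × H =>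
      g ((√t₁)⁻¹ • (√t • u.1 + b • Φ (√t • u.1, u.2)))) (by fun_prop))

lemma top_num {t t' τ S h u t₁ T₁ : ℝ} (t4 : 400 ≤ t) (hτ : τ = t + 3 / 2) (h0 : 0 < h)
    (S0 : h ≤ S) (S1 : S ≤ 1 / 100) (h1 : t ≤ t') (h2 : t' ≤ t + τ * S ^ 2 / 2)
    (ht₁ : t₁ = t + τ * S ^ 2) (hT : T₁ = τ * (1 + S ^ 2)) (hu : 0 < u) (hu' : 4 * u ≤ h) :
    (√t' / √t₁) ^ 2 + √(1 - t' / t₁) ^ 2 = 1 ∧ 0 ≤ t' * √T₁ / (t₁ * (t' + 3 / 2)) ∧
    t' * √T₁ / (t₁ * (t' + 3 / 2)) ≤ 1 ∧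
    t' * √T₁ / (t₁ * (t' + 3 / 2)) * u ≤ √t' / (t' + 3 / 2) * √(1 - t' / t₁) ∧
    t' * √T₁ / (t₁ * (t' + 3 / 2)) * (√T₁)⁻¹ = t' / (t₁ * (t' + 3 / 2)) ∧
    t' * (τ * (1 + S ^ 2)) / (t₁ * (t' + 3 / 2)) * T₁⁻¹ = t' / (t₁ * (t' + 3 / 2)) ∧
    √t' / (t' + 3 / 2) * (√t' / √t₁ * (√t₁)⁻¹) = t' / (t₁ * (t' + 3 / 2)) ∧ 0 < t₁ := by
  have τ0 : 0 < τ := by linarith
  have S2 : 0 < S := by linarith
  have x0 : 0 < τ * S ^ 2 := by positivity
  have x1 : S ^ 2 ≤ 1 / 100 := by nlinarith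
  have x2 : τ * S ^ 2 ≤ τ * (1 / 100) := mul_le_mul_of_nonneg_left x1 τ0.le
  have a0 : 0 < t' := by linarith
  have a1 : 0 < t₁ := by linarith
  have a2 : 0 < T₁ := by rw [hT]; positivity
  have a3 : T₁ ≤ 2 * t₁ := by rw [hT]; linarith
  have a4 : t' ≤ t₁ := by linarith
  have τ1 : 0 < √T₁ := Real.sqrt_pos.2 a2
  have t'0 : 0 < √t' := Real.sqrt_pos.2 a0
  have t₁0 : 0 < √t₁ := Real.sqrt_pos.2 a1
  have l1 : √t' * √T₁ ≤ 2 * t₁ := by
    rw [← Real.sqrt_mul a0.le]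
    exact Real.sqrt_le_iff.2 ⟨by linarith, by nlinarith⟩
  have l2 : t' * √T₁ / (t₁ * (t' + 3 / 2)) ≤ 2 * (√t' / (t' + 3 / 2)) := by
    rw [← mul_div_assoc, div_le_div_iff₀ (by positivity) (by linarith)]
    have k : t' * √T₁ = √t' * (√t' * √T₁) := by rw [← mul_assoc, Real.mul_self_sqrt a0.le]
    rw [k]
    nlinarith [mul_le_mul_of_nonneg_left l1 (mul_nonneg t'0.le (by linarith : 0 ≤ t' + 3 / 2))]
  have l3 : 2 * (√t' / (t' + 3 / 2)) ≤ 1 := by
    rw [← mul_div_assoc, div_le_one (by linarith)]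
    nlinarith [Real.mul_self_sqrt a0.le, sq_nonneg (√t' - 1)]
  refine ⟨?_, by positivity, l2.trans l3, ?_, by field_simp, by rw [← hT]; field_simp, ?_, a1⟩
  · rw [div_pow, Real.sq_sqrt a0.le, Real.sq_sqrt a1.le, Real.sq_sqrt (by
      rw [sub_nonneg, div_le_one a1]; exact a4)]
    ring
  · have k1 : h / 2 ≤ √(1 - t' / t₁) := Real.le_sqrt_of_sq_le (by
      rw [le_sub_comm, div_le_iff₀ a1]
      have b1 := mul_le_mul_of_nonneg_left (pow_le_pow_left₀ h0.le S0 2) τ0.le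
      have b2 : h ^ 2 * t₁ ≤ h ^ 2 * (2 * τ) := mul_le_mul_of_nonneg_left (by linarith) (sq_nonneg h)
      nlinarith)
    have k3 : 0 ≤ √t' / (t' + 3 / 2) := by positivity
    calc _ ≤ 2 * (√t' / (t' + 3 / 2)) * u := mul_le_mul_of_nonneg_right l2 hu.le
      _ = √t' / (t' + 3 / 2) * (2 * u) := by ring
      _ ≤ _ := mul_le_mul_of_nonneg_left (by linarith) k3
  · conv_rhs => rw [← Real.mul_self_sqrt a1.le]
    conv_rhs => enter [1]; rw [← Real.mul_self_sqrt a0.le]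
    field_simp

namespace Par
variable {p : Par}

lemma top_acc (hT : 4 + 10 * ((p.J + 1) * p.I) ≤ p.T) {c : Ctx d} {f : c.K → E d} {τ : ℝ}
    (ht : p.pw (-p.P) ≤ τ) (hf : Measurable f)
    (hr : ∀ V, L2 (c.P V) (fun ω => f (c.κ V ω)) (16 * √d)) :
    Adm p.q √τ τ 0 p.h 0 p.h ∧
    Acc (c.ext ((Seed.gauss d).prod (Seed.gauss d)) (fun _ _ => ()) fun _ => measurable_const)
      (fun V u => CC √τ τ (p.h * p.q) (√τ • √τ • f (c.κ V u.1))
        (p.Nd.Φ V √τ τ 0 p.h 0 p.q (√τ • √τ • f (c.κ V u.1), u.2)).1)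
      (p.pw (p.T - 2)) (16 * √d * p.pw (p.m * p.I - 2)) (p.pw (-(8 + p.cb * p.I))) := by
  have t4 := p.big ht
  have h0 := p.h0
  have q1 := p.q1
  have qh := p.qh_le
  have s0 : 0 < √τ := Real.sqrt_pos.2 (by linarith)
  have s1 : 1 ≤ √τ := Real.one_le_sqrt.2 (by linarith)
  have ss : √τ ^ 2 = τ := Real.sq_sqrt (by linarith)
  have D0 : 0 ≤ 16 * √(d : ℝ) := by positivity
  have hqh : 0 ≤ p.q * p.h := by positivity
  have e2 : |(0 : ℝ) + p.h * p.q| = p.q * p.h := by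
    rw [abs_of_nonneg (by positivity)]; ring
  have adm : Adm p.q √τ τ 0 p.h 0 p.h :=
    ⟨s1, ss.le, by simp, by rw [e2]; linarith, by rw [abs_of_pos h0]; linarith,
      by simpa using h0.le, p.h_le_one⟩
  let c1 := c.ext ((Seed.gauss d).prod (Seed.gauss d)) (fun _ _ => ()) fun _ => measurable_const
  have mf : ∀ V, Measurable fun ω => √τ • √τ • f (c.κ V ω) := fun V => by
    have := c.hκ V
    fun_prop
  have A1 : p.AS c1 √τ τ 0 (fun V u => √τ • f (c.κ V u.1)) (fun _ u => u.2) p.I 0 (16 * √d) :=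
    ⟨by rwa [ss], s1, ss.le, by simp, by linarith [Real.sqrt_nonneg (d : ℝ)],
      fun V => CL.of_strong (θ := fun ω => √τ • √τ • f (c.κ V ω)) (mf V) measurable_snd fun ω => by
        rw [rho_zero V _ (by linarith)]; exact MeasurePreserving.id _,
      fun V => by
        have k := ((hr V).smul √τ).comp (measurePreserving_fst (ν := (gam d).prod (gam d)))
        rwa [abs_of_pos s0] at k,
      AccF.known (c := c1) (f := fun k : (c.K × (E d × E d)) × Unit => √τ • f k.1.1)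
        (by fun_prop) D0, by
        simp only [nn_zero]
        exact AccF.known (c := c1) (f := fun k : (c.K × (E d × E d)) × Unit => k.1.2.1)
          (by fun_prop) D0,
      AccF.known (c := c1) (f := fun k : (c.K × (E d × E d)) × Unit => k.1.2.2) (by fun_prop) D0⟩
  have hI := p.hI
  have A2 := (p.GN_all d p.I le_rfl c1 0 _ _ _ _ _ _ _ _ adm (by rw [abs_zero]; linarith)
    (by rw [e2]; linarith) (by simpa using (p.pw_pos _).le) (by omega) A1 p.q le_rfl).aCC p.I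
    le_rfl
  simp only [zero_add] at A2
  exact ⟨adm, A2.mono' le_rfl (by norm_num)⟩

lemma top_step (hT : 4 + 10 * ((p.J + 1) * p.I) ≤ p.T) {t t' e Q κ : ℝ} (h : TL d t e Q)
    (ht : p.pw (-p.P) ≤ t) (he : e ≤ 9 * √d) (h1 : t ≤ t')
    (h2 : t' ≤ t + (t + 3 / 2) * (p.h * p.q) ^ 2 / 2)
    (hκ : t' * ((t + 3 / 2) * (1 + (p.h * p.q) ^ 2)) /
      ((t + (t + 3 / 2) * (p.h * p.q) ^ 2) * (t' + 3 / 2)) *
      (1 + 5 / 4 * (p.h * p.q) ^ 2 / (t + 3 / 2)) ≤ κ) :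
    TL d t' (16 * √d * p.pw (p.m * p.I - 2) + κ * e) (Q + p.pw (-(8 + p.cb * p.I))) := by
  obtain ⟨c, f, Z, hR, hf, hZ⟩ := h
  have t4 := p.big ht
  have h0 := p.h0
  obtain ⟨adm, A2⟩ := top_acc hT (τ := t + 3 / 2) (by linarith) hf fun V =>
    (((hZ V).2.add ((radZ V (by linarith)).comp (hZ V).1)).congr
      fun ω => sub_add_cancel _ _).mono (by linarith)
  set τ := t + 3 / 2 with hτ
  set S := p.h * p.q with hS
  have S0 : p.h ≤ S := le_mul_of_one_le_right h0.le p.q1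
  have S1 : S ≤ 1 / 100 := by rw [hS, mul_comm]; exact p.qh_le
  have ss : √τ ^ 2 = τ := Real.sq_sqrt (by linarith)
  have eτ : tS √τ τ S = τ * (1 + S ^ 2) := by rw [tS, mul_pow, ss]; ring
  set t₁ := t + τ * S ^ 2 with ht₁
  obtain ⟨rot, l0, l1, l2, f1, f2, f3, t₁p⟩ := top_num t4 hτ h0 S0 S1 h1 h2 ht₁ eτ
    (p.pw_pos (p.T - 2)) (p.pw_one ▸ p.absorb' (by norm_num) (by have := p.hT; omega))
  have t₁0 : 0 < √t₁ := Real.sqrt_pos.2 t₁p
  let c1 := c.ext ((Seed.gauss d).prod (Seed.gauss d)) (fun _ _ => ()) fun _ => measurable_const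
  obtain ⟨_, S2, n2, Ψ2, hn, hΨ, hζ⟩ := (A2.smul (t' * √(tS √τ τ S) / (t₁ * (t' + 3 / 2)))).mono
    (r' := √t' / (t' + 3 / 2) * √(1 - t' / t₁)) (e' := 16 * √d * p.pw (p.m * p.I - 2))
    (mul_nonneg (abs_nonneg _) (p.pw_pos _).le) (by rwa [abs_of_nonneg l0]) (by
      rw [abs_of_nonneg l0]
      exact mul_le_of_le_one_left (mul_nonneg (by positivity) (p.pw_pos _).le) l1) le_rfl
  choose ζ hζ1 hζ2 hζ3 using hζ
  have hc1 : Comp 0 (c.K × (E d × E d)) (fun (_ : Pt d) _ => ()) := Comp.of_meas measurable_const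
  have law : ∀ V, MeasurePreserving (fun u : c.Ω × (E d × E d) => (√t₁)⁻¹ • (√t • Z V u.1 +
      (√τ * S) • (p.Nd.Φ V √τ τ 0 p.h 0 p.q (√t • Z V u.1, u.2)).1)) (c1.P V)
      (NN V (3 / 2) 0 √t₁) := fun V =>
    tower_law (Φ := fun u => (p.Nd.Φ V √τ τ 0 p.h 0 p.q u).1) (by linarith) (by linarith)
      (by rw [mul_pow, ss]) (hZ V).1 (p.Nd.mΦ V adm _).fst fun θ => by
        have k0 := p.Nd.law V adm p.q le_rfl θ
        rw [rho_zero V _ (by linarith), zero_add] at k0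
        have := NN_prob V (t := τ) (by linarith) θ (√τ * S)
        exact measurePreserving_fst.comp k0
  refine ⟨c1.ext S2 Ψ2 hΨ.meas, Prod.snd, fun V u => (√t' / √t₁) • (√t₁)⁻¹ • (√t • Z V u.1.1 +
      (√τ * S) • (p.Nd.Φ V √τ τ 0 p.h 0 p.q (√t • Z V u.1.1, u.1.2)).1) +
      √(1 - t' / t₁) • ζ V u, by simpa using (hR.ext hc1 (Q' := 0) (by simp)).ext hΨ hn,
    measurable_snd, fun V => ⟨?_, ?_⟩⟩
  · have k := (NN_rot V (t := 3 / 2) (by norm_num) 0 √t₁ rot).comp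
      ((law V).skew_product (g := fun u σ => ζ V (u, σ)) (μc := S2.μ) (hζ1 V)
        (Eventually.of_forall fun u => (hζ2 V u).map_eq))
    rwa [div_mul_cancel₀ _ t₁0.ne'] at k
  · have mZ := (hZ V).1.measurable
    have mΦ := p.Nd.mΦ V adm p.q
    have mκ := c.hκ V
    have κ0 : 0 ≤ t' * (τ * (1 + S ^ 2)) / (t₁ * (t' + 3 / 2)) := by
      have : 0 < t' := by linarith
      have : 0 < τ := by linarith
      positivity
    have τ0 : 0 < τ := by linarith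
    have k := (((hZ V).2.comp (measurePreserving_fst (ν := (gam d).prod (gam d)))).of_le
      (g := fun u => (t' * (τ * (1 + S ^ 2)) / (t₁ * (t' + 3 / 2))) •
        ((tS √τ τ S)⁻¹ • thS √τ S (√τ • √τ • f (c.κ V u.1))
          (p.Nd.Φ V √τ τ 0 p.h 0 p.q (√τ • √τ • f (c.κ V u.1), u.2)).1 -
        (tS √τ τ S)⁻¹ • thS √τ S (√t • Z V u.1)
          (p.Nd.Φ V √τ τ 0 p.h 0 p.q (√t • Z V u.1, u.2)).1)) (by unfold thS; fun_prop)
      (c := κ) (le_trans (by positivity) hκ) fun u => by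
        rw [norm_smul, Real.norm_of_nonneg κ0]
        refine (mul_le_mul_of_nonneg_left (p.Nd.lip V adm ss.symm (by linarith) h0.le _ _ _)
          κ0).trans ?_
        rw [← mul_assoc, show √τ • √τ • f (c.κ V u.1) - √t • Z V u.1 =
          τ • (f (c.κ V u.1) - (√t / τ) • Z V u.1) by
            rw [smul_smul, ← sq, ss, smul_sub, smul_smul, mul_div_cancel₀ _ (by linarith)],
          norm_smul, Real.norm_of_nonneg (by linarith), mul_div_cancel_left₀ _ (by linarith)]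
        exact mul_le_mul_of_nonneg_right hκ (norm_nonneg _)).comp
      (measurePreserving_fst (ν := S2.μ))
    refine ((hζ3 V).add k).congr fun u => ?_
    simp only [CC]
    rw [smul_smul _ (√(tS √τ τ S))⁻¹, f1, smul_sub (t' * _ / _), smul_smul _ (tS √τ τ S)⁻¹,
      smul_smul _ (tS √τ τ S)⁻¹, f2, smul_add (√t' / (t' + 3 / 2)), smul_smul (√t' / √t₁),
      smul_smul (√t' / (t' + 3 / 2)) (√t' / √t₁ * _), f3, smul_smul (√t' / (t' + 3 / 2))]
    simp only [thS]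
    abel

end Par
end Vale.Agent.P347
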