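import Vale.Agent.P347.Top1
import Vale.Agent.P347.Conv
import Vale.Agent.P347.Param
import Vale.Agent.P347.Nodes

/-! P347: the two phases of the top-level chain and the main theorem. -/

open MeasureTheory ProbabilityTheory Filter
open scoped ENNReal

noncomputable section
namespace Vale.Agent.P347
variable {d : ℕ}

lemma TL.solves (hd : 1 ≤ d) {t e Q : ℝ} (h : TL d t e Q) (ht : (1000 * d : ℝ) ^ 2 ≤ t)
    (he : 2 * e ≤ 1 / (10 ^ 6 * d)) : ∃ q : ℕ, (q : ℝ) ≤ Q ∧ Solves d q := by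
  obtain ⟨c, f, Z, ⟨S, n, Ψ, h1, h2, h3⟩, hf, hZ⟩ := h
  have d1 : (1 : ℝ) ≤ d := by exact_mod_cast hd
  have t4 : 400 ≤ t := by nlinarith
  have hb : 1000 * d ≤ √t := Real.le_sqrt_of_sq_le ht
  have s0 : 0 < √t := Real.sqrt_pos.2 (by linarith)
  have mG : Measurable fun u : c.K × E d =>
      ((t + 3 / 2) / t) • f u.1 + (1 / (1000 * d) : ℝ) • u.2 := by fun_prop
  refine ⟨n, h1, solves_of_comp (S.prod (Seed.gauss d))
    (fun V u => ((t + 3 / 2) / t) • f (Ψ V u.1) + (1 / (1000 * d) : ℝ) • u.2)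
    ((h2.pre measurable_fst).post (g := fun r : (S.T × E d) × c.K =>
      ((t + 3 / 2) / t) • f r.2 + (1 / (1000 * d) : ℝ) • r.1.2) (by fun_prop)) fun V B hB => ?_⟩
  have e1 := ((c.hκ V).measurePreserving (c.P V)).prod (MeasurePreserving.id (gam d))
  have e2 := ((h2.meas V).measurePreserving S.μ).prod (MeasurePreserving.id (gam d))
  rw [← h3 V] at e2
  have e3 := ((mG.measurePreserving _).comp e2).map_eq.trans
    ((mG.measurePreserving _).comp e1).map_eq.symm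
  have k := ((hZ V).2.smul ((t + 3 / 2) / t)).mono (e' := 1 / (10 ^ 6 * d)) (by
    rw [abs_of_nonneg (by positivity)]
    refine le_trans (mul_le_mul_of_nonneg_right ?_ (hZ V).2.2.1) he
    rw [div_le_iff₀ (by linarith)]; linarith)
  have mκ := c.hκ V
  have := final_tv V hd (c.P V) hb (O := fun ω => ((t + 3 / 2) / t) • f (c.κ V ω))
    (by fun_prop) (hZ V).1 (k.congr (g := fun ω => ((t + 3 / 2) / t) • f (c.κ V ω) -
      (√t)⁻¹ • Z V ω) fun ω => by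
      rw [smul_sub, smul_smul]
      congr 2
      conv_lhs => enter [1, 2]; rw [← Real.mul_self_sqrt (by linarith : 0 ≤ t)]
      field_simp).2.2 hB
  exact e3 ▸ this

lemma kap1 {t x y : ℝ} (t4 : 400 ≤ t) (hy : 0 ≤ y) (hyx : y ≤ x) (hx : x ≤ 1 / 100) :
    t * ((t + 3 / 2) * (1 + x)) / ((t + (t + 3 / 2) * x) * (t + 3 / 2)) *
      (1 + 5 / 4 * x / (t + 3 / 2)) ≤ 1 - y / t / 20 := by
  have x0 : 0 ≤ x := hy.trans hyx
  have h1 : t * ((t + 3 / 2) * (1 + x)) / ((t + (t + 3 / 2) * x) * (t + 3 / 2)) ≤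
      1 - 7 / 5 * x / (t + 3 / 2) := by
    have e : 1 - 7 / 5 * x / (t + 3 / 2) = (t + 3 / 2 - 7 / 5 * x) / (t + 3 / 2) := by field_simp
    rw [e, div_le_div_iff₀ (by positivity) (by positivity)]
    have : t * (1 + x) * (t + 3 / 2) ≤ (t + 3 / 2 - 7 / 5 * x) * (t + (t + 3 / 2) * x) := by
      nlinarith [mul_nonneg x0 (by linarith : 0 ≤ t), mul_nonneg x0 x0,
        mul_le_mul_of_nonneg_left hx (mul_nonneg x0 (by linarith : 0 ≤ t))]
    nlinarith [mul_le_mul_of_nonneg_right this (by linarith : 0 ≤ t + 3 / 2)]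
  have h2 : y / t / 20 ≤ 1 / 10 * (x / (t + 3 / 2)) := by
    rw [div_div, ← mul_div_assoc, div_le_div_iff₀ (by positivity) (by positivity)]
    nlinarith [mul_le_mul_of_nonneg_right hyx (by linarith : 0 ≤ t)]
  have h3 : 0 ≤ x / (t + 3 / 2) := by positivity
  rw [mul_div_assoc (5 / 4 : ℝ)]
  rw [mul_div_assoc (7 / 5 : ℝ)] at h1
  refine (mul_le_mul_of_nonneg_right h1 (by positivity)).trans ?_
  nlinarith [mul_nonneg h3 h3]

lemma kap2 {t x y : ℝ} (t4 : 400 ≤ t) (x0 : 0 ≤ x) (hx : x ≤ 1 / 100) (hy : 1 / t ≤ y) :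
    (t + (t + 3 / 2) * x / 2) * ((t + 3 / 2) * (1 + x)) /
      ((t + (t + 3 / 2) * x) * (t + (t + 3 / 2) * x / 2 + 3 / 2)) *
      (1 + 5 / 4 * x / (t + 3 / 2)) ≤ 1 + y := by
  have h0 : 0 ≤ (t + 3 / 2) * x := by positivity
  have h1 : (t + (t + 3 / 2) * x / 2) * ((t + 3 / 2) * (1 + x)) /
      ((t + (t + 3 / 2) * x) * (t + (t + 3 / 2) * x / 2 + 3 / 2)) ≤ 1 := by
    rw [div_le_one (by positivity)]; nlinarith
  have h2 : 5 / 4 * x / (t + 3 / 2) ≤ 1 / t := by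
    rw [div_le_div_iff₀ (by positivity) (by positivity)]; nlinarith
  refine (mul_le_of_le_one_left (by positivity) h1).trans (by linarith)

namespace Par
variable {p : Par}

lemma S_sq (p : Par) : p.h ^ 2 ≤ (p.h * p.q) ^ 2 ∧ (p.h * p.q) ^ 2 ≤ 1 / 100 := by
  have h0 := p.h0
  have h1 : p.h ≤ p.h * p.q := le_mul_of_one_le_right h0.le p.q1
  have h2 := p.qh_le
  constructor <;> nlinarith

lemma phase1 (hT : 4 + 10 * ((p.J + 1) * p.I) ≤ p.T) {N₀ : ℕ}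
    (hN : N₀ * (16 * p.pw (p.m * p.I - 2)) ≤ 1) : ∀ n ≤ N₀, TL d (p.pw (-p.P))
      ((1 - p.pw (p.P + 2) / 20) ^ n * (7 * √d) + n * (16 * √d * p.pw (p.m * p.I - 2)))
      (n * p.pw (-(8 + p.cb * p.I))) := by
  have t4 := p.big le_rfl
  have k0 : 0 ≤ 1 - p.pw (p.P + 2) / 20 := by linarith [p.pw_le_one (a := p.P + 2) (by omega)]
  have k1 : 1 - p.pw (p.P + 2) / 20 ≤ 1 := by linarith [p.pw_pos (p.P + 2)]
  have e0 := p.pw_pos (p.m * p.I - 2)
  have d0 := Real.sqrt_nonneg (d : ℝ)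
  intro n hn
  induction n with
  | zero => simpa using TL_init (by linarith)
  | succ n ih =>
    have hn' : (n : ℝ) ≤ N₀ := by exact_mod_cast (by omega : n ≤ N₀)
    have k2 : (n : ℝ) * (16 * p.pw (p.m * p.I - 2)) ≤ 1 :=
      (mul_le_mul_of_nonneg_right hn' (by positivity)).trans hN
    have k3 := pow_le_one₀ (n := n) k0 k1
    have e : p.pw (p.P + 2) = p.h ^ 2 / p.pw (-p.P) := by
      rw [p.pw_add, pw, pw, pw, zpow_neg, div_inv_eq_mul, mul_comm]; rfl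
    refine (top_step hT (ih (by omega)) le_rfl (by nlinarith) le_rfl
      (le_add_of_nonneg_right (by positivity)) (κ := 1 - p.pw (p.P + 2) / 20)
      (e ▸ kap1 t4 (sq_nonneg _) p.S_sq.1 p.S_sq.2)).mono ?_ (le_of_eq (by push_cast; ring))
    have := mul_le_mul_of_nonneg_right k1
      (show 0 ≤ n * (16 * √d * p.pw (p.m * p.I - 2)) by positivity)
    rw [pow_succ]; push_cast; nlinarith

lemma phase2 (hT : 4 + 10 * ((p.J + 1) * p.I) ≤ p.T) {e Q : ℝ} (h : TL d (p.pw (-p.P)) e Q)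
    (e0 : 0 ≤ e) (he : 2 * (e + p.N * (16 * √d * p.pw (p.m * p.I - 2))) ≤ 9 * √d) :
    ∀ n ≤ p.N, ∃ t, (1 + p.h ^ 2 / 2) ^ n * p.pw (-p.P) ≤ t ∧ TL d t
      ((1 + p.h ^ 4) ^ n * (e + n * (16 * √d * p.pw (p.m * p.I - 2))))
      (Q + n * p.pw (-(8 + p.cb * p.I))) := by
  have e1 := p.pw_pos (p.m * p.I - 2)
  have h0 := p.h0
  have b0 := p.pw_pos (-p.P)
  intro n hn
  induction n with
  | zero => exact ⟨p.pw (-p.P), by simp, by simpa using h⟩
  | succ n ih =>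
    obtain ⟨t, ht, H⟩ := ih (by omega)
    have hn' : (n : ℝ) ≤ p.N := by exact_mod_cast (by omega : n ≤ p.N)
    have ht' : p.pw (-p.P) ≤ t := (le_mul_of_one_le_left b0.le (one_le_pow₀ (by nlinarith))).trans ht
    have t4 := p.big ht'
    have g1 : (1 + p.h ^ 4) ^ n ≤ 2 :=
      (pow_le_pow_right₀ (by nlinarith [pow_pos h0 4]) (by omega)).trans p.grow_le
    have g0 : 1 ≤ (1 + p.h ^ 4) ^ (n + 1) := one_le_pow₀ (by nlinarith [pow_pos h0 4])
    have x := p.S_sq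
    refine ⟨t + (t + 3 / 2) * (p.h * p.q) ^ 2 / 2, ?_, (top_step hT H ht' ?_
      (le_add_of_nonneg_right (by positivity)) le_rfl (κ := 1 + p.h ^ 4)
      (kap2 t4 (sq_nonneg _) x.2 ?_)).mono ?_ (le_of_eq (by push_cast; ring))⟩
    · rw [pow_succ, mul_right_comm]
      refine (mul_le_mul_of_nonneg_right ht (by positivity)).trans ?_
      nlinarith [mul_le_mul_of_nonneg_left x.1 (by linarith : 0 ≤ t), sq_nonneg (p.h * p.q)]
    · refine le_trans ?_ he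
      gcongr
    · rw [div_le_iff₀ (by linarith), p.pw_nat]
      refine le_trans ?_ (mul_le_mul_of_nonneg_left ht' (p.pw_pos _).le)
      rw [← p.pw_add]
      exact p.one_le_pw (by have := p.hP2; push_cast; omega)
    · have := mul_le_mul_of_nonneg_right g0
        (show 0 ≤ 16 * √d * p.pw (p.m * p.I - 2) by positivity)
      rw [pow_succ (1 + p.h ^ 4)] at this ⊢
      push_cast; nlinarith

theorem top (p : Par) {N₀ : ℕ} (hd : 1 ≤ d)
    (c1 : (d : ℝ) ^ 2 * p.pw (p.m * p.I) ≤ p.pw (p.P + 10)) (c2 : (N₀ : ℝ) ≤ p.pw (-(p.P + 4)))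
    (c3 : (1 - p.pw (p.P + 2) / 20) ^ N₀ ≤ p.pw (p.m * p.I))
    (hT : 4 + 10 * ((p.J + 1) * p.I) ≤ p.T) :
    ∃ q : ℕ, (q : ℝ) ≤ p.pw (-(p.P + 13 + p.cb * p.I)) ∧ Solves d q := by
  have d1 : (1 : ℝ) ≤ d := by exact_mod_cast hd
  have d2 : √(d : ℝ) ≤ d := Real.sqrt_le_iff.2 ⟨by linarith, by nlinarith⟩
  have d3 : 1 ≤ √(d : ℝ) := Real.one_le_sqrt.2 d1
  have h0 := p.h0
  have hP := p.hP2
  have m0 := p.pw_pos (p.m * p.I)
  have e1 := p.pw_pos (p.m * p.I - 2)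
  have N1 : (p.N : ℝ) ≤ p.pw (-(p.P + 4)) := p.N_le.trans (p.pw_le (by omega))
  have h4 : p.pw 4 ≤ 1 / 400 ^ 4 := by
    have := pow_le_pow_left₀ h0.le p.h_le 4
    rw [p.pw_nat, div_pow, one_pow] at this
    exact this
  have a1 : (d : ℝ) ^ 2 * (p.pw (-(p.P + 4)) * p.pw (p.m * p.I - 2)) ≤ 1 / 400 ^ 4 := by
    rw [← p.pw_add, show -((p.P : ℤ) + 4) + (p.m * p.I - 2) = p.m * p.I + -(p.P + 6) by ring,
      p.pw_add, ← mul_assoc]
    refine (mul_le_mul_of_nonneg_right c1 (p.pw_pos _).le).trans ?_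
    rw [← p.pw_add]
    exact (p.pw_le (by omega)).trans h4
  have a2 : (d : ℝ) ^ 2 * p.pw (p.m * p.I) ≤ 1 / 400 ^ 4 :=
    c1.trans ((p.pw_le (by omega)).trans h4)
  set x := p.pw (-(p.P + 4)) * p.pw (p.m * p.I - 2) with hx
  have x0 : 0 ≤ x := mul_nonneg (p.pw_pos _).le e1.le
  have b1 : N₀ * p.pw (p.m * p.I - 2) ≤ x := mul_le_mul_of_nonneg_right c2 e1.le
  have b2 : p.N * p.pw (p.m * p.I - 2) ≤ x := mul_le_mul_of_nonneg_right N1 e1.le
  have dd : (1 : ℝ) ≤ d ^ 2 := one_le_pow₀ d1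
  have b3 : x ≤ 1 / 400 ^ 4 := (le_mul_of_one_le_left x0 dd).trans a1
  have b4 : p.pw (p.m * p.I) ≤ 1 / 400 ^ 4 := (le_mul_of_one_le_left m0.le dd).trans a2
  have H1 := (phase1 (d := d) hT (N₀ := N₀) (by linarith) N₀ le_rfl).mono
    (e' := √d * (7 * p.pw (p.m * p.I) + 16 * x)) (by
      nlinarith [mul_le_mul_of_nonneg_right c3 (by linarith : 0 ≤ √(d : ℝ)),
        mul_le_mul_of_nonneg_right b1 (by linarith : 0 ≤ √(d : ℝ))])
    (mul_le_mul_of_nonneg_right c2 (p.pw_pos _).le)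
  have b5 : √d * (7 * p.pw (p.m * p.I) + 16 * x) + p.N * (16 * √d * p.pw (p.m * p.I - 2)) ≤
      √d * (7 * p.pw (p.m * p.I) + 32 * x) := by
    nlinarith [mul_le_mul_of_nonneg_right b2 (by linarith : 0 ≤ √(d : ℝ))]
  obtain ⟨t, ht, H2⟩ := phase2 hT H1 (by positivity) (by nlinarith) p.N le_rfl
  obtain ⟨q, hq, hS⟩ := H2.solves hd (by
    have k1 : √(1 + p.h ^ 2) ≤ 1 + p.h ^ 2 / 2 :=
      Real.sqrt_le_iff.2 ⟨by positivity, by nlinarith [sq_nonneg (p.h ^ 2)]⟩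
    have k2 := p.hρ
    rw [inv_pow, inv_le_iff_one_le_mul₀ (by positivity), p.pw_nat] at k2
    have k3 := pow_le_pow_left₀ (Real.sqrt_nonneg _) k1 p.N
    have k4 := p.one_le_pw (a := -p.P) (by omega)
    have k5 : √(1 + p.h ^ 2) ^ p.N ≤ t :=
      k3.trans ((le_mul_of_one_le_right (by positivity) k4).trans ht)
    push_cast at k2
    have k6 : 32 ≤ p.pw (p.m * p.I) * t := by nlinarith
    by_contra hh
    push Not at hh
    nlinarith [mul_lt_mul_of_pos_left hh m0]) (by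
    have g := p.grow_le
    have k1 : (1 + p.h ^ 4) ^ p.N * (√d * (7 * p.pw (p.m * p.I) + 16 * x) +
        p.N * (16 * √d * p.pw (p.m * p.I - 2))) ≤ 2 * (d * (7 * p.pw (p.m * p.I) + 32 * x)) :=
      mul_le_mul g (b5.trans (by gcongr)) (by positivity) (by norm_num)
    rw [le_div_iff₀ (by positivity)]
    nlinarith [mul_le_mul_of_nonneg_right k1 (by positivity : (0 : ℝ) ≤ 2 * (10 ^ 6 * d))])
  refine ⟨q, hq.trans ?_, hS⟩
  have k1 := mul_le_mul_of_nonneg_right N1 (p.pw_pos (-(8 + p.cb * p.I))).le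
  have k2 := p.absorb' (x := 2) (by norm_num) (a := -(p.P + 4) + -(8 + p.cb * p.I))
    (b := -(p.P + 13 + p.cb * p.I)) (by omega)
  rw [p.pw_add] at k2
  linarith

end Par

theorem main (η : ℝ) (hη : 0 < η) :
    ∃ d₀ : ℕ, ∀ d ≥ d₀, ∃ q : ℕ, (q : ℝ) ≤ (d : ℝ) ^ η ∧ Solves d q := by
  obtain ⟨d₀, h⟩ := exists_par nodes_exist η hη
  refine ⟨d₀, fun d hd => ?_⟩
  obtain ⟨p, N₀, h1, h2, h3, h4, h5, h6⟩ := h d hd
  obtain ⟨q, hq, hS⟩ := p.top h1 h2 h3 h4 h5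
  exact ⟨q, hq.trans h6, hS⟩

end Vale.Agent.P347
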